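import Crest.Agent.R230.Defs

/-!
Row 230 (Petty).  The uniform measure `sg n` on the sphere: invariance, polar coordinates.
Tools: `R322.sph_ae_norm`, `R322.sph_preimage`, `R322.sph_apply`,
`Measure.measurePreserving_homeomorphUnitSphereProd`, `Measure.toSphere_apply_univ`
(compare `Crest.Agent.R77.Polar.lintegral_polar`).
-/

set_option autoImplicit false

noncomputable section

namespace Crest.Agent.R230

open MeasureTheory Metric Set MvPolynomial Filter Topology
open scoped ENNReal InnerProductSpace Pointwise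

variable {n : ℕ}

theorem ae_norm : ∀ᵐ u ∂sg n, ‖u‖ = 1 := by
  exact R322.sph_ae_norm

theorem om_pos : 0 < om n := by
  exact ENNReal.toReal_pos (measure_ball_pos _ _ one_pos).ne' measure_ball_lt_top.ne

theorem C0_pos [NeZero n] : 0 < C0 n := by
  have h : (0 : ℝ) < n := Nat.cast_pos.2 (NeZero.pos n)
  have h1 := om_pos (n := n)
  have h2 := om_pos (n := n - 1)
  unfold C0
  positivity

theorem measurable_rsign : Measurable Real.sign := by
  unfold Real.sign
  exact Measurable.ite measurableSet_Iio measurable_const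
    (Measurable.ite measurableSet_Ioi measurable_const measurable_const)

theorem mp_isom [NeZero n] (f : E n ≃ₗᵢ[ℝ] E n) : MeasurePreserving f (sg n) (sg n) := by
  refine ⟨f.continuous.measurable, Measure.ext fun A hA => ?_⟩
  rw [Measure.map_apply f.continuous.measurable hA]
  exact R322.sph_preimage f hA

theorem mp_neg [NeZero n] : MeasurePreserving (fun u : E n => -u) (sg n) (sg n) := by
  exact mp_isom (LinearIsometryEquiv.neg ℝ)

theorem int_neg [NeZero n] (f : E n → ℝ) : ∫ u, f (-u) ∂sg n = ∫ u, f u ∂sg n := by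
  exact mp_neg.integral_comp (Homeomorph.neg (E n)).measurableEmbedding f

theorem int_odd [NeZero n] {f : E n → ℝ} (h : ∀ u, f (-u) = -f u) : ∫ u, f u ∂sg n = 0 := by
  have h1 := int_neg f
  simp only [h, integral_neg] at h1
  linarith

/-- bounded on the sphere -/
theorem memLp_of_bdd [NeZero n] {F : Type*} [NormedAddCommGroup F] {f : E n → F}
    (hm : AEStronglyMeasurable f (sg n)) (C : ℝ) (hb : ∀ u, ‖u‖ = 1 → ‖f u‖ ≤ C) (p : ℝ≥0∞) :
    MemLp f p (sg n) := by
  exact MemLp.of_bound hm C (ae_norm.mono hb)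

/-- `sg n = (sg n).restrict (sphere 0 1)`, `ContinuousOn.aestronglyMeasurable`, compactness -/
theorem memLp_of_contOn [NeZero n] {F : Type*} [NormedAddCommGroup F] {f : E n → F}
    (hf : ContinuousOn f (sphere 0 1)) (p : ℝ≥0∞) : MemLp f p (sg n) := by
  obtain ⟨C, hC⟩ := (isCompact_sphere (0 : E n) 1).exists_bound_of_continuousOn hf
  refine memLp_of_bdd ?_ C (fun u hu => hC u (mem_sphere_zero_iff_norm.2 hu)) p
  have h1 : (sg n).restrict (sphere 0 1) = sg n :=
    Measure.restrict_eq_self_of_ae_mem (ae_norm.mono fun u hu => mem_sphere_zero_iff_norm.2 hu)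
  rw [← h1]
  exact hf.aestronglyMeasurable isClosed_sphere.measurableSet

theorem memLp_of_cont [NeZero n] {F : Type*} [NormedAddCommGroup F] {f : E n → F}
    (hf : Continuous f) (p : ℝ≥0∞) : MemLp f p (sg n) := by
  exact memLp_of_contOn hf.continuousOn p

theorem integrable_of_contOn [NeZero n] {F : Type*} [NormedAddCommGroup F] {f : E n → F}
    (hf : ContinuousOn f (sphere 0 1)) : Integrable f (sg n) := by
  exact memLp_one_iff_integrable.1 (memLp_of_contOn hf 1)

theorem integrable_of_cont [NeZero n] {F : Type*} [NormedAddCommGroup F] {f : E n → F}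
    (hf : Continuous f) : Integrable f (sg n) := by
  exact integrable_of_contOn hf.continuousOn

theorem sph_map_toSphere [NeZero n] :
    ((volume : Measure (E n)).toSphere).map Subtype.val = ENNReal.ofReal (n * om n) • sg n := by
  have h1 : (volume : Measure (E n)).toSphere univ = ENNReal.ofReal (n * om n) := by
    rw [Measure.toSphere_apply_univ, finrank_euclideanSpace_fin,
      ENNReal.ofReal_mul (Nat.cast_nonneg _), ENNReal.ofReal_natCast, om,
      ofReal_measureReal measure_ball_lt_top.ne]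
  have h2 : ENNReal.ofReal (n * om n) ≠ 0 := by
    have h : (0 : ℝ) < n := Nat.cast_pos.2 (NeZero.pos n)
    exact (ENNReal.ofReal_pos.2 (mul_pos h om_pos)).ne'
  rw [sg, R322.sph, R322.sphU, Measure.map_smul, h1, smul_smul,
    ENNReal.mul_inv_cancel h2 ENNReal.ofReal_ne_top, one_smul]

theorem sph_polar_inv (x : ({0}ᶜ : Set (E n))) :
    (homeomorphUnitSphereProd _ x).2.1 • ((homeomorphUnitSphereProd _ x).1 : E n) = x := by
  rw [← homeomorphUnitSphereProd_symm_apply_coe, Homeomorph.symm_apply_apply]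

theorem lintegral_polar [NeZero n] {F : E n → ℝ≥0∞} (hF : Measurable F) :
    ∫⁻ x, F x = ENNReal.ofReal (n * om n) *
      ∫⁻ r in Ioi (0 : ℝ), ENNReal.ofReal (r ^ (n - 1)) * ∫⁻ u, F (r • u) ∂sg n := by
  have hm1 : Measurable fun p : sphere (0 : E n) 1 × Ioi (0 : ℝ) => F (p.2.1 • (p.1 : E n)) :=
    hF.comp (by fun_prop)
  have h1 := (Measure.measurePreserving_homeomorphUnitSphereProd
    (volume : Measure (E n))).lintegral_comp hm1
  simp only [sph_polar_inv] at h1
  rw [lintegral_subtype_comap (measurableSet_singleton _).compl, restrict_compl_singleton] at h1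
  rw [h1, lintegral_prod_symm _ hm1.aemeasurable]
  have h2 : ∀ r : ℝ, ∫⁻ ω : sphere (0 : E n) 1, F (r • (ω : E n)) ∂(volume : Measure (E n)).toSphere
      = ENNReal.ofReal (n * om n) * ∫⁻ u, F (r • u) ∂sg n := by
    intro r
    rw [← (MeasurableEmbedding.subtype_coe isClosed_sphere.measurableSet).lintegral_map
      (fun u : E n => F (r • u)), sph_map_toSphere, lintegral_smul_measure, smul_eq_mul]
  simp only [h2]
  have hm2 : Measurable fun r : ℝ => ∫⁻ u, F (r • u) ∂sg n :=
    Measurable.lintegral_prod_right' (f := fun p : ℝ × E n => F (p.1 • p.2)) (hF.comp (by fun_prop))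
  have hm3 : Measurable fun r : Ioi (0 : ℝ) => ∫⁻ u, F (r.1 • u) ∂sg n :=
    hm2.comp measurable_subtype_coe
  rw [lintegral_const_mul' _ _ ENNReal.ofReal_ne_top, Measure.volumeIoiPow,
    lintegral_withDensity_eq_lintegral_mul _ (by fun_prop) hm3]
  simp only [Pi.mul_apply, finrank_euclideanSpace_fin]
  rw [lintegral_subtype_comap measurableSet_Ioi
    (fun r : ℝ => ENNReal.ofReal (r ^ (n - 1)) * ∫⁻ u, F (r • u) ∂sg n)]

theorem integral_polar [NeZero n] {F : E n → ℝ} (hF : Integrable F) :
    ∫ x, F x = n * om n * ∫ r in Ioi (0 : ℝ), r ^ (n - 1) * ∫ u, F (r • u) ∂sg n := by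
  have hmp := Measure.measurePreserving_homeomorphUnitSphereProd (volume : Measure (E n))
  have hemb := (homeomorphUnitSphereProd (E n)).measurableEmbedding
  let G : sphere (0 : E n) 1 × Ioi (0 : ℝ) → ℝ := fun p => F (p.2.1 • (p.1 : E n))
  have hG : Integrable G (((volume : Measure (E n)).toSphere).prod
      (Measure.volumeIoiPow (Module.finrank ℝ (E n) - 1))) := by
    rw [← hmp.integrable_comp_emb hemb]
    have : G ∘ homeomorphUnitSphereProd (E n) = F ∘ Subtype.val := by
      funext x
      simp only [G, Function.comp_apply, sph_polar_inv]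
    rw [this, ← integrableOn_iff_comap_subtypeVal (measurableSet_singleton _).compl]
    exact hF.integrableOn
  have h1 := hmp.integral_comp hemb G
  simp only [G, sph_polar_inv] at h1
  rw [integral_subtype_comap (measurableSet_singleton _).compl, restrict_compl_singleton] at h1
  rw [h1, integral_prod_symm _ hG]
  have h0 : 0 ≤ (n : ℝ) * om n := mul_nonneg (Nat.cast_nonneg _) om_pos.le
  have h2 : ∀ r : ℝ, ∫ ω : sphere (0 : E n) 1, F (r • (ω : E n)) ∂(volume : Measure (E n)).toSphere
      = n * om n * ∫ u, F (r • u) ∂sg n := by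
    intro r
    rw [← (MeasurableEmbedding.subtype_coe isClosed_sphere.measurableSet).integral_map
      (fun u : E n => F (r • u)), sph_map_toSphere, integral_smul_measure, smul_eq_mul,
      ENNReal.toReal_ofReal h0]
  simp only [G, h2]
  rw [integral_const_mul, Measure.volumeIoiPow,
    integral_withDensity_eq_integral_toReal_smul (by fun_prop) (by simp),
    integral_subtype_comap measurableSet_Ioi (fun r : ℝ =>
      (ENNReal.ofReal (r ^ (Module.finrank ℝ (E n) - 1))).toReal • ∫ u, F (r • u) ∂sg n)]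
  congr 1
  refine setIntegral_congr_fun measurableSet_Ioi fun r hr => ?_
  have hr' : 0 < r := hr
  simp only [finrank_euclideanSpace_fin, smul_eq_mul]
  rw [ENNReal.toReal_ofReal (by positivity)]

/-- take a measurable null superset `Z` of `{¬ p}`; by `lintegral_polar` some `r > 0` has
`sg n {u | r • u ∈ Z} = 0` -/
theorem ae_sph_of_ae [NeZero n] {p : E n → Prop} (hp : ∀ᵐ x, p x)
    (hom : ∀ (r : ℝ) (x : E n), 0 < r → p (r • x) → p x) : ∀ᵐ u ∂sg n, p u := by
  obtain ⟨Z, hZ1, hZ2, hZ3⟩ := exists_measurable_superset_of_null (ae_iff.1 hp)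
  have hm : Measurable (Z.indicator (1 : E n → ℝ≥0∞)) := measurable_one.indicator hZ2
  have h1 := lintegral_polar hm
  rw [lintegral_indicator_one hZ2, hZ3] at h1
  have hc : ENNReal.ofReal (n * om n) ≠ 0 := by
    have h : (0 : ℝ) < n := Nat.cast_pos.2 (NeZero.pos n)
    exact (ENNReal.ofReal_pos.2 (mul_pos h om_pos)).ne'
  have hm2 : Measurable fun r : ℝ => ∫⁻ u, Z.indicator (1 : E n → ℝ≥0∞) (r • u) ∂sg n :=
    Measurable.lintegral_prod_right' (f := fun p : ℝ × E n => Z.indicator 1 (p.1 • p.2))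
      (hm.comp (by fun_prop))
  have h2 := (mul_eq_zero.1 h1.symm).resolve_left hc
  have hm3 : Measurable fun r : ℝ => ENNReal.ofReal (r ^ (n - 1)) *
      ∫⁻ u, Z.indicator (1 : E n → ℝ≥0∞) (r • u) ∂sg n := Measurable.mul (by fun_prop) hm2
  rw [lintegral_eq_zero_iff hm3] at h2
  have hne : (ae ((volume : Measure ℝ).restrict (Ioi 0))).NeBot := by
    rw [ae_neBot, Ne, Measure.restrict_eq_zero, Real.volume_Ioi]
    exact ENNReal.top_ne_zero
  obtain ⟨r, hr1, hr2⟩ := (h2.and (ae_restrict_mem measurableSet_Ioi)).exists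
  have hr : 0 < r := hr2
  have h3 := (mul_eq_zero.1 hr1).resolve_left (ENNReal.ofReal_pos.2 (by positivity)).ne'
  have hm4 : Measurable fun u : E n => Z.indicator (1 : E n → ℝ≥0∞) (r • u) :=
    hm.comp (by fun_prop)
  rw [lintegral_eq_zero_iff hm4] at h3
  filter_upwards [h3] with u hu
  refine hom r u hr (by_contra fun hn => ?_)
  have : r • u ∈ Z := hZ1 hn
  simp [this] at hu

/-- take a measurable `sg`-null superset `Z` of `{¬ p}` and apply `lintegral_polar` to the
indicator of `{x | ‖x‖⁻¹ • x ∈ Z}` -/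
theorem ae_of_ae_sph [NeZero n] {p : E n → Prop} (hp : ∀ᵐ u ∂sg n, p u) :
    ∀ᵐ x : E n, p (‖x‖⁻¹ • x) := by
  obtain ⟨Z, hZ1, hZ2, hZ3⟩ := exists_measurable_superset_of_null (ae_iff.1 hp)
  have hmf : Measurable fun x : E n => ‖x‖⁻¹ • x := by fun_prop
  have hZ' : MeasurableSet ((fun x : E n => ‖x‖⁻¹ • x) ⁻¹' Z) := hmf hZ2
  have h1 := lintegral_polar (measurable_one.indicator hZ' (β := ℝ≥0∞))
  rw [lintegral_indicator_one hZ', setLIntegral_congr_fun measurableSet_Ioi (g := fun _ => 0),
    lintegral_zero, mul_zero] at h1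
  · exact measure_mono_null (fun x hx => hZ1 (a := ‖x‖⁻¹ • x) hx) h1
  · intro r hr
    have hr' : 0 < r := hr
    have h2 : ∫⁻ u, ((fun x : E n => ‖x‖⁻¹ • x) ⁻¹' Z).indicator (1 : E n → ℝ≥0∞) (r • u) ∂sg n =
        ∫⁻ u, Z.indicator 1 u ∂sg n := by
      refine lintegral_congr_ae (ae_norm.mono fun u hu => ?_)
      have h3 : ‖r • u‖⁻¹ • r • u = u := by
        rw [norm_smul, hu, mul_one, Real.norm_eq_abs, abs_of_pos hr', smul_smul,
          inv_mul_cancel₀ hr'.ne', one_smul]
      have h4 : r • u ∈ (fun x : E n => ‖x‖⁻¹ • x) ⁻¹' Z ↔ u ∈ Z := by rw [mem_preimage, h3]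
      by_cases hz : u ∈ Z
      · simp only [indicator_of_mem hz, indicator_of_mem (h4.2 hz), Pi.one_apply]
      · simp only [indicator_of_notMem hz, indicator_of_notMem (mt h4.1 hz)]
    simp only [h2, lintegral_indicator_one hZ2, hZ3, mul_zero]

/-- `sg n` has full support in the sphere (`ae_of_ae_sph` + `Measure.eqOn_open_of_ae_eq` on `{0}ᶜ`) -/
theorem eq_of_ae_sph [NeZero n] {f g : E n → ℝ} (hf : Continuous f) (hg : Continuous g)
    (h : ∀ᵐ u ∂sg n, f u = g u) (u : E n) (hu : ‖u‖ = 1) : f u = g u := by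
  have h1 := ae_of_ae_sph h
  have hc : ContinuousOn (fun x : E n => ‖x‖⁻¹ • x) {0}ᶜ :=
    (continuous_norm.continuousOn.inv₀ fun x hx => norm_ne_zero_iff.2 hx).smul continuousOn_id
  have h2 := Measure.eqOn_open_of_ae_eq (μ := (volume : Measure (E n)))
    (f := fun x : E n => f (‖x‖⁻¹ • x)) (g := fun x : E n => g (‖x‖⁻¹ • x)) (U := {0}ᶜ)
    (ae_restrict_of_ae h1) isOpen_compl_singleton (hf.comp_continuousOn hc)
    (hg.comp_continuousOn hc)
  have hu0 : u ∈ ({0}ᶜ : Set (E n)) := by
    intro h0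
    rw [mem_singleton_iff.1 h0, norm_zero] at hu
    exact zero_ne_one hu
  simpa [hu] using h2 hu0

end Crest.Agent.R230
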