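import Crest.Agent.R230.Defs

/-!
Row 230 (Petty).  Equality in the one-dimensional Prekopa-Leindler inequality.
`F x = ∫_α^x f`, `G y = ∫_γ^y g` are strictly increasing bijections onto `(0, V)` with derivatives
`f, g`; `T = G⁻¹ ∘ F` has `T' = f / g ∘ T` (`HasDerivAt.of_local_left_inverse` or
`HasStrictDerivAt.localInverse`).  `m x = (x + T x)/2` is injective with `m' = (1 + T')/2`, so
(`lintegral_image_eq_lintegral_abs_deriv_mul`) `V ≥ ∫ h ≥ ∫ √(p q) (1 + p/q)/2` with `p = f x`,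
`q = g (T x)`; the integrand minus `p` is continuous, `≥ 0`, and vanishes iff `p = q`.  Hence
`T' = 1`, `T x = x + c`.
-/

set_option autoImplicit false

noncomputable section

namespace Crest.Agent.R230

open MeasureTheory Metric Set MvPolynomial Filter Topology
open scoped ENNReal InnerProductSpace Pointwise

variable {n : ℕ}

theorem PL1_prim {f : ℝ → ℝ} {α β V : ℝ} (hαβ : α < β) (hf : ContinuousOn f (Ioo α β))
    (hf0 : ∀ x ∈ Ioo α β, 0 < f x) (hfi : IntegrableOn f (Ioo α β))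
    (hfV : ∫ x in Ioo α β, f x = V) :
    ∃ F : ℝ → ℝ, BijOn F (Ioo α β) (Ioo 0 V) ∧ StrictMonoOn F (Ioo α β) ∧
      ∀ x ∈ Ioo α β, HasDerivAt F (f x) x := by
  have hi : IntervalIntegrable f volume α β :=
    (intervalIntegrable_iff_integrableOn_Ioo_of_le hαβ.le).2 hfi
  have hc : ContinuousOn (fun x => ∫ t in α..x, f t) (Icc α β) := by
    have := intervalIntegral.continuousOn_primitive_interval' hi left_mem_uIcc
    rwa [uIcc_of_le hαβ.le] at this
  have hd : ∀ x ∈ Ioo α β, HasDerivAt (fun x => ∫ t in α..x, f t) (f x) x := fun x hx =>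
    intervalIntegral.integral_hasDerivAt_right
      (hi.mono_set (by
        rw [uIcc_of_le hαβ.le, uIcc_of_le hx.1.le]
        exact Icc_subset_Icc le_rfl hx.2.le))
      (hf.stronglyMeasurableAtFilter isOpen_Ioo x hx) (hf.continuousAt (Ioo_mem_nhds hx.1 hx.2))
  have hm : StrictMonoOn (fun x => ∫ t in α..x, f t) (Icc α β) :=
    strictMonoOn_of_deriv_pos (convex_Icc _ _) hc fun x hx => by
      rw [interior_Icc] at hx
      rw [(hd x hx).deriv]
      exact hf0 x hx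
  have h0 : ∫ t in α..α, f t = 0 := intervalIntegral.integral_same
  have h1 : ∫ t in α..β, f t = V := by
    rw [intervalIntegral.integral_of_le hαβ.le, integral_Ioc_eq_integral_Ioo, hfV]
  refine ⟨_, ⟨fun x hx => ⟨?_, ?_⟩, (hm.mono Ioo_subset_Icc_self).injOn, ?_⟩,
    hm.mono Ioo_subset_Icc_self, hd⟩
  · exact h0.symm.trans_lt (hm (left_mem_Icc.2 hαβ.le) (Ioo_subset_Icc_self hx) hx.1)
  · exact (hm (Ioo_subset_Icc_self hx) (right_mem_Icc.2 hαβ.le) hx.2).trans_eq h1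
  · have := intermediate_value_Ioo hαβ.le hc
    simp only [h0, h1] at this
    exact this

theorem exists_transport {f g : ℝ → ℝ} {α β γ δ V : ℝ} (hαβ : α < β) (hγδ : γ < δ)
    (hf : ContinuousOn f (Ioo α β)) (hg : ContinuousOn g (Ioo γ δ))
    (hf0 : ∀ x ∈ Ioo α β, 0 < f x) (hg0 : ∀ y ∈ Ioo γ δ, 0 < g y)
    (hfi : IntegrableOn f (Ioo α β)) (hgi : IntegrableOn g (Ioo γ δ))
    (hfV : ∫ x in Ioo α β, f x = V) (hgV : ∫ y in Ioo γ δ, g y = V) :
    ∃ T : ℝ → ℝ, BijOn T (Ioo α β) (Ioo γ δ) ∧ StrictMonoOn T (Ioo α β) ∧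
      ∀ x ∈ Ioo α β, HasDerivAt T (f x / g (T x)) x := by
  obtain ⟨F, F1, F2, F3⟩ := PL1_prim hαβ hf hf0 hfi hfV
  obtain ⟨G, G1, G2, G3⟩ := PL1_prim hγδ hg hg0 hgi hgV
  have hi := G1.invOn_invFunOn
  have hb : BijOn (Function.invFunOn G (Ioo γ δ)) (Ioo 0 V) (Ioo γ δ) := BijOn.symm hi.symm G1
  have hm : StrictMonoOn (Function.invFunOn G (Ioo γ δ)) (Ioo 0 V) := fun u hu v hv huv => by
    rw [← G2.lt_iff_lt (hb.mapsTo hu) (hb.mapsTo hv), hi.2 hu, hi.2 hv]
    exact huv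
  refine ⟨Function.invFunOn G (Ioo γ δ) ∘ F, hb.comp F1, hm.comp F2 F1.mapsTo, fun x hx => ?_⟩
  have h1 := F1.mapsTo hx
  have h2 := hb.mapsTo h1
  have h3 : HasDerivAt (Function.invFunOn G (Ioo γ δ))
      (g (Function.invFunOn G (Ioo γ δ) (F x)))⁻¹ (F x) := by
    refine HasDerivAt.of_local_left_inverse (hm.continuousAt_of_image_mem_nhds
      (Ioo_mem_nhds h1.1 h1.2) ?_) (G3 _ h2) (hg0 _ h2).ne' ?_
    · rw [hb.image_eq]
      exact Ioo_mem_nhds h2.1 h2.2
    · filter_upwards [Ioo_mem_nhds h1.1 h1.2] with y hy using hi.2 hy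
  refine (h3.comp x (F3 x hx)).congr_deriv ?_
  rw [div_eq_inv_mul]
  rfl

theorem pl_eq {f g : ℝ → ℝ} {h : ℝ → ℝ≥0∞} {α β γ δ V : ℝ} (hαβ : α < β) (hγδ : γ < δ)
    (hf : ContinuousOn f (Ioo α β)) (hg : ContinuousOn g (Ioo γ δ))
    (hf0 : ∀ x ∈ Ioo α β, 0 < f x) (hg0 : ∀ y ∈ Ioo γ δ, 0 < g y)
    (hfi : IntegrableOn f (Ioo α β)) (hgi : IntegrableOn g (Ioo γ δ))
    (hfV : ∫ x in Ioo α β, f x = V) (hgV : ∫ y in Ioo γ δ, g y = V)
    (H : ∀ x ∈ Ioo α β, ∀ y ∈ Ioo γ δ, ENNReal.ofReal (f x * g y) ≤ h ((x + y) / 2) ^ 2)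
    (hV : ∫⁻ t, h t ≤ ENNReal.ofReal V) :
    ∃ c : ℝ, γ = α + c ∧ δ = β + c ∧ ∀ x ∈ Ioo α β, g (x + c) = f x := by
  obtain ⟨T, T1, T2, T3⟩ := exists_transport hαβ hγδ hf hg hf0 hg0 hfi hgi hfV hgV
  have hTc : ContinuousOn T (Ioo α β) := fun x hx => (T3 x hx).continuousAt.continuousWithinAt
  set ψ : ℝ → ℝ := fun x => √(f x) * (√(f x) - √(g (T x))) ^ 2 / (2 * √(g (T x))) with hψ
  have hq : ∀ x ∈ Ioo α β, 0 < √(g (T x)) := fun x hx => Real.sqrt_pos.2 (hg0 _ (T1.mapsTo hx))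
  have hgT : ContinuousOn (fun x => √(g (T x))) (Ioo α β) := (hg.comp hTc T1.mapsTo).sqrt
  have hψc : ContinuousOn ψ (Ioo α β) :=
    (hf.sqrt.mul ((hf.sqrt.sub hgT).pow 2)).div (continuousOn_const.mul hgT)
      fun x hx => (mul_pos two_pos (hq x hx)).ne'
  have hψ0 : ∀ x, 0 ≤ ψ x := fun x => by positivity
  have h1 := lintegral_image_eq_lintegral_abs_deriv_mul (f := fun x => (x + T x) / 2)
    (f' := fun x => (1 + f x / g (T x)) / 2) (s := Ioo α β) measurableSet_Ioo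
    (fun x hx => (((hasDerivAt_id' x).fun_add (T3 x hx)).div_const 2).hasDerivWithinAt)
    (StrictMonoOn.injOn fun x hx y hy hxy => by
      have := T2 hx hy hxy
      linarith) h
  have h2 : (∫⁻ x in Ioo α β, ENNReal.ofReal (f x)) + ∫⁻ x in Ioo α β, ENNReal.ofReal (ψ x) ≤
      ENNReal.ofReal V := by
    refine le_trans ?_ ((h1.symm.le.trans (setLIntegral_le_lintegral _ _)).trans hV)
    refine (le_lintegral_add _ _).trans (setLIntegral_mono' measurableSet_Ioo fun x hx => ?_)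
    have hp := hf0 x hx
    have hq' := hg0 _ (T1.mapsTo hx)
    have k1 : ENNReal.ofReal (√(f x) * √(g (T x))) ≤ h ((x + T x) / 2) := by
      refine le_of_not_gt fun hlt => (ENNReal.pow_lt_pow_left two_ne_zero hlt).not_ge ?_
      rw [← ENNReal.ofReal_pow (by positivity), mul_pow, Real.sq_sqrt hp.le, Real.sq_sqrt hq'.le]
      exact H x hx _ (T1.mapsTo hx)
    refine le_trans (le_of_eq ?_) (mul_le_mul_right k1 _)
    rw [← ENNReal.ofReal_add hp.le (hψ0 x), ← ENNReal.ofReal_mul (abs_nonneg _),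
      abs_of_pos (by positivity)]
    congr 1
    have k2 := hq x hx
    have k3 := Real.sq_sqrt hp.le
    have k4 := Real.sq_sqrt hq'.le
    simp only [hψ]
    generalize √(f x) = a at *
    generalize √(g (T x)) = b at *
    rw [← k3, ← k4]
    field_simp
    ring
  rw [← ofReal_integral_eq_lintegral_ofReal hfi
    ((ae_restrict_mem measurableSet_Ioo).mono fun x hx => (hf0 x hx).le), hfV] at h2
  have h3 : ∫⁻ x in Ioo α β, ENNReal.ofReal (ψ x) = 0 := by
    nth_rewrite 2 [← add_zero (ENNReal.ofReal V)] at h2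
    exact le_zero_iff.1 ((ENNReal.add_le_add_iff_left ENNReal.ofReal_ne_top).1 h2)
  have h4 : EqOn ψ 0 (Ioo α β) := by
    refine Measure.eqOn_open_of_ae_eq (μ := volume) ?_ isOpen_Ioo hψc continuousOn_const
    rw [lintegral_eq_zero_iff' (hψc.aemeasurable measurableSet_Ioo).ennreal_ofReal] at h3
    filter_upwards [h3] with x hx
    exact le_antisymm (ENNReal.ofReal_eq_zero.1 hx) (hψ0 x)
  have h5 : ∀ x ∈ Ioo α β, g (T x) = f x := fun x hx => by
    have k1 := h4 hx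
    have k2 := hq x hx
    have k3 := Real.sqrt_pos.2 (hf0 x hx)
    simp only [hψ, Pi.zero_apply, div_eq_zero_iff, mul_eq_zero, k2.ne', k3.ne', pow_eq_zero_iff,
      ne_eq, OfNat.ofNat_ne_zero, not_false_eq_true, or_self, or_false, false_or, sub_eq_zero] at k1
    exact ((Real.sqrt_inj (hf0 x hx).le (hg0 _ (T1.mapsTo hx)).le).1 k1).symm
  have h6 : ∀ x ∈ Ioo α β, HasDerivAt (fun x => T x - x) 0 x := fun x hx => by
    refine ((T3 x hx).fun_sub (hasDerivAt_id' x)).congr_deriv ?_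
    rw [h5 x hx, div_self (hf0 x hx).ne', sub_self]
  obtain ⟨c, hc⟩ := isOpen_Ioo.exists_is_const_of_deriv_eq_zero isPreconnected_Ioo
    (fun x hx => (h6 x hx).differentiableAt.differentiableWithinAt) fun x hx => (h6 x hx).deriv
  have h7 : ∀ x ∈ Ioo α β, T x = x + c := fun x hx => by
    have := hc x hx
    linarith
  have h8 : Ioo (α + c) (β + c) = Ioo γ δ := by
    rw [← T1.image_eq, ← image_add_const_Ioo]
    exact image_congr fun x hx => (h7 x hx).symm
  have h9 := (Ioo_subset_Ioo_iff (by linarith : α + c < β + c)).1 h8.le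
  have h10 := (Ioo_subset_Ioo_iff hγδ).1 h8.ge
  exact ⟨c, le_antisymm h9.1 h10.1, le_antisymm h10.2 h9.2, fun x hx => by
    rw [← h7 x hx, h5 x hx]⟩

end Crest.Agent.R230
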