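import Crest.Agent.R230.Sec
import Crest.Agent.R230.PL1

/-!
Row 230 (Petty).  Brunn-Minkowski at the midpoint and its equality case.
-/

set_option autoImplicit false

noncomputable section

namespace Crest.Agent.R230

open MeasureTheory Metric Set MvPolynomial Filter Topology
open scoped ENNReal InnerProductSpace Pointwise

variable {n : ℕ}

variable {A B : Set (E n)}

/-- `Lib.PL.prekopa_leindler_half` for indicators -/
theorem bm_half (hA : IsCompact A) (hB : IsCompact B) :
    (volume : Measure (E n)).real A * volume.real B ≤ volume.real ((1 / 2 : ℝ) • (A + B)) ^ 2 := by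
  have hC : IsCompact ((1 / 2 : ℝ) • (A + B)) := (hA.add hB).smul _
  have h := Lib.PL.prekopa_leindler_half n (A.indicator 1) (B.indicator 1)
    (((1 / 2 : ℝ) • (A + B)).indicator 1) (measurable_one.indicator hA.measurableSet)
    (measurable_one.indicator hB.measurableSet) (measurable_one.indicator hC.measurableSet)
    (fun x y => by
      by_cases hx : x ∈ A
      · by_cases hy : y ∈ B
        · rw [indicator_of_mem hx, indicator_of_mem hy,
            indicator_of_mem (smul_mem_smul_set (add_mem_add hx hy))]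
          simp
        · simp [indicator_of_notMem hy]
      · simp [indicator_of_notMem hx])
  rw [lintegral_indicator_one hA.measurableSet, lintegral_indicator_one hB.measurableSet,
    lintegral_indicator_one hC.measurableSet] at h
  simp only [Measure.real]
  rw [← ENNReal.toReal_mul, ← ENNReal.toReal_pow]
  exact ENNReal.toReal_mono (ENNReal.pow_ne_top hC.measure_lt_top.ne) h

/-- `geometric_hahn_banach_closed_point` -/
theorem subset_of_hs_le (hA : IsCompact A) (hB : IsCompact B) (hc : Convex ℝ B) (hne : B.Nonempty)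
    (c : E n) (h : ∀ u : E n, ‖u‖ = 1 → hs A u + ⟪c, u⟫_ℝ ≤ hs B u) :
    (fun x => c + x) '' A ⊆ B := by
  rintro _ ⟨x, hx, rfl⟩
  by_contra hz
  obtain ⟨f, r, h1, h2⟩ := geometric_hahn_banach_closed_point hc hB.isClosed hz
  obtain ⟨w, rfl⟩ := (InnerProductSpace.toDual ℝ (E n)).surjective f
  simp only [InnerProductSpace.toDual_apply_apply] at h1 h2
  have hw : w ≠ 0 := by
    rintro rfl
    obtain ⟨b, hb⟩ := hne
    have := h1 b hb
    simp only [inner_zero_left] at this h2
    linarith
  have hw0 : 0 < ‖w‖⁻¹ := inv_pos.2 (norm_pos_iff.2 hw)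
  obtain ⟨b, hb, hb'⟩ := exists_hs hB hne (‖w‖⁻¹ • w)
  have h3 := h _ (norm_smul_inv_norm (𝕜 := ℝ) hw)
  have h4 := le_hs hA hx (‖w‖⁻¹ • w)
  have h5 : ⟪c + x, ‖w‖⁻¹ • w⟫_ℝ ≤ ⟪b, ‖w‖⁻¹ • w⟫_ℝ := by
    rw [inner_add_left, hb']
    simp only [RCLike.ofReal_real_eq_id, id] at h3
    linarith
  rw [real_inner_smul_right, real_inner_smul_right, real_inner_comm w, real_inner_comm w] at h5
  have h6 := le_of_mul_le_mul_left h5 hw0
  linarith [h1 b hb]

/-- `pl_eq` for the section functions (`h = sec u ((1/2) • (A + B))`, `lintegral_sec` with `φ = 1`);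
the shift `c` is identified by `int_mul_sec` -/
theorem hs_eq (hA : Body A) (hB : Body B)
    (hV : (volume : Measure (E n)).real A = volume.real B)
    (h : (volume : Measure (E n)).real ((1 / 2 : ℝ) • (A + B)) ≤ volume.real A) {u : E n}
    (hu : ‖u‖ = 1) : hs B u = hs A u +
      ⟪((volume : Measure (E n)).real A)⁻¹ • ((∫ x in B, x) - ∫ x in A, x), u⟫_ℝ := by
  have hC : IsCompact ((1 / 2 : ℝ) • (A + B)) := (hA.cpt.add hB.cpt).smul _
  have hV0 : 0 < (volume : Measure (E n)).real A :=
    ENNReal.toReal_pos (Measure.measure_pos_of_nonempty_interior _ hA.int).ne'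
      hA.cpt.measure_lt_top.ne
  obtain ⟨c, h1, h2, h3⟩ := pl_eq (h := sec u ((1 / 2 : ℝ) • (A + B))) (hA.hs_lt hu) (hB.hs_lt hu)
    (hA.continuousOn_sec hu) (hB.continuousOn_sec hu) (fun x hx => hA.sec_pos hu hx)
    (fun x hx => hB.sec_pos hu hx) (integrable_sec hu hA.cpt).integrableOn
    (integrable_sec hu hB.cpt).integrableOn (int_sec hu hA.cpt) ((int_sec hu hB.cpt).trans hV.symm)
    (fun x _ y _ => by
      rw [← ENNReal.toReal_mul, ENNReal.ofReal_toReal
        (ENNReal.mul_ne_top (sec_lt_top hu hA.cpt x).ne (sec_lt_top hu hB.cpt y).ne)]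
      exact sec_mid hu hA.cpt.measurableSet hB.cpt.measurableSet hC.measurableSet
        (fun a ha b hb => smul_mem_smul_set (add_mem_add ha hb)) x y)
    (by
      have e := lintegral_sec hu hC.measurableSet (φ := fun _ => 1) measurable_const
      simp only [one_mul, setLIntegral_one] at e
      rw [← e, ← ENNReal.ofReal_toReal hC.measure_lt_top.ne]
      exact ENNReal.ofReal_le_ofReal h)
  have hI : ∀ {K : Set (E n)}, IsCompact K → ⟪∫ x in K, x, u⟫_ℝ = ∫ x in K, ⟪x, u⟫_ℝ := by
    intro K hK
    rw [real_inner_comm, ← integral_inner (f := fun x : E n => x)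
      (continuousOn_id.integrableOn_compact hK)]
    simp only [real_inner_comm u]
  have hab := (hA.hs_lt hu).le
  have hfi : IntervalIntegrable (fun t => (sec u A t).toReal) volume (-hs A (-u)) (hs A u) :=
    (integrable_sec hu hA.cpt).intervalIntegrable
  have key : ∫ x in B, ⟪x, u⟫_ℝ = (∫ x in A, ⟪x, u⟫_ℝ) + c * (volume : Measure (E n)).real A := by
    rw [← int_mul_sec hu hB.cpt, ← int_mul_sec hu hA.cpt, ← int_sec hu hA.cpt,
      ← integral_Ioc_eq_integral_Ioo, ← intervalIntegral.integral_of_le (hB.hs_lt hu).le, h1, h2,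
      ← intervalIntegral.integral_comp_add_right (fun t => t * (sec u B t).toReal),
      intervalIntegral.integral_of_le hab, integral_Ioc_eq_integral_Ioo, ← integral_const_mul,
      ← integral_add]
    · refine setIntegral_congr_fun measurableSet_Ioo fun t ht => ?_
      simp only [h3 t ht]
      ring
    · exact (intervalIntegrable_iff_integrableOn_Ioo_of_le hab).1
        (hfi.continuousOn_mul continuousOn_id)
    · exact ((intervalIntegrable_iff_integrableOn_Ioo_of_le hab).1 hfi).const_mul c
  rw [h2, real_inner_smul_left, inner_sub_left, hI hA.cpt, hI hB.cpt, key]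
  field_simp
  ring

theorem bm_eq (hA : Body A) (hB : Body B)
    (hV : (volume : Measure (E n)).real A = volume.real B)
    (h : (volume : Measure (E n)).real ((1 / 2 : ℝ) • (A + B)) ≤ volume.real A) :
    ∃ c : E n, B = (fun x => c + x) '' A := by
  have key := fun (u : E n) (hu : ‖u‖ = 1) => hs_eq hA hB hV h hu
  set c := ((volume : Measure (E n)).real A)⁻¹ • ((∫ x in B, x) - ∫ x in A, x)
  refine ⟨c, Subset.antisymm (fun b hb => ⟨-c + b, ?_, by simp⟩) (subset_of_hs_le hA.cpt hB.cpt hB.cvx
    (hB.int.mono interior_subset) c fun u hu => (key u hu).ge)⟩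
  refine subset_of_hs_le hB.cpt hA.cpt hA.cvx (hA.int.mono interior_subset) (-c)
    (fun u hu => ?_) ⟨b, hb, rfl⟩
  rw [key u hu, inner_neg_left]
  linarith

end Crest.Agent.R230
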