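import Crest.Agent.R230.Dual

/-!
Row 230 (Petty).  Products of simplices: volumes, vertices.
-/

set_option autoImplicit false

noncomputable section

namespace Crest.Agent.R230

open MeasureTheory Metric Set MvPolynomial Filter Topology
open scoped ENNReal InnerProductSpace Pointwise

variable {n : ℕ}

variable {ι : Type} [Fintype ι] [DecidableEq ι]

theorem Blk1_meas {κ : Type} [Fintype κ] (l : κ → ℝ) (c : ℝ) :
    MeasurableSet {x : κ → ℝ | (∀ i, l i ≤ x i) ∧ ∑ i, x i ≤ c} := by
  refine IsClosed.measurableSet (IsClosed.inter ?_ ?_)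
  · have : {x : κ → ℝ | ∀ i, l i ≤ x i} = ⋂ i, {x : κ → ℝ | l i ≤ x i} := by
      ext x; simp
    show IsClosed {x : κ → ℝ | ∀ i, l i ≤ x i}
    rw [this]
    exact isClosed_iInter fun i => isClosed_le continuous_const (continuous_apply i)
  · show IsClosed {x : κ → ℝ | ∑ i, x i ≤ c}
    exact isClosed_le (by fun_prop) continuous_const

theorem Blk1_fin (m : ℕ) : ∀ c : ℝ, 0 ≤ c →
    (volume : Measure (Fin m → ℝ)) {x | (∀ i, (0 : ℝ) ≤ x i) ∧ ∑ i, x i ≤ c} =
      ENNReal.ofReal (c ^ m / m.factorial) := by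
  induction m with
  | zero =>
    intro c hc
    have : {x : Fin 0 → ℝ | (∀ i, (0 : ℝ) ≤ x i) ∧ ∑ i, x i ≤ c} = univ := by
      ext x; simp [hc]
    rw [this, volume_pi, Measure.pi_univ]
    simp
  | succ m ih =>
    intro c hc
    have hp := volume_preserving_piFinSuccAbove (fun _ : Fin (m + 1) => ℝ) 0
    set T : Set (ℝ × (Fin m → ℝ)) :=
      {p | 0 ≤ p.1 ∧ (∀ i, (0 : ℝ) ≤ p.2 i) ∧ p.1 + ∑ i, p.2 i ≤ c} with hT
    have hTm : MeasurableSet T := by
      refine IsClosed.measurableSet ?_
      refine (isClosed_le continuous_const continuous_fst).inter (IsClosed.inter ?_ ?_)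
      · have : {p : ℝ × (Fin m → ℝ) | ∀ i, (0 : ℝ) ≤ p.2 i} =
            ⋂ i, {p : ℝ × (Fin m → ℝ) | (0 : ℝ) ≤ p.2 i} := by
          ext x; simp
        show IsClosed {p : ℝ × (Fin m → ℝ) | ∀ i, (0 : ℝ) ≤ p.2 i}
        rw [this]
        exact isClosed_iInter fun i => isClosed_le continuous_const (by fun_prop)
      · show IsClosed {p : ℝ × (Fin m → ℝ) | p.1 + ∑ i, p.2 i ≤ c}
        exact isClosed_le (by fun_prop) continuous_const
    have hS : {x : Fin (m + 1) → ℝ | (∀ i, (0 : ℝ) ≤ x i) ∧ ∑ i, x i ≤ c} =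
        (MeasurableEquiv.piFinSuccAbove (fun _ : Fin (m + 1) => ℝ) 0) ⁻¹' T := by
      ext x
      simp [hT, MeasurableEquiv.piFinSuccAbove, Fin.forall_fin_succ, Fin.sum_univ_succ, and_assoc,
        Fin.tail]
    rw [hS, hp.measure_preimage hTm.nullMeasurableSet, Measure.volume_eq_prod,
      Measure.prod_apply hTm]
    have hsl : ∀ t : ℝ, (volume : Measure (Fin m → ℝ)) (Prod.mk t ⁻¹' T) =
        (Icc 0 c).indicator (fun t => ENNReal.ofReal ((c - t) ^ m / m.factorial)) t := by
      intro t
      by_cases ht : t ∈ Icc 0 c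
      · rw [indicator_of_mem ht, ← ih (c - t) (by linarith [ht.2])]
        congr 1
        ext y
        simp only [hT, mem_preimage, mem_ofPred_eq, ht.1, true_and]
        constructor <;> rintro ⟨h1, h2⟩ <;> exact ⟨h1, by linarith⟩
      · rw [indicator_of_notMem ht]
        have : Prod.mk t ⁻¹' T = ∅ := by
          ext y
          simp only [hT, mem_preimage, mem_ofPred_eq, mem_empty_iff_false, iff_false]
          rintro ⟨h0, h1, h2⟩
          have : 0 ≤ ∑ i, y i := Finset.sum_nonneg fun i _ => h1 i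
          exact ht ⟨h0, by linarith⟩
        rw [this, measure_empty]
    simp_rw [hsl]
    rw [lintegral_indicator measurableSet_Icc, ← ofReal_integral_eq_lintegral_ofReal]
    · congr 1
      rw [integral_Icc_eq_integral_Ioc, ← intervalIntegral.integral_of_le hc,
        intervalIntegral.integral_div,
        intervalIntegral.integral_comp_sub_left (fun t : ℝ => t ^ m) c, integral_pow]
      rw [Nat.factorial_succ]
      push_cast
      simp only [sub_self, sub_zero, ne_eq, Nat.add_eq_zero_iff, one_ne_zero, and_false,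
        not_false_eq_true, zero_pow]
      field_simp
    · exact (Continuous.continuousOn (by fun_prop)).integrableOn_Icc
    · refine (ae_restrict_iff' measurableSet_Icc).2 (Eventually.of_forall fun t ht => ?_)
      have : 0 ≤ c - t := by linarith [ht.2]
      positivity

/-- induction on the number of coordinates (or `volume_sum_rpow_le` and symmetry) -/
theorem vol_simplex {κ : Type} [Fintype κ] (l : κ → ℝ) {c : ℝ} (h : ∑ i, l i ≤ c) :
    (volume : Measure (κ → ℝ)) {x | (∀ i, l i ≤ x i) ∧ ∑ i, x i ≤ c} =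
      ENNReal.ofReal ((c - ∑ i, l i) ^ Fintype.card κ / (Fintype.card κ).factorial) := by
  have e1 : {x : κ → ℝ | (∀ i, l i ≤ x i) ∧ ∑ i, x i ≤ c} =
      (fun x => x + (-l)) ⁻¹' {x : κ → ℝ | (∀ i, (0 : ℝ) ≤ x i) ∧ ∑ i, x i ≤ c - ∑ i, l i} := by
    ext x
    simp only [mem_ofPred_eq, mem_preimage, Pi.add_apply, Pi.neg_apply, Finset.sum_add_distrib,
      Finset.sum_neg_distrib]
    constructor <;> rintro ⟨h1, h2⟩
    · exact ⟨fun i => by linarith [h1 i], by linarith⟩
    · exact ⟨fun i => by linarith [h1 i], by linarith⟩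
  rw [e1, measure_preimage_add_right, ← Blk1_fin _ _ (sub_nonneg.2 h)]
  have hp := volume_measurePreserving_piCongrLeft (fun _ : κ => ℝ) (Fintype.equivFin κ).symm
  rw [← hp.measure_preimage (Blk1_meas (fun _ => 0) _).nullMeasurableSet]
  congr 1
  ext y
  simp only [mem_preimage, mem_ofPred_eq]
  have e2 : ∀ i, (MeasurableEquiv.piCongrLeft (fun _ : κ => ℝ) (Fintype.equivFin κ).symm) y i =
      y (Fintype.equivFin κ i) := by
    intro i
    obtain ⟨k, rfl⟩ := (Fintype.equivFin κ).symm.surjective i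
    rw [MeasurableEquiv.piCongrLeft_apply_apply]
    simp
  simp only [e2]
  rw [Equiv.sum_comp (Fintype.equivFin κ) y, (Fintype.equivFin κ).forall_congr_right
    (q := fun k => 0 ≤ y k)]

/-- `Equiv.sigmaFiberEquiv b`, `MeasurableEquiv.piCurry`, `measurePreserving_piCongrLeft`,
`PiLp.volume_preserving_ofLp`, `Measure.pi_pi` -/
theorem vol_fib (b : Fin n → ι) (A : ∀ j, Set ({i // b i = j} → ℝ)) (hA : ∀ j, MeasurableSet (A j)) :
    (volume : Measure (E n)) {x | ∀ j, (fun i : {i // b i = j} => x i) ∈ A j} =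
      ∏ j, volume (A j) := by
  let Φ : (∀ j, {i // b i = j} → ℝ) → (Fin n → ℝ) := fun f i => f (b i) ⟨i, rfl⟩
  have hΦ : Measurable Φ := measurable_pi_lambda _ fun i =>
    (measurable_pi_apply _).comp (measurable_pi_apply (b i))
  have hΦ2 : ∀ f j, (fun i : {i // b i = j} => Φ f i) = f j := by
    intro f j
    funext i
    obtain ⟨i, rfl⟩ := i
    rfl
  have hmap : (volume : Measure (Fin n → ℝ)) = Measure.map Φ volume := by
    rw [volume_pi]
    refine Measure.pi_eq fun s hs => ?_
    rw [Measure.map_apply hΦ (MeasurableSet.univ_pi hs)]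
    have : Φ ⁻¹' Set.pi univ s =
        Set.pi univ fun j => Set.pi univ fun i : {i // b i = j} => s i := by
      ext f
      simp only [mem_preimage, Set.mem_pi, mem_univ, true_imp_iff]
      constructor
      · rintro h j ⟨i, rfl⟩
        exact h i
      · intro h i
        exact h (b i) ⟨i, rfl⟩
    rw [this, volume_pi_pi]
    simp_rw [volume_pi_pi]
    exact Fintype.prod_fiberwise b fun i => volume (s i)
  have hB : MeasurableSet {x : Fin n → ℝ | ∀ j, (fun i : {i // b i = j} => x i) ∈ A j} := by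
    have : {x : Fin n → ℝ | ∀ j, (fun i : {i // b i = j} => x i) ∈ A j} =
        ⋂ j, (fun (x : Fin n → ℝ) (i : {i // b i = j}) => x i) ⁻¹' A j := by
      ext x; simp
    rw [this]
    exact MeasurableSet.iInter fun j =>
      (measurable_pi_lambda _ fun i => measurable_pi_apply _) (hA j)
  have hp := PiLp.volume_preserving_ofLp (Fin n)
  have e := hp.measure_preimage hB.nullMeasurableSet
  refine Eq.trans e ?_
  rw [hmap, Measure.map_apply hΦ hB, ← volume_pi_pi]
  congr 1
  ext f
  simp only [mem_preimage, mem_ofPred_eq, hΦ2, Set.mem_pi, mem_univ, true_imp_iff]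

theorem card_fib (b : Fin n → ι) (j : ι) : Fintype.card {i // b i = j} = dim b j := by
  rw [dim, Fintype.card_subtype]

theorem sum_dim (b : Fin n → ι) : ∑ j, dim b j = n := by
  have := Finset.card_eq_sum_card_fiberwise (f := b) (s := Finset.univ) (t := Finset.univ)
    (fun _ _ => Finset.mem_univ _)
  simpa [dim] using this.symm

theorem Blk1_sum (b : Fin n → ι) (j : ι) (f : Fin n → ℝ) :
    ∑ i ∈ Finset.univ.filter (fun i => b i = j), f i = ∑ i : {i // b i = j}, f i :=
  Finset.sum_subtype _ (by simp) f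

theorem vol_shift (b : Fin n → ι) (l : Fin n → ℝ) (c : ι → ℝ)
    (h : ∀ j, ∑ i ∈ Finset.univ.filter (fun i => b i = j), l i ≤ c j) :
    (volume : Measure (E n)).real {x | (∀ i, l i ≤ x i) ∧
        ∀ j, ∑ i ∈ Finset.univ.filter (fun i => b i = j), x i ≤ c j} =
      ∏ j, (c j - ∑ i ∈ Finset.univ.filter (fun i => b i = j), l i) ^ dim b j
        / (dim b j).factorial := by
  have e := vol_fib b (fun j => {y | (∀ i : {i // b i = j}, l i ≤ y i) ∧ ∑ i, y i ≤ c j})
    (fun j => Blk1_meas _ _)
  have e1 : {x : E n | (∀ i, l i ≤ x i) ∧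
        ∀ j, ∑ i ∈ Finset.univ.filter (fun i => b i = j), x i ≤ c j} =
      {x : E n | ∀ j, (fun i : {i // b i = j} => x i) ∈
        {y : {i // b i = j} → ℝ | (∀ i : {i // b i = j}, l i ≤ y i) ∧ ∑ i, y i ≤ c j}} := by
    ext x
    simp only [mem_ofPred_eq, Blk1_sum b _ (fun i => x i)]
    constructor
    · rintro ⟨h1, h2⟩ j
      exact ⟨fun i => h1 i, h2 j⟩
    · intro h1
      exact ⟨fun i => (h1 (b i)).1 ⟨i, rfl⟩, fun j => (h1 j).2⟩
  rw [measureReal_def, e1, e, ENNReal.toReal_prod]
  refine Finset.prod_congr rfl fun j _ => ?_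
  have hj := h j
  rw [Blk1_sum] at hj
  rw [vol_simplex (fun i : {i // b i = j} => l i) hj, card_fib, Blk1_sum,
    ENNReal.toReal_ofReal]
  have : 0 ≤ c j - ∑ i : {i // b i = j}, l i := sub_nonneg.2 hj
  positivity

theorem vol_blk (b : Fin n → ι) :
    (volume : Measure (E n)).real (blk b) = ∏ j, 1 / ((dim b j).factorial : ℝ) := by
  have := vol_shift b (fun _ => 0) (fun _ => 1) (fun j => by simp)
  simpa [blk] using this

theorem Blk1_cvx (b : Fin n → ι) : Convex ℝ (blk b) := by
  rintro x ⟨hx1, hx2⟩ y ⟨hy1, hy2⟩ s t hs ht hst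
  refine ⟨fun i => ?_, fun j => ?_⟩
  · have := hx1 i
    have := hy1 i
    simp only [PiLp.add_apply, PiLp.smul_apply, smul_eq_mul]
    positivity
  · simp only [PiLp.add_apply, PiLp.smul_apply, smul_eq_mul, Finset.sum_add_distrib,
      ← Finset.mul_sum]
    nlinarith [hx2 j, hy2 j, mul_le_mul_of_nonneg_left (hx2 j) hs,
      mul_le_mul_of_nonneg_left (hy2 j) ht]

theorem Blk1_sub {C : Set (E n)} (hC : Convex ℝ C) (h0 : (0 : E n) ∈ C) (s : Finset (Fin n))
    (w : Fin n → ℝ) (p : Fin n → E n) (hw : ∀ i, 0 ≤ w i) (h1 : ∑ i ∈ s, w i ≤ 1)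
    (hp : ∀ i ∈ s, p i ∈ C) : ∑ i ∈ s, w i • p i ∈ C := by
  have := hC.sum_mem (t := Finset.insertNone s)
    (w := fun o => Option.elim o (1 - ∑ i ∈ s, w i) w) (z := fun o => Option.elim o 0 p)
    (by
      rintro (_ | i) _
      · simpa using h1
      · simpa using hw i)
    (by simp [Finset.sum_insertNone])
    (by
      rintro (_ | i) hi
      · simpa using h0
      · simpa using hp i (by simpa using hi))
  simpa [Finset.sum_insertNone] using this

/-- `blk b = ∑ j, convexHull (insert 0 {e_i | b i = j})`, `convexHull_sum` -/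
theorem blk_hull (b : Fin n → ι) : ∃ S : Finset (E n), convexHull ℝ (S : Set (E n)) = blk b := by
  classical
  let V : ι → Finset (E n) := fun j => insert 0
    ((Finset.univ.filter (fun i => b i = j)).image fun i => EuclideanSpace.single i (1 : ℝ))
  refine ⟨∑ j, V j, Subset.antisymm (convexHull_min ?_ (Blk1_cvx b)) ?_⟩
  · intro x hx
    rw [Finset.coe_sum, Set.mem_fintype_sum] at hx
    obtain ⟨g, hg, rfl⟩ := hx
    have hg' : ∀ j, g j = 0 ∨ ∃ i, b i = j ∧ g j = EuclideanSpace.single i (1 : ℝ) := by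
      intro j
      have := hg j
      simp only [V, Finset.coe_insert, Finset.coe_image, Finset.coe_filter, Finset.mem_univ,
        true_and, mem_insert_iff, mem_image, mem_ofPred_eq] at this
      rcases this with h | ⟨i, hi, h⟩
      · exact Or.inl h
      · exact Or.inr ⟨i, hi, h.symm⟩
    refine ⟨fun i => ?_, fun k => ?_⟩
    · rw [WithLp.ofLp_sum, Finset.sum_apply]
      refine Finset.sum_nonneg fun j _ => ?_
      rcases hg' j with h | ⟨i', _, h⟩ <;> rw [h]
      · simp
      · simp only [PiLp.single_apply]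
        split_ifs <;> norm_num
    · simp only [WithLp.ofLp_sum, Finset.sum_apply]
      rw [Finset.sum_comm, Finset.sum_eq_single k]
      · rcases hg' k with h | ⟨i', hi', h⟩ <;> rw [h]
        · simp
        · simp [PiLp.single_apply, hi']
      · intro j _ hjk
        rcases hg' j with h | ⟨i', hi', h⟩ <;> rw [h]
        · simp
        · simp [PiLp.single_apply, hi', hjk]
      · simp
  · rintro x ⟨hx1, hx2⟩
    rw [Finset.coe_sum, convexHull_sum, Set.mem_fintype_sum]
    refine ⟨fun j => ∑ i ∈ Finset.univ.filter (fun i => b i = j),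
      x i • EuclideanSpace.single i (1 : ℝ), fun j => ?_, ?_⟩
    · refine Blk1_sub (convex_convexHull ℝ _) (subset_convexHull ℝ _ (by simp [V])) _
        (fun i => x i) _ hx1 (hx2 j) fun i hi => subset_convexHull ℝ _ ?_
      simp only [V, Finset.coe_insert, Finset.coe_image, mem_insert_iff]
      exact Or.inr ⟨i, by simpa using hi, rfl⟩
    · rw [Finset.sum_fiberwise Finset.univ b fun i => x i • EuclideanSpace.single i (1 : ℝ)]
      ext k
      simp [WithLp.ofLp_sum, Finset.sum_apply, Pi.single_apply]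

theorem body_blk (b : Fin n → ι) : Body (blk b) := by
  refine ⟨?_, Blk1_cvx b, ?_⟩
  · obtain ⟨S, hS⟩ := blk_hull b
    rw [← hS]
    exact S.finite_toSet.isCompact_convexHull ℝ
  · have hU : IsOpen (⋂ i : Fin n, {x : E n | 0 < x i ∧ x i < 1 / ((n : ℝ) + 1)}) :=
      isOpen_iInter_of_finite fun i =>
        (isOpen_lt continuous_const (g := fun x : E n => x i) (by fun_prop)).inter
          (isOpen_lt (f := fun x : E n => x i) (by fun_prop) continuous_const)
    have hpos : (0 : ℝ) < 1 / ((n : ℝ) + 1) := by positivity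
    refine ⟨WithLp.toLp 2 fun _ => 1 / ((n : ℝ) + 1) / 2, interior_maximal ?_ hU ?_⟩
    · intro x hx
      simp only [mem_iInter, mem_ofPred_eq] at hx
      refine ⟨fun i => (hx i).1.le, fun j => ?_⟩
      calc ∑ i ∈ Finset.univ.filter (fun i => b i = j), x i
          ≤ ∑ i, x i := Finset.sum_le_sum_of_subset_of_nonneg (Finset.subset_univ _)
            fun i _ _ => (hx i).1.le
        _ ≤ ∑ _i : Fin n, 1 / ((n : ℝ) + 1) := Finset.sum_le_sum fun i _ => (hx i).2.le
        _ ≤ 1 := by
            rw [Finset.sum_const, Finset.card_univ, Fintype.card_fin, nsmul_eq_mul, mul_one_div,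
              div_le_one (by positivity)]
            linarith
    · simp only [mem_iInter, mem_ofPred_eq]
      intro i
      constructor <;> linarith

end Crest.Agent.R230
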