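import Crest.Agent.R230.Spl

/-!
Row 230 (Petty).  The shadow function `sh K` is a norm; covariance; the ball.
-/

set_option autoImplicit false

noncomputable section

namespace Crest.Agent.R230

open MeasureTheory Metric Set MvPolynomial Filter Topology
open scoped ENNReal InnerProductSpace Pointwise

variable {n : ℕ}

variable {K L : Set (E n)}

theorem Sh_om_pos (m : ℕ) : 0 < om m :=
  ENNReal.toReal_pos (measure_ball_pos _ _ one_pos).ne' measure_ball_lt_top.ne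

theorem Sh_ball (hK : Body K) : ∃ (p : E n) (r : ℝ), 0 < r ∧ closedBall p r ⊆ K := by
  obtain ⟨p, hp⟩ := hK.int
  obtain ⟨r, hr, h⟩ := nhds_basis_closedBall.mem_iff.1 (mem_interior_iff_mem_nhds.1 hp)
  exact ⟨p, r, hr, h⟩

theorem Sh_segment_add (v w : E n) : segment ℝ 0 (v + w) ⊆ segment ℝ 0 v + segment ℝ 0 w := by
  simp only [segment_eq_image', sub_zero, zero_add]
  rintro _ ⟨t, ht, rfl⟩
  exact ⟨_, ⟨t, ht, rfl⟩, _, ⟨t, ht, rfl⟩, (smul_add t v w).symm⟩

theorem sh_unit (K : Set (E n)) {u : E n} (hu : ‖u‖ = 1) :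
    sh K u = ((μHE[n - 1] : Measure (E n)) ((fun y => y - inner ℝ y u • u) '' K)).toReal := by
  simp [sh, hu]

theorem sh_nonneg (K : Set (E n)) (v : E n) : 0 ≤ sh K v := by
  exact mul_nonneg (norm_nonneg _) ENNReal.toReal_nonneg

theorem sh_smul (K : Set (E n)) (c : ℝ) (v : E n) : sh K (c • v) = |c| * sh K v := by
  rcases eq_or_ne c 0 with rfl | hc
  · simp [sh]
  have h1 : ‖c • v‖⁻¹ • c • v = (|c|⁻¹ * c) • ‖v‖⁻¹ • v := by
    rw [norm_smul, Real.norm_eq_abs, smul_smul, smul_smul]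
    congr 1
    rw [mul_inv]
    ring
  have h2 : |c|⁻¹ * c * (|c|⁻¹ * c) = 1 := by
    have h3 : |c| ≠ 0 := abs_ne_zero.2 hc
    field_simp
    exact (sq_abs c).symm
  have h4 : (fun y : E n => y - inner ℝ y (‖c • v‖⁻¹ • c • v) • (‖c • v‖⁻¹ • c • v)) =
      fun y => y - inner ℝ y (‖v‖⁻¹ • v) • (‖v‖⁻¹ • v) := by
    funext y
    rw [h1, inner_smul_right y (‖v‖⁻¹ • v), smul_smul _ (|c|⁻¹ * c), mul_right_comm, h2, one_mul]
  unfold sh
  rw [h4, norm_smul, Real.norm_eq_abs, mul_assoc]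

/-- the set in the statements S0354-S0356 -/
theorem projBody_eq (K : Set (E n)) :
    (⋂ u ∈ sphere (0 : E n) 1, {x : E n | inner ℝ x u ≤
      ((μHE[n - 1] : Measure (E n)) ((fun y => y - inner ℝ y u • u) '' K)).toReal}) =
      bodyOf (sh K) := by
  ext x
  simp only [mem_iInter, mem_ofPred_eq, bodyOf, mem_sphere_zero_iff_norm]
  refine ⟨fun h v => ?_, fun h u hu => (h u).trans_eq (sh_unit K hu)⟩
  rcases eq_or_ne v 0 with rfl | hv
  · simpa using sh_nonneg K 0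
  have h0 : 0 < ‖v‖ := norm_pos_iff.2 hv
  have h1 := h _ (norm_smul_inv_norm (𝕜 := ℝ) hv)
  have h2 : ⟪x, v⟫_ℝ = ‖v‖ * ⟪x, ‖v‖⁻¹ • v⟫_ℝ := by
    rw [inner_smul_right]
    field_simp
  rw [h2]
  exact mul_le_mul_of_nonneg_left h1 h0.le

theorem sh_mono (hKL : K ⊆ L) (hL : IsCompact L) (v : E n) : sh K v ≤ sh L v := by
  rcases eq_or_ne v 0 with rfl | hv
  · simp [sh]
  have hu : ‖‖v‖⁻¹ • v‖ = 1 := norm_smul_inv_norm (𝕜 := ℝ) hv
  refine mul_le_mul_of_nonneg_left (ENNReal.toReal_mono ?_ (measure_mono (image_mono hKL)))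
    (norm_nonneg _)
  rw [shadow_eq hu]
  exact (isCompact_shadow hu hL).measure_lt_top.ne

/-- from `seg` and `vol_image` -/
theorem sh_affine (hK : IsCompact K) (hc : Convex ℝ K) (a : E n) (T : E n ≃L[ℝ] E n) (v : E n) :
    sh ((fun x => a + T x) '' K) v = dt T * sh K (T.symm v) := by
  have hK' : IsCompact ((fun x => a + T x) '' K) := hK.image (by fun_prop)
  have hc' : Convex ℝ ((fun x => a + T x) '' K) := by
    have := (hc.linear_image (T.toLinearEquiv : E n →ₗ[ℝ] E n)).translate a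
    rwa [image_image] at this
  have h1 := seg hK' hc' v
  have h2 : (fun x => a + T x) '' K + segment ℝ 0 v =
      (fun x => a + T x) '' (K + segment ℝ 0 (T.symm v)) := by
    ext z
    simp only [segment_eq_image', sub_zero, zero_add, Set.mem_add, mem_image]
    constructor
    · rintro ⟨_, ⟨x, hx, rfl⟩, _, ⟨t, ht, rfl⟩, rfl⟩
      exact ⟨_, ⟨x, hx, _, ⟨t, ht, rfl⟩, rfl⟩, by simp [add_assoc]⟩
    · rintro ⟨_, ⟨x, hx, _, ⟨t, ht, rfl⟩, rfl⟩, rfl⟩
      exact ⟨_, ⟨x, hx, rfl⟩, _, ⟨t, ht, rfl⟩, by simp [add_assoc]⟩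
  rw [h2, vol_image, vol_image, seg hK hc] at h1
  linarith

theorem sh_homothety [NeZero n] (hK : IsCompact K) (hc : Convex ℝ K) (a : E n) {c : ℝ} (h0 : 0 < c)
    (v : E n) : sh ((fun x => a + c • x) '' K) v = c ^ (n - 1) * sh K v := by
  let T : E n ≃L[ℝ] E n := (LinearEquiv.smulOfNeZero ℝ (E n) c h0.ne').toContinuousLinearEquiv
  have hT : ∀ x, T x = c • x := fun x => rfl
  have h1 : T.symm v = c⁻¹ • v := by
    rw [ContinuousLinearEquiv.symm_apply_eq, hT, smul_smul, mul_inv_cancel₀ h0.ne', one_smul]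
  have h2 : (T.toLinearEquiv : E n →ₗ[ℝ] E n) = c • LinearMap.id := by
    ext1 x
    exact hT x
  have h3 : dt T = c ^ n := by
    rw [dt, h2, LinearMap.det_smul, LinearMap.det_id, finrank_euclideanSpace_fin, mul_one,
      abs_of_pos (by positivity)]
  have h4 := sh_affine hK hc a T v
  simp only [hT] at h4
  rw [h4, h1, h3, sh_smul, abs_of_pos (inv_pos.2 h0), ← mul_assoc]
  congr 1
  obtain ⟨m, rfl⟩ := Nat.exists_eq_succ_of_ne_zero (NeZero.ne n)
  rw [Nat.succ_sub_one, pow_succ]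
  field_simp

/-- if `closedBall p r ⊆ K` then `K + closedBall 0 (ε r) ⊆ -ε p + (1 + ε) K` by convexity -/
theorem Body.thicken (hK : Body K) : ∃ (p : E n) (r : ℝ), 0 < r ∧ ∀ ε : ℝ, 0 ≤ ε →
    K + closedBall (0 : E n) (ε * r) ⊆ (fun x => -(ε • p) + (1 + ε) • x) '' K := by
  obtain ⟨p, r, hr, h⟩ := Sh_ball hK
  refine ⟨p, r, hr, fun ε hε => ?_⟩
  rintro _ ⟨x, hx, z, hz, rfl⟩
  rw [mem_closedBall_zero_iff] at hz
  obtain ⟨w, hw, rfl⟩ : ∃ w : E n, ‖w‖ ≤ r ∧ z = ε • w := by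
    rcases hε.eq_or_lt with rfl | h0
    · exact ⟨0, by simpa using hr.le, by simpa using hz⟩
    · refine ⟨ε⁻¹ • z, ?_, by rw [smul_smul, mul_inv_cancel₀ h0.ne', one_smul]⟩
      rw [norm_smul, Real.norm_of_nonneg (inv_pos.2 h0).le, inv_mul_le_iff₀ h0]
      exact hz
  have h1 : 0 < 1 + ε := by linarith
  refine ⟨(1 + ε)⁻¹ • x + ((1 + ε)⁻¹ * ε) • (p + w), hK.cvx hx (h (by simpa using hw))
    (by positivity) (by positivity) (by field_simp), ?_⟩
  simp only [smul_add, smul_smul, ← mul_assoc, mul_inv_cancel₀ h1.ne', one_smul, one_mul]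
  abel

/-- shadows of slightly larger bodies -/
theorem Body.sh_le [NeZero n] (hK : Body K) {δ : ℝ} (hδ : 0 < δ) : ∃ ρ : ℝ, 0 < ρ ∧
    ∀ L : Set (E n), L ⊆ K + closedBall (0 : E n) ρ → ∀ v, sh L v ≤ (1 + δ) * sh K v := by
  obtain ⟨p, r, hr, h⟩ := hK.thicken
  have h1 : ContinuousAt (fun ε : ℝ => (1 + ε) ^ (n - 1)) 0 := by fun_prop
  have h2 : ∀ᶠ ε : ℝ in 𝓝 0, (1 + ε) ^ (n - 1) < 1 + δ :=
    h1.eventually_lt continuousAt_const (by simpa using hδ)
  obtain ⟨ε, h3, h4⟩ := ((h2.filter_mono nhdsWithin_le_nhds).and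
    (self_mem_nhdsWithin (a := (0 : ℝ)) (s := Ioi 0))).exists
  have h5 : 0 < ε := h4
  refine ⟨ε * r, by positivity, fun L hL v => ?_⟩
  refine (sh_mono (hL.trans (h ε h5.le)) (hK.cpt.image (by fun_prop)) v).trans ?_
  rw [sh_homothety hK.cpt hK.cvx _ (by linarith)]
  exact mul_le_mul_of_nonneg_right h3.le (sh_nonneg K v)

theorem sh_closedBall (a : E n) {r : ℝ} (hr : 0 < r) (v : E n) :
    sh (closedBall a r) v = r ^ (n - 1) * om (n - 1) * ‖v‖ := by
  rcases eq_or_ne v 0 with rfl | hv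
  · simp [sh]
  have hu : ‖‖v‖⁻¹ • v‖ = 1 := norm_smul_inv_norm (𝕜 := ℝ) hv
  unfold sh
  rw [shadow_eq hu]
  generalize ‖v‖⁻¹ • v = u at hu
  obtain ⟨y₀, -, h0⟩ := spl_surj hu a
  have h1 : ∀ (t : ℝ) (y : (ℝ ∙ u)ᗮ),
      ‖t • u + (y : E n) - a‖ ^ 2 = (t - ⟪a, u⟫_ℝ) ^ 2 + ‖y - y₀‖ ^ 2 := fun t y => by
    rw [← norm_sq_spl hu (t - ⟪a, u⟫_ℝ, y - y₀)]
    congr 2
    nth_rewrite 1 [← h0]
    simp only [spl, sub_smul, Submodule.coe_sub]
    abel
  have h2 : {y : (ℝ ∙ u)ᗮ | ∃ t : ℝ, t • u + (y : E n) ∈ closedBall a r} = closedBall y₀ r := by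
    ext y
    simp only [mem_ofPred_eq, mem_closedBall_iff_norm]
    constructor
    · rintro ⟨t, ht⟩
      refine le_trans (abs_le_of_sq_le_sq' ?_ (norm_nonneg _)).2 ht
      rw [h1]
      linarith [sq_nonneg (t - ⟪a, u⟫_ℝ)]
    · intro hy
      refine ⟨⟪a, u⟫_ℝ, le_trans (le_of_eq ?_) hy⟩
      rw [← sq_eq_sq₀ (norm_nonneg _) (norm_nonneg _), h1]
      ring
  rw [h2, Measure.addHaar_closedBall_center, vol_ball_perp hu hr.le,
    ENNReal.toReal_ofReal (mul_nonneg (by positivity) (Sh_om_pos _).le), mul_comm]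

/-- subadditivity: `[0, ε(v+w)] ⊆ [0, εv] + [0, εw]`, `seg` three times, `Body.sh_le`, `δ → 0` -/
theorem Body.isNm_sh [NeZero n] (hK : Body K) : IsNm (sh K) := by
  refine ⟨fun v w => ?_, sh_smul K, fun v hv => ?_⟩
  · have key : ∀ δ : ℝ, 0 < δ → sh K (v + w) ≤ sh K v + (1 + δ) * sh K w := fun δ hδ => by
      obtain ⟨ρ, hρ, h⟩ := hK.sh_le hδ
      have hv1 : 0 < ‖v‖ + 1 := by positivity
      set ε := ρ / (‖v‖ + 1) with hε
      have hε0 : 0 < ε := by positivity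
      have hs : ∀ x : E n, IsCompact (segment ℝ 0 x) := fun x => by
        rw [segment_eq_image']
        exact isCompact_Icc.image (by fun_prop)
      have c1 : IsCompact (K + segment ℝ 0 (ε • v)) := hK.cpt.add (hs _)
      have c2 : Convex ℝ (K + segment ℝ 0 (ε • v)) := hK.cvx.add (convex_segment _ _)
      have h1 := seg hK.cpt hK.cvx (ε • (v + w))
      have h2 := seg hK.cpt hK.cvx (ε • v)
      have h3 := seg c1 c2 (ε • w)
      have h4 := h (K + segment ℝ 0 (ε • v)) (add_subset_add_left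
        ((convex_closedBall _ _).segment_subset (by simpa using hρ.le) (by
          rw [mem_closedBall_zero_iff, norm_smul, Real.norm_of_nonneg hε0.le, hε,
            div_mul_eq_mul_div, div_le_iff₀ hv1]
          nlinarith))) w
      have h5 : K + segment ℝ 0 (ε • (v + w)) ⊆ K + segment ℝ 0 (ε • v) + segment ℝ 0 (ε • w) := by
        rw [add_assoc]
        refine add_subset_add_left ?_
        have := Sh_segment_add (ε • v) (ε • w)
        rwa [← smul_add] at this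
      have h6 := measureReal_mono (μ := (volume : Measure (E n))) h5
        (c1.add (hs _)).measure_lt_top.ne
      rw [h1, h3, h2, sh_smul, sh_smul, sh_smul, abs_of_pos hε0] at h6
      refine le_of_mul_le_mul_left ?_ hε0
      nlinarith
    have hw := sh_nonneg K w
    refine le_of_forall_pos_le_add fun η hη => ?_
    have h1 := key (η / (sh K w + 1)) (by positivity)
    have h2 : η / (sh K w + 1) * sh K w ≤ η := by
      rw [div_mul_eq_mul_div, div_le_iff₀ (by positivity)]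
      nlinarith
    linarith
  · obtain ⟨p, r, hr, h⟩ := Sh_ball hK
    refine lt_of_lt_of_le ?_ (sh_mono h hK.cpt v)
    rw [sh_closedBall p hr]
    have := Sh_om_pos (n - 1)
    have h0 : 0 < ‖v‖ := norm_pos_iff.2 hv
    positivity

end Crest.Agent.R230
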