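import Crest.Agent.R230.Blk1
import Crest.Agent.R230.Sh

/-!
Row 230 (Petty).  The shadow function of a product of simplices.  With `ν j = bn b j v / 2
= ∑ v_i⁻ + (∑ v_i)⁺ = ∑ v_i⁺ + (∑ v_i)⁻` (sums over the fibre of `j`) and `V = vol (blk b)`:
`K + [0, ε v] ⊆ {x_i ≥ -ε v_i⁻, ∑ x_i ≤ 1 + ε (∑ v_i)⁺}` has volume `V ∏ (1 + ε ν j)^(d j)`, and
`K ∩ (K + ε v) = {x_i ≥ ε v_i⁺, ∑ x_i ≤ 1 - ε (∑ v_i)⁻}` has volume `V ∏ (1 - ε ν j)^(d j)`;
`K ∪ (K + ε v) ⊆ K + [0, ε v]`.  By `seg`,
`V (1 - ∏ (1 - ε ν)^d) ≤ ε sh K v ≤ V (∏ (1 + ε ν)^d - 1)`; differentiate at `ε = 0`.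
-/

set_option autoImplicit false

noncomputable section

namespace Crest.Agent.R230

open MeasureTheory Metric Set MvPolynomial Filter Topology
open scoped ENNReal InnerProductSpace Pointwise

variable {n : ℕ}

variable {ι : Type} [Fintype ι] [DecidableEq ι]

omit [Fintype ι] in
theorem blk2_nu₁ (b : Fin n → ι) (j : ι) (v : E n) :
    ∑ i ∈ Finset.univ.filter (fun i => b i = j), max (-v i) 0
      + max (∑ i ∈ Finset.univ.filter (fun i => b i = j), v i) 0 = bn b j v / 2 := by
  have h1 : ∑ i ∈ Finset.univ.filter (fun i => b i = j), max (-v i) 0 =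
      (∑ i ∈ Finset.univ.filter (fun i => b i = j), |v i|
        - ∑ i ∈ Finset.univ.filter (fun i => b i = j), v i) / 2 := by
    rw [← Finset.sum_sub_distrib, Finset.sum_div]
    refine Finset.sum_congr rfl fun i _ => ?_
    rcases le_total 0 (v i) with h | h
    · rw [abs_of_nonneg h, max_eq_right (by linarith)]; ring
    · rw [abs_of_nonpos h, max_eq_left (by linarith)]; ring
  rw [h1, bn]
  rcases le_total 0 (∑ i ∈ Finset.univ.filter (fun i => b i = j), v i) with h | h
  · rw [abs_of_nonneg h, max_eq_left h]; ring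
  · rw [abs_of_nonpos h, max_eq_right h]; ring

omit [Fintype ι] in
theorem blk2_nu₂ (b : Fin n → ι) (j : ι) (v : E n) :
    ∑ i ∈ Finset.univ.filter (fun i => b i = j), max (v i) 0
      + max (-∑ i ∈ Finset.univ.filter (fun i => b i = j), v i) 0 = bn b j v / 2 := by
  have h1 : ∑ i ∈ Finset.univ.filter (fun i => b i = j), max (v i) 0 =
      (∑ i ∈ Finset.univ.filter (fun i => b i = j), |v i|
        + ∑ i ∈ Finset.univ.filter (fun i => b i = j), v i) / 2 := by
    rw [← Finset.sum_add_distrib, Finset.sum_div]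
    refine Finset.sum_congr rfl fun i _ => ?_
    rcases le_total 0 (v i) with h | h
    · rw [abs_of_nonneg h, max_eq_left h]; ring
    · rw [abs_of_nonpos h, max_eq_right h]; ring
  rw [h1, bn]
  rcases le_total 0 (∑ i ∈ Finset.univ.filter (fun i => b i = j), v i) with h | h
  · rw [abs_of_nonneg h, max_eq_right (by linarith)]; ring
  · rw [abs_of_nonpos h, max_eq_left (by linarith)]; ring

omit [Fintype ι] in
theorem blk2_bn_nonneg (b : Fin n → ι) (j : ι) (v : E n) : 0 ≤ bn b j v :=
  add_nonneg (Finset.sum_nonneg fun _ _ => abs_nonneg _) (abs_nonneg _)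

/-- the comparison polynomial -/
def blk2F (b : Fin n → ι) (v : E n) (t : ℝ) : ℝ :=
  ∏ j, (1 + t * (bn b j v / 2)) ^ dim b j / (dim b j).factorial

theorem blk2F_zero (b : Fin n → ι) (v : E n) :
    blk2F b v 0 = (volume : Measure (E n)).real (blk b) := by
  rw [vol_blk, blk2F]
  simp

theorem blk2_upper (b : Fin n → ι) (v : E n) {ε : ℝ} (hε : 0 ≤ ε) :
    (volume : Measure (E n)).real (blk b) + ε * sh (blk b) v ≤ blk2F b v ε := by
  have hK := body_blk b
  have hseg := seg hK.cpt hK.cvx (ε • v)
  rw [sh_smul, abs_of_nonneg hε] at hseg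
  rw [← hseg]
  set l : Fin n → ℝ := fun i => -(ε * max (-v i) 0) with hl
  set c : ι → ℝ := fun j =>
    1 + ε * max (∑ i ∈ Finset.univ.filter (fun i => b i = j), v i) 0 with hc
  have key : ∀ j, c j - ∑ i ∈ Finset.univ.filter (fun i => b i = j), l i =
      1 + ε * (bn b j v / 2) := by
    intro j
    rw [← blk2_nu₁ b j v, hl, hc]
    simp only [Finset.sum_neg_distrib, ← Finset.mul_sum]
    ring
  have hpos : ∀ j, 0 < 1 + ε * (bn b j v / 2) := fun j => by
    have := blk2_bn_nonneg b j v
    positivity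
  have hvol := vol_shift b l c fun j => by
    have h1 := key j
    have h2 := hpos j
    linarith
  simp only [key] at hvol
  have hF : 0 < blk2F b v ε := Finset.prod_pos fun j _ => by
    have := hpos j
    positivity
  rw [blk2F, ← hvol]
  refine measureReal_mono ?_ ?_
  · rintro _ ⟨x, hx, y, hy, rfl⟩
    rw [segment_eq_image] at hy
    obtain ⟨t, ⟨ht0, ht1⟩, rfl⟩ := hy
    refine ⟨fun i => ?_, fun j => ?_⟩
    · have h0 := hx.1 i
      simp only [hl, smul_zero, zero_add, PiLp.add_apply, PiLp.smul_apply, smul_eq_mul]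
      have h1 : -v i ≤ max (-v i) 0 := le_max_left _ _
      have h2 : 0 ≤ max (-v i) 0 := le_max_right _ _
      have h3 : t * (ε * -v i) ≤ t * (ε * max (-v i) 0) := by gcongr
      have h4 : t * (ε * max (-v i) 0) ≤ 1 * (ε * max (-v i) 0) := by gcongr
      nlinarith
    · have h0 := hx.2 j
      simp only [hc, smul_zero, zero_add, PiLp.add_apply, PiLp.smul_apply, smul_eq_mul,
        Finset.sum_add_distrib, ← Finset.mul_sum]
      set s := ∑ i ∈ Finset.univ.filter (fun i => b i = j), v i
      have h1 : s ≤ max s 0 := le_max_left _ _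
      have h2 : 0 ≤ max s 0 := le_max_right _ _
      have h3 : t * (ε * s) ≤ t * (ε * max s 0) := by gcongr
      have h4 : t * (ε * max s 0) ≤ 1 * (ε * max s 0) := by gcongr
      linarith
  · intro htop
    rw [Measure.real, htop, ENNReal.toReal_top] at hvol
    exact hF.ne hvol

theorem blk2_lower (b : Fin n → ι) (v : E n) {ε : ℝ} (hε : 0 ≤ ε)
    (h1 : ∀ j, 0 ≤ 1 + -ε * (bn b j v / 2)) :
    (volume : Measure (E n)).real (blk b) + -ε * sh (blk b) v ≤ blk2F b v (-ε) := by
  have hK := body_blk b
  have hseg := seg hK.cpt hK.cvx (ε • v)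
  rw [sh_smul, abs_of_nonneg hε] at hseg
  set l : Fin n → ℝ := fun i => ε * max (v i) 0 with hl
  set c : ι → ℝ := fun j =>
    1 - ε * max (-∑ i ∈ Finset.univ.filter (fun i => b i = j), v i) 0 with hc
  have key : ∀ j, c j - ∑ i ∈ Finset.univ.filter (fun i => b i = j), l i =
      1 + -ε * (bn b j v / 2) := by
    intro j
    rw [← blk2_nu₂ b j v, hl, hc]
    simp only [← Finset.mul_sum]
    ring
  have hvol := vol_shift b l c fun j => by
    have h2 := key j
    have h3 := h1 j
    linarith
  simp only [key] at hvol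
  set K' : Set (E n) := (fun x => -(ε • v) + x) ⁻¹' blk b with hK'
  have hmK : MeasurableSet (blk b) := hK.cpt.isClosed.measurableSet
  have hmK' : MeasurableSet K' := (measurable_const_add _) hmK
  have hfin : (volume : Measure (E n)) (blk b) ≠ ⊤ := hK.cpt.measure_lt_top.ne
  have hvK' : (volume : Measure (E n)) K' = volume (blk b) := measure_preimage_add _ _ _
  have hun := measureReal_union_add_inter (μ := (volume : Measure (E n))) (s := blk b) hmK'
    hfin (by rw [hvK']; exact hfin)
  have hvK'' : (volume : Measure (E n)).real K' = volume.real (blk b) := by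
    rw [Measure.real, hvK', Measure.real]
  have hcs : IsCompact (segment ℝ (0 : E n) (ε • v)) := by
    rw [segment_eq_image]
    exact isCompact_Icc.image (by fun_prop)
  have hA : (volume : Measure (E n)).real (blk b ∪ K') ≤
      volume.real (blk b + segment ℝ 0 (ε • v)) := by
    refine measureReal_mono ?_ (hK.cpt.add hcs).measure_lt_top.ne
    rintro x (hx | hx)
    · exact ⟨x, hx, 0, left_mem_segment _ _ _, add_zero x⟩
    · exact ⟨-(ε • v) + x, hx, ε • v, right_mem_segment _ _ _, by simp⟩
  have hB : blk b ∩ K' = {x : E n | (∀ i, l i ≤ x i) ∧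
      ∀ j, ∑ i ∈ Finset.univ.filter (fun i => b i = j), x i ≤ c j} := by
    ext x
    simp only [hK', hl, hc, blk, mem_inter_iff, mem_preimage, mem_ofPred_eq, PiLp.add_apply,
      PiLp.neg_apply, PiLp.smul_apply, smul_eq_mul, Finset.sum_add_distrib,
      Finset.sum_neg_distrib, ← Finset.mul_sum, mul_max_of_nonneg _ _ hε, mul_zero]
    constructor
    · rintro ⟨⟨a1, a2⟩, a3, a4⟩
      refine ⟨fun i => max_le (by linarith [a3 i]) (a1 i), fun j => ?_⟩
      have h2 := a2 j
      have h4 := a4 j
      rcases le_total (ε * -∑ i ∈ Finset.univ.filter (fun i => b i = j), v i) 0 with h | h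
      · rw [max_eq_right h]; linarith
      · rw [max_eq_left h]; linarith
    · rintro ⟨a1, a2⟩
      refine ⟨⟨fun i => (le_max_right _ _).trans (a1 i), fun j => ?_⟩,
        fun i => by linarith [(le_max_left _ _).trans (a1 i)], fun j => ?_⟩
      · linarith [a2 j, le_max_right
          (ε * -∑ i ∈ Finset.univ.filter (fun i => b i = j), v i) 0]
      · linarith [a2 j, le_max_left
          (ε * -∑ i ∈ Finset.univ.filter (fun i => b i = j), v i) 0]
  rw [hB, hvol, hvK''] at hun
  rw [hB, hseg] at *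
  rw [blk2F]
  linarith

theorem blk2_deriv (b : Fin n → ι) (v : E n) :
    HasDerivAt (blk2F b v)
      (∑ j, ((volume : Measure (E n)).real (blk b) * dim b j / 2) * bn b j v) 0 := by
  have h : ∀ j ∈ (Finset.univ : Finset ι), HasDerivAt
      (fun t : ℝ => (1 + t * (bn b j v / 2)) ^ dim b j / (dim b j).factorial)
      (dim b j * (bn b j v / 2) / (dim b j).factorial) 0 := by
    intro j _
    have h1 : HasDerivAt (fun t : ℝ => 1 + t * (bn b j v / 2)) (bn b j v / 2) 0 := by
      simpa using ((hasDerivAt_id (0 : ℝ)).mul_const (bn b j v / 2)).const_add 1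
    simpa using (h1.fun_pow (dim b j)).div_const ((dim b j).factorial : ℝ)
  have h2 := HasDerivAt.fun_finsetProd h
  refine HasDerivAt.congr_deriv h2 (Finset.sum_congr rfl fun j _ => ?_)
  rw [vol_blk, ← Finset.prod_erase_mul _ _ (Finset.mem_univ j)]
  simp only [zero_mul, add_zero, one_pow, smul_eq_mul]
  ring

theorem sh_blk (b : Fin n → ι) (v : E n) :
    sh (blk b) v = ∑ j, ((volume : Measure (E n)).real (blk b) * dim b j / 2) * bn b j v := by
  have hd := (blk2_deriv b v).sub ((hasDerivAt_id (0 : ℝ)).mul_const (sh (blk b) v))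
  have hev : ∀ᶠ t : ℝ in 𝓝 0, ∀ j, 0 < 1 + t * (bn b j v / 2) := by
    refine eventually_all.2 fun j => ?_
    have hc : Continuous fun t : ℝ => 1 + t * (bn b j v / 2) := by fun_prop
    exact hc.continuousAt.eventually (lt_mem_nhds (by simp))
  have hmin : IsLocalMin (blk2F b v - fun t => id t * sh (blk b) v) 0 := by
    filter_upwards [hev] with t ht
    simp only [Pi.sub_apply, id, zero_mul, sub_zero, blk2F_zero]
    rcases le_total 0 t with h | h
    · linarith [blk2_upper b v h]
    · have := blk2_lower b v (ε := -t) (by linarith) fun j => by simpa using (ht j).le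
      rw [neg_neg] at this
      linarith
  have := hmin.hasDerivAt_eq_zero hd
  linarith

end Crest.Agent.R230
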