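import Crest.Agent.R230.Blk2

/-!
Row 230 (Petty).  The projection body of a product of simplices.
-/

set_option autoImplicit false

noncomputable section

namespace Crest.Agent.R230

open MeasureTheory Metric Set MvPolynomial Filter Topology
open scoped ENNReal InnerProductSpace Pointwise

variable {n : ℕ}

variable {ι : Type} [Fintype ι] [DecidableEq ι]

/-- the coordinates of `(0, x)` -/
def blk3L {κ : Type} (o : Option κ) : (κ → ℝ) →ₗ[ℝ] ℝ := o.elim 0 LinearMap.proj

/-- the minimum of `(0, x)` is attained at `o` -/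
def blk3B {κ : Type} (r : ℝ) (o : Option κ) : Set (κ → ℝ) :=
  {x | ∀ o', blk3L o' x - blk3L o x ∈ Icc 0 (2 * r)}

theorem blk3_mid {κ : Type} [Fintype κ] {r : ℝ} {x : κ → ℝ}
    (h : ∀ o o', blk3L o' x - blk3L o x ≤ 2 * r) : x ∈ ⋃ o, blk3B r o := by
  obtain ⟨o, ho⟩ := Finite.exists_min fun o : Option κ => blk3L o x
  exact mem_iUnion.2 ⟨o, fun o' => ⟨sub_nonneg.2 (ho o'), h o o'⟩⟩

theorem blk3_eq {κ : Type} [Fintype κ] (r : ℝ) :
    {x : κ → ℝ | ∃ t : ℝ, |t| ≤ r ∧ ∀ i, |x i - t| ≤ r} = ⋃ o, blk3B r o := by
  ext x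
  constructor
  · rintro ⟨t, h1, h2⟩
    have h3 : ∀ o, |blk3L o x - t| ≤ r := by
      rintro (_ | i)
      · simpa [blk3L] using h1
      · exact h2 i
    refine blk3_mid fun o o' => ?_
    linarith [(abs_le.1 (h3 o)).1, (abs_le.1 (h3 o')).2]
  · intro h
    obtain ⟨o, ho⟩ := mem_iUnion.1 h
    refine ⟨blk3L o x + r, ?_, fun i => ?_⟩
    · have := ho none
      simp only [blk3L, Option.elim, LinearMap.zero_apply, mem_Icc] at this ⊢
      exact abs_le.2 ⟨by linarith [this.2], by linarith [this.1]⟩
    · have h1 : x i - blk3L o x ∈ Icc 0 (2 * r) := ho (some i)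
      exact abs_le.2 ⟨by linarith [h1.1], by linarith [h1.2]⟩

theorem blk3_meas {κ : Type} [Fintype κ] (r : ℝ) (o : Option κ) : MeasurableSet (blk3B r o) := by
  have : blk3B r o = ⋂ o', (fun x => blk3L o' x - blk3L o x) ⁻¹' Icc 0 (2 * r) := by
    ext x
    simp only [blk3B, mem_ofPred_eq, mem_iInter, mem_preimage]
  rw [this]
  exact MeasurableSet.iInter fun o' => measurableSet_Icc.preimage
    ((blk3L o').continuous_of_finiteDimensional.sub
      (blk3L o).continuous_of_finiteDimensional).measurable

theorem blk3_vol {κ : Type} [Fintype κ] {r : ℝ} (hr : 0 ≤ r) (o : Option κ) :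
    volume (blk3B r o) = ENNReal.ofReal ((2 * r) ^ Fintype.card κ) := by
  classical
  have h0 : volume (blk3B r (none : Option κ)) = ENNReal.ofReal ((2 * r) ^ Fintype.card κ) := by
    have : blk3B r (none : Option κ) = univ.pi fun _ => Icc 0 (2 * r) := by
      ext x
      simp only [blk3B, mem_ofPred_eq, mem_univ_pi, Option.forall, blk3L, Option.elim,
        LinearMap.zero_apply, sub_zero, LinearMap.proj_apply, and_iff_right_iff_imp]
      exact fun _ => ⟨le_rfl, by linarith⟩
    rw [this, volume_pi_pi]
    simp only [Real.volume_Icc, sub_zero, Finset.prod_const, Finset.card_univ]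
    rw [ENNReal.ofReal_pow (by linarith)]
  rcases o with _ | i
  · exact h0
  set T : (κ → ℝ) →ₗ[ℝ] (κ → ℝ) := LinearMap.pi fun k =>
    blk3L (if k = i then none else some k) - blk3L (some i) with hT
  have hTa : ∀ x k, T x k = (if k = i then 0 else x k) - x i := by
    intro x k
    simp only [hT, LinearMap.pi_apply, LinearMap.sub_apply]
    split_ifs <;> rfl
  have hTT : T * T = 1 := by
    ext1 x
    ext k
    simp only [LinearMap.comp_apply, Module.End.mul_apply, hTa, Module.End.one_apply]
    by_cases h : k = i <;> simp [h]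
  have hd : |LinearMap.det T| = 1 := by
    have h1 : LinearMap.det T * LinearMap.det T = 1 := by rw [← map_mul, hTT, map_one]
    rcases mul_self_eq_one_iff.1 h1 with h | h <;> simp [h]
  have he : blk3B r (some i) = T ⁻¹' blk3B r none := by
    ext x
    simp only [blk3B, mem_ofPred_eq, mem_preimage, Option.forall, blk3L, Option.elim,
      LinearMap.zero_apply, sub_zero, LinearMap.proj_apply, hTa]
    constructor
    · rintro ⟨h1, h2⟩
      refine ⟨⟨le_rfl, by linarith⟩, fun k => ?_⟩
      split_ifs
      exacts [h1, h2 k]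
    · rintro ⟨h1, h2⟩
      refine ⟨by simpa using h2 i, fun k => ?_⟩
      by_cases h : k = i
      · simpa [h] using hr
      · simpa [h] using h2 k
  rw [he, Measure.addHaar_preimage_linearMap _ (by
    intro h
    rw [h] at hd
    simp at hd), abs_inv, hd, h0]
  simp

theorem blk3_disj {κ : Type} [Fintype κ] (r : ℝ) :
    Pairwise (Function.onFun (AEDisjoint (volume : Measure (κ → ℝ))) (blk3B r)) := by
  classical
  intro o o' hne
  refine measure_mono_null (t := (LinearMap.ker (blk3L o - blk3L o') : Submodule ℝ (κ → ℝ)))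
    (fun x hx => ?_) (Measure.addHaar_submodule _ _ fun h => ?_)
  · have h1 := (hx.1 o').1
    have h2 := (hx.2 o).1
    simp only [SetLike.mem_coe, LinearMap.mem_ker, LinearMap.sub_apply]
    linarith
  · have h1 : ∀ x, blk3L o x = blk3L o' x := fun x => by
      have : x ∈ LinearMap.ker (blk3L o - blk3L o') := h ▸ Submodule.mem_top
      exact sub_eq_zero.1 this
    rcases o with _ | i <;> rcases o' with _ | k
    · exact hne rfl
    · simpa [blk3L] using h1 (Pi.single k 1)
    · simpa [blk3L] using h1 (Pi.single i 1)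
    · have h2 : k ≠ i := fun e => hne (by rw [e])
      simpa [blk3L, h2] using h1 (Pi.single i 1)

theorem blk3_test {b : Fin n → ι} {r : ι → ℝ} (hr : ∀ j, 0 ≤ r j) {x : E n}
    (hx : x ∈ bodyOf (fun v => ∑ j, r j * bn b j v)) {j : ι} {i k : Fin n} (hi : b i = j)
    (hk : b k = j) (α β : ℝ) : α * x i + β * x k ≤ r j * (|α| + |β| + |α + β|) := by
  have h := hx (EuclideanSpace.single i α + EuclideanSpace.single k β)
  rw [inner_add_right, EuclideanSpace.inner_single_right, EuclideanSpace.inner_single_right] at h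
  refine le_trans (le_of_eq (by simp)) (h.trans ?_)
  have hs : ∀ (l : Fin n) (c : ℝ) (j' : ι), b l = j →
      ∑ m ∈ Finset.univ.filter (fun m => b m = j'), (if m = l then c else 0) =
        if j' = j then c else 0 := by
    intro l c j' hl
    rw [Finset.sum_ite_eq']
    simp only [Finset.mem_filter, Finset.mem_univ, true_and, hl, eq_comm]
  have h2 : ∀ j', bn b j' (EuclideanSpace.single i α + EuclideanSpace.single k β) ≤
      if j' = j then |α| + |β| + |α + β| else 0 := by
    intro j'
    unfold bn
    simp only [PiLp.add_apply, PiLp.single_apply]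
    have h3 : ∑ m ∈ Finset.univ.filter (fun m => b m = j'),
        |(if m = i then α else 0) + if m = k then β else 0| ≤
        (if j' = j then |α| else 0) + if j' = j then |β| else 0 := by
      rw [← hs i _ j' hi, ← hs k _ j' hk, ← Finset.sum_add_distrib]
      refine Finset.sum_le_sum fun m _ => (abs_add_le _ _).trans (le_of_eq ?_)
      split_ifs <;> simp
    rw [Finset.sum_add_distrib, hs i _ j' hi, hs k _ j' hk]
    split_ifs at h3 ⊢
    · linarith
    · simpa using h3
  refine (Finset.sum_le_sum fun j' _ => mul_le_mul_of_nonneg_left (h2 j') (hr j')).trans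
    (le_of_eq ?_)
  simp only [mul_ite, mul_zero, Finset.sum_ite_eq', Finset.mem_univ, if_true]

/-- the set says: the range of `(0, x)` is at most `2 r`.  Split according to where the minimum of
`(0, x)` is attained: `[0, 2r]^κ`, and for each `i` the preimage of a box under the shear
`x ↦ (-x i, x k - x i)` (determinant `± 1`); overlaps lie in hyperplanes. -/
theorem vol_zon1 {κ : Type} [Fintype κ] {r : ℝ} (hr : 0 ≤ r) :
    (volume : Measure (κ → ℝ)) {x | ∃ t : ℝ, |t| ≤ r ∧ ∀ i, |x i - t| ≤ r} =
      ENNReal.ofReal ((Fintype.card κ + 1) * (2 * r) ^ Fintype.card κ) := by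
  rw [blk3_eq, measure_iUnion₀ (blk3_disj r) fun o => (blk3_meas r o).nullMeasurableSet]
  simp only [blk3_vol hr]
  rw [tsum_fintype, Finset.sum_const, Finset.card_univ, Fintype.card_option, nsmul_eq_mul,
    ENNReal.ofReal_mul (by positivity), ← ENNReal.ofReal_natCast]
  push_cast
  rfl

/-- test with `v = ± e_i`, `v = e_i - e_k` -/
theorem bodyOf_bn (b : Fin n → ι) (r : ι → ℝ) (hr : ∀ j, 0 ≤ r j) :
    bodyOf (fun v => ∑ j, r j * bn b j v) =
      {x : E n | ∀ j, ∃ t : ℝ, |t| ≤ r j ∧ ∀ i : {i // b i = j}, |x i - t| ≤ r j} := by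
  ext x
  constructor
  · intro hx j
    have h : (fun i : {i // b i = j} => x i) ∈
        {y : {i // b i = j} → ℝ | ∃ t : ℝ, |t| ≤ r j ∧ ∀ i, |y i - t| ≤ r j} := by
      rw [blk3_eq]
      refine blk3_mid ?_
      have := hr j
      rintro (_ | i) (_ | k) <;>
        simp only [blk3L, Option.elim, LinearMap.zero_apply, LinearMap.proj_apply]
      · linarith
      · have := blk3_test hr hx k.2 k.2 1 0
        norm_num at this
        linarith
      · have := blk3_test hr hx i.2 i.2 (-1) 0
        norm_num at this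
        linarith
      · have := blk3_test hr hx k.2 i.2 1 (-1)
        norm_num at this
        linarith
    exact h
  · intro hx v
    choose t h1 h2 using hx
    have e : ⟪x, v⟫_ℝ = ∑ j, ∑ i ∈ Finset.univ.filter (fun i => b i = j), x i * v i := by
      rw [Finset.sum_fiberwise Finset.univ b fun i => x i * v i, PiLp.inner_apply]
      exact Finset.sum_congr rfl fun i _ => by simp [mul_comm]
    rw [e]
    refine Finset.sum_le_sum fun j _ => ?_
    have e2 : ∑ i ∈ Finset.univ.filter (fun i => b i = j), x i * v i =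
        ∑ i ∈ Finset.univ.filter (fun i => b i = j), (x i - t j) * v i +
          t j * ∑ i ∈ Finset.univ.filter (fun i => b i = j), v i := by
      rw [Finset.mul_sum, ← Finset.sum_add_distrib]
      exact Finset.sum_congr rfl fun i _ => by ring
    rw [e2, bn, mul_add, Finset.mul_sum _ _ (r j)]
    refine add_le_add (Finset.sum_le_sum fun i hi => ?_) ?_
    · refine (le_abs_self _).trans ?_
      rw [abs_mul]
      exact mul_le_mul_of_nonneg_right (h2 j ⟨i, (Finset.mem_filter.1 hi).2⟩) (abs_nonneg _)
    · refine (le_abs_self _).trans ?_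
      rw [abs_mul]
      exact mul_le_mul_of_nonneg_right (h1 j) (abs_nonneg _)

theorem ratio_blk (hn : 1 ≤ n) (b : Fin n → ι) :
    (volume : Measure (E n)).real (bodyOf (sh (blk b))) / volume.real (blk b) ^ (n - 1) =
      ∏ j, ((dim b j : ℝ) + 1) * (dim b j : ℝ) ^ dim b j / (dim b j).factorial := by
  set V := (volume : Measure (E n)).real (blk b) with hV
  have hV0 : 0 < V := by
    rw [hV, vol_blk]
    positivity
  have hr : ∀ j, 0 ≤ V * dim b j / 2 := fun j => by positivity
  have h1 : volume.real (bodyOf (sh (blk b))) =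
      ∏ j, ((dim b j : ℝ) + 1) * (V * dim b j) ^ dim b j := by
    rw [show sh (blk b) = _ from funext (sh_blk b), bodyOf_bn b _ hr, Measure.real]
    have h2 := vol_fib b (fun j => {y : {i // b i = j} → ℝ |
      ∃ t : ℝ, |t| ≤ V * dim b j / 2 ∧ ∀ i, |y i - t| ≤ V * dim b j / 2}) fun j => by
        rw [blk3_eq]
        exact MeasurableSet.iUnion (blk3_meas _)
    simp only [mem_ofPred_eq] at h2
    rw [h2, ENNReal.toReal_prod]
    refine Finset.prod_congr rfl fun j _ => ?_
    rw [vol_zon1 (hr j), ENNReal.toReal_ofReal (by have := hr j; positivity), card_fib]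
    congr 2
    ring
  have h3 : V ^ n = V ^ (n - 1) * V := by
    rw [← pow_succ]
    congr 1
    omega
  rw [h1, div_eq_iff (by positivity)]
  have h4 : ∏ j, (((dim b j).factorial : ℝ))⁻¹ = V := by
    rw [hV, vol_blk]
    simp only [one_div]
  simp only [mul_pow, div_eq_mul_inv, Finset.prod_mul_distrib]
  rw [Finset.prod_pow_eq_pow_sum, sum_dim, h3, h4]
  ring

end Crest.Agent.R230
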