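import Crest.Agent.R230.Dual

/-!
Row 230 (Petty).  Coordinates `(t, y) ↦ t • u + y` adapted to a unit vector; the segment formula.
Tools: `Submodule.measurePreserving_measurableEquivProd`,
`InnerProductSpace.euclideanHausdorffMeasure_eq_volume`, `Isometry.euclideanHausdorffMeasure_image`,
`LinearIsometryEquiv.toSpanUnitSingleton`, `LinearIsometryEquiv.measurePreserving`.
-/

set_option autoImplicit false

noncomputable section

namespace Crest.Agent.R230

open MeasureTheory Metric Set MvPolynomial Filter Topology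
open scoped ENNReal InnerProductSpace Pointwise

variable {n : ℕ}

variable {u : E n}

theorem finrank_perp (hu : ‖u‖ = 1) : Module.finrank ℝ (ℝ ∙ u)ᗮ = n - 1 := by
  have h0 : u ≠ 0 := by
    rintro rfl
    simp at hu
  have h := (ℝ ∙ u).finrank_add_finrank_orthogonal
  rw [finrank_span_singleton h0, finrank_euclideanSpace_fin] at h
  omega

theorem continuous_spl (u : E n) : Continuous (spl u) := by
  unfold spl
  fun_prop

theorem inner_spl (hu : ‖u‖ = 1) (p : ℝ × (ℝ ∙ u)ᗮ) : ⟪spl u p, u⟫_ℝ = p.1 := by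
  rw [spl, inner_add_left, real_inner_smul_left, real_inner_self_eq_norm_sq, hu,
    Submodule.mem_orthogonal_singleton_iff_inner_left.1 p.2.2]
  ring

theorem norm_sq_spl (hu : ‖u‖ = 1) (p : ℝ × (ℝ ∙ u)ᗮ) : ‖spl u p‖ ^ 2 = p.1 ^ 2 + ‖p.2‖ ^ 2 := by
  rw [spl, norm_add_sq_real, real_inner_smul_left,
    Submodule.mem_orthogonal_singleton_iff_inner_right.1 p.2.2, norm_smul, hu, Real.norm_eq_abs,
    mul_one, sq_abs, Submodule.coe_norm]
  ring

theorem spl_surj (hu : ‖u‖ = 1) (x : E n) :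
    ∃ y : (ℝ ∙ u)ᗮ, (y : E n) = x - ⟪x, u⟫_ℝ • u ∧ spl u (⟪x, u⟫_ℝ, y) = x := by
  refine ⟨⟨x - ⟪x, u⟫_ℝ • u, Submodule.mem_orthogonal_singleton_iff_inner_left.2 ?_⟩, rfl, ?_⟩
  · rw [inner_sub_left, real_inner_smul_left, real_inner_self_eq_norm_sq, hu]
    ring
  · simp [spl]

theorem mp_spl (hu : ‖u‖ = 1) :
    MeasurePreserving (spl u) ((volume : Measure ℝ).prod (volume : Measure (ℝ ∙ u)ᗮ)) volume := by
  have h1 := ((ℝ ∙ u).measurePreserving_measurableEquivProd (0 : E n)).symm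
  rw [InnerProductSpace.euclideanHausdorffMeasure_eq_volume] at h1
  have h2 := (LinearIsometryEquiv.toSpanUnitSingleton (𝕜 := ℝ) u hu).measurePreserving.prod
    (MeasurePreserving.id (volume : Measure (ℝ ∙ u)ᗮ))
  have h3 : spl u = ((ℝ ∙ u).measurableEquivProd (0 : E n)).symm ∘
      Prod.map (LinearIsometryEquiv.toSpanUnitSingleton (𝕜 := ℝ) u hu) id := by
    ext1 p
    simp [spl]
  rw [h3]
  exact h1.comp h2

/-- an isometry of the hyperplane with `E (n-1)` (`stdOrthonormalBasis`, `finrank_perp`) -/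
theorem exists_perp_isom (hu : ‖u‖ = 1) : Nonempty ((ℝ ∙ u)ᗮ ≃ₗᵢ[ℝ] E (n - 1)) := by
  exact ⟨((stdOrthonormalBasis ℝ (ℝ ∙ u)ᗮ).reindex (finCongr (finrank_perp hu))).repr⟩

theorem hasPL_perp (hu : ‖u‖ = 1) : Lib.PL.HasPL (volume : Measure (ℝ ∙ u)ᗮ) := by
  obtain ⟨e⟩ := exists_perp_isom hu
  refine (Lib.PL.hasPL_pi (n - 1)).of_measurePreserving
    (e.symm.measurePreserving.comp (PiLp.volume_preserving_toLp (Fin (n - 1)))) fun x y => ?_
  simp only [Function.comp, WithLp.toLp_smul, WithLp.toLp_add, map_smul, map_add]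

theorem vol_ball_perp (hu : ‖u‖ = 1) {r : ℝ} (hr : 0 ≤ r) :
    volume (closedBall (0 : (ℝ ∙ u)ᗮ) r) = ENNReal.ofReal (r ^ (n - 1) * om (n - 1)) := by
  obtain ⟨e⟩ := exists_perp_isom hu
  rw [← e.symm.measurePreserving.measure_preimage measurableSet_closedBall.nullMeasurableSet,
    LinearIsometryEquiv.preimage_closedBall, map_zero, Measure.addHaar_closedBall _ _ hr,
    finrank_euclideanSpace_fin, om, ENNReal.ofReal_mul (by positivity), ofReal_measureReal]

theorem spl_shadow_image (hu : ‖u‖ = 1) (K : Set (E n)) :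
    Subtype.val '' {y : (ℝ ∙ u)ᗮ | ∃ t : ℝ, t • u + (y : E n) ∈ K} =
      (fun y => y - inner ℝ y u • u) '' K := by
  ext z
  constructor
  · rintro ⟨y, ⟨t, ht⟩, rfl⟩
    refine ⟨_, ht, ?_⟩
    have h : ⟪t • u + (y : E n), u⟫_ℝ = t := inner_spl hu (t, y)
    simp only [h, add_sub_cancel_left]
  · rintro ⟨x, hx, rfl⟩
    obtain ⟨y, h1, h2⟩ := spl_surj hu x
    exact ⟨y, ⟨⟪x, u⟫_ℝ, (show spl u (⟪x, u⟫_ℝ, y) ∈ K from h2.symm ▸ hx)⟩, h1⟩

theorem shadow_eq (hu : ‖u‖ = 1) (K : Set (E n)) :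
    (μHE[n - 1] : Measure (E n)) ((fun y => y - inner ℝ y u • u) '' K) =
      volume {y : (ℝ ∙ u)ᗮ | ∃ t : ℝ, t • u + (y : E n) ∈ K} := by
  rw [← InnerProductSpace.euclideanHausdorffMeasure_eq_volume, finrank_perp hu,
    ← spl_shadow_image hu]
  exact isometry_subtype_coe.euclideanHausdorffMeasure_image _

theorem isCompact_shadow (hu : ‖u‖ = 1) {K : Set (E n)} (hK : IsCompact K) :
    IsCompact {y : (ℝ ∙ u)ᗮ | ∃ t : ℝ, t • u + (y : E n) ∈ K} := by
  rw [Subtype.isCompact_iff, spl_shadow_image hu]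
  exact hK.image (by fun_prop)

/-- a nonempty compact convex subset of `ℝ` is an `Icc` -/
theorem vol_add_Icc {I : Set ℝ} (hI : IsCompact I) (hc : Convex ℝ I) (hne : I.Nonempty) {r : ℝ}
    (hr : 0 ≤ r) : volume (I + Icc 0 r) = volume I + ENNReal.ofReal r := by
  have h := eq_Icc_of_connected_compact (hc.isConnected hne) hI
  have hle : sInf I ≤ sSup I := by
    rw [h] at hne
    exact nonempty_Icc.1 hne
  rw [h, Icc_add_Icc hle hr, Real.volume_Icc, Real.volume_Icc, ← ENNReal.ofReal_add (by linarith) hr]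
  congr 1
  ring

theorem spl_vol (hu : ‖u‖ = 1) {A : Set (E n)} (hA : MeasurableSet A) :
    volume A = ∫⁻ y : (ℝ ∙ u)ᗮ, volume {t : ℝ | t • u + (y : E n) ∈ A} := by
  rw [← (mp_spl hu).measure_preimage hA.nullMeasurableSet,
    Measure.prod_apply_symm ((mp_spl hu).measurable hA)]
  rfl

/-- Fubini along `u = v / ‖v‖` (`mp_spl`, `Measure.prod_apply_symm`): the fibre of `K + [0, v]` over
`y` is (fibre of `K`) `+ Icc 0 ‖v‖` -/
theorem seg {K : Set (E n)} (hK : IsCompact K) (hc : Convex ℝ K) (v : E n) :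
    (volume : Measure (E n)).real (K + segment ℝ 0 v) = volume.real K + sh K v := by
  rcases eq_or_ne v 0 with rfl | hv
  · simp [sh]
  have hv0 : 0 < ‖v‖ := norm_pos_iff.2 hv
  obtain ⟨u, hu'⟩ : ∃ u, u = ‖v‖⁻¹ • v := ⟨_, rfl⟩
  have hu : ‖u‖ = 1 := by rw [hu', norm_smul, norm_inv, norm_norm, inv_mul_cancel₀ hv0.ne']
  have hvu : v = ‖v‖ • u := by rw [hu', smul_smul, mul_inv_cancel₀ hv0.ne', one_smul]
  have hs : IsCompact (K + segment ℝ 0 v) := by
    rw [segment_eq_image]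
    exact hK.add (isCompact_Icc.image (by fun_prop))
  have hS := isCompact_shadow hu hK
  have key : volume (K + segment ℝ 0 v) = volume K + ENNReal.ofReal ‖v‖ *
      volume {y : (ℝ ∙ u)ᗮ | ∃ t : ℝ, t • u + (y : E n) ∈ K} := by
    rw [spl_vol hu hs.measurableSet, spl_vol hu hK.measurableSet,
      ← lintegral_indicator_const hS.measurableSet,
      ← lintegral_add_right _ (measurable_const.indicator hS.measurableSet)]
    refine lintegral_congr fun y => ?_
    have h1 : {t : ℝ | t • u + (y : E n) ∈ K + segment ℝ 0 v} =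
        {t : ℝ | t • u + (y : E n) ∈ K} + Icc 0 ‖v‖ := by
      rw [segment_eq_image]
      ext t
      constructor
      · rintro ⟨k, hk, _, ⟨s, hs, rfl⟩, h⟩
        refine ⟨t - s * ‖v‖, ?_, s * ‖v‖, ⟨mul_nonneg hs.1 hv0.le,
          mul_le_of_le_one_left hv0.le hs.2⟩, by simp⟩
        have : (t - s * ‖v‖) • u + (y : E n) = k := by
          rw [sub_smul, mul_smul, ← hvu, sub_add_eq_add_sub, ← h]
          simp
        rw [mem_ofPred_eq, this]
        exact hk
      · rintro ⟨a, ha, b, hb, rfl⟩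
        refine ⟨_, ha, _, ⟨b / ‖v‖, ⟨div_nonneg hb.1 hv0.le, (div_le_one hv0).2 hb.2⟩, rfl⟩, ?_⟩
        simp only [smul_zero, zero_add]
        rw [div_eq_mul_inv, mul_smul, ← hu', add_smul]
        abel
    rw [h1]
    rcases {t : ℝ | t • u + (y : E n) ∈ K}.eq_empty_or_nonempty with h2 | h2
    · rw [indicator_of_notMem (fun hy => by obtain ⟨t, ht⟩ := hy; exact h2.le ht), h2]
      simp
    · rw [indicator_of_mem (show y ∈ _ from h2)]
      refine vol_add_Icc ?_ ?_ h2 hv0.le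
      · refine ((hK.image (f := fun x => ⟪x, u⟫_ℝ) (by fun_prop)).of_isClosed_subset
          (hK.isClosed.preimage (f := fun t : ℝ => t • u + (y : E n)) (by fun_prop))
          fun t ht => ⟨_, ht, inner_spl hu (t, y)⟩)
      · intro a ha b hb s t hs ht hst
        have h3 := hc ha hb hs ht hst
        have h4 : s • (a • u + (y : E n)) + t • (b • u + (y : E n)) =
            (s • a + t • b) • u + (s + t) • (y : E n) := by
          simp only [smul_eq_mul]
          module
        rwa [h4, hst, one_smul] at h3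
  rw [sh, ← hu', shadow_eq hu, Measure.real, Measure.real, key, ENNReal.toReal_add
    hK.measure_lt_top.ne (ENNReal.mul_ne_top ENNReal.ofReal_ne_top hS.measure_lt_top.ne),
    ENNReal.toReal_mul, ENNReal.toReal_ofReal hv0.le]

end Crest.Agent.R230
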