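import Crest.Agent.R230.Sph
import Crest.Agent.R230.Spl

/-!
Row 230 (Petty).  The constant `C0`.  Compute `∫_{ball} |⟪x, w⟫| dx` twice: in polar coordinates it is
`n om n /(n+1) * ∫ |⟪u, w⟫|`; with `mp_spl` it is `∫ |t| (1 - t²)^((n-1)/2) om (n-1) dt = 2 om (n-1)/(n+1)`
(`vol_ball_perp` with `r = √(1 - t²)`; primitive `-√(1-t²)^(n+1)/(n+1)` on `[0,1]`).
-/

set_option autoImplicit false

noncomputable section

namespace Crest.Agent.R230

open MeasureTheory Metric Set MvPolynomial Filter Topology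
open scoped ENNReal InnerProductSpace Pointwise

variable {n : ℕ}

theorem C0_one (m : ℕ) : ∫ t in (0 : ℝ)..1, |t| * √(1 - t ^ 2) ^ m = 1 / ((m : ℝ) + 2) := by
  have hm : (0 : ℝ) < (m : ℝ) + 2 := by positivity
  have h := intervalIntegral.integral_eq_sub_of_hasDerivAt_of_le (a := 0) (b := 1)
    (f := fun t : ℝ => -(√(1 - t ^ 2) ^ (m + 2)) / ((m : ℝ) + 2))
    (f' := fun t : ℝ => |t| * √(1 - t ^ 2) ^ m) zero_le_one (by fun_prop) ?_
    (Continuous.intervalIntegrable (by fun_prop) _ _)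
  · rw [h]
    simp
    field_simp
  · intro t ht
    have h0 : 0 < 1 - t ^ 2 := by nlinarith [ht.1, ht.2]
    have h1 : HasDerivAt (fun t : ℝ => 1 - t ^ 2) (-(2 * t)) t := by
      simpa using (hasDerivAt_pow 2 t).const_sub 1
    have h2 := (((h1.sqrt h0.ne').pow (m + 2)).neg).div_const ((m : ℝ) + 2)
    have h3 : 0 < √(1 - t ^ 2) := Real.sqrt_pos.2 h0
    refine h2.congr_deriv ?_
    rw [abs_of_pos ht.1, show m + 2 - 1 = m + 1 by omega]
    push_cast
    field_simp
    ring

theorem C0_two (m : ℕ) : ∫ t in (-1 : ℝ)..1, |t| * √(1 - t ^ 2) ^ m = 2 / ((m : ℝ) + 2) := by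
  have hc : Continuous fun t : ℝ => |t| * √(1 - t ^ 2) ^ m := by fun_prop
  rw [← intervalIntegral.integral_add_adjacent_intervals (b := 0) (hc.intervalIntegrable _ _)
    (hc.intervalIntegrable _ _)]
  have h := intervalIntegral.integral_comp_neg (a := 0) (b := 1)
    (fun t : ℝ => |t| * √(1 - t ^ 2) ^ m)
  simp only [abs_neg, even_two.neg_pow, neg_zero] at h
  rw [← h, C0_one]
  ring

theorem C0_meas (w : E n) :
    Measurable ((closedBall (0 : E n) 1).indicator fun x => ENNReal.ofReal |⟪x, w⟫_ℝ|) :=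
  Measurable.indicator (by fun_prop) measurableSet_closedBall

theorem C0_polar [NeZero n] (w : E n) :
    ∫⁻ x, (closedBall (0 : E n) 1).indicator (fun x => ENNReal.ofReal |⟪x, w⟫_ℝ|) x =
      ENNReal.ofReal (n * om n * ((∫ u, |⟪u, w⟫_ℝ| ∂sg n) / ((n : ℝ) + 1))) := by
  set I : ℝ := ∫ u, |⟪u, w⟫_ℝ| ∂sg n with hI
  have hI0 : 0 ≤ I := integral_nonneg fun _ => abs_nonneg _
  have hn : 1 ≤ n := Nat.one_le_iff_ne_zero.2 (NeZero.ne n)
  have hint : Integrable (fun u : E n => |⟪u, w⟫_ℝ|) (sg n) := integrable_of_cont (by fun_prop)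
  rw [lintegral_polar (C0_meas w), ENNReal.ofReal_mul (mul_nonneg (Nat.cast_nonneg _) om_pos.le)]
  congr 1
  have e1 : ∀ r ∈ Ioi (0 : ℝ), ENNReal.ofReal (r ^ (n - 1)) * ∫⁻ u,
      (closedBall (0 : E n) 1).indicator (fun x => ENNReal.ofReal |⟪x, w⟫_ℝ|) (r • u) ∂sg n =
      (Iic (1 : ℝ)).indicator (fun r => ENNReal.ofReal (r ^ n * I)) r := by
    intro r hr
    have hr0 : 0 < r := hr
    by_cases h1 : r ≤ 1
    · rw [indicator_of_mem (show r ∈ Iic (1 : ℝ) from h1)]
      have e2 : ∫⁻ u, (closedBall (0 : E n) 1).indicator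
          (fun x => ENNReal.ofReal |⟪x, w⟫_ℝ|) (r • u) ∂sg n =
          ∫⁻ u, ENNReal.ofReal (r * |⟪u, w⟫_ℝ|) ∂sg n := by
        refine lintegral_congr_ae (ae_norm.mono fun u hu => ?_)
        have : r • u ∈ closedBall (0 : E n) 1 := by
          rw [mem_closedBall_zero_iff, norm_smul, hu, mul_one, Real.norm_of_nonneg hr0.le]
          exact h1
        simp only
        rw [indicator_of_mem this, real_inner_smul_left, abs_mul, abs_of_pos hr0]
      rw [e2, ← ofReal_integral_eq_lintegral_ofReal (hint.const_mul r)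
        (ae_of_all _ fun u => by positivity), integral_const_mul,
        ← ENNReal.ofReal_mul (by positivity), ← mul_assoc, ← pow_succ, Nat.sub_add_cancel hn]
    · rw [indicator_of_notMem (show r ∉ Iic (1 : ℝ) from h1)]
      have e2 : ∫⁻ u, (closedBall (0 : E n) 1).indicator
          (fun x => ENNReal.ofReal |⟪x, w⟫_ℝ|) (r • u) ∂sg n = ∫⁻ _u, 0 ∂sg n := by
        refine lintegral_congr_ae (ae_norm.mono fun u hu => ?_)
        have : r • u ∉ closedBall (0 : E n) 1 := by
          rw [mem_closedBall_zero_iff, norm_smul, hu, mul_one, Real.norm_of_nonneg hr0.le]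
          exact h1
        simp only
        rw [indicator_of_notMem this]
      rw [e2]
      simp
  rw [setLIntegral_congr_fun measurableSet_Ioi e1, lintegral_indicator measurableSet_Iic,
    Measure.restrict_restrict measurableSet_Iic, Iic_inter_Ioi,
    ← ofReal_integral_eq_lintegral_ofReal
      ((Continuous.integrableOn_Icc (a := 0) (b := 1) (by fun_prop)).mono_set Ioc_subset_Icc_self)
      ((ae_restrict_iff' measurableSet_Ioc).2 (ae_of_all _ fun r hr => by
        have := hr.1.le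
        positivity)),
    ← intervalIntegral.integral_of_le zero_le_one, intervalIntegral.integral_mul_const,
    integral_pow]
  congr 1
  simp
  ring

theorem C0_split [NeZero n] {w : E n} (hw : ‖w‖ = 1) :
    ∫⁻ x, (closedBall (0 : E n) 1).indicator (fun x => ENNReal.ofReal |⟪x, w⟫_ℝ|) x =
      ENNReal.ofReal (2 / ((n : ℝ) + 1) * om (n - 1)) := by
  have hn : 1 ≤ n := Nat.one_le_iff_ne_zero.2 (NeZero.ne n)
  have ho : 0 < om (n - 1) := om_pos
  rw [← (mp_spl hw).lintegral_comp (C0_meas w),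
    lintegral_prod (fun p => (closedBall (0 : E n) 1).indicator
      (fun x => ENNReal.ofReal |⟪x, w⟫_ℝ|) (spl w p))
      ((C0_meas w).comp (continuous_spl w).measurable).aemeasurable]
  have e1 : ∀ t : ℝ, ∫⁻ y : (ℝ ∙ w)ᗮ, (closedBall (0 : E n) 1).indicator
      (fun x => ENNReal.ofReal |⟪x, w⟫_ℝ|) (spl w (t, y)) =
      (Icc (-1 : ℝ) 1).indicator
        (fun t => ENNReal.ofReal (|t| * √(1 - t ^ 2) ^ (n - 1) * om (n - 1))) t := by
    intro t
    have hmem : ∀ y : (ℝ ∙ w)ᗮ, spl w (t, y) ∈ closedBall (0 : E n) 1 ↔ t ^ 2 + ‖y‖ ^ 2 ≤ 1 := by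
      intro y
      rw [mem_closedBall_zero_iff, ← norm_sq_spl hw (t, y),
        sq_le_one_iff₀ (norm_nonneg _)]
    by_cases ht : t ∈ Icc (-1 : ℝ) 1
    · have h0 : 0 ≤ 1 - t ^ 2 := by nlinarith [ht.1, ht.2]
      rw [indicator_of_mem ht, mul_assoc, ENNReal.ofReal_mul (abs_nonneg _),
        ← vol_ball_perp hw (Real.sqrt_nonneg _),
        ← lintegral_indicator_const measurableSet_closedBall]
      refine lintegral_congr fun y => ?_
      have h1 : spl w (t, y) ∈ closedBall (0 : E n) 1 ↔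
          y ∈ closedBall (0 : (ℝ ∙ w)ᗮ) √(1 - t ^ 2) := by
        rw [hmem, mem_closedBall_zero_iff, Real.le_sqrt (norm_nonneg _) h0]
        constructor <;> intro h <;> linarith
      by_cases hy : y ∈ closedBall (0 : (ℝ ∙ w)ᗮ) √(1 - t ^ 2)
      · rw [indicator_of_mem hy, indicator_of_mem (h1.2 hy), inner_spl hw]
      · rw [indicator_of_notMem hy, indicator_of_notMem (fun h => hy (h1.1 h))]
    · rw [indicator_of_notMem ht]
      refine (lintegral_congr fun y => ?_).trans lintegral_zero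
      refine indicator_of_notMem (fun h => ht ?_) _
      have h1 := (hmem y).1 h
      have h2 : t ^ 2 ≤ 1 := by nlinarith [sq_nonneg ‖y‖]
      exact abs_le.1 ((sq_le_one_iff_abs_le_one t).1 h2)
  simp only [e1]
  rw [lintegral_indicator measurableSet_Icc, ← ofReal_integral_eq_lintegral_ofReal
      (Continuous.integrableOn_Icc (by fun_prop)) (ae_of_all _ fun r => by positivity),
    integral_Icc_eq_integral_Ioc, ← intervalIntegral.integral_of_le (by norm_num),
    intervalIntegral.integral_mul_const, C0_two, Nat.cast_sub hn]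
  congr 2
  push_cast
  ring

theorem int_abs_inner [NeZero n] {w : E n} (hw : ‖w‖ = 1) :
    ∫ u, |⟪u, w⟫_ℝ| ∂sg n = C0 n := by
  have hn : (0 : ℝ) < n := Nat.cast_pos.2 (Nat.pos_of_ne_zero (NeZero.ne n))
  have ho : 0 < om n := om_pos
  have ho' : 0 < om (n - 1) := om_pos
  have hI0 : 0 ≤ ∫ u, |⟪u, w⟫_ℝ| ∂sg n := integral_nonneg fun _ => abs_nonneg _
  have h := (C0_polar w).symm.trans (C0_split hw)
  rw [ENNReal.ofReal_eq_ofReal_iff (by positivity) (by positivity)] at h
  unfold C0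
  field_simp at h ⊢
  linarith

theorem int_abs_inner' [NeZero n] (w : E n) : ∫ u, |⟪u, w⟫_ℝ| ∂sg n = C0 n * ‖w‖ := by
  by_cases hw : w = 0
  · simp [hw]
  have h0 : 0 < ‖w‖ := norm_pos_iff.2 hw
  have h1 : ‖(‖w‖⁻¹ • w : E n)‖ = 1 := by
    rw [norm_smul, norm_inv, norm_norm, inv_mul_cancel₀ h0.ne']
  rw [← int_abs_inner h1, ← integral_mul_const]
  refine integral_congr_ae (ae_of_all _ fun u => ?_)
  simp only
  rw [real_inner_smul_right, abs_mul, abs_of_pos (inv_pos.2 h0)]
  field_simp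

end Crest.Agent.R230
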