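import Crest.Agent.R230.Defs

/-!
Row 230 (Petty).  One-variable calculus for `hh, hd, ph, jj`.
-/

set_option autoImplicit false

noncomputable section

namespace Crest.Agent.R230

open MeasureTheory Metric Set MvPolynomial Filter Topology
open scoped ENNReal InnerProductSpace Pointwise

variable {n : ℕ}

variable {β s : ℕ}

theorem Cert_der_inv (k : ℕ) {t : ℝ} (ht : 0 < t) :
    HasDerivAt (fun t : ℝ => (t ^ k)⁻¹) (-(k : ℝ) * (t ^ (k + 1))⁻¹) t := by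
  have h := (hasDerivAt_pow k t).fun_inv (pow_pos ht k).ne'
  refine h.congr_deriv ?_
  rcases k with _ | k
  · simp
  · simp only [Nat.add_sub_cancel]
    field_simp
    ring

theorem Cert_cont_hd : ContinuousOn (hd β s) (Ioi 0) := by
  unfold hd
  refine continuousOn_const.mul (ContinuousOn.sub (by fun_prop) ?_)
  exact ContinuousOn.inv₀ (by fun_prop) fun t ht => (pow_pos (mem_Ioi.1 ht) _).ne'

theorem C1_hh (hβ : 1 ≤ β) (hs : 1 ≤ s) : C1 (hh β s) (hd β s) := by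
  refine ⟨fun t ht => ?_, Cert_cont_hd⟩
  have h := ((hasDerivAt_pow β t).sub_const 1).fun_add
    (((Cert_der_inv s ht).sub_const 1).const_mul ((β : ℝ) / s))
  have hs' : (s : ℝ) ≠ 0 := by exact_mod_cast (by omega : s ≠ 0)
  refine h.congr_deriv ?_
  unfold hd
  field_simp
  ring

theorem hd_one : hd β s 1 = 0 := by
  simp [hd]

theorem hh_one : hh β s 1 = 0 := by
  simp [hh]

theorem C1_ph (hβ : 1 ≤ β) (hs : β ≤ s) : C1 (ph β s) (fun t => hd β s t ^ 2) := by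
  refine ⟨fun t ht => ?_, Cert_cont_hd.pow 2⟩
  obtain ⟨b, rfl⟩ : ∃ b, β = b + 1 := ⟨β - 1, by omega⟩
  obtain ⟨r, rfl⟩ : ∃ r, s = b + 1 + r := ⟨s - (b + 1), by omega⟩
  have h := (((((hasDerivAt_pow (2 * (b + 1) - 1) t).sub_const 1).div_const
    (2 * ((b + 1 : ℕ) : ℝ) - 1)).fun_add
    ((((Cert_der_inv (b + 1 + r + 1 - (b + 1)) ht).sub_const 1).const_mul 2).div_const
      (((b + 1 + r : ℕ) : ℝ) + 1 - ((b + 1 : ℕ) : ℝ)))).fun_sub
    (((Cert_der_inv (2 * (b + 1 + r) + 1) ht).sub_const 1).div_const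
      (2 * ((b + 1 + r : ℕ) : ℝ) + 1))).const_mul (((b + 1 : ℕ) : ℝ) ^ 2)
  refine h.congr_deriv ?_
  unfold hd
  rw [show 2 * (b + 1) - 1 = 2 * b + 1 by omega, show b + 1 + r + 1 - (b + 1) = r + 1 by omega]
  simp only [Nat.add_sub_cancel]
  push_cast
  rw [show 2 * ((b : ℝ) + 1) - 1 = 2 * b + 1 by ring,
    show (b : ℝ) + 1 + r + 1 - (b + 1) = r + 1 by ring]
  field_simp
  ring

theorem ph_one : ph β s 1 = 0 := by
  simp [ph]

theorem ph_nonneg (hβ : 1 ≤ β) (hs : β ≤ s) {t : ℝ} (ht : 1 ≤ t) : 0 ≤ ph β s t := by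
  have h := C1_ph hβ hs
  have hm : MonotoneOn (ph β s) (Ici 1) := by
    refine monotoneOn_of_deriv_nonneg (convex_Ici 1)
      (fun x hx => (h.der x (one_pos.trans_le hx)).continuousAt.continuousWithinAt)
      (fun x hx => ?_) fun x hx => ?_
    · rw [interior_Ici] at hx
      exact (h.der x (one_pos.trans hx)).differentiableAt.differentiableWithinAt
    · rw [interior_Ici] at hx
      rw [(h.der x (one_pos.trans hx)).deriv]
      positivity
  have := hm (self_mem_Ici) ht ht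
  rwa [ph_one] at this

theorem Cert_hh_one_ge (hs : 1 ≤ s) {t : ℝ} (ht : 0 < t) : (t - 1) ^ 2 / t ≤ hh 1 s t := by
  have hs' : (0 : ℝ) < s := by exact_mod_cast hs
  have h1 := one_add_mul_le_pow (a := t⁻¹ - 1) (by linarith [inv_pos.2 ht]) s
  rw [add_sub_cancel, inv_pow] at h1
  have h2 : t⁻¹ - 1 ≤ 1 / s * ((t ^ s)⁻¹ - 1) := by
    rw [one_div, le_inv_mul_iff₀ hs']
    linarith
  have h3 : (t - 1) ^ 2 / t = t - 1 + (t⁻¹ - 1) := by
    field_simp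
    ring
  unfold hh
  rw [h3, pow_one, Nat.cast_one]
  linarith

/-- Bernoulli: `t ^ β ≥ 1 + β (t - 1)` and `hh 1 s t ≥ 0` -/
theorem hh_nonneg (hβ : 1 ≤ β) (hs : 1 ≤ s) {t : ℝ} (ht : 0 < t) : 0 ≤ hh β s t := by
  have h1 := one_add_mul_le_pow (a := t - 1) (by linarith) β
  rw [add_sub_cancel] at h1
  have h2 : 0 ≤ hh 1 s t := le_trans (by positivity) (Cert_hh_one_ge hs ht)
  have h3 : hh β s t = t ^ β - (1 + β * (t - 1)) + β * hh 1 s t := by
    unfold hh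
    push_cast
    ring
  have h4 : 0 ≤ β * hh 1 s t := by positivity
  linarith

/-- `s t^s hh 1 s t = (1 - t)² ∑_{i<s} (i+1) t^i` -/
theorem hh_one_pos (hs : 1 ≤ s) {t : ℝ} (ht : 0 < t) (h1 : t ≠ 1) : 0 < hh 1 s t := by
  have h2 : t - 1 ≠ 0 := sub_ne_zero.2 h1
  exact lt_of_lt_of_le (by positivity) (Cert_hh_one_ge hs ht)

theorem Cert_jj_ge (hβ : 1 ≤ β) {t : ℝ} (ht : 0 < t) : 2 * hh 1 s t ≤ jj β s t := by
  obtain ⟨b, rfl⟩ : ∃ b, β = b + 1 := ⟨β - 1, by omega⟩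
  have h1 : jj (b + 1) s t = 2 * ((t ^ b - 1) * (t - 1)) + 2 * hh 1 s t := by
    unfold jj hh
    simp only [Nat.add_sub_cancel]
    push_cast
    ring
  have h2 : 0 ≤ (t ^ b - 1) * (t - 1) := by
    rcases le_total t 1 with h | h
    · exact mul_nonneg_of_nonpos_of_nonpos (sub_nonpos.2 (pow_le_one₀ ht.le h)) (sub_nonpos.2 h)
    · exact mul_nonneg (sub_nonneg.2 (one_le_pow₀ h)) (sub_nonneg.2 h)
  linarith

/-- `jj β s t = 2 (t^(β-1) - 1)(t - 1) + 2 hh 1 s t` -/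
theorem jj_pos (hβ : 1 ≤ β) (hs : 1 ≤ s) {t : ℝ} (ht : 0 < t) (h1 : t ≠ 1) : 0 < jj β s t := by
  have h2 := Cert_jj_ge (s := s) hβ ht
  have h3 := hh_one_pos hs ht h1
  linarith

theorem jj_nonneg (hβ : 1 ≤ β) (hs : 1 ≤ s) {t : ℝ} (ht : 0 < t) : 0 ≤ jj β s t := by
  have h2 := Cert_jj_ge (s := s) hβ ht
  have h3 := hh_nonneg (β := 1) le_rfl hs ht
  linarith

/-- tangent line: with `y = t⁻¹`, `s y^m - m y^s ≥ s - m` for `s ≤ m` -/
theorem inv_pow_tangent {m : ℕ} (hs : 1 ≤ s) (hm : s ≤ m) {t : ℝ} (ht : 0 < t) :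
    1 + (m : ℝ) / s * ((t ^ s)⁻¹ - 1) ≤ (t ^ m)⁻¹ := by
  have hs' : (0 : ℝ) < s := by exact_mod_cast hs
  have hm' : (s : ℝ) ≤ m := by exact_mod_cast hm
  have hy : 0 < (t ^ s)⁻¹ := by positivity
  have h := one_add_mul_self_le_rpow_one_add (s := (t ^ s)⁻¹ - 1) (by linarith)
    (p := (m : ℝ) / s) ((one_le_div hs').2 hm')
  refine h.trans (le_of_eq ?_)
  rw [add_sub_cancel, ← inv_pow, ← inv_pow, ← Real.rpow_natCast _ s,
    ← Real.rpow_mul (inv_pos.2 ht).le, mul_div_cancel₀ _ hs'.ne', Real.rpow_natCast]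

end Crest.Agent.R230
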