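import Crest.Agent.R230.Defs

/-!
Row 230 (Petty).  The four numerical certificates.
-/

set_option autoImplicit false

noncomputable section

namespace Crest.Agent.R230

open MeasureTheory Metric Set MvPolynomial Filter Topology
open scoped ENNReal InnerProductSpace Pointwise

variable {n : ℕ}

theorem high4 (t : ℝ) (ht : 1 ≤ t) :
    (49 / 10 : ℝ) * (t ^ 1 - 1 - (18 / 25 : ℝ) * hh 1 4 t) ^ 2
      + (9 / 5 : ℝ) * (18 / 25 : ℝ) ^ 2 * (ph 1 4 t * t - (29 / 20 : ℝ) * hh 1 4 t ^ 2)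
      ≤ (1 - (1 / 100 : ℝ)) * jj 1 4 t := by
  obtain ⟨x, hx, rfl⟩ : ∃ x, 0 ≤ x ∧ t = 1 + x := ⟨t - 1, by linarith, by ring⟩
  have ht0 : (1 + x) ≠ 0 := by positivity
  have key : (1 - (1 / 100 : ℝ)) * jj 1 4 (1 + x)
      - ((49 / 10 : ℝ) * ((1 + x) ^ 1 - 1 - (18 / 25 : ℝ) * hh 1 4 (1 + x)) ^ 2
      + (9 / 5 : ℝ) * (18 / 25 : ℝ) ^ 2 * (ph 1 4 (1 + x) * (1 + x)
        - (29 / 20 : ℝ) * hh 1 4 (1 + x) ^ 2))
      = ((1 / 20 : ℝ) * x ^ 2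
      + (91 / 250 : ℝ) * x ^ 3
      + (14767 / 5000 : ℝ) * x ^ 4
      + (9881 / 1250 : ℝ) * x ^ 5
      + (25319 / 2500 : ℝ) * x ^ 6
      + (44077 / 6250 : ℝ) * x ^ 7
      + (135457 / 50000 : ℝ) * x ^ 8
      + (3283 / 6250 : ℝ) * x ^ 9
      + (1117 / 31250 : ℝ) * x ^ 10) / (1 + x) ^ 8 := by
    simp only [hh, ph, jj]
    norm_num
    field_simp
    ring
  have h2 : 0 ≤ ((1 / 20 : ℝ) * x ^ 2
      + (91 / 250 : ℝ) * x ^ 3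
      + (14767 / 5000 : ℝ) * x ^ 4
      + (9881 / 1250 : ℝ) * x ^ 5
      + (25319 / 2500 : ℝ) * x ^ 6
      + (44077 / 6250 : ℝ) * x ^ 7
      + (135457 / 50000 : ℝ) * x ^ 8
      + (3283 / 6250 : ℝ) * x ^ 9
      + (1117 / 31250 : ℝ) * x ^ 10) / (1 + x) ^ 8 := by
    positivity
  linarith

theorem low4 (t : ℝ) (ht0 : 0 < t) (ht : t ≤ 1) :
    (49 / 10 : ℝ) * (t ^ 1 - 1) ^ 2 ≤ (1 - (1 / 100 : ℝ)) * jj 1 4 t := by
  obtain ⟨x, hx, rfl⟩ : ∃ x, 0 ≤ x ∧ t = (1 + x)⁻¹ := by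
    refine ⟨t⁻¹ - 1, ?_, by simp⟩
    have := (one_le_inv₀ ht0).2 ht
    linarith
  have ht0 : (1 + x) ≠ 0 := by positivity
  have key : (1 - (1 / 100 : ℝ)) * jj 1 4 (1 + x)⁻¹
      - (49 / 10 : ℝ) * ((1 + x)⁻¹ ^ 1 - 1) ^ 2
      = ((1 / 20 : ℝ) * x ^ 2
      + (99 / 10 : ℝ) * x ^ 3
      + (297 / 40 : ℝ) * x ^ 4
      + (297 / 100 : ℝ) * x ^ 5
      + (99 / 200 : ℝ) * x ^ 6) / (1 + x) ^ 2 := by
    simp only [jj]
    norm_num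
    field_simp
    ring
  have h2 : 0 ≤ ((1 / 20 : ℝ) * x ^ 2
      + (99 / 10 : ℝ) * x ^ 3
      + (297 / 40 : ℝ) * x ^ 4
      + (297 / 100 : ℝ) * x ^ 5
      + (99 / 200 : ℝ) * x ^ 6) / (1 + x) ^ 2 := by
    positivity
  linarith

theorem high5 (t : ℝ) (ht : 1 ≤ t) :
    (27 / 5 : ℝ) * (t ^ 1 - 1 - (16 / 25 : ℝ) * hh 1 5 t) ^ 2
      + (23 / 10 : ℝ) * (16 / 25 : ℝ) ^ 2 * (ph 1 5 t * t - (9 / 5 : ℝ) * hh 1 5 t ^ 2)
      ≤ (1 - (1 / 100 : ℝ)) * jj 1 5 t := by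
  obtain ⟨x, hx, rfl⟩ : ∃ x, 0 ≤ x ∧ t = 1 + x := ⟨t - 1, by linarith, by ring⟩
  have ht0 : (1 + x) ≠ 0 := by positivity
  have key : (1 - (1 / 100 : ℝ)) * jj 1 5 (1 + x)
      - ((27 / 5 : ℝ) * ((1 + x) ^ 1 - 1 - (16 / 25 : ℝ) * hh 1 5 (1 + x)) ^ 2
      + (23 / 10 : ℝ) * (16 / 25 : ℝ) ^ 2 * (ph 1 5 (1 + x) * (1 + x)
        - (9 / 5 : ℝ) * hh 1 5 (1 + x) ^ 2))
      = ((27 / 50 : ℝ) * x ^ 2
      + (6069 / 6250 : ℝ) * x ^ 3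
      + (85863 / 31250 : ℝ) * x ^ 4
      + (345657 / 31250 : ℝ) * x ^ 5
      + (380461 / 15625 : ℝ) * x ^ 6
      + (2396079 / 78125 : ℝ) * x ^ 7
      + (3755493 / 156250 : ℝ) * x ^ 8
      + (1889989 / 156250 : ℝ) * x ^ 9
      + (2990697 / 781250 : ℝ) * x ^ 10
      + (1188321 / 1718750 : ℝ) * x ^ 11
      + (841 / 15625 : ℝ) * x ^ 12) / (1 + x) ^ 10 := by
    simp only [hh, ph, jj]
    norm_num
    field_simp
    ring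
  have h2 : 0 ≤ ((27 / 50 : ℝ) * x ^ 2
      + (6069 / 6250 : ℝ) * x ^ 3
      + (85863 / 31250 : ℝ) * x ^ 4
      + (345657 / 31250 : ℝ) * x ^ 5
      + (380461 / 15625 : ℝ) * x ^ 6
      + (2396079 / 78125 : ℝ) * x ^ 7
      + (3755493 / 156250 : ℝ) * x ^ 8
      + (1889989 / 156250 : ℝ) * x ^ 9
      + (2990697 / 781250 : ℝ) * x ^ 10
      + (1188321 / 1718750 : ℝ) * x ^ 11
      + (841 / 15625 : ℝ) * x ^ 12) / (1 + x) ^ 10 := by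
    positivity
  linarith

theorem low5 (t : ℝ) (ht0 : 0 < t) (ht : t ≤ 1) :
    (27 / 5 : ℝ) * (t ^ 1 - 1) ^ 2 ≤ (1 - (1 / 100 : ℝ)) * jj 1 5 t := by
  obtain ⟨x, hx, rfl⟩ : ∃ x, 0 ≤ x ∧ t = (1 + x)⁻¹ := by
    refine ⟨t⁻¹ - 1, ?_, by simp⟩
    have := (one_le_inv₀ ht0).2 ht
    linarith
  have ht0 : (1 + x) ≠ 0 := by positivity
  have key : (1 - (1 / 100 : ℝ)) * jj 1 5 (1 + x)⁻¹
      - (27 / 5 : ℝ) * ((1 + x)⁻¹ ^ 1 - 1) ^ 2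
      = ((27 / 50 : ℝ) * x ^ 2
      + (693 / 50 : ℝ) * x ^ 3
      + (693 / 50 : ℝ) * x ^ 4
      + (2079 / 250 : ℝ) * x ^ 5
      + (693 / 250 : ℝ) * x ^ 6
      + (99 / 250 : ℝ) * x ^ 7) / (1 + x) ^ 2 := by
    simp only [jj]
    norm_num
    field_simp
    ring
  have h2 : 0 ≤ ((27 / 50 : ℝ) * x ^ 2
      + (693 / 50 : ℝ) * x ^ 3
      + (693 / 50 : ℝ) * x ^ 4
      + (2079 / 250 : ℝ) * x ^ 5
      + (693 / 250 : ℝ) * x ^ 6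
      + (99 / 250 : ℝ) * x ^ 7) / (1 + x) ^ 2 := by
    positivity
  linarith

theorem high7 (t : ℝ) (ht : 1 ≤ t) :
    (7 : ℝ) * (t ^ 1 - 1 - (3 / 5 : ℝ) * hh 1 7 t) ^ 2
      + (53 / 20 : ℝ) * (3 / 5 : ℝ) ^ 2 * (ph 1 7 t * t - (11 / 5 : ℝ) * hh 1 7 t ^ 2)
      ≤ (1 - (1 / 100 : ℝ)) * jj 1 7 t := by
  obtain ⟨x, hx, rfl⟩ : ∃ x, 0 ≤ x ∧ t = 1 + x := ⟨t - 1, by linarith, by ring⟩
  have ht0 : (1 + x) ≠ 0 := by positivity
  have key : (1 - (1 / 100 : ℝ)) * jj 1 7 (1 + x)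
      - ((7 : ℝ) * ((1 + x) ^ 1 - 1 - (3 / 5 : ℝ) * hh 1 7 (1 + x)) ^ 2
      + (53 / 20 : ℝ) * (3 / 5 : ℝ) ^ 2 * (ph 1 7 (1 + x) * (1 + x)
        - (11 / 5 : ℝ) * hh 1 7 (1 + x) ^ 2))
      = ((23 / 25 : ℝ) * x ^ 2
      + (296 / 125 : ℝ) * x ^ 3
      + (3398 / 625 : ℝ) * x ^ 4
      + (17621 / 625 : ℝ) * x ^ 5
      + (65758 / 625 : ℝ) * x ^ 6
      + (1044131 / 4375 : ℝ) * x ^ 7
      + (3155493 / 8750 : ℝ) * x ^ 8
      + (3380949 / 8750 : ℝ) * x ^ 9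
      + (2649933 / 8750 : ℝ) * x ^ 10
      + (1532089 / 8750 : ℝ) * x ^ 11
      + (646217 / 8750 : ℝ) * x ^ 12
      + (192553 / 8750 : ℝ) * x ^ 13
      + (266359 / 61250 : ℝ) * x ^ 14
      + (4397 / 8750 : ℝ) * x ^ 15
      + (31 / 1250 : ℝ) * x ^ 16) / (1 + x) ^ 14 := by
    simp only [hh, ph, jj]
    norm_num
    field_simp
    ring
  have h2 : 0 ≤ ((23 / 25 : ℝ) * x ^ 2
      + (296 / 125 : ℝ) * x ^ 3
      + (3398 / 625 : ℝ) * x ^ 4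
      + (17621 / 625 : ℝ) * x ^ 5
      + (65758 / 625 : ℝ) * x ^ 6
      + (1044131 / 4375 : ℝ) * x ^ 7
      + (3155493 / 8750 : ℝ) * x ^ 8
      + (3380949 / 8750 : ℝ) * x ^ 9
      + (2649933 / 8750 : ℝ) * x ^ 10
      + (1532089 / 8750 : ℝ) * x ^ 11
      + (646217 / 8750 : ℝ) * x ^ 12
      + (192553 / 8750 : ℝ) * x ^ 13
      + (266359 / 61250 : ℝ) * x ^ 14
      + (4397 / 8750 : ℝ) * x ^ 15
      + (31 / 1250 : ℝ) * x ^ 16) / (1 + x) ^ 14 := by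
    positivity
  linarith

theorem low7 (t : ℝ) (ht0 : 0 < t) (ht : t ≤ 1) :
    (7 : ℝ) * (t ^ 1 - 1) ^ 2 ≤ (1 - (1 / 100 : ℝ)) * jj 1 7 t := by
  obtain ⟨x, hx, rfl⟩ : ∃ x, 0 ≤ x ∧ t = (1 + x)⁻¹ := by
    refine ⟨t⁻¹ - 1, ?_, by simp⟩
    have := (one_le_inv₀ ht0).2 ht
    linarith
  have ht0 : (1 + x) ≠ 0 := by positivity
  have key : (1 - (1 / 100 : ℝ)) * jj 1 7 (1 + x)⁻¹
      - (7 : ℝ) * ((1 + x)⁻¹ ^ 1 - 1) ^ 2
      = ((23 / 25 : ℝ) * x ^ 2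
      + (594 / 25 : ℝ) * x ^ 3
      + (891 / 25 : ℝ) * x ^ 4
      + (891 / 25 : ℝ) * x ^ 5
      + (594 / 25 : ℝ) * x ^ 6
      + (1782 / 175 : ℝ) * x ^ 7
      + (891 / 350 : ℝ) * x ^ 8
      + (99 / 350 : ℝ) * x ^ 9) / (1 + x) ^ 2 := by
    simp only [jj]
    norm_num
    field_simp
    ring
  have h2 : 0 ≤ ((23 / 25 : ℝ) * x ^ 2
      + (594 / 25 : ℝ) * x ^ 3
      + (891 / 25 : ℝ) * x ^ 4
      + (891 / 25 : ℝ) * x ^ 5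
      + (594 / 25 : ℝ) * x ^ 6
      + (1782 / 175 : ℝ) * x ^ 7
      + (891 / 350 : ℝ) * x ^ 8
      + (99 / 350 : ℝ) * x ^ 9) / (1 + x) ^ 2 := by
    positivity
  linarith

theorem high12 (t : ℝ) (ht : 1 ≤ t) :
    (2 : ℝ) * (t ^ 2 - 1 - (33 / 50 : ℝ) * hh 2 12 t) ^ 2
      + (1 : ℝ) * (33 / 50 : ℝ) ^ 2 * (ph 2 12 t * t - (2 : ℝ) * hh 2 12 t ^ 2)
      ≤ (1 - (1 / 100 : ℝ)) * jj 2 12 t := by
  obtain ⟨x, hx, rfl⟩ : ∃ x, 0 ≤ x ∧ t = 1 + x := ⟨t - 1, by linarith, by ring⟩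
  have ht0 : (1 + x) ≠ 0 := by positivity
  have key : (1 - (1 / 100 : ℝ)) * jj 2 12 (1 + x)
      - ((2 : ℝ) * ((1 + x) ^ 2 - 1 - (33 / 50 : ℝ) * hh 2 12 (1 + x)) ^ 2
      + (1 : ℝ) * (33 / 50 : ℝ) ^ 2 * (ph 2 12 (1 + x) * (1 + x)
        - (2 : ℝ) * hh 2 12 (1 + x) ^ 2))
      = ((137 / 20 : ℝ) * x ^ 2
      + (70529 / 1250 : ℝ) * x ^ 3
      + (1175469 / 5000 : ℝ) * x ^ 4
      + (1969131 / 3125 : ℝ) * x ^ 5
      + (174727 / 125 : ℝ) * x ^ 6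
      + (2625502 / 625 : ℝ) * x ^ 7
      + (10814309 / 625 : ℝ) * x ^ 8
      + (40075288 / 625 : ℝ) * x ^ 9
      + (2333353803 / 12500 : ℝ) * x ^ 10
      + (535917063 / 1250 : ℝ) * x ^ 11
      + (3975193717 / 5000 : ℝ) * x ^ 12
      + (151682566 / 125 : ℝ) * x ^ 13
      + (965688358 / 625 : ℝ) * x ^ 14
      + (5174432222 / 3125 : ℝ) * x ^ 15
      + (7506358177 / 5000 : ℝ) * x ^ 16
      + (1442826731 / 1250 : ℝ) * x ^ 17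
      + (470264003 / 625 : ℝ) * x ^ 18
      + (259232149 / 625 : ℝ) * x ^ 19
      + (2404644319 / 12500 : ℝ) * x ^ 20
      + (46547446 / 625 : ℝ) * x ^ 21
      + (29740909 / 1250 : ℝ) * x ^ 22
      + (3856567 / 625 : ℝ) * x ^ 23
      + (6343663 / 5000 : ℝ) * x ^ 24
      + (6235847 / 31250 : ℝ) * x ^ 25
      + (28297 / 1250 : ℝ) * x ^ 26
      + (1036 / 625 : ℝ) * x ^ 27
      + (37 / 625 : ℝ) * x ^ 28) / (1 + x) ^ 24 := by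
    simp only [hh, ph, jj]
    norm_num
    field_simp
    ring
  have h2 : 0 ≤ ((137 / 20 : ℝ) * x ^ 2
      + (70529 / 1250 : ℝ) * x ^ 3
      + (1175469 / 5000 : ℝ) * x ^ 4
      + (1969131 / 3125 : ℝ) * x ^ 5
      + (174727 / 125 : ℝ) * x ^ 6
      + (2625502 / 625 : ℝ) * x ^ 7
      + (10814309 / 625 : ℝ) * x ^ 8
      + (40075288 / 625 : ℝ) * x ^ 9
      + (2333353803 / 12500 : ℝ) * x ^ 10
      + (535917063 / 1250 : ℝ) * x ^ 11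
      + (3975193717 / 5000 : ℝ) * x ^ 12
      + (151682566 / 125 : ℝ) * x ^ 13
      + (965688358 / 625 : ℝ) * x ^ 14
      + (5174432222 / 3125 : ℝ) * x ^ 15
      + (7506358177 / 5000 : ℝ) * x ^ 16
      + (1442826731 / 1250 : ℝ) * x ^ 17
      + (470264003 / 625 : ℝ) * x ^ 18
      + (259232149 / 625 : ℝ) * x ^ 19
      + (2404644319 / 12500 : ℝ) * x ^ 20
      + (46547446 / 625 : ℝ) * x ^ 21
      + (29740909 / 1250 : ℝ) * x ^ 22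
      + (3856567 / 625 : ℝ) * x ^ 23
      + (6343663 / 5000 : ℝ) * x ^ 24
      + (6235847 / 31250 : ℝ) * x ^ 25
      + (28297 / 1250 : ℝ) * x ^ 26
      + (1036 / 625 : ℝ) * x ^ 27
      + (37 / 625 : ℝ) * x ^ 28) / (1 + x) ^ 24 := by
    positivity
  linarith

theorem low12 (t : ℝ) (ht0 : 0 < t) (ht : t ≤ 1) :
    (2 : ℝ) * (t ^ 2 - 1) ^ 2 ≤ (1 - (1 / 100 : ℝ)) * jj 2 12 t := by
  obtain ⟨x, hx, rfl⟩ : ∃ x, 0 ≤ x ∧ t = (1 + x)⁻¹ := by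
    refine ⟨t⁻¹ - 1, ?_, by simp⟩
    have := (one_le_inv₀ ht0).2 ht
    linarith
  have ht0 : (1 + x) ≠ 0 := by positivity
  have key : (1 - (1 / 100 : ℝ)) * jj 2 12 (1 + x)⁻¹
      - (2 : ℝ) * ((1 + x)⁻¹ ^ 2 - 1) ^ 2
      = ((137 / 20 : ℝ) * x ^ 2
      + (2044 / 25 : ℝ) * x ^ 3
      + (59627 / 200 : ℝ) * x ^ 4
      + (18018 / 25 : ℝ) * x ^ 5
      + (33033 / 25 : ℝ) * x ^ 6
      + (9438 / 5 : ℝ) * x ^ 7
      + (42471 / 20 : ℝ) * x ^ 8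
      + (9438 / 5 : ℝ) * x ^ 9
      + (33033 / 25 : ℝ) * x ^ 10
      + (18018 / 25 : ℝ) * x ^ 11
      + (3003 / 10 : ℝ) * x ^ 12
      + (462 / 5 : ℝ) * x ^ 13
      + (99 / 5 : ℝ) * x ^ 14
      + (66 / 25 : ℝ) * x ^ 15
      + (33 / 200 : ℝ) * x ^ 16) / (1 + x) ^ 4 := by
    simp only [jj]
    norm_num
    field_simp
    ring
  have h2 : 0 ≤ ((137 / 20 : ℝ) * x ^ 2
      + (2044 / 25 : ℝ) * x ^ 3
      + (59627 / 200 : ℝ) * x ^ 4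
      + (18018 / 25 : ℝ) * x ^ 5
      + (33033 / 25 : ℝ) * x ^ 6
      + (9438 / 5 : ℝ) * x ^ 7
      + (42471 / 20 : ℝ) * x ^ 8
      + (9438 / 5 : ℝ) * x ^ 9
      + (33033 / 25 : ℝ) * x ^ 10
      + (18018 / 25 : ℝ) * x ^ 11
      + (3003 / 10 : ℝ) * x ^ 12
      + (462 / 5 : ℝ) * x ^ 13
      + (99 / 5 : ℝ) * x ^ 14
      + (66 / 25 : ℝ) * x ^ 15
      + (33 / 200 : ℝ) * x ^ 16) / (1 + x) ^ 4 := by
    positivity
  linarith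

theorem cm_two (n : ℕ) : cm n 2 = -1 / (((n : ℝ) + 1) * (n + 3)) := by
  have h1 : (n : ℝ) + 1 ≠ 0 := by positivity
  have h3 : (n : ℝ) + 3 ≠ 0 := by positivity
  have h3' : (n : ℝ) + 2 + 1 ≠ 0 := by positivity
  simp only [cm]
  norm_num
  field_simp
  ring

theorem lam_two (n : ℕ) : lam n 2 = 4 * ((n : ℝ) + 2) := by
  simp only [lam]; norm_num; ring

theorem spec_two (hn : 12 ≤ n) : SpecOK n ((2 : ℕ) : ℝ) 2 1 2 := by
  have hn' : (12 : ℝ) ≤ n := by exact_mod_cast hn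
  refine ⟨by norm_num, by norm_num, by norm_num, by linarith, ?_⟩
  have h1 : (0 : ℝ) < (n : ℝ) + 1 := by positivity
  have h3 : (0 : ℝ) < (n : ℝ) + 3 := by positivity
  have h5 : (0 : ℝ) < (n : ℝ) + 5 := by positivity
  have hb : bm n ((2 : ℕ) : ℝ) 2 = -(((n : ℝ) ^ 2 + 5 * n + 7) / (((n : ℝ) + 1) * (n + 3))) := by
    simp only [bm, cm_two, lam_two]
    push_cast
    field_simp
    ring
  have hc : 1 / (2 : ℝ) + ((n : ℝ) - 1) / (1 * (lam n 2 - 2 * ((n : ℝ) - 1)))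
      = ((n : ℝ) + 2) / (n + 5) := by
    have : (1 * (lam n 2 - 2 * ((n : ℝ) - 1))) = 2 * ((n : ℝ) + 5) := by rw [lam_two]; ring
    rw [this]
    field_simp
    ring
  rw [hb, abs_neg, abs_of_nonneg (by positivity), hc, div_mul_div_comm, div_le_one (by positivity)]
  nlinarith

theorem exists_cert (hn : 4 ≤ n) : ∃ (β s : ℕ) (a B κ ρ η : ℝ), Cert n β s a B κ ρ η := by
  rcases lt_or_ge n 12 with h12 | h12
  · rcases lt_or_ge n 5 with h5 | h5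
    · obtain rfl : n = 4 := by omega
      refine ⟨1, 4, 49 / 10, 9 / 5, 29 / 20, 18 / 25, 1 / 100, Or.inl rfl, by norm_num, le_rfl,
        ⟨by norm_num, by norm_num, by norm_num, by norm_num, ?_⟩, by norm_num, by norm_num,
        by norm_num, by norm_num, by norm_num, low4, high4⟩
      simp only [bm, cm_two, lam_two]
      norm_num [abs_of_nonpos]
    · rcases lt_or_ge n 7 with h7 | h7
      · refine ⟨1, 5, 27 / 5, 23 / 10, 9 / 5, 16 / 25, 1 / 100, Or.inl rfl, by norm_num, h5,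
          ⟨by norm_num, by norm_num, by norm_num, ?_, ?_⟩, by norm_num, by norm_num,
          by norm_num, by norm_num, by norm_num, low5, high5⟩
        · interval_cases n <;> norm_num
        · simp only [bm, cm_two, lam_two]
          interval_cases n <;> norm_num [abs_of_nonpos]
      · refine ⟨1, 7, 7, 53 / 20, 11 / 5, 3 / 5, 1 / 100, Or.inl rfl, by norm_num, h7,
          ⟨by norm_num, by norm_num, by norm_num, ?_, ?_⟩, by norm_num, by norm_num,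
          by norm_num, by norm_num, by norm_num, low7, high7⟩
        · interval_cases n <;> norm_num
        · simp only [bm, cm_two, lam_two]
          interval_cases n <;> norm_num [abs_of_nonpos]
  · exact ⟨2, 12, 2, 1, 2, 33 / 50, 1 / 100, Or.inr rfl, by norm_num, h12, spec_two h12,
      by norm_num, by norm_num, by norm_num, by norm_num, by norm_num, low12, high12⟩

end Crest.Agent.R230
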