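import Crest.Agent.R230.Orth

/-!
Row 230 (Petty).  Density of harmonic sums among admissible fields.
-/

set_option autoImplicit false

noncomputable section

namespace Crest.Agent.R230

open MeasureTheory Metric Set MvPolynomial Filter Topology
open scoped ENNReal InnerProductSpace Pointwise

variable {n : ℕ}

theorem Dens_int [NeZero n] {a g : E n → ℝ} (ha : Integrable a (sg n)) (hg : Continuous g) :
    Integrable (fun u => a u * g u) (sg n) := ha.mul_of_top_left (memLp_of_cont hg ⊤)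

/-- the polynomial functions -/
def Dens_alg (n : ℕ) : Subalgebra ℝ C(E n, ℝ) where
  carrier := {f | ∃ p : Pl n, ⇑f = ev p}
  mul_mem' := by
    rintro f g ⟨p, hp⟩ ⟨q, hq⟩
    exact ⟨p * q, funext fun x => by simp [hp, hq]⟩
  add_mem' := by
    rintro f g ⟨p, hp⟩ ⟨q, hq⟩
    exact ⟨p + q, funext fun x => by simp [hp, hq]⟩
  algebraMap_mem' c := ⟨C c, funext fun x => by simp⟩

theorem Dens_sep : (Dens_alg n).SeparatesPoints := by
  intro x y hxy
  obtain ⟨i, hi⟩ : ∃ i, x i ≠ y i := by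
    by_contra h
    push Not at h
    exact hxy (PiLp.ext h)
  exact ⟨_, ⟨⟨ev (X i), continuous_ev _⟩, ⟨X i, rfl⟩, rfl⟩, by simpa using hi⟩

/-- Stone-Weierstrass on `closedBall 0 1` (subalgebra generated by the coordinates) gives the
vanishing against every continuous function; then
`ae_eq_zero_of_integral_contDiff_smul_eq_zero` -/
theorem poly_dense [NeZero n] {a : E n → ℝ} (ha : Integrable a (sg n))
    (h : ∀ p : Pl n, ∫ u, a u * ev p u ∂sg n = 0) : ∀ᵐ u ∂sg n, a u = 0 := by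
  refine ae_eq_zero_of_integral_contDiff_smul_eq_zero ha.locallyIntegrable fun g hg _ => ?_
  have hc := hg.continuous
  have h0 : 0 ≤ ∫ u, |a u| ∂sg n := integral_nonneg fun u => abs_nonneg _
  refine abs_nonpos_iff.1 (le_of_forall_pos_le_add fun ε hε => ?_)
  obtain ⟨f, ⟨p, hp⟩, hf⟩ :=
    ContinuousMap.exists_mem_subalgebra_near_continuous_of_isCompact_of_separatesPoints Dens_sep
      ⟨g, hc⟩ (isCompact_sphere (0 : E n) 1) (ε := ε / (∫ u, |a u| ∂sg n + 1)) (by positivity)
  have e : ∫ x, g x • a x ∂sg n = ∫ x, a x * (g x - ev p x) ∂sg n := by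
    simp only [mul_sub, smul_eq_mul, mul_comm (g _)]
    rw [integral_sub (Dens_int ha hc) (Dens_int ha (continuous_ev p)), h p, sub_zero]
  have h1 := norm_integral_le_of_norm_le (f := fun x => a x * (g x - ev p x))
    (ha.abs.mul_const (ε / (∫ u, |a u| ∂sg n + 1))) (by
      filter_upwards [ae_norm] with u hu
      have := hf u (by simpa using hu)
      rw [hp, norm_sub_rev] at this
      rw [norm_mul]
      exact mul_le_mul_of_nonneg_left this.le (norm_nonneg _))
  rw [integral_mul_const, Real.norm_eq_abs] at h1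
  rw [e, zero_add]
  refine h1.trans ?_
  rw [← mul_div_assoc, div_le_iff₀ (by positivity)]
  nlinarith

theorem Dens_hom [NeZero n] {a : E n → ℝ} (ha : Integrable a (sg n))
    (h : ∀ (d : ℕ) (p : Pl n), p.IsHomogeneous d → ∫ u, a u * ev p u ∂sg n = 0) :
    ∀ᵐ u ∂sg n, a u = 0 := by
  refine poly_dense ha fun p => ?_
  rw [← sum_homogeneousComponent p]
  simp only [ev_sum, Finset.mul_sum]
  rw [integral_finsetSum _ fun d _ => Dens_int ha (continuous_ev _)]
  exact Finset.sum_eq_zero fun d _ => h d _ (homogeneousComponent_isHomogeneous d p)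

/-- `MvPolynomial.sum_homogeneousComponent`, `harm_decomp` -/
theorem harm_dense [NeZero n] {a : E n → ℝ} (ha : Integrable a (sg n))
    (h : ∀ (k : ℕ) (p : Pl n), IsHm k p → ∫ u, a u * ev p u ∂sg n = 0) :
    ∀ᵐ u ∂sg n, a u = 0 := by
  refine Dens_hom ha fun d p hp => ?_
  obtain ⟨c, hc, hc'⟩ := harm_decomp (Nat.one_le_iff_ne_zero.2 (NeZero.ne n)) hp
  rw [integral_congr_ae (g := fun u => ∑ j ∈ Finset.range (d / 2 + 1), a u * ev (c j) u)
    (ae_norm.mono fun u hu => by simp only [hc' u hu, Finset.mul_sum]),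
    integral_finsetSum _ fun d _ => Dens_int ha (continuous_ev _)]
  exact Finset.sum_eq_zero fun j _ => h _ _ (hc j)

theorem Dens_coord [NeZero n] {R : E n → E n} (hR : MemLp R 2 (sg n)) (i : Fin n) :
    Integrable (fun u => R u i) (sg n) :=
  (EuclideanSpace.proj i : E n →L[ℝ] ℝ).integrable_comp (hR.integrable one_le_two)

/-- `Wk.inner_Xh` and `harm_dense` give `rad R = 0`; then `Wk` and `poly_dense` give `R · i = 0` -/
theorem Wk.eq_zero (hn : 2 ≤ n) {R : E n → E n} (hR : Wk R) (hR2 : MemLp R 2 (sg n))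
    (h : ∀ (k : ℕ) (p : Pl n), IsHm k p → ∫ u, ⟪R u, Xh k p u⟫_ℝ ∂sg n = 0) :
    ∀ᵐ u ∂sg n, R u = 0 := by
  have : NeZero n := ⟨by omega⟩
  have hn' : (2 : ℝ) ≤ n := by exact_mod_cast hn
  have h1 : ∀ᵐ u ∂sg n, rad R u = 0 := by
    refine harm_dense ((memLp_rad hR2).integrable one_le_two) fun k p hp => ?_
    have h2 := h k p hp
    have h3 : 0 ≤ (k : ℝ) * (k + n - 2) := mul_nonneg k.cast_nonneg (by linarith [k.cast_nonneg (α := ℝ)])
    rw [hR.inner_Xh hR2 hp] at h2
    exact (mul_eq_zero.1 h2).resolve_left (by linarith)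
  have h2 : ∀ g : E n → ℝ, ∫ u, rad R u * g u ∂sg n = 0 := fun g =>
    integral_eq_zero_of_ae (h1.mono fun u hu => by simp [hu])
  have h3 : ∀ i, ∀ᵐ u ∂sg n, R u i = 0 := fun i =>
    Dens_hom (Dens_coord hR2 i) fun d q hq => by rw [hR d q hq i, h2, h2]; simp
  exact (ae_all_iff.2 h3).mono fun u hu => PiLp.ext hu

/-- the test fields of `Wk` -/
def Dens_Z (d : ℕ) (q : Pl n) (i : Fin n) (u : E n) : E n :=
  ev q u • EuclideanSpace.single i 1 + (ev (pderiv i q) u - ((d : ℝ) + n) * (u i * ev q u)) • u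

theorem Dens_Z_cont (d : ℕ) (q : Pl n) (i : Fin n) : Continuous (Dens_Z d q i) := by
  have h1 := continuous_ev q
  have h2 := continuous_ev (pderiv i q)
  unfold Dens_Z
  fun_prop

theorem Dens_wk [NeZero n] {R : E n → E n} (hR : MemLp R 2 (sg n)) :
    Wk R ↔ ∀ (d : ℕ) (q : Pl n), q.IsHomogeneous d → ∀ i, ∫ u, ⟪R u, Dens_Z d q i u⟫_ℝ ∂sg n = 0 := by
  refine forall₄_congr fun d q _ i => ?_
  have h0 := (memLp_rad hR).integrable one_le_two
  have h1 := Dens_int (Dens_coord hR i) (continuous_ev q)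
  have h2 := Dens_int h0 (continuous_ev (pderiv i q))
  have h3 := Dens_int (g := fun u => u i * ev q u) h0 (by have := continuous_ev q; fun_prop)
  have e : ∀ u, ⟪R u, Dens_Z d q i u⟫_ℝ = R u i * ev q u + (rad R u * ev (pderiv i q) u -
      ((d : ℝ) + n) * (rad R u * (u i * ev q u))) := fun u => by
    simp only [Dens_Z, inner_add_right, inner_smul_right, EuclideanSpace.inner_single_right, rad,
      conj_trivial]
    ring
  simp only [e]
  have h4 : Integrable (fun u => rad R u * ev (pderiv i q) u -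
      ((d : ℝ) + n) * (rad R u * (u i * ev q u))) (sg n) := h2.sub (h3.const_mul _)
  rw [integral_add h1 h4, integral_sub h2 (h3.const_mul _), integral_const_mul]
  constructor <;> intro h <;> linarith

theorem Dens_inner {A B : E n → E n} (hA : MemLp A 2 (sg n)) (hB : MemLp B 2 (sg n)) :
    Integrable (fun u => ⟪A u, B u⟫_ℝ) (sg n) :=
  (L2.integrable_inner (hA.toLp A) (hB.toLp B)).congr (by
    filter_upwards [hA.coeFn_toLp, hB.coeFn_toLp] with u h1 h2
    rw [h1, h2])

theorem Dens_inner_eq (f : Lp (E n) 2 (sg n)) {B : E n → E n} (hB : MemLp B 2 (sg n)) :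
    ⟪f, hB.toLp B⟫_ℝ = ∫ u, ⟪f u, B u⟫_ℝ ∂sg n := by
  rw [L2.inner_def]
  exact integral_congr_ae (hB.coeFn_toLp.mono fun u h => by simp only [h])

/-- finite sums of the fields `Xh` -/
def Dens_V (n : ℕ) : Submodule ℝ (Lp (E n) 2 (sg n)) where
  carrier := {f | ∃ (M : ℕ) (e : ℕ → Pl n), (∀ k, IsHm k (e k)) ∧
    ∀ M', M ≤ M' → f =ᵐ[sg n] fun u => ∑ k ∈ Finset.range M', Xh k (e k) u}
  add_mem' := by
    rintro f g ⟨M, e, he, hf⟩ ⟨N, e', he', hg⟩
    refine ⟨max M N, fun k => e k + e' k, fun k => (he k).add (he' k), fun M' h => ?_⟩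
    filter_upwards [Lp.coeFn_add f g, hf M' (le_of_max_le_left h), hg M' (le_of_max_le_right h)]
      with u h1 h2 h3
    simp only [h1, Pi.add_apply, h2, h3, Xh_add, Finset.sum_add_distrib]
  zero_mem' := ⟨0, fun _ => 0, isHm_zero, fun M' _ => by
    filter_upwards [Lp.coeFn_zero (E n) 2 (sg n)] with u h1
    rw [h1]
    simp [Xh_zero]⟩
  smul_mem' := by
    rintro c f ⟨M, e, he, hf⟩
    refine ⟨M, fun k => C c * e k, fun k => (he k).cmul c, fun M' h => ?_⟩
    filter_upwards [Lp.coeFn_smul c f, hf M' h] with u h1 h2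
    simp only [h1, Pi.smul_apply, h2, Xh_cmul, Finset.smul_sum]

theorem Dens_V_mem [NeZero n] {k : ℕ} {p : Pl n} (hp : IsHm k p) :
    (memLp_of_cont (continuous_Xh k p) 2).toLp _ ∈ Dens_V n := by
  refine ⟨k + 1, fun j => if j = k then p else 0, fun j => ?_, fun M' h => ?_⟩
  · beta_reduce
    split_ifs with e
    · exact e ▸ hp
    · exact isHm_zero j
  · filter_upwards [(memLp_of_cont (continuous_Xh k p) 2).coeFn_toLp] with u hu
    rw [hu, Finset.sum_eq_single_of_mem k (Finset.mem_range.2 h) fun j _ hj => by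
      rw [if_neg hj, Xh_zero], if_pos rfl]

theorem Dens_V_orth [NeZero n] {f : Lp (E n) 2 (sg n)} (hf : f ∈ (Dens_V n).topologicalClosure)
    {d : ℕ} {q : Pl n} (hq : q.IsHomogeneous d) (i : Fin n) :
    ⟪f, (memLp_of_cont (Dens_Z_cont d q i) 2).toLp _⟫_ℝ = 0 := by
  refine closure_minimal (t := {f | ⟪f, (memLp_of_cont (Dens_Z_cont d q i) 2).toLp _⟫_ℝ = 0}) ?_
    (isClosed_eq (by fun_prop) continuous_const) hf
  rintro f ⟨M, e, he, hf⟩
  have hX := fun k => memLp_of_cont (continuous_Xh k (e k)) 2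
  rw [mem_ofPred_eq, Dens_inner_eq, integral_congr_ae (g := fun u => ∑ k ∈ Finset.range M,
    ⟪Xh k (e k) u, Dens_Z d q i u⟫_ℝ) ((hf M le_rfl).mono fun u hu => by simp only [hu, sum_inner]),
    integral_finsetSum _ fun k _ => Dens_inner (hX k) (memLp_of_cont (Dens_Z_cont d q i) 2)]
  exact Finset.sum_eq_zero fun k _ => (Dens_wk (hX k)).1 (wk_Xh (he k).hom) d q hq i

/-- In the Hilbert space `Lp (E n) 2 (sg n)` let `V` be the span of the `Xh k p`; `{R | Wk R}` is a
closed subspace containing `V` (each condition is `⟪R, Z⟫ = 0` for a fixed continuous field `Z`,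
so `Wk` only depends on the a.e. class), so `Y - proj_{closure V} Y` vanishes by `Wk.eq_zero`.
Elements of `V` are finite sums `∑_{k < M} Xh k (e k)`. -/
theorem dens_all (hn : 2 ≤ n) {Y : E n → E n} (hY : Wk Y) (hY2 : MemLp Y 2 (sg n)) {ε : ℝ}
    (hε : 0 < ε) : ∃ (M : ℕ) (e : ℕ → Pl n), (∀ k, IsHm k (e k)) ∧
      ∫ u, ‖Y u - ∑ k ∈ Finset.range M, Xh k (e k) u‖ ^ 2 ∂sg n < ε := by
  have : NeZero n := ⟨by omega⟩
  obtain ⟨y, hy, z, hz, e⟩ := (Dens_V n).topologicalClosure.exists_add_mem_mem_orthogonal (hY2.toLp Y)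
  have hz0 : z = 0 := by
    refine Lp.ext ((Wk.eq_zero hn ((Dens_wk (Lp.memLp z)).2 fun d q hq i => ?_) (Lp.memLp z)
      fun k p hp => ?_).mp ((Lp.coeFn_zero (E n) 2 (sg n)).mono fun u h1 h2 => by rw [h1, h2]; rfl))
    · rw [← Dens_inner_eq z (memLp_of_cont (Dens_Z_cont d q i) 2), eq_sub_of_add_eq' e.symm,
        inner_sub_left, Dens_V_orth hy hq, sub_zero, Dens_inner_eq,
        ← (Dens_wk hY2).1 hY d q hq i]
      exact integral_congr_ae (hY2.coeFn_toLp.mono fun u h => by simp only [h])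
    · rw [← Dens_inner_eq z (memLp_of_cont (continuous_Xh k p) 2)]
      exact Submodule.inner_left_of_mem_orthogonal
        ((Dens_V n).le_topologicalClosure (Dens_V_mem hp)) hz
  rw [hz0, add_zero] at e
  obtain ⟨f, ⟨M, c, hc, hf⟩, hd⟩ := Metric.mem_closure_iff.1 hy _ (Real.sqrt_pos.2 hε)
  refine ⟨M, c, hc, lt_of_eq_of_lt ?_ ((Real.lt_sqrt dist_nonneg).1 hd)⟩
  rw [dist_eq_norm, ← real_inner_self_eq_norm_sq, L2.inner_def, ← e]
  refine integral_congr_ae ?_
  filter_upwards [Lp.coeFn_sub (hY2.toLp Y) f, hY2.coeFn_toLp, hf M le_rfl] with u h1 h2 h3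
  rw [real_inner_self_eq_norm_sq, h1, Pi.sub_apply, h2, h3]

theorem Dens_pair {F : Type*} [AddCommMonoid F] (f : ℕ → F) (K : ℕ) :
    ∑ k ∈ Finset.range (2 * K), f k =
      ∑ j ∈ Finset.range K, f (2 * j) + ∑ j ∈ Finset.range K, f (2 * j + 1) := by
  induction K with
  | zero => simp
  | succ K ih =>
    rw [mul_add, mul_one, Finset.sum_range_succ, Finset.sum_range_succ, ih, Finset.sum_range_succ,
      Finset.sum_range_succ]
    abel

/-- drop the odd `k`: `Y - X_even` is an odd field, `X_odd` an even field (`Xh_neg`), so they are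
orthogonal (`int_odd`); put `c j = e (2 j)` if `2 j < M`, else `0` -/
theorem dens (hn : 2 ≤ n) {Y : E n → E n} (hY : Adm Y) {ε : ℝ} (hε : 0 < ε) :
    ∃ (K₀ : ℕ) (c : ℕ → Pl n), IsHS c ∧
      ∀ K, K₀ ≤ K → ∫ u, ‖Y u - fld K c u‖ ^ 2 ∂sg n < ε := by
  have : NeZero n := ⟨by omega⟩
  obtain ⟨M, e, he, h⟩ := dens_all hn hY.wk hY.l2 hε
  have he' : ∀ k, IsHm k (if k < M then e k else 0) := fun k => by
    split_ifs
    exacts [he k, isHm_zero k]
  refine ⟨M, fun j => if 2 * j < M then e (2 * j) else 0, fun j => he' (2 * j), fun K hK => ?_⟩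
  have h1 : ∀ u, ∑ k ∈ Finset.range M, Xh k (e k) u =
      fld K (fun j => if 2 * j < M then e (2 * j) else 0) u + ∑ j ∈ Finset.range K,
        Xh (2 * j + 1) (if 2 * j + 1 < M then e (2 * j + 1) else 0) u := fun u => by
    rw [fld, ← Dens_pair fun k => Xh k (if k < M then e k else 0) u]
    refine Finset.sum_subset_zero_on_sdiff (Finset.range_mono (by omega)) (fun k hk => ?_)
      fun k hk => by rw [if_pos (Finset.mem_range.1 hk)]
    rw [if_neg fun h => (Finset.mem_sdiff.1 hk).2 (Finset.mem_range.2 h), Xh_zero]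
  have h2 : ∀ u, fld K (fun j => if 2 * j < M then e (2 * j) else 0) (-u) =
      -fld K (fun j => if 2 * j < M then e (2 * j) else 0) u := fun u => by
    rw [fld, fld, ← Finset.sum_neg_distrib]
    exact Finset.sum_congr rfl fun j _ => by
      rw [Xh_neg (he' (2 * j)).hom, pow_succ, pow_mul]
      simp
  have h3 : ∀ u, ∑ j ∈ Finset.range K, Xh (2 * j + 1) (if 2 * j + 1 < M then e (2 * j + 1) else 0) (-u) =
      ∑ j ∈ Finset.range K, Xh (2 * j + 1) (if 2 * j + 1 < M then e (2 * j + 1) else 0) u := fun u =>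
    Finset.sum_congr rfl fun j _ => by
      rw [Xh_neg (he' (2 * j + 1)).hom, pow_succ, pow_succ, pow_mul]
      simp
  have h4 : Integrable (fun u => ‖Y u - ∑ k ∈ Finset.range M, Xh k (e k) u‖ ^ 2) (sg n) :=
    (hY.l2.sub (memLp_of_cont (continuous_finsetSum _ fun k _ => continuous_Xh k (e k))
      2)).integrable_norm_pow two_ne_zero
  have h5 := mp_neg.integrable_comp_of_integrable h4
  refine lt_of_le_of_lt ((integral_mono_of_nonneg (ae_of_all _ fun u => sq_nonneg _)
    ((h4.add h5).div_const 2) (ae_of_all _ fun u => ?_)).trans (le_of_eq ?_)) h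
  · simp only [Pi.add_apply, Function.comp_apply, h1, h2, h3, hY.odd]
    generalize fld K (fun j => if 2 * j < M then e (2 * j) else 0) u = A
    generalize ∑ j ∈ Finset.range K, Xh (2 * j + 1) (if 2 * j + 1 < M then e (2 * j + 1) else 0) u = B
    have h6 := parallelogram_law_with_norm ℝ (Y u - A) B
    rw [show Y u - (A + B) = Y u - A - B by abel, show -Y u - (-A + B) = -(Y u - A + B) by abel,
      norm_neg]
    nlinarith [sq_nonneg ‖B‖]
  · rw [integral_div, integral_add' h4 h5]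
    simp only [Function.comp_apply]
    rw [int_neg fun u => ‖Y u - ∑ k ∈ Finset.range M, Xh k (e k) u‖ ^ 2]
    ring

end Crest.Agent.R230
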