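import Crest.Agent.R230.SpecA
import Crest.Agent.R230.Dens

/-!
Row 230 (Petty).  The spectral inequality for admissible fields (limit of `spec_fin`).
-/

set_option autoImplicit false

noncomputable section

namespace Crest.Agent.R230

open MeasureTheory Metric Set MvPolynomial Filter Topology
open scoped ENNReal InnerProductSpace Pointwise

variable {n : ℕ}

/-- `L²` convergence of fields -/
def Cv (X : ℕ → E n → E n) (Y : E n → E n) : Prop :=
  (∀ m, MemLp (X m) 2 (sg n)) ∧ MemLp Y 2 (sg n) ∧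
    Tendsto (fun m => ∫ u, ‖Y u - X m u‖ ^ 2 ∂sg n) atTop (𝓝 0)

variable {X X' : ℕ → E n → E n} {Y Y' : E n → E n}

theorem specB_inner {f g : E n → E n} (hf : MemLp f 2 (sg n)) (hg : MemLp g 2 (sg n)) :
    ⟪hf.toLp f, hg.toLp g⟫_ℝ = ∫ u, ⟪f u, g u⟫_ℝ ∂sg n := by
  rw [L2.inner_def]
  refine integral_congr_ae ?_
  filter_upwards [hf.coeFn_toLp, hg.coeFn_toLp] with u h1 h2
  rw [h1, h2]

theorem specB_norm {f g : E n → E n} (hf : MemLp f 2 (sg n)) (hg : MemLp g 2 (sg n)) :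
    ‖hg.toLp g - hf.toLp f‖ ^ 2 = ∫ u, ‖g u - f u‖ ^ 2 ∂sg n := by
  rw [← MemLp.toLp_sub, ← real_inner_self_eq_norm_sq, specB_inner]
  refine integral_congr_ae (ae_of_all _ fun u => ?_)
  simp only [Pi.sub_apply, real_inner_self_eq_norm_sq]

theorem specB_iff (hX : ∀ m, MemLp (X m) 2 (sg n)) (hY : MemLp Y 2 (sg n)) :
    Tendsto (fun m => ∫ u, ‖Y u - X m u‖ ^ 2 ∂sg n) atTop (𝓝 0) ↔
      Tendsto (fun m => (hX m).toLp (X m)) atTop (𝓝 (hY.toLp Y)) := by
  rw [tendsto_iff_norm_sub_tendsto_zero (b := hY.toLp Y)]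
  simp only [← specB_norm (hX _) hY, norm_sub_rev (hY.toLp Y)]
  constructor
  · intro h
    have h1 := h.sqrt
    simpa only [Real.sqrt_zero, Real.sqrt_sq (norm_nonneg _)] using h1
  · intro h
    have h1 := h.pow 2
    simpa only [ne_eq, OfNat.ofNat_ne_zero, not_false_eq_true, zero_pow] using h1

theorem Cv.specB_toLp (h : Cv X Y) :
    Tendsto (fun m => (h.1 m).toLp (X m)) atTop (𝓝 (h.2.1.toLp Y)) :=
  (specB_iff h.1 h.2.1).1 h.2.2

theorem Cv.specB_sub (h : Cv X Y) (h' : Cv X' Y') :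
    Cv (fun m u => X m u - X' m u) (fun u => Y u - Y' u) := by
  refine ⟨fun m => (h.1 m).sub (h'.1 m), h.2.1.sub h'.2.1, ?_⟩
  refine (specB_iff (X := fun m u => X m u - X' m u) (Y := fun u => Y u - Y' u)
    (fun m => (h.1 m).sub (h'.1 m)) (h.2.1.sub h'.2.1)).2 ?_
  have h1 := h.specB_toLp.sub h'.specB_toLp
  simp only [← MemLp.toLp_sub] at h1
  exact h1

theorem specB_const (hY : MemLp Y 2 (sg n)) : Cv (fun _ => Y) Y :=
  ⟨fun _ => hY, hY, by simp⟩

theorem specB_rad_le (Y : E n → E n) {u : E n} (hu : ‖u‖ = 1) : |rad Y u| ≤ ‖Y u‖ := by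
  have h := abs_real_inner_le_norm (Y u) u
  rwa [hu, mul_one] at h

theorem specB_rad_sub (Y Z : E n → E n) (u : E n) :
    rad (fun u => Y u - Z u) u = rad Y u - rad Z u := inner_sub_left _ _ _

theorem specB_memLp_radial [NeZero n] (hY : MemLp Y 2 (sg n)) :
    MemLp (fun u => rad Y u • u) 2 (sg n) := by
  refine hY.of_le ((memLp_rad hY).aestronglyMeasurable.smul aestronglyMeasurable_id) ?_
  filter_upwards [ae_norm (n := n)] with u hu
  rw [norm_smul, hu, mul_one, Real.norm_eq_abs]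
  exact specB_rad_le Y hu

theorem specB_int_sq {Z : E n → E n} (hZ : MemLp Z 2 (sg n)) :
    Integrable (fun u => ‖Z u‖ ^ 2) (sg n) := hZ.norm.integrable_sq

/-- via `MemLp.toLp` and continuity of the inner product of `Lp`, or Cauchy-Schwarz -/
theorem Cv.inner [NeZero n] (h : Cv X Y) (h' : Cv X' Y') :
    Tendsto (fun m => ∫ u, ⟪X m u, X' m u⟫_ℝ ∂sg n) atTop (𝓝 (∫ u, ⟪Y u, Y' u⟫_ℝ ∂sg n)) := by
  have h1 := h.specB_toLp.inner (𝕜 := ℝ) h'.specB_toLp
  simpa only [specB_inner] using h1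

theorem Cv.radial [NeZero n] (h : Cv X Y) :
    Cv (fun m u => rad (X m) u • u) (fun u => rad Y u • u) := by
  refine ⟨fun m => specB_memLp_radial (h.1 m), specB_memLp_radial h.2.1, ?_⟩
  refine squeeze_zero (fun m => integral_nonneg fun u => by positivity) (fun m => ?_) h.2.2
  refine integral_mono_of_nonneg (ae_of_all _ fun u => by positivity)
    (specB_int_sq (h.2.1.sub (h.1 m))) ?_
  filter_upwards [ae_norm (n := n)] with u hu
  rw [← sub_smul, norm_smul, hu, mul_one, Real.norm_eq_abs, ← specB_rad_sub]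
  exact pow_le_pow_left₀ (abs_nonneg _) (specB_rad_le (fun u => Y u - X m u) hu) 2

theorem Cv.int_rad [NeZero n] (h : Cv X Y) :
    Tendsto (fun m => ∫ u, rad (X m) u ∂sg n) atTop (𝓝 (∫ u, rad Y u ∂sg n)) := by
  exact h.inner (specB_const (memLp_of_cont (f := fun u : E n => u) continuous_id 2))

theorem Cv.int_rad_mul [NeZero n] (h : Cv X Y) (h' : Cv X' Y') :
    Tendsto (fun m => ∫ u, rad (X m) u * rad (X' m) u ∂sg n) atTop
      (𝓝 (∫ u, rad Y u * rad Y' u ∂sg n)) := by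
  have key : ∀ Z Z' : E n → E n, ∫ u, ⟪rad Z u • u, rad Z' u • u⟫_ℝ ∂sg n =
      ∫ u, rad Z u * rad Z' u ∂sg n := by
    intro Z Z'
    refine integral_congr_ae ?_
    filter_upwards [ae_norm (n := n)] with u hu
    rw [real_inner_smul_left, real_inner_smul_right, real_inner_self_eq_norm_sq, hu]
    ring
  have h1 := h.radial.inner h'.radial
  simpa only [key] using h1
theorem Cv.specB_vr [NeZero n] (h : Cv X Y) :
    Tendsto (fun m => vr (rad (X m))) atTop (𝓝 (vr (rad Y))) := by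
  unfold vr
  simp only [sq]
  exact (h.int_rad_mul h).sub (h.int_rad.mul h.int_rad)

theorem Cv.specB_sq [NeZero n] (h : Cv X Y) :
    Tendsto (fun m => ∫ u, ‖X m u‖ ^ 2 ∂sg n) atTop (𝓝 (∫ u, ‖Y u‖ ^ 2 ∂sg n)) := by
  have h1 := h.inner h
  simpa only [real_inner_self_eq_norm_sq] using h1

theorem Cv.specB_en [NeZero n] (h : Cv X Y) :
    Tendsto (fun m => en (X m)) atTop (𝓝 (en Y)) := by
  unfold en
  refine h.specB_sq.sub ?_
  simp only [sq]
  exact h.int_rad_mul h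


theorem Cv.UU [NeZero n] (h : Cv X Y) (h' : Cv X' Y') (a B κ : ℝ) :
    Tendsto (fun m => UU a B κ (X m) (X' m)) atTop (𝓝 (UU a B κ Y Y')) := by
  have h1 := (h.specB_sub h').specB_vr
  have e : ∀ Z Z' : E n → E n, rad (fun u => Z u - Z' u) = fun u => rad Z u - rad Z' u :=
    fun Z Z' => funext (specB_rad_sub Z Z')
  simp only [e] at h1
  unfold R230.UU
  exact (h1.const_mul a).add
    (((h'.specB_en.div_const _).sub (h'.specB_vr.const_mul κ)).const_mul B)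

/-- `Bf_add_left`, `Bf_add_right`, `Bf_bound` -/
theorem Cv.Bf [NeZero n] (h : Cv X Y) (h' : Cv X' Y') (β : ℝ) :
    Tendsto (fun m => Bf β (X m) (X' m)) atTop (𝓝 (Bf β Y Y')) := by
  have key : ∀ m, R230.Bf β (X m) (X' m) - R230.Bf β Y Y' =
      R230.Bf β (fun u => X m u - Y u) (X' m) + R230.Bf β Y (fun u => X' m u - Y' u) := by
    intro m
    have h1 := Bf_add_left (β := β) (Y := Y) (Z := fun u => X m u - Y u) (Y' := X' m) h.2.1
      ((h.1 m).sub h.2.1) (h'.1 m)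
    have h2 := Bf_add_right (β := β) (Y := Y) (Y' := Y') (Z := fun u => X' m u - Y' u) h.2.1
      h'.2.1 ((h'.1 m).sub h'.2.1)
    simp only [add_sub_cancel] at h1 h2
    linarith
  rw [tendsto_iff_norm_sub_tendsto_zero]
  have t1 : Tendsto (fun m => ∫ u, ‖X m u - Y u‖ ^ 2 ∂sg n) atTop (𝓝 0) := by
    simpa only [norm_sub_rev] using h.2.2
  have t2 : Tendsto (fun m => ∫ u, ‖X' m u - Y' u‖ ^ 2 ∂sg n) atTop (𝓝 0) := by
    simpa only [norm_sub_rev] using h'.2.2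
  have t3 := ((t1.sqrt.const_mul ((1 + |β - 1|) ^ 2)).mul h'.specB_sq.sqrt).add
    (t2.sqrt.const_mul ((1 + |β - 1|) ^ 2 * √(∫ u, ‖Y u‖ ^ 2 ∂sg n)))
  simp only [Real.sqrt_zero, mul_zero, zero_mul, add_zero] at t3
  refine squeeze_zero (fun m => norm_nonneg _) (fun m => ?_) t3
  rw [key, Real.norm_eq_abs]
  refine (abs_add_le _ _).trans (add_le_add ?_ ?_)
  · exact Bf_bound (Y := fun u => X m u - Y u) ((h.1 m).sub h.2.1) (h'.1 m)
  · exact Bf_bound (Y' := fun u => X' m u - Y' u) h.2.1 ((h'.1 m).sub h'.2.1)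

theorem specB_two (hn : 3 ≤ n) (hY' : MemLp Y' 2 (sg n))
    (h2 : ∀ h : Pl n, IsHm 2 h → ∫ u, rad Y' u * ev h u ∂sg n = 0) {c : ℕ → Pl n} (hc : IsHS c)
    {K : ℕ} (hK : 2 ≤ K) :
    ∫ u, ev (c 1) u ^ 2 ∂sg n ≤ ∫ u, ‖Y' u - fld K c u‖ ^ 2 ∂sg n := by
  have : NeZero n := ⟨by omega⟩
  have he : MemLp (ev (c 1)) 2 (sg n) := memLp_of_cont (continuous_ev _) 2
  have i1 : Integrable (fun u => rad (fld K c) u * ev (c 1) u) (sg n) :=
    (memLp_rad (memLp_fld K c)).integrable_mul he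
  have i2 : Integrable (fun u => rad Y' u * ev (c 1) u) (sg n) := (memLp_rad hY').integrable_mul he
  have i3 : Integrable (fun u => ev (c 1) u ^ 2) (sg n) := he.integrable_sq
  have i4 : Integrable
      (fun u => 2 * (rad (fld K c) u * ev (c 1) u - rad Y' u * ev (c 1) u)) (sg n) :=
    (i1.sub i2).const_mul 2
  have e1 := int_rad_fld_mul (K := K) (by omega) hc (j := 1) (by omega) (hc 1)
  have e2 := h2 (c 1) (hc 1)
  have e3 : ∫ u, (2 * (rad (fld K c) u * ev (c 1) u - rad Y' u * ev (c 1) u) - ev (c 1) u ^ 2)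
      ∂sg n = ∫ u, ev (c 1) u ^ 2 ∂sg n := by
    rw [integral_sub i4 i3, integral_const_mul, integral_sub i1 i2, e1, e2]
    simp only [← sq]
    ring
  rw [← e3]
  refine integral_mono_ae (i4.sub i3)
    (specB_int_sq (hY'.sub (memLp_fld K c))) ?_
  filter_upwards [ae_norm (n := n)] with u hu
  have h3 := specB_rad_le (fun u => Y' u - fld K c u) hu
  rw [specB_rad_sub] at h3
  have h4 := pow_le_pow_left₀ (abs_nonneg _) h3 2
  rw [sq_abs] at h4
  nlinarith [sq_nonneg (rad (fld K c) u - rad Y' u - ev (c 1) u)]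

theorem specB_cv (hn : 3 ≤ n) (hY : Adm Y) : ∃ (K₀ : ℕ → ℕ) (c : ℕ → ℕ → Pl n),
    (∀ m, IsHS (c m)) ∧ ∀ K : ℕ → ℕ, (∀ m, K₀ m ≤ K m) → Cv (fun m => fld (K m) (c m)) Y := by
  have : NeZero n := ⟨by omega⟩
  have h := fun m : ℕ => dens (by omega) hY (ε := 1 / ((m : ℝ) + 1)) (by positivity)
  choose K₀ c hc hK using h
  refine ⟨K₀, c, hc, fun K hKm => ⟨fun m => memLp_fld _ _, hY.l2, ?_⟩⟩
  exact squeeze_zero (fun m => integral_nonneg fun u => by positivity)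
    (fun m => (hK m (K m) (hKm m)).le) tendsto_one_div_add_atTop_nhds_zero_nat

/-- `dens` with `ε = 1/(m+1)` and a common `K m ≥ 2`; `∫ ev (c 1)² ≤ ∫ rad (fld K c)²` stays bounded
and `∫ ev (c' 1)² = ∫ (rad (fld K c') - rad Y') ev (c' 1)`, so `∫ ev (c' 1)² ≤ ∫ ‖Y' - fld K c'‖²` -/
theorem spec (hn : 3 ≤ n) {β a B κ : ℝ} (hβ : 1 ≤ β) (hs : SpecOK n β a B κ) {T T' : E n → E n}
    (hY : Adm Y) (hT : Adm T) (hY' : Adm Y') (hT' : Adm T')
    (h2 : ∀ h : Pl n, IsHm 2 h → ∫ u, rad Y' u * ev h u ∂sg n = 0) :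
    β ^ 2 * C0 n * ((∫ u, rad Y u ∂sg n) * (∫ u, rad Y' u ∂sg n)
      - √(UU a B κ Y T) * √(UU a B κ Y' T')) ≤ Bf β Y Y' := by
  have : NeZero n := ⟨by omega⟩
  obtain ⟨K₁, c, hc, h₁⟩ := specB_cv hn hY
  obtain ⟨K₂, d, hd, h₂⟩ := specB_cv hn hT
  obtain ⟨K₃, c', hc', h₃⟩ := specB_cv hn hY'
  obtain ⟨K₄, d', hd', h₄⟩ := specB_cv hn hT'
  set K : ℕ → ℕ := fun m => K₁ m + K₂ m + K₃ m + K₄ m + 2 with hK
  have v₁ := h₁ K fun m => by simp only [hK]; omega
  have v₂ := h₂ K fun m => by simp only [hK]; omega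
  have v₃ := h₃ K fun m => by simp only [hK]; omega
  have v₄ := h₄ K fun m => by simp only [hK]; omega
  have hK2 : ∀ m, 2 ≤ K m := fun m => by simp only [hK]; omega
  have t0 : Tendsto (fun m => √(∫ u, ev (c m 1) u ^ 2 ∂sg n) * √(∫ u, ev (c' m 1) u ^ 2 ∂sg n))
      atTop (𝓝 0) := by
    have t1 := (v₁.int_rad_mul v₁).sqrt.mul v₃.2.2.sqrt
    simp only [Real.sqrt_zero, mul_zero, ← sq] at t1
    refine squeeze_zero (fun m => by positivity) (fun m => ?_) t1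
    refine mul_le_mul (Real.sqrt_le_sqrt ?_)
      (Real.sqrt_le_sqrt (specB_two hn hY'.l2 h2 (hc' m) (hK2 m))) (Real.sqrt_nonneg _)
      (Real.sqrt_nonneg _)
    rw [int_rad_fld_sq (by omega) (hc m)]
    exact Finset.single_le_sum (f := fun j => ∫ u, ev (c m j) u ^ 2 ∂sg n)
      (fun j _ => integral_nonneg fun u => sq_nonneg _)
      (Finset.mem_range.2 (by have := hK2 m; omega))
  have t2 := (((v₁.int_rad.mul v₃.int_rad).sub (t0.const_mul |bm n β 1|)).sub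
    ((v₁.UU v₂ a B κ).sqrt.mul (v₃.UU v₄ a B κ).sqrt)).const_mul (β ^ 2 * C0 n)
  rw [mul_zero, sub_zero] at t2
  exact le_of_tendsto_of_tendsto' t2 (v₁.Bf v₃ β)
    fun m => spec_fin hn hβ hs (hc m) (hd m) (hc' m) (hd' m) (hK2 m)

end Crest.Agent.R230
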