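import Crest.Agent.R230.One
import Crest.Agent.R230.SpecB

/-!
Row 230 (Petty).  The two-norm inequality.
-/

set_option autoImplicit false

noncomputable section

namespace Crest.Agent.R230

open MeasureTheory Metric Set MvPolynomial Filter Topology
open scoped ENNReal InnerProductSpace Pointwise

variable {n : ℕ}

variable {β s : ℕ} {a B κ ρ η : ℝ} {N N' : E n → ℝ}

theorem Iso.cmul (h : Iso β N) (c : ℝ) : Iso β fun x => c * N x := by
  intro i j
  have e1 : ∀ u : E n, (c * N u) ^ β * (u i * u j) = c ^ β * (N u ^ β * (u i * u j)) := by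
    intro u; rw [mul_pow]; ring
  have e2 : ∀ u : E n, (c * N u) ^ β = c ^ β * N u ^ β := fun u => mul_pow _ _ _
  simp only [e1]
  simp only [e2]
  rw [integral_const_mul, integral_const_mul, h i j]
  split_ifs
  · ring
  · simp

/-- `IsHm.two` -/
theorem Iso.orth [NeZero n] (hN : IsNm N) (h : Iso β N) {p : Pl n} (hp : IsHm 2 p) :
    ∫ u, N u ^ β * ev p u ∂sg n = 0 := by
  obtain ⟨Q, hQ, hev⟩ := hp.two
  have hint : ∀ i j, Integrable (fun u : E n => Q i j * (N u ^ β * (u i * u j))) (sg n) := by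
    intro i j
    refine integrable_of_cont ?_
    have := hN.continuous
    fun_prop
  have e1 : ∀ u : E n, N u ^ β * ev p u = ∑ i, ∑ j, Q i j * (N u ^ β * (u i * u j)) := by
    intro u
    rw [hev, Finset.mul_sum]
    refine Finset.sum_congr rfl fun i _ => ?_
    rw [Finset.mul_sum]
    refine Finset.sum_congr rfl fun j _ => ?_
    ring
  simp only [e1]
  rw [integral_finset_sum _ fun i _ => integrable_finset_sum _ fun j _ => hint i j]
  have e2 : ∀ i, ∫ u : E n, ∑ j, Q i j * (N u ^ β * (u i * u j)) ∂sg n =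
      Q i i * ((∫ u, N u ^ β ∂sg n) / n) := by
    intro i
    rw [integral_finset_sum _ fun j _ => hint i j]
    simp only [integral_const_mul, h i]
    simp
  simp only [e2]
  rw [← Finset.sum_mul, hQ, zero_mul]

theorem DD_cmul (hβ : 1 ≤ β) {c c' : ℝ} (hc : 0 < c) (hc' : 0 < c') :
    DD β (fun x => c * N x) (fun x => c' * N' x) = c ^ β * c' ^ β * DD β N N' := by
  obtain ⟨k, rfl⟩ : ∃ k, β = k + 1 := ⟨β - 1, by omega⟩
  unfold DD
  rw [← integral_const_mul]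
  refine integral_congr_ae (Eventually.of_forall fun w => ?_)
  beta_reduce
  rw [← integral_const_mul]
  refine integral_congr_ae (Eventually.of_forall fun u => ?_)
  beta_reduce
  rw [gradient_cmul, gradient_cmul, real_inner_smul_left, real_inner_smul_right, abs_mul, abs_mul,
    abs_of_pos hc, abs_of_pos hc']
  simp only [Nat.add_sub_cancel, mul_pow, pow_succ]
  ring

/-- `Lb_ext_pow` and `sign t * x ≤ |x|` -/
theorem Bf_le_DD [NeZero n] (hβ : 1 ≤ β) (hN : IsNm N) (hN' : IsNm N') :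
    Bf β (gradient (ext (fun t => t ^ β) N)) (gradient (ext (fun t => t ^ β) N')) ≤
      (β : ℝ) ^ 2 * DD β N N' := by
  have hY := (hN.lh_ext (C1_pow β)).memLp_gradient 2
  have hY' := (hN'.lh_ext (C1_pow β)).memLp_gradient 2
  have hI1 := integrable_Bf (β := (β : ℝ)) hY hY'
  have hF : ∀ {M : E n → ℝ}, IsNm M →
      Integrable (fun u => M u ^ (β - 1) * ‖gradient M u‖) (sg n) := by
    intro M hM
    have h1 : MemLp (fun u => M u ^ (β - 1)) 2 (sg n) :=
      memLp_of_cont (hM.continuous.pow _) 2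
    have h2 : MemLp (fun u => ‖gradient M u‖) 2 (sg n) := (hM.lh.memLp_gradient 2).norm
    exact h1.integrable_mul h2
  have hI2 : Integrable (fun z : E n × E n =>
      N z.2 ^ (β - 1) * N' z.1 ^ (β - 1) * |⟪gradient N z.2, gradient N' z.1⟫_ℝ|)
      ((sg n).prod (sg n)) := by
    refine ((hF hN').mul_prod (hF hN)).mono' ?_ (Eventually.of_forall fun z => ?_)
    · have m1 : Measurable N := hN.continuous.measurable
      have m2 : Measurable N' := hN'.continuous.measurable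
      have m3 := measurable_gradient N
      have m4 := measurable_gradient N'
      refine Measurable.aestronglyMeasurable ?_
      refine (((m1.comp measurable_snd).pow_const _).mul
        ((m2.comp measurable_fst).pow_const _)).mul ?_
      exact ((m3.comp measurable_snd).inner (m4.comp measurable_fst)).abs
    · have p1 := pow_nonneg (hN.nonneg z.2) (β - 1)
      have p2 := pow_nonneg (hN'.nonneg z.1) (β - 1)
      have p3 := abs_real_inner_le_norm (gradient N z.2) (gradient N' z.1)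
      rw [Real.norm_of_nonneg (by positivity)]
      calc _ ≤ N z.2 ^ (β - 1) * N' z.1 ^ (β - 1) * (‖gradient N z.2‖ * ‖gradient N' z.1‖) :=
            mul_le_mul_of_nonneg_left p3 (mul_nonneg p1 p2)
        _ = _ := by ring
  unfold Bf DD
  rw [← integral_prod _ hI1, ← integral_prod _ hI2, ← integral_const_mul]
  refine integral_mono_ae hI1 (hI2.const_mul _) ?_
  have a1 := (Measure.quasiMeasurePreserving_snd (μ := sg n) (ν := sg n)).ae (hN.Lb_ext_pow hβ)
  have a2 := (Measure.quasiMeasurePreserving_fst (μ := sg n) (ν := sg n)).ae (hN'.Lb_ext_pow hβ)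
  filter_upwards [a1, a2] with z h1 h2
  rw [h1, h2, real_inner_smul_left, real_inner_smul_right]
  have p1 := pow_nonneg (hN.nonneg z.2) (β - 1)
  have p2 := pow_nonneg (hN'.nonneg z.1) (β - 1)
  have hs : Real.sign ⟪z.2, z.1⟫_ℝ * ⟪gradient N z.2, gradient N' z.1⟫_ℝ ≤
      |⟪gradient N z.2, gradient N' z.1⟫_ℝ| := by
    rcases Real.sign_apply_eq ⟪z.2, z.1⟫_ℝ with h | h | h <;> rw [h]
    · rw [neg_one_mul]; exact neg_le_abs _
    · rw [zero_mul]; exact abs_nonneg _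
    · rw [one_mul]; exact le_abs_self _
  have hq : 0 ≤ (β : ℝ) ^ 2 * (N z.2 ^ (β - 1) * N' z.1 ^ (β - 1)) := by positivity
  have := mul_le_mul_of_nonneg_left hs hq
  calc _ = (β : ℝ) ^ 2 * (N z.2 ^ (β - 1) * N' z.1 ^ (β - 1)) *
        (Real.sign ⟪z.2, z.1⟫_ℝ * ⟪gradient N z.2, gradient N' z.1⟫_ℝ) := by ring
    _ ≤ _ := this
    _ = _ := by ring

/-- reverse Cauchy-Schwarz -/
theorem aczel {A A' W W' U U' θ : ℝ} (hA : 0 ≤ A) (hA' : 0 ≤ A') (hW : 0 < W) (hW' : 0 < W')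
    (hU : U ≤ A ^ 2 - W ^ 2) (hU' : U' ≤ A' ^ 2 - W' ^ 2 - θ) (hθ : 0 ≤ θ)
    (hWA : W ≤ A) (hWA' : W' ^ 2 + θ ≤ A' ^ 2) : W * √(W' ^ 2 + θ) ≤ A * A' - √U * √U' := by
  have h1 : 0 ≤ A ^ 2 - W ^ 2 := by nlinarith
  have h2 : 0 ≤ A' ^ 2 - W' ^ 2 - θ := by linarith
  have h3 : 0 ≤ W' ^ 2 + θ := by positivity
  have l1 : √U ≤ √(A ^ 2 - W ^ 2) := Real.sqrt_le_sqrt hU
  have l2 : √U' ≤ √(A' ^ 2 - W' ^ 2 - θ) := Real.sqrt_le_sqrt hU'
  have l3 : √U * √U' ≤ √(A ^ 2 - W ^ 2) * √(A' ^ 2 - W' ^ 2 - θ) :=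
    mul_le_mul l1 l2 (Real.sqrt_nonneg _) (Real.sqrt_nonneg _)
  have e1 := Real.sq_sqrt h1
  have e2 := Real.sq_sqrt h2
  have e3 := Real.sq_sqrt h3
  set p := √(A ^ 2 - W ^ 2)
  set q := √(A' ^ 2 - W' ^ 2 - θ)
  set V := √(W' ^ 2 + θ)
  have key : (W * V + p * q) ^ 2 ≤ (A * A') ^ 2 := by
    have : (A * A') ^ 2 = (W ^ 2 + p ^ 2) * (V ^ 2 + q ^ 2) := by
      rw [e1, e2, e3]; ring
    rw [this]
    nlinarith [sq_nonneg (W * q - p * V)]
  have := le_trans (le_abs_self _) (abs_le_of_sq_le_sq' key (mul_nonneg hA hA') |> abs_le.mpr)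
  linarith

/-- normalised case: `spec` (`LH.adm`, `rad_ext`, `Iso.orth`), `Bf_le_DD`, `one` for both norms,
`aczel`; `hWA`, `hWA'` follow from `int_jj`, `int_jj_nonneg`, `one_le_int_pow`, `η ≤ 1`:
`A² - W² = (A - W)(A + W) ≥ 2 (A - W) = ∫ jj` -/
theorem core_norm (hn : 3 ≤ n) (hc : Cert n β s a B κ ρ η) (hN : IsNm N) (hN' : IsNm N')
    (hiso : Iso β N') (h1 : ∫ u, (N u ^ s)⁻¹ ∂sg n = 1) (h1' : ∫ u, (N' u ^ s)⁻¹ ∂sg n = 1) :
    C0 n * ((∫ u, N u ^ (β - 1) ∂sg n) *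
      √((∫ u, N' u ^ (β - 1) ∂sg n) ^ 2 + η * ∫ u, jj β s (N' u) ∂sg n)) ≤ DD β N N' := by
  haveI : NeZero n := ⟨by omega⟩
  have hβ : 1 ≤ β := by rcases hc.hβ with h | h <;> omega
  have hs : 1 ≤ s := le_trans (by norm_num) hc.hs
  have hβ' : (1 : ℝ) ≤ β := by exact_mod_cast hβ
  obtain ⟨T, hT, hU⟩ := one (by omega) hc hN h1
  obtain ⟨T', hT', hU'⟩ := one (by omega) hc hN' h1'
  have hY := (hN.lh_ext (C1_pow β)).adm
  have hY' := (hN'.lh_ext (C1_pow β)).adm
  have r1 := hN.rad_ext (C1_pow β)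
  have r2 := hN'.rad_ext (C1_pow β)
  have h2 : ∀ h : Pl n, IsHm 2 h →
      ∫ u, rad (gradient (ext (fun t => t ^ β) N')) u * ev h u ∂sg n = 0 := by
    intro h hh
    rw [← hiso.orth hN' hh]
    refine integral_congr_ae ?_
    filter_upwards [r2] with u hu
    rw [hu]
  have hsp := spec hn hβ' hc.spec hY hT hY' hT' h2
  rw [integral_congr_ae r1, integral_congr_ae r2] at hsp
  have hB := Bf_le_DD hβ hN hN'
  have j1 := int_jj (β := β) hN h1
  have j2 := int_jj (β := β) hN' h1'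
  have k1 := int_jj_nonneg (β := β) hN hβ hs
  have k2 := int_jj_nonneg (β := β) hN' hβ hs
  have o1 := one_le_int_pow hN' hs h1' β
  have o2 := one_le_int_pow hN' hs h1' (β - 1)
  have hη := hc.hη
  have hη1 := hc.hη1
  have hac := aczel (hN.int_pow_pos β).le (hN'.int_pow_pos β).le (hN.int_pow_pos (β - 1))
    (hN'.int_pow_pos (β - 1)) (le_trans hU (by nlinarith)) hU' (mul_nonneg hη.le k2)
    (by linarith) (by nlinarith)
  have hC := C0_pos (n := n)
  have hb2 : (0 : ℝ) < (β : ℝ) ^ 2 := by positivity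
  refine le_trans (mul_le_mul_of_nonneg_left hac hC.le) ?_
  refine le_of_mul_le_mul_left ?_ hb2
  rw [← mul_assoc]
  exact hsp.trans hB

/-- every norm can be normalised: `c = (∫ (N^s)⁻¹)^(1/s)` -/
theorem exists_normalise [NeZero n] (hN : IsNm N) (hs : 1 ≤ s) :
    ∃ c : ℝ, 0 < c ∧ ∫ u, ((c * N u) ^ s)⁻¹ ∂sg n = 1 := by
  have hI := hN.int_inv_pos s
  set I := ∫ u, (N u ^ s)⁻¹ ∂sg n
  have hc : (I ^ ((s : ℝ)⁻¹)) ^ s = I := Real.rpow_inv_natCast_pow hI.le (by omega)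
  refine ⟨I ^ ((s : ℝ)⁻¹), Real.rpow_pos_of_pos hI _, ?_⟩
  simp only [mul_pow, mul_inv, hc]
  rw [integral_const_mul]
  exact inv_mul_cancel₀ hI.ne'

/-- scale-free form; uses `one_le_int_inv` with `m = n` and `eq_norm_of_int_jj` -/
theorem core (hn : 3 ≤ n) (hc : Cert n β s a B κ ρ η) (hN : IsNm N) (hN' : IsNm N')
    (hiso : Iso β N')
    (hD : DD β N N' ≤ (∫ u, N u ^ (β - 1) ∂sg n) * ∫ u, N' u ^ (β - 1) ∂sg n) :
    C0 n ^ n ≤ (∫ u, (N u ^ n)⁻¹ ∂sg n) * (∫ u, (N' u ^ n)⁻¹ ∂sg n) ∧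
      ((∫ u, (N u ^ n)⁻¹ ∂sg n) * (∫ u, (N' u ^ n)⁻¹ ∂sg n) ≤ C0 n ^ n →
        ∃ c : ℝ, 0 < c ∧ ∀ x, N' x = c * ‖x‖) := by
  haveI : NeZero n := ⟨by omega⟩
  have hβ : 1 ≤ β := by rcases hc.hβ with h | h <;> omega
  have hs : 1 ≤ s := le_trans (by norm_num) hc.hs
  obtain ⟨c, hc0, h1⟩ := exists_normalise hN hs
  obtain ⟨c', hc0', h1'⟩ := exists_normalise hN' hs
  have hM := hN.cmul hc0
  have hM' := hN'.cmul hc0'
  have hcn := core_norm hn hc hM hM' (hiso.cmul c') h1 h1'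
  have i1 := one_le_int_inv hM hs h1 hc.hsn
  have i2 := one_le_int_inv hM' hs h1' hc.hsn
  have k2 := int_jj_nonneg (β := β) hM' hβ hs
  have heq := eq_norm_of_int_jj (β := β) hM' hβ hs
  rw [DD_cmul hβ hc0 hc0'] at hcn
  have hW := hN.int_pow_pos (β - 1)
  have hW' := hN'.int_pow_pos (β - 1)
  have hC := C0_pos (n := n)
  have hη := hc.hη
  simp only [mul_pow, mul_inv, integral_const_mul] at hcn i1 i2
  set W := ∫ u, N u ^ (β - 1) ∂sg n
  set W' := ∫ u, N' u ^ (β - 1) ∂sg n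
  set I := ∫ u, (N u ^ n)⁻¹ ∂sg n
  set I' := ∫ u, (N' u ^ n)⁻¹ ∂sg n
  set J := ∫ u, jj β s (c' * N' u) ∂sg n
  have eβ : ∀ x : ℝ, x ^ β = x ^ (β - 1) * x := by
    intro x; rw [← pow_succ]; congr 1; omega
  have hV : 0 < c' ^ (β - 1) * W' := by positivity
  have hU : 0 < c ^ (β - 1) * W := by positivity
  rw [← mul_pow] at hcn
  set V := c' ^ (β - 1) * W' with hVd
  have main : C0 n * √(V ^ 2 + η * J) ≤ c * c' * V := by
    have h3 : c ^ β * c' ^ β * DD β N N' ≤ c ^ β * c' ^ β * (W * W') :=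
      mul_le_mul_of_nonneg_left hD (by positivity)
    refine le_of_mul_le_mul_left ?_ hU
    calc c ^ (β - 1) * W * (C0 n * √(V ^ 2 + η * J))
        = C0 n * (c ^ (β - 1) * W * √(V ^ 2 + η * J)) := by ring
      _ ≤ c ^ β * c' ^ β * (W * W') := hcn.trans h3
      _ = _ := by rw [eβ c, eβ c', hVd]; ring
  have hJ : 0 ≤ η * J := mul_nonneg hη.le k2
  have hsq : V ≤ √(V ^ 2 + η * J) := Real.le_sqrt_of_sq_le (by linarith)
  have hCc : C0 n ≤ c * c' := by
    refine le_of_mul_le_mul_right ?_ hV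
    exact (mul_le_mul_of_nonneg_left hsq hC.le).trans main
  have q1 : c ^ n ≤ I := by
    have := pow_pos hc0 n
    rwa [← div_eq_inv_mul, le_div_iff₀ this, one_mul] at i1
  have q2 : c' ^ n ≤ I' := by
    have := pow_pos hc0' n
    rwa [← div_eq_inv_mul, le_div_iff₀ this, one_mul] at i2
  have q3 : (c * c') ^ n ≤ I * I' := by
    rw [mul_pow]
    exact mul_le_mul q1 q2 (by positivity) (le_trans (by positivity) q1)
  refine ⟨(pow_le_pow_left₀ hC.le hCc n).trans q3, fun hle => ?_⟩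
  have hcc : c * c' ≤ C0 n := le_of_pow_le_pow_left₀ (by omega) hC.le (q3.trans hle)
  have hle2 : √(V ^ 2 + η * J) ≤ V := by
    refine le_of_mul_le_mul_left ?_ hC
    exact main.trans (mul_le_mul_of_nonneg_right hcc hV.le)
  have hle3 : V ^ 2 + η * J ≤ V ^ 2 := (Real.sqrt_le_left hV.le).mp hle2
  have hJ0 : J ≤ 0 := by
    by_contra hcon
    have := mul_pos hη (lt_of_not_ge hcon)
    linarith
  refine ⟨c'⁻¹, inv_pos.mpr hc0', fun x => ?_⟩
  rw [← heq hJ0 x]
  field_simp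

end Crest.Agent.R230
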