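import Crest.Agent.R322.Sphere
import Crest.Agent.Lib.PL.PrekopaLeindler

/-!
Row 230 (Petty's projection conjecture, S0354-S0356).  Definitions.  See `Blueprint.lean`.
-/

set_option autoImplicit false

noncomputable section

namespace Crest.Agent.R230

open MeasureTheory Metric Set MvPolynomial
open scoped ENNReal InnerProductSpace Pointwise

abbrev E (n : ℕ) : Type := EuclideanSpace ℝ (Fin n)

abbrev Pl (n : ℕ) : Type := MvPolynomial (Fin n) ℝ

variable {n : ℕ}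

/-- uniform probability measure on the unit sphere, as a measure on `E n` -/
def sg (n : ℕ) : Measure (E n) := R322.sph (E n)

instance [NeZero n] : IsProbabilityMeasure (sg n) := by
  unfold sg; infer_instance

/-- volume of the unit ball -/
def om (n : ℕ) : ℝ := (volume : Measure (E n)).real (ball 0 1)

/-- the spherical mean of `|u₁|` -/
def C0 (n : ℕ) : ℝ := 2 * om (n - 1) / (n * om n)

/-- a norm on `E n` -/
structure IsNm (N : E n → ℝ) : Prop where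
  add : ∀ x y, N (x + y) ≤ N x + N y
  smul : ∀ (c : ℝ) (x : E n), N (c • x) = |c| * N x
  pos : ∀ x, x ≠ 0 → 0 < N x

/-- Lipschitz, even and positively one-homogeneous -/
structure LH (F : E n → ℝ) : Prop where
  lip : ∃ C, LipschitzWith C F
  hom : ∀ (c : ℝ) (x : E n), F (c • x) = |c| * F x

/-- the set with support function `H` -/
def bodyOf (H : E n → ℝ) : Set (E n) := {x | ∀ v, ⟪x, v⟫_ℝ ≤ H v}

/-- the dual norm (gauge of `bodyOf H`) -/
def dn (H : E n → ℝ) (x : E n) : ℝ := sSup ((fun v => ⟪x, v⟫_ℝ) '' {v | H v ≤ 1})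

/-- the shadow (brightness) function, extended one-homogeneously -/
def sh (K : Set (E n)) (v : E n) : ℝ :=
  ‖v‖ * ((μHE[n - 1] : Measure (E n))
    ((fun y => y - inner ℝ y (‖v‖⁻¹ • v) • (‖v‖⁻¹ • v)) '' K)).toReal

/-- a convex body -/
structure Body (K : Set (E n)) : Prop where
  cpt : IsCompact K
  cvx : Convex ℝ K
  int : (interior K).Nonempty

/-- absolute value of the determinant -/
def dt (T : E n ≃L[ℝ] E n) : ℝ := |LinearMap.det (T.toLinearEquiv : E n →ₗ[ℝ] E n)|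

/-- the zonotope `∑ [-w j, w j]` -/
def zon {m : ℕ} (w : Fin m → E n) : Set (E n) :=
  {x | ∃ t : Fin m → ℝ, (∀ j, |t j| ≤ 1) ∧ x = ∑ j, t j • w j}

/-- coordinates adapted to a unit vector `u` -/
def spl (u : E n) (p : ℝ × (ℝ ∙ u)ᗮ) : E n := p.1 • u + (p.2 : E n)

/-- volume of the hyperplane section `⟪x, u⟫ = t` -/
def sec (u : E n) (A : Set (E n)) (t : ℝ) : ℝ≥0∞ :=
  volume {y : (ℝ ∙ u)ᗮ | t • u + (y : E n) ∈ A}

/-- support function -/
def hs (A : Set (E n)) (u : E n) : ℝ := sSup ((fun x => ⟪x, u⟫_ℝ) '' A)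

/-- one-homogeneous extension of `ψ ∘ N` from the sphere -/
def ext (ψ : ℝ → ℝ) (N : E n → ℝ) (x : E n) : ℝ := ‖x‖ * ψ (N x / ‖x‖)

/-- `ψ` is `C¹` on `(0, ∞)` with derivative `ψ'` -/
structure C1 (ψ ψ' : ℝ → ℝ) : Prop where
  der : ∀ t, 0 < t → HasDerivAt ψ (ψ' t) t
  cont : ContinuousOn ψ' (Ioi 0)

def ev (p : Pl n) (x : E n) : ℝ := MvPolynomial.eval (fun i => x i) p

def lap (p : Pl n) : Pl n := ∑ i, pderiv i (pderiv i p)

/-- harmonic homogeneous polynomial of degree `k` -/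
structure IsHm (k : ℕ) (h : Pl n) : Prop where
  hom : h.IsHomogeneous k
  har : lap h = 0

/-- gradient of a polynomial -/
def gP (p : Pl n) (x : E n) : E n := WithLp.toLp 2 fun i => ev (pderiv i p) x

/-- on the sphere, the gradient of the one-homogeneous function `|x|^(1-k) h x` -/
def Xh (k : ℕ) (h : Pl n) (u : E n) : E n := ((1 - (k : ℝ)) * ev h u) • u + gP h u

/-- radial part of a field -/
def rad (Y : E n → E n) (u : E n) : ℝ := ⟪Y u, u⟫_ℝ

/-- weak form of: `Y` is the gradient of the one-homogeneous extension of `rad Y` -/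
def Wk (Y : E n → E n) : Prop :=
  ∀ (d : ℕ) (q : Pl n), q.IsHomogeneous d → ∀ i,
    ∫ u, Y u i * ev q u ∂sg n =
      -∫ u, rad Y u * ev (pderiv i q) u ∂sg n + ((d : ℝ) + n) * ∫ u, rad Y u * (u i * ev q u) ∂sg n

/-- admissible fields -/
structure Adm (Y : E n → E n) : Prop where
  l2 : MemLp Y 2 (sg n)
  odd : ∀ u, Y (-u) = -Y u
  wk : Wk Y

/-- finite sums of even harmonics: `c j` has degree `2 j` -/
def IsHS (c : ℕ → Pl n) : Prop := ∀ j, IsHm (2 * j) (c j)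

/-- the field of a finite sum of even harmonics -/
def fld (K : ℕ) (c : ℕ → Pl n) (u : E n) : E n := ∑ j ∈ Finset.range K, Xh (2 * j) (c j) u

/-- from the gradient of the one-homogeneous extension to that of the `β`-homogeneous one -/
def Lb (β : ℝ) (Y : E n → E n) (u : E n) : E n := Y u + ((β - 1) * rad Y u) • u

/-- the calibrated bilinear form -/
def Bf (β : ℝ) (Y Y' : E n → E n) : ℝ :=
  ∫ w, ∫ u, Real.sign ⟪u, w⟫_ℝ * ⟪Lb β Y u, Lb β Y' w⟫_ℝ ∂sg n ∂sg n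

/-- variance on the sphere -/
def vr (f : E n → ℝ) : ℝ := ∫ u, f u ^ 2 ∂sg n - (∫ u, f u ∂sg n) ^ 2

/-- Dirichlet energy (tangential part) -/
def en (T : E n → E n) : ℝ := ∫ u, ‖T u‖ ^ 2 ∂sg n - ∫ u, rad T u ^ 2 ∂sg n

/-- the `K`-functional bound for the part of degree `≥ 4` -/
def UU (a B κ : ℝ) (Y T : E n → E n) : ℝ :=
  a * vr (fun u => rad Y u - rad T u) + B * (en T / ((n : ℝ) - 1) - κ * vr (rad T))

/-- multipliers of the cosine transform on degree `2 j`, normalised by `cm n 0 = 1` -/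
def cm (n : ℕ) : ℕ → ℝ
  | 0 => 1
  | j + 1 => cm n j * (1 - 2 * j) / (n + 2 * j + 1)

/-- the equation lemmas of `cm` are generated here once (no clashes between later files) -/
theorem cm_eqns : True := by
  have _h0 := @cm.eq_def
  have _h1 := @cm.eq_1
  have _h2 := @cm.eq_2
  trivial

/-- eigenvalue of the spherical Laplacian on degree `2 j` -/
def lam (n j : ℕ) : ℝ := 2 * j * (2 * j + n - 2)

/-- multipliers of `Bf β / (β² C0)` on degree `2 j` -/
def bm (n : ℕ) (β : ℝ) (j : ℕ) : ℝ := cm n j * (1 + lam n j * (2 * β + n - 1) / β ^ 2)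

structure SpecOK (n : ℕ) (β a B κ : ℝ) : Prop where
  ha : 0 < a
  hB : 0 < B
  hκ : 0 ≤ κ
  hκn : κ * ((n : ℝ) - 1) ≤ 2 * n
  main : |bm n β 2| * (1 / a + ((n : ℝ) - 1) / (B * (lam n 2 - κ * ((n : ℝ) - 1)))) ≤ 1

def hh (β s : ℕ) (t : ℝ) : ℝ := t ^ β - 1 + (β : ℝ) / s * ((t ^ s)⁻¹ - 1)

/-- derivative of `hh` -/
def hd (β s : ℕ) (t : ℝ) : ℝ := β * (t ^ (β - 1) - (t ^ (s + 1))⁻¹)

/-- primitive of `hd ^ 2` vanishing at `1` -/
def ph (β s : ℕ) (t : ℝ) : ℝ :=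
  (β : ℝ) ^ 2 * ((t ^ (2 * β - 1) - 1) / (2 * β - 1) + 2 * ((t ^ (s + 1 - β))⁻¹ - 1) / (s + 1 - β)
    - ((t ^ (2 * s + 1))⁻¹ - 1) / (2 * s + 1))

def jj (β s : ℕ) (t : ℝ) : ℝ := 2 * t ^ β - 2 * t ^ (β - 1) + 2 / s * ((t ^ s)⁻¹ - 1)

/-- the one-variable certificate -/
structure Cert (n β s : ℕ) (a B κ ρ η : ℝ) : Prop where
  hβ : β = 1 ∨ β = 2
  hs : 2 ≤ s
  hsn : s ≤ n
  spec : SpecOK n β a B κ
  hρ0 : 0 ≤ ρ
  hρ1 : ρ ≤ 1
  hη : 0 < η
  hη1 : η ≤ 1
  quad : B * κ * ρ ^ 2 ≤ (1 - (((β : ℝ) - 1) / β) ^ 2) + a * (1 - ρ) ^ 2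
  low : ∀ t : ℝ, 0 < t → t ≤ 1 → a * (t ^ β - 1) ^ 2 ≤ (1 - η) * jj β s t
  high : ∀ t : ℝ, 1 ≤ t → a * (t ^ β - 1 - ρ * hh β s t) ^ 2
    + B * ρ ^ 2 * (ph β s t * t - κ * hh β s t ^ 2) ≤ (1 - η) * jj β s t

/-- isotropic position for the weight `N ^ β` -/
def Iso (β : ℕ) (N : E n → ℝ) : Prop :=
  ∀ i j, ∫ u, N u ^ β * (u i * u j) ∂sg n = if i = j then (∫ u, N u ^ β ∂sg n) / n else 0

/-- the uncalibrated pairing -/
def DD (β : ℕ) (N N' : E n → ℝ) : ℝ :=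
  ∫ w, ∫ u, N u ^ (β - 1) * N' w ^ (β - 1) * |⟪gradient N u, gradient N' w⟫_ℝ| ∂sg n ∂sg n

/-- support function of the zonoid generated by `gradient N` with weight `N ^ (β - 1)` -/
def zH (β : ℕ) (N : E n → ℝ) (v : E n) : ℝ :=
  ∫ w, |⟪(N w ^ (β - 1) / ∫ u, N u ^ (β - 1) ∂sg n) • gradient N w, v⟫_ℝ| ∂sg n

/-- product of simplices along the fibres of `b` -/
def blk {ι : Type} [DecidableEq ι] (b : Fin n → ι) : Set (E n) :=
  {x | (∀ i, 0 ≤ x i) ∧ ∀ j, ∑ i ∈ Finset.univ.filter (fun i => b i = j), x i ≤ 1}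

/-- size of a fibre -/
def dim {ι : Type} [DecidableEq ι] (b : Fin n → ι) (j : ι) : ℕ :=
  (Finset.univ.filter (fun i => b i = j)).card

/-- the block seminorm `∑ |v i| + |∑ v i|` -/
def bn {ι : Type} [DecidableEq ι] (b : Fin n → ι) (j : ι) (v : E n) : ℝ :=
  ∑ i ∈ Finset.univ.filter (fun i => b i = j), |v i|
    + |∑ i ∈ Finset.univ.filter (fun i => b i = j), v i|

end Crest.Agent.R230
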