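import Crest.Agent.R230.Nm

/-!
Row 230 (Petty).  Dual norm `dn H` and the body `bodyOf H`.  The set `{v | H v ≤ 1}` is compact and
symmetric, so the supremum in `dn` is attained.
-/

set_option autoImplicit false

noncomputable section

namespace Crest.Agent.R230

open MeasureTheory Metric Set MvPolynomial Filter Topology
open scoped ENNReal InnerProductSpace Pointwise

variable {n : ℕ}

variable {H : E n → ℝ}

theorem IsNm.isCompact_ball (hH : IsNm H) : IsCompact {v | H v ≤ 1} := by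
  obtain ⟨c, hc, hl⟩ := hH.lower
  refine Metric.isCompact_of_isClosed_isBounded (isClosed_le hH.continuous continuous_const) ?_
  refine (Metric.isBounded_closedBall (x := (0 : E n)) (r := c⁻¹)).subset fun v hv => ?_
  rw [mem_closedBall_zero_iff, ← one_div, le_div_iff₀ hc, mul_comm]
  exact (hl v).trans hv

theorem Dual_attain (hH : IsNm H) (x : E n) :
    ∃ v, H v ≤ 1 ∧ dn H x = ⟪x, v⟫_ℝ ∧ ∀ w, H w ≤ 1 → ⟪x, w⟫_ℝ ≤ ⟪x, v⟫_ℝ := by
  have hne : ({v | H v ≤ 1} : Set (E n)).Nonempty := ⟨0, by simp [hH.zero]⟩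
  have hc : ContinuousOn (fun v : E n => ⟪x, v⟫_ℝ) {v | H v ≤ 1} := by fun_prop
  obtain ⟨v, hv, h1, h2⟩ := hH.isCompact_ball.exists_sSup_image_eq_and_ge hne hc
  exact ⟨v, hv, h1, fun w hw => h2 w hw⟩

theorem Dual_le_dn (hH : IsNm H) (x : E n) {w : E n} (hw : H w ≤ 1) : ⟪x, w⟫_ℝ ≤ dn H x := by
  obtain ⟨v, -, h1, h2⟩ := Dual_attain hH x
  rw [h1]; exact h2 w hw

theorem Dual_dn_nonneg (hH : IsNm H) (x : E n) : 0 ≤ dn H x := by
  simpa using Dual_le_dn hH x (w := 0) (by simp [hH.zero])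

theorem IsNm.exists_dn (hH : IsNm H) (x : E n) : ∃ v, H v ≤ 1 ∧ ⟪x, v⟫_ℝ = dn H x := by
  obtain ⟨v, hv, h1, -⟩ := Dual_attain hH x
  exact ⟨v, hv, h1.symm⟩

theorem IsNm.inner_le_dn (hH : IsNm H) (x v : E n) : ⟪x, v⟫_ℝ ≤ dn H x * H v := by
  rcases eq_or_ne v 0 with rfl | hv
  · simp [hH.zero]
  have hp := hH.pos v hv
  have h1 : H ((H v)⁻¹ • v) ≤ 1 := by
    rw [hH.smul, abs_of_pos (inv_pos.mpr hp), inv_mul_cancel₀ hp.ne']
  have h2 := Dual_le_dn hH x h1
  rw [real_inner_smul_right, inv_mul_le_iff₀ hp, mul_comm] at h2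
  exact h2

theorem Dual_smul_le (hH : IsNm H) (c : ℝ) (x : E n) : dn H (c • x) ≤ |c| * dn H x := by
  obtain ⟨v, hv, h1⟩ := hH.exists_dn (c • x)
  rw [← h1, real_inner_smul_left, ← real_inner_smul_right]
  refine (hH.inner_le_dn x _).trans ?_
  rw [hH.smul, mul_comm]
  have h2 : |c| * H v ≤ |c| := mul_le_of_le_one_right (abs_nonneg c) hv
  exact mul_le_mul_of_nonneg_right h2 (Dual_dn_nonneg hH x)

theorem Dual_pos_of_mul {a b : ℝ} (h : 0 < a * b) (hb : 0 < b) : 0 < a :=
  (pos_iff_pos_of_mul_pos h).mpr hb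

theorem IsNm.dn (hH : IsNm H) : IsNm (dn H) := by
  refine ⟨fun x y => ?_, fun c x => ?_, fun x hx => ?_⟩
  · obtain ⟨v, hv, h1⟩ := hH.exists_dn (x + y)
    rw [← h1, inner_add_left]
    exact add_le_add (Dual_le_dn hH x hv) (Dual_le_dn hH y hv)
  · refine le_antisymm (Dual_smul_le hH c x) ?_
    rcases eq_or_ne c 0 with rfl | hc
    · simpa using Dual_dn_nonneg hH 0
    have h := Dual_smul_le hH c⁻¹ (c • x)
    rw [inv_smul_smul₀ hc, abs_inv, le_inv_mul_iff₀ (abs_pos.mpr hc)] at h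
    exact h
  · have h1 := hH.inner_le_dn x x
    have h2 : 0 < ⟪x, x⟫_ℝ := real_inner_self_pos.mpr hx
    exact Dual_pos_of_mul (h2.trans_le h1) (hH.pos x hx)

theorem IsNm.bodyOf_eq (hH : IsNm H) : bodyOf H = {x | R230.dn H x ≤ 1} := by
  ext x
  refine ⟨fun hx => ?_, fun hx v => ?_⟩
  · obtain ⟨v, hv, h1⟩ := hH.exists_dn x
    show R230.dn H x ≤ 1
    rw [← h1]
    exact (hx v).trans hv
  · exact (hH.inner_le_dn x v).trans (mul_le_of_le_one_left (hH.nonneg v) hx)

theorem IsNm.body_ball (hH : IsNm H) : Body {x | H x ≤ 1} := by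
  refine ⟨hH.isCompact_ball, ?_, ⟨0, ?_⟩⟩
  · simpa using hH.convexOn.convex_le 1
  · refine interior_maximal (t := {x | H x < 1}) (fun x (hx : H x < 1) => hx.le)
      (isOpen_lt hH.continuous continuous_const) ?_
    simp [hH.zero]

theorem IsNm.body_bodyOf (hH : IsNm H) : Body (bodyOf H) := by
  rw [hH.bodyOf_eq]
  exact hH.dn.body_ball

/-- with `v` from `exists_dn`, `dn H - ⟪·, v⟫` has a minimum at `u`, so the gradient is `v` -/
theorem IsNm.gradient_dn_le (hH : IsNm H) {u : E n} (hu : DifferentiableAt ℝ (R230.dn H) u) :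
    H (gradient (R230.dn H) u) ≤ 1 := by
  obtain ⟨v, hv, h1⟩ := hH.exists_dn u
  have hmin : IsLocalMin (fun x => R230.dn H x - innerSL ℝ v x) u := by
    refine Filter.Eventually.of_forall fun x => ?_
    have h2 := Dual_le_dn hH x hv
    simp only [innerSL_apply_apply]
    rw [real_inner_comm] at h1 h2
    linarith
  have hd : HasFDerivAt (fun x => R230.dn H x - innerSL ℝ v x)
      (fderiv ℝ (R230.dn H) u - innerSL ℝ v) u := hu.hasFDerivAt.sub (innerSL ℝ v).hasFDerivAt
  have h0 := hmin.hasFDerivAt_eq_zero hd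
  have hg : gradient (R230.dn H) u = v := by
    refine ext_inner_right ℝ fun w => ?_
    rw [inner_gradient, sub_eq_zero.mp h0, innerSL_apply_apply]
  rw [hg]
  exact hv

theorem IsNm.vol_bodyOf [NeZero n] (hH : IsNm H) :
    (volume : Measure (E n)).real (bodyOf H) = om n * ∫ u, (R230.dn H u ^ n)⁻¹ ∂sg n := by
  rw [hH.bodyOf_eq]
  exact hH.dn.vol_ball

theorem bodyOf_norm {r : ℝ} (hr : 0 ≤ r) :
    bodyOf (fun v : E n => r * ‖v‖) = closedBall 0 r := by
  ext x
  rw [mem_closedBall_zero_iff]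
  refine ⟨fun hx => ?_, fun hx v => ?_⟩
  · have h := hx x
    rw [real_inner_self_eq_norm_sq, sq] at h
    rcases (norm_nonneg x).eq_or_lt with h0 | h0
    · rw [← h0]; exact hr
    · exact le_of_mul_le_mul_right h h0
  · exact (real_inner_le_norm x v).trans (mul_le_mul_of_nonneg_right hx (norm_nonneg v))

theorem dt_pos (T : E n ≃L[ℝ] E n) : 0 < dt T := by
  exact abs_pos.mpr (LinearEquiv.isUnit_det' T.toLinearEquiv).ne_zero

/-- `Measure.addHaar_image_continuousLinearEquiv` and translation invariance -/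
theorem vol_image (a : E n) (T : E n ≃L[ℝ] E n) (K : Set (E n)) :
    (volume : Measure (E n)).real ((fun x => a + T x) '' K) = dt T * volume.real K := by
  have h1 : (fun x => a + T x) '' K = a +ᵥ (T '' K) := by
    rw [← Set.image_vadd, Set.image_image]
    rfl
  rw [h1, Measure.real, measure_vadd, Measure.addHaar_image_continuousLinearEquiv,
    ENNReal.toReal_mul, ENNReal.toReal_ofReal (abs_nonneg _)]
  rfl

theorem Body.image {K : Set (E n)} (hK : Body K) (a : E n) (T : E n ≃L[ℝ] E n) :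
    Body ((fun x => a + T x) '' K) := by
  let e : E n ≃ₜ E n := T.toHomeomorph.trans (Homeomorph.addLeft a)
  have he : (fun x => a + T x) = e := rfl
  refine ⟨hK.cpt.image (by fun_prop), ?_, ?_⟩
  · have h1 : (fun x => a + T x) '' K = (fun x => a + x) '' (T '' K) := by
      rw [Set.image_image]
    rw [h1]
    exact (hK.cvx.linear_image (T : E n →ₗ[ℝ] E n)).translate a
  · rw [he, ← e.image_interior]
    exact hK.int.image _

theorem Body.vol_pos {K : Set (E n)} (hK : Body K) : 0 < (volume : Measure (E n)).real K := by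
  refine ENNReal.toReal_pos ?_ hK.cpt.measure_lt_top.ne
  exact (Measure.measure_pos_of_nonempty_interior _ hK.int).ne'

theorem body_closedBall (a : E n) {r : ℝ} (hr : 0 < r) : Body (closedBall a r) := by
  refine ⟨isCompact_closedBall a r, convex_closedBall a r, ⟨a, ?_⟩⟩
  exact interior_maximal ball_subset_closedBall isOpen_ball (mem_ball_self hr)

theorem Dual_det_adjoint (f : E n →ₗ[ℝ] E n) :
    LinearMap.det (LinearMap.adjoint f) = LinearMap.det f := by
  let b := EuclideanSpace.basisFun (Fin n) ℝ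
  rw [← LinearMap.det_toMatrix b.toBasis, ← LinearMap.det_toMatrix b.toBasis f,
    LinearMap.toMatrix_adjoint, Matrix.det_conjTranspose, star_trivial]

/-- the adjoint as an equivalence, with the same determinant -/
theorem exists_adj (A : E n ≃L[ℝ] E n) :
    ∃ T : E n ≃L[ℝ] E n, dt T = dt A ∧ ∀ x y, ⟪T x, y⟫_ℝ = ⟪x, A y⟫_ℝ := by
  have h1 : ∀ x, ContinuousLinearMap.adjoint (A.symm : E n →L[ℝ] E n)
      (ContinuousLinearMap.adjoint (A : E n →L[ℝ] E n) x) = x := by
    intro x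
    refine ext_inner_right ℝ fun w => ?_
    simp [ContinuousLinearMap.adjoint_inner_left]
  have h2 : ∀ x, ContinuousLinearMap.adjoint (A : E n →L[ℝ] E n)
      (ContinuousLinearMap.adjoint (A.symm : E n →L[ℝ] E n) x) = x := by
    intro x
    refine ext_inner_right ℝ fun w => ?_
    simp [ContinuousLinearMap.adjoint_inner_left]
  let T : E n ≃L[ℝ] E n := ContinuousLinearEquiv.equivOfInverse _ _ h1 h2
  have hT : ∀ x y, ⟪T x, y⟫_ℝ = ⟪x, A y⟫_ℝ := fun x y =>
    ContinuousLinearMap.adjoint_inner_left (A : E n →L[ℝ] E n) y x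
  refine ⟨T, ?_, hT⟩
  have h3 : (T.toLinearEquiv : E n →ₗ[ℝ] E n) =
      LinearMap.adjoint (A.toLinearEquiv : E n →ₗ[ℝ] E n) := by
    rw [LinearMap.eq_adjoint_iff]
    exact hT
  unfold dt
  rw [h3, Dual_det_adjoint]

theorem IsNm.dn_affine (hH : IsNm H) {c : ℝ} (hc : 0 < c) {T A : E n ≃L[ℝ] E n}
    (hA : ∀ x y, ⟪T x, y⟫_ℝ = ⟪x, A y⟫_ℝ) (x : E n) :
    R230.dn (fun v => c * H (T.symm v)) x = c⁻¹ * R230.dn H (A x) := by
  have hG : IsNm fun v => c * H (T.symm v) := (hH.comp T.symm).cmul hc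
  apply le_antisymm
  · obtain ⟨v, hv, h1⟩ := hG.exists_dn x
    have h2 : ⟪x, v⟫_ℝ = ⟪A x, T.symm v⟫_ℝ := by
      rw [real_inner_comm, real_inner_comm (T.symm v), ← hA, T.apply_symm_apply]
    rw [← h1, h2]
    refine (hH.inner_le_dn _ _).trans ?_
    rw [mul_comm]
    refine mul_le_mul_of_nonneg_right ?_ (Dual_dn_nonneg hH _)
    rw [← one_div, le_div_iff₀ hc, mul_comm]
    exact hv
  · obtain ⟨w, hw, h1⟩ := hH.exists_dn (A x)
    have h2 : ⟪A x, w⟫_ℝ = ⟪x, T w⟫_ℝ := by
      rw [real_inner_comm, ← hA, real_inner_comm]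
    rw [← h1, h2, ← real_inner_smul_right]
    refine Dual_le_dn hG x ?_
    show c * H (T.symm (c⁻¹ • T w)) ≤ 1
    rw [map_smul, T.symm_apply_apply, hH.smul, abs_of_pos (inv_pos.mpr hc), ← mul_assoc,
      mul_inv_cancel₀ hc.ne', one_mul]
    exact hw

/-- the left set is the image of `bodyOf H` under `c • A⁻¹`, `A` the adjoint of `T` -/
theorem vol_bodyOf_affine (H : E n → ℝ) {c : ℝ} (hc : 0 < c) (T : E n ≃L[ℝ] E n) :
    (volume : Measure (E n)).real (bodyOf fun v => c * H (T.symm v)) =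
      c ^ n / dt T * volume.real (bodyOf H) := by
  obtain ⟨A, hdt, hA⟩ := exists_adj T
  have h1 : (fun x => (0 : E n) + A x) '' (bodyOf fun v => c * H (T.symm v)) = c • bodyOf H := by
    ext y
    rw [mem_smul_set_iff_inv_smul_mem₀ hc.ne']
    constructor
    · rintro ⟨x, hx, rfl⟩ w
      have h := hx (T w)
      simp only [T.symm_apply_apply] at h
      show ⟪c⁻¹ • (0 + A x), w⟫_ℝ ≤ H w
      rw [zero_add, real_inner_smul_left, hA, inv_mul_le_iff₀ hc]
      exact h
    · intro hy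
      refine ⟨A.symm y, fun v => ?_, by simp⟩
      have h := hy (T.symm v)
      rw [real_inner_smul_left, inv_mul_le_iff₀ hc] at h
      have h2 : ⟪A.symm y, v⟫_ℝ = ⟪y, T.symm v⟫_ℝ := by
        rw [← T.apply_symm_apply v, ← hA]
        simp
      show ⟪A.symm y, v⟫_ℝ ≤ c * H (T.symm v)
      rw [h2]
      exact h
  have h2 := vol_image 0 A (bodyOf fun v => c * H (T.symm v))
  rw [h1, hdt, Measure.real, Measure.addHaar_smul, ENNReal.toReal_mul,
    ENNReal.toReal_ofReal (abs_nonneg _), finrank_euclideanSpace_fin,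
    abs_of_pos (pow_pos hc n)] at h2
  have hp := dt_pos T
  rw [div_mul_eq_mul_div, eq_div_iff hp.ne', mul_comm, ← h2]
  rfl

end Crest.Agent.R230
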