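import Crest.Agent.R230.Nm

/-!
Row 230 (Petty).  The one-homogeneous extension `ext ψ N x = ‖x‖ ψ (N x / ‖x‖)`.
-/

set_option autoImplicit false

noncomputable section

namespace Crest.Agent.R230

open MeasureTheory Metric Set MvPolynomial Filter Topology
open scoped ENNReal InnerProductSpace Pointwise

variable {n : ℕ}

variable {N : E n → ℝ} {ψ ψ' : ℝ → ℝ}

theorem C1.Ext_cont (hψ : C1 ψ ψ') : ContinuousOn ψ (Ioi 0) :=
  fun t ht => (hψ.der t ht).continuousAt.continuousWithinAt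

theorem ext_sph {u : E n} (hu : ‖u‖ = 1) : ext ψ N u = ψ (N u) := by
  simp [ext, hu]

/-- `t x = N x / ‖x‖ ∈ [c, C]`, `ψ` is bounded and `L`-Lipschitz there
(`Convex.lipschitzOnWith_of_nnnorm_hasDerivWithin_le`);
`|ext x - ext y| ≤ |‖x‖ - ‖y‖| |ψ (t x)| + L ‖y‖ |t x - t y|` and
`‖y‖ |t x - t y| ≤ |N x - N y| + t x |‖y‖ - ‖x‖|` (treat `x = 0`, `y = 0` separately) -/
theorem IsNm.lh_ext (hN : IsNm N) (hψ : C1 ψ ψ') : LH (ext ψ N) := by
  obtain ⟨c, hc, hcN⟩ := hN.lower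
  obtain ⟨C, hC, hCN⟩ := hN.upper
  obtain ⟨K, hK⟩ := hN.lh.lip
  have hsub : Icc c C ⊆ Ioi (0 : ℝ) := fun t ht => hc.trans_le ht.1
  obtain ⟨L, hL⟩ := isCompact_Icc.exists_bound_of_continuousOn (hψ.cont.mono hsub)
  obtain ⟨B, hB⟩ := isCompact_Icc.exists_bound_of_continuousOn (hψ.Ext_cont.mono hsub)
  have hlip : ∀ s ∈ Icc c C, ∀ t ∈ Icc c C, |ψ s - ψ t| ≤ |L| * |s - t| := fun s hs t ht =>
    (convex_Icc c C).norm_image_sub_le_of_norm_hasDerivWithin_le
      (fun x hx => (hψ.der x (hsub hx)).hasDerivWithinAt)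
      (fun x hx => (hL x hx).trans (le_abs_self L)) ht hs
  have hB' : ∀ s ∈ Icc c C, |ψ s| ≤ |B| := fun s hs => (hB s hs).trans (le_abs_self B)
  have hmem : ∀ x : E n, x ≠ 0 → N x / ‖x‖ ∈ Icc c C := fun x hx =>
    ⟨(le_div_iff₀ (norm_pos_iff.2 hx)).2 (hcN x), (div_le_iff₀ (norm_pos_iff.2 hx)).2 (hCN x)⟩
  have hbd : ∀ x : E n, |ext ψ N x| ≤ |B| * ‖x‖ := by
    intro x
    by_cases hx : x = 0
    · simp [ext, hx]
    · rw [ext, abs_mul, abs_norm, mul_comm]
      exact mul_le_mul_of_nonneg_right (hB' _ (hmem x hx)) (norm_nonneg _)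
  have h0 : ext ψ N 0 = 0 := by simp [ext]
  have hp : 0 ≤ |L| * (K + C) := by positivity
  refine ⟨⟨⟨|B| + |L| * (K + C), by positivity⟩, LipschitzWith.of_dist_le_mul fun x y => ?_⟩,
    fun a x => ?_⟩
  · change |ext ψ N x - ext ψ N y| ≤ (|B| + |L| * (K + C)) * dist x y
    rw [dist_eq_norm]
    by_cases hx : x = 0
    · rw [hx, h0, zero_sub, zero_sub, abs_neg, norm_neg]
      nlinarith [hbd y, norm_nonneg y]
    by_cases hy : y = 0
    · rw [hy, h0, sub_zero, sub_zero]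
      nlinarith [hbd x, norm_nonneg x]
    have hx0 := norm_pos_iff.2 hx
    have hy0 := norm_pos_iff.2 hy
    have e1 : ext ψ N x - ext ψ N y = (‖x‖ - ‖y‖) * ψ (N x / ‖x‖) +
        ‖y‖ * (ψ (N x / ‖x‖) - ψ (N y / ‖y‖)) := by
      unfold ext
      ring
    have e2 : ‖y‖ * (N x / ‖x‖ - N y / ‖y‖) = (‖y‖ - ‖x‖) * (N x / ‖x‖) + (N x - N y) := by
      field_simp
      ring
    have h1 : |‖x‖ - ‖y‖| ≤ ‖x - y‖ := abs_norm_sub_norm_le x y
    have h2 : |N x - N y| ≤ K * ‖x - y‖ := by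
      have := hK.dist_le_mul x y
      rwa [Real.dist_eq, dist_eq_norm] at this
    have h3 : ‖y‖ * |N x / ‖x‖ - N y / ‖y‖| ≤ (K + C) * ‖x - y‖ := by
      rw [← abs_of_pos hy0, ← abs_mul, abs_of_pos hy0, e2]
      refine (abs_add_le _ _).trans ?_
      rw [abs_mul, abs_sub_comm, abs_of_pos (a := N x / ‖x‖) (hsub (hmem x hx))]
      have := mul_le_mul h1 (hmem x hx).2 (le_of_lt (hsub (hmem x hx))) (norm_nonneg _)
      linarith
    have h4 : |‖x‖ - ‖y‖| * |ψ (N x / ‖x‖)| ≤ ‖x - y‖ * |B| :=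
      mul_le_mul h1 (hB' _ (hmem x hx)) (abs_nonneg _) (norm_nonneg _)
    have h5 := mul_le_mul_of_nonneg_left (hlip _ (hmem x hx) _ (hmem y hy)) hy0.le
    have h6 := mul_le_mul_of_nonneg_left h3 (abs_nonneg L)
    rw [e1]
    refine (abs_add_le _ _).trans ?_
    rw [abs_mul, abs_mul, abs_of_pos hy0]
    nlinarith
  · by_cases ha : a = 0
    · simp [ha, h0]
    · rw [ext, ext, norm_smul, hN.smul, Real.norm_eq_abs,
        mul_div_mul_left _ _ (abs_ne_zero.2 ha), mul_assoc]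

/-- product and chain rule at a unit vector -/
theorem IsNm.gradient_ext (hN : IsNm N) (hψ : C1 ψ ψ') {u : E n} (hu : ‖u‖ = 1)
    (hd : DifferentiableAt ℝ N u) :
    gradient (ext ψ N) u = ψ (N u) • u + ψ' (N u) • (gradient N u - N u • u) := by
  have hu0 : u ≠ 0 := by
    rintro rfl
    simp at hu
  have hA : HasFDerivAt (fun x : E n => ‖x‖) (fderiv ℝ (fun x : E n => ‖x‖) u) u :=
    (differentiableAt_id.norm ℝ hu0).hasFDerivAt
  have hAv : ∀ v, fderiv ℝ (fun x : E n => ‖x‖) u v = ⟪u, v⟫_ℝ := fun v => by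
    rw [← inner_gradient, gradient_norm hu]
  have hI := (hasDerivAt_inv (x := ‖u‖) (by rw [hu]; norm_num)).comp_hasFDerivAt u hA
  have hQ := hd.hasFDerivAt.mul hI
  have hψ' : HasDerivAt ψ (ψ' (N u)) (N u * ‖u‖⁻¹) := by
    rw [hu, inv_one, mul_one]
    exact hψ.der _ (hN.pos_sph hu)
  have hP := hA.mul (hψ'.comp_hasFDerivAt u hQ)
  have hE : ext ψ N = (fun x : E n => ‖x‖) *
      (ψ ∘ (N * ((fun y : ℝ => y⁻¹) ∘ fun x : E n => ‖x‖))) := by
    funext x
    simp [ext, div_eq_mul_inv]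
  refine ext_inner_right ℝ fun v => ?_
  rw [inner_gradient, hE, hP.fderiv]
  simp only [add_apply, smul_apply, hAv, smul_eq_mul,
    Function.comp_apply, Pi.mul_apply, hu, inv_one, mul_one, one_pow, inner_add_left,
    inner_sub_left, real_inner_smul_left, inner_gradient]
  ring

theorem C1_pow (β : ℕ) : C1 (fun t => t ^ β) (fun t => β * t ^ (β - 1)) := by
  exact ⟨fun t _ => hasDerivAt_pow β t, by fun_prop⟩

/-- at `t = 1` glue the one-sided derivatives (`HasDerivWithinAt.union`) -/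
theorem C1.max (hψ : C1 ψ ψ') (h1 : ψ' 1 = 0) :
    C1 (fun t => ψ (max t 1)) (fun t => ψ' (max t 1)) := by
  refine ⟨fun t _ => ?_, hψ.cont.comp (f := fun t : ℝ => Max.max t 1) (by fun_prop)
    fun t _ => lt_of_lt_of_le one_pos (le_max_right t 1)⟩
  rcases lt_trichotomy t 1 with h | rfl | h
  · rw [max_eq_right h.le, h1]
    refine (hasDerivAt_const t (ψ 1)).congr_of_eventuallyEq ?_
    filter_upwards [Iio_mem_nhds h] with s hs
    rw [max_eq_right (le_of_lt hs)]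
  · rw [max_self, ← hasDerivWithinAt_univ, ← Iic_union_Ici (a := (1 : ℝ))]
    refine HasDerivWithinAt.union ?_ ?_
    · rw [h1]
      exact (hasDerivWithinAt_const (1 : ℝ) _ (ψ 1)).congr (fun s hs => by rw [max_eq_right hs])
        (by rw [max_self])
    · exact (hψ.der 1 one_pos).hasDerivWithinAt.congr (fun s hs => by rw [max_eq_left hs])
        (by rw [max_self])
  · rw [max_eq_left h.le]
    refine (hψ.der t (one_pos.trans h)).congr_of_eventuallyEq ?_
    filter_upwards [Ioi_mem_nhds h] with s hs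
    rw [max_eq_left (le_of_lt hs)]

theorem C1.cmul (hψ : C1 ψ ψ') (c : ℝ) : C1 (fun t => c * ψ t) (fun t => c * ψ' t) := by
  exact ⟨fun t ht => (hψ.der t ht).const_mul c, continuousOn_const.mul hψ.cont⟩

theorem C1.integrable [NeZero n] (hψ : C1 ψ ψ') (hN : IsNm N) :
    MemLp (fun u => ψ (N u)) ∞ (sg n) ∧ MemLp (fun u => ψ' (N u)) ∞ (sg n) := by
  have hm : MapsTo N (sphere 0 1) (Ioi 0) := fun u hu => hN.pos_sph (by simpa using hu)
  exact ⟨memLp_of_contOn (hψ.Ext_cont.comp hN.continuous.continuousOn hm) _,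
    memLp_of_contOn (hψ.cont.comp hN.continuous.continuousOn hm) _⟩

theorem IsNm.rad_ext [NeZero n] (hN : IsNm N) (hψ : C1 ψ ψ') :
    ∀ᵐ u ∂sg n, rad (gradient (ext ψ N)) u = ψ (N u) := by
  filter_upwards [(hN.lh_ext hψ).rad_ae, ae_norm] with u h1 h2
  rw [h1, ext_sph h2]

theorem IsNm.Lb_ext_pow [NeZero n] (hN : IsNm N) {β : ℕ} (hβ : 1 ≤ β) :
    ∀ᵐ u ∂sg n, Lb β (gradient (ext (fun t => t ^ β) N)) u =
      ((β : ℝ) * N u ^ (β - 1)) • gradient N u := by
  filter_upwards [hN.rad_ext (C1_pow β), hN.lh.ae_diff, ae_norm] with u h1 h2 h3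
  have h4 : N u ^ β = N u ^ (β - 1) * N u := by rw [← pow_succ, Nat.sub_add_cancel hβ]
  rw [Lb, h1, hN.gradient_ext (C1_pow β) h3 h2, h4]
  module

theorem IsNm.inner_gradient_ext [NeZero n] (hN : IsNm N) (hψ : C1 ψ ψ') :
    ∀ᵐ u ∂sg n, ⟪gradient N u, gradient (ext ψ N) u⟫_ℝ =
      ψ (N u) * N u + ψ' (N u) * (‖gradient N u‖ ^ 2 - N u ^ 2) := by
  filter_upwards [hN.lh.ae_diff, ae_norm] with u h2 h3
  rw [hN.gradient_ext hψ h3 h2, inner_add_right, real_inner_smul_right, real_inner_smul_right,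
    inner_sub_right, real_inner_smul_right, hN.lh.euler h2, real_inner_self_eq_norm_sq]
  ring

theorem IsNm.tang_nonneg [NeZero n] (hN : IsNm N) :
    ∀ᵐ u ∂sg n, 0 ≤ ‖gradient N u‖ ^ 2 - N u ^ 2 := by
  filter_upwards [hN.lh.ae_diff, ae_norm] with u h2 h3
  have h4 := real_inner_le_norm (gradient N u) u
  rw [hN.lh.euler h2, h3, mul_one] at h4
  exact sub_nonneg.2 (pow_le_pow_left₀ (hN.nonneg u) h4 2)

theorem IsNm.en_ext [NeZero n] (hN : IsNm N) (hψ : C1 ψ ψ') :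
    en (gradient (ext ψ N)) = ∫ u, ψ' (N u) ^ 2 * (‖gradient N u‖ ^ 2 - N u ^ 2) ∂sg n := by
  have h1 : Integrable (fun u => ‖gradient (ext ψ N) u‖ ^ 2) (sg n) :=
    ((hN.lh_ext hψ).memLp_gradient 2).norm.integrable_sq
  have h2 : Integrable (fun u => rad (gradient (ext ψ N)) u ^ 2) (sg n) := by
    refine (((hψ.integrable hN).1.mono_exponent (p := 2) le_top).integrable_sq).congr ?_
    filter_upwards [hN.rad_ext hψ] with u hu
    rw [hu]
  rw [en, ← integral_sub h1 h2]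
  refine integral_congr_ae ?_
  filter_upwards [hN.rad_ext hψ, hN.lh.ae_diff, ae_norm] with u h3 h4 h5
  have h6 : ⟪u, u⟫_ℝ = 1 := by rw [real_inner_self_eq_norm_sq, h5, one_pow]
  have h7 := hN.lh.euler h4
  have h8 : ⟪u, gradient N u⟫_ℝ = N u := by rw [real_inner_comm, h7]
  rw [h3, hN.gradient_ext hψ h5 h4, ← real_inner_self_eq_norm_sq, ← real_inner_self_eq_norm_sq]
  simp only [inner_add_left, inner_add_right, inner_sub_left, inner_sub_right,
    real_inner_smul_left, real_inner_smul_right, h6, h7, h8]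
  ring

end Crest.Agent.R230
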