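import Crest.Agent.R230.IBP
import Crest.Agent.R230.C0

/-!
Row 230 (Petty).  Funk-Hecke for the sign kernel.  Put `ℓ = ⟪u, w⟫ = ev (∑ C (w i) * X i) u`,
`s q = ∫ sign ℓ * ev q`.  `LH.wk` for `F = |ℓ|` (`lh_abs_inner`, `gradient_abs_inner`,
`ae_inner_ne_zero`, `|ℓ| = sign ℓ * ℓ`) gives
(★) `w_i s(q) = - s(ℓ ∂_i q) + (d + n) s(ℓ x_i q)` for `q` homogeneous of degree `d`.
For `Y` harmonic of degree `m`, `D = ∑ w_i ∂_i`:
(1) (★) with `q = ∂_i Y`, sum: `s(D Y) = m (m + n - 1) s(ℓ Y)`;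
(2) (★) with `q = ℓ ∂_i Y`, sum: `2 s(ℓ D Y) = m (m + n) s(ℓ² Y)`;
(3) (★) with `q = Y` contracted with `w_i`: `s(Y) = - s(ℓ D Y) + (m + n) s(ℓ² Y)`.
So `m s(Y) = (2 - m) s(ℓ D Y)` and, by (1) for `D Y`, `(m-1)(m+n-2) s(ℓ D Y) = s(D D Y)`; by Euler
`ev (D D Y) w = m (m-1) ev Y w`.  Base `m = 1`: `D Y` is the constant `ev Y w`, `int_abs_inner`.
-/

set_option autoImplicit false

noncomputable section

namespace Crest.Agent.R230

open MeasureTheory Metric Set MvPolynomial Filter Topology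
open scoped ENNReal InnerProductSpace Pointwise

variable {n : ℕ}

/-- the linear form `⟪·, w⟫` -/
def FH_L (w : E n) : Pl n := ∑ i, C (w i) * X i

/-- the directional derivative -/
def FH_D (w : E n) (p : Pl n) : Pl n := ∑ i, C (w i) * pderiv i p

/-- the sign functional -/
def FH_s (w : E n) (q : Pl n) : ℝ := ∫ u, Real.sign ⟪u, w⟫_ℝ * ev q u ∂sg n

theorem FH_ev_L (w u : E n) : ev (FH_L w) u = ⟪u, w⟫_ℝ := by
  rw [FH_L, ev_sum, PiLp.inner_apply]
  refine Finset.sum_congr rfl fun i _ => ?_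
  simp

theorem FH_hom_L (w : E n) : (FH_L w).IsHomogeneous 1 :=
  IsHomogeneous.sum _ _ _ fun i _ => (isHomogeneous_X ℝ i).C_mul _

theorem FH_pderiv_L (w : E n) (i : Fin n) : pderiv i (FH_L w) = C (w i) := by
  classical
  rw [FH_L, map_sum, Finset.sum_eq_single i]
  · simp
  · intro j _ hj
    simp [pderiv_X, Pi.single_apply, hj, hj.symm]
  · simp

theorem FH_abs_sign (x : ℝ) : |Real.sign x| ≤ 1 := by
  rcases Real.sign_apply_eq x with h | h | h <;> simp [h]

theorem FH_sign_mul (x : ℝ) : Real.sign x * x = |x| := by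
  rcases lt_trichotomy x 0 with h | h | h
  · rw [Real.sign_of_neg h, abs_of_neg h]; ring
  · simp [h]
  · rw [Real.sign_of_pos h, abs_of_pos h]; ring

theorem FH_int [NeZero n] (w : E n) (q : Pl n) :
    Integrable (fun u => Real.sign ⟪u, w⟫_ℝ * ev q u) (sg n) := by
  refine Integrable.bdd_mul (c := 1) (integrable_of_cont (continuous_ev q)) ?_ ?_
  · exact (measurable_rsign.comp (by fun_prop)).aestronglyMeasurable
  · exact Eventually.of_forall fun u => FH_abs_sign _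

theorem FH_s_add [NeZero n] (w : E n) (p q : Pl n) : FH_s w (p + q) = FH_s w p + FH_s w q := by
  unfold FH_s
  rw [← integral_add (FH_int w p) (FH_int w q)]
  simp only [ev_add, mul_add]

theorem FH_s_sum [NeZero n] (w : E n) (p : Fin n → Pl n) :
    FH_s w (∑ i, p i) = ∑ i, FH_s w (p i) := by
  unfold FH_s
  rw [← integral_finsetSum _ fun i _ => FH_int w (p i)]
  simp only [ev_sum, Finset.mul_sum]

theorem FH_s_C (w : E n) (c : ℝ) (q : Pl n) : FH_s w (C c * q) = c * FH_s w q := by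
  unfold FH_s
  rw [← integral_const_mul]
  refine integral_congr_ae (Eventually.of_forall fun u => ?_)
  simp only [ev_mul, ev_C]
  ring

theorem FH_s_zero (w : E n) : FH_s w 0 = 0 := by
  simp [FH_s]

/-- (★) -/
theorem FH_star [NeZero n] {w : E n} (hw : w ≠ 0) {d : ℕ} {q : Pl n} (hq : q.IsHomogeneous d)
    (i : Fin n) : w i * FH_s w q =
      -FH_s w (FH_L w * pderiv i q) + ((d : ℝ) + n) * FH_s w (FH_L w * (X i * q)) := by
  have h := (lh_abs_inner w).wk d q hq i
  have e1 : ∫ u, gradient (fun x : E n => |⟪x, w⟫_ℝ|) u i * ev q u ∂sg n = w i * FH_s w q := by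
    unfold FH_s
    rw [← integral_const_mul]
    refine integral_congr_ae ((ae_inner_ne_zero hw).mono fun u hu => ?_)
    simp only [gradient_abs_inner hu, PiLp.smul_apply, smul_eq_mul]
    ring
  have e2 : ∀ p : Pl n, ∫ u, rad (gradient (fun x : E n => |⟪x, w⟫_ℝ|)) u * ev p u ∂sg n =
      FH_s w (FH_L w * p) := by
    intro p
    unfold FH_s
    refine integral_congr_ae ((lh_abs_inner w).rad_ae.mono fun u hu => ?_)
    beta_reduce
    rw [hu, ev_mul, FH_ev_L, ← FH_sign_mul]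
    ring
  have e3 := e2 (X i * q)
  simp only [ev_mul, ev_X] at e3
  rw [e1, e2, e3] at h
  exact h

theorem FH_euler {d : ℕ} {p : Pl n} (hp : p.IsHomogeneous d) :
    ∑ i, X i * pderiv i p = C (d : ℝ) * p := by
  rw [hp.sum_X_mul_pderiv, nsmul_eq_mul]
  rfl

/-- (1) -/
theorem FH_one [NeZero n] {w : E n} (hw : w ≠ 0) {k : ℕ} {Y : Pl n} (hY : IsHm (k + 1) Y) :
    FH_s w (FH_D w Y) = ((k : ℝ) + 1) * (k + n) * FH_s w (FH_L w * Y) := by
  have h : ∀ i, w i * FH_s w (pderiv i Y) = -FH_s w (FH_L w * pderiv i (pderiv i Y)) +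
      ((k : ℝ) + n) * FH_s w (FH_L w * (X i * pderiv i Y)) :=
    fun i => FH_star hw (d := k) (hY.pderiv i).hom i
  have hl : ∑ i, pderiv i (pderiv i Y) = 0 := hY.har
  rw [FH_D, FH_s_sum]
  simp only [FH_s_C, h]
  rw [Finset.sum_add_distrib, Finset.sum_neg_distrib, ← Finset.mul_sum, ← FH_s_sum, ← FH_s_sum,
    ← Finset.mul_sum, ← Finset.mul_sum, hl, mul_zero, FH_s_zero, FH_euler hY.hom, mul_left_comm,
    FH_s_C]
  push_cast
  ring

/-- (2) -/
theorem FH_two [NeZero n] {w : E n} (hw : w ≠ 0) {k : ℕ} {Y : Pl n} (hY : IsHm (k + 1) Y) :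
    2 * FH_s w (FH_L w * FH_D w Y) =
      ((k : ℝ) + 1) * (k + 1 + n) * FH_s w (FH_L w * (FH_L w * Y)) := by
  have h : ∀ i, w i * FH_s w (FH_L w * pderiv i Y) =
      -FH_s w (FH_L w * pderiv i (FH_L w * pderiv i Y)) +
      (((1 + k : ℕ) : ℝ) + n) * FH_s w (FH_L w * (X i * (FH_L w * pderiv i Y))) :=
    fun i => FH_star hw (d := 1 + k) ((FH_hom_L w).mul (hY.pderiv i).hom) i
  have hl : ∑ i, pderiv i (pderiv i Y) = 0 := hY.har
  have e0 : FH_s w (FH_L w * FH_D w Y) = ∑ i, w i * FH_s w (FH_L w * pderiv i Y) := by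
    rw [FH_D, Finset.mul_sum, FH_s_sum]
    exact Finset.sum_congr rfl fun i _ => by rw [mul_left_comm, FH_s_C]
  have e1 : ∑ i, FH_L w * pderiv i (FH_L w * pderiv i Y) = FH_L w * FH_D w Y := by
    have : ∀ i, pderiv i (FH_L w * pderiv i Y) =
        C (w i) * pderiv i Y + FH_L w * pderiv i (pderiv i Y) := by
      intro i
      rw [pderiv_mul, FH_pderiv_L]
    simp only [this]
    rw [← Finset.mul_sum, Finset.sum_add_distrib, ← Finset.mul_sum, hl, mul_zero, add_zero]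
    rfl
  have e2 : ∑ i, FH_L w * (X i * (FH_L w * pderiv i Y)) =
      C ((k + 1 : ℕ) : ℝ) * (FH_L w * (FH_L w * Y)) := by
    have : ∀ i, FH_L w * (X i * (FH_L w * pderiv i Y)) =
        FH_L w * FH_L w * (X i * pderiv i Y) := fun i => by ring
    simp only [this]
    rw [← Finset.mul_sum, FH_euler hY.hom]
    ring
  have e3 := e0
  simp only [h] at e3
  rw [Finset.sum_add_distrib, Finset.sum_neg_distrib, ← Finset.mul_sum, ← FH_s_sum, ← FH_s_sum,
    e1, e2, FH_s_C] at e3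
  push_cast at e3
  linarith

/-- (3) -/
theorem FH_three [NeZero n] {w : E n} (hw : ‖w‖ = 1) {m : ℕ} {Y : Pl n}
    (hY : Y.IsHomogeneous m) :
    FH_s w Y = -FH_s w (FH_L w * FH_D w Y) + ((m : ℝ) + n) * FH_s w (FH_L w * (FH_L w * Y)) := by
  have hw0 : w ≠ 0 := by rintro rfl; simp at hw
  have hsq : ∑ i, w i * w i = 1 := by
    have := EuclideanSpace.real_norm_sq_eq w
    rw [hw] at this
    simpa [sq] using this.symm
  have e0 : FH_s w (FH_L w * FH_D w Y) = ∑ i, w i * FH_s w (FH_L w * pderiv i Y) := by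
    rw [FH_D, Finset.mul_sum, FH_s_sum]
    exact Finset.sum_congr rfl fun i _ => by rw [mul_left_comm, FH_s_C]
  have e1 : FH_s w (FH_L w * (FH_L w * Y)) = ∑ i, w i * FH_s w (FH_L w * (X i * Y)) := by
    have : FH_L w * (FH_L w * Y) = ∑ i, C (w i) * (FH_L w * (X i * Y)) := by
      conv_lhs => enter [2, 1]; rw [FH_L]
      rw [Finset.sum_mul, Finset.mul_sum]
      exact Finset.sum_congr rfl fun i _ => by ring
    rw [this, FH_s_sum]
    simp only [FH_s_C]
  rw [e0, e1, Finset.mul_sum, ← Finset.sum_neg_distrib, ← Finset.sum_add_distrib,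
    ← one_mul (FH_s w Y), ← hsq, Finset.sum_mul]
  refine Finset.sum_congr rfl fun i _ => ?_
  rw [mul_assoc, FH_star hw0 hY i]
  ring

theorem FH_red [NeZero n] {w : E n} (hw : ‖w‖ = 1) {k : ℕ} {Y : Pl n} (hY : IsHm (k + 1) Y) :
    ((k : ℝ) + 1) * FH_s w Y = (1 - k) * FH_s w (FH_L w * FH_D w Y) := by
  have hw0 : w ≠ 0 := by rintro rfl; simp at hw
  have h2 := FH_two hw0 hY
  rw [FH_three hw hY.hom]
  push_cast
  linear_combination -h2

theorem FH_ev_D {w : E n} {m : ℕ} {Y : Pl n} (hY : Y.IsHomogeneous m) :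
    ev (FH_D w Y) w = m * ev Y w := by
  rw [FH_D, ev_sum, ← ev_euler hY w]
  simp

theorem funk (hn : 2 ≤ n) (j : ℕ) {Y : Pl n} (hY : IsHm (2 * j + 1) Y) {w : E n} (hw : ‖w‖ = 1) :
    ∫ u, Real.sign ⟪u, w⟫_ℝ * ev Y u ∂sg n = (1 - 2 * (j : ℝ)) * cm n j * C0 n * ev Y w := by
  haveI : NeZero n := ⟨by omega⟩
  have hw0 : w ≠ 0 := by rintro rfl; simp at hw
  change FH_s w Y = _
  induction j generalizing Y with
  | zero =>
    have h := FH_red hw (k := 0) hY
    have hD : (FH_D w Y).IsHomogeneous 0 := (hY.dir w).hom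
    have e : FH_s w (FH_L w * FH_D w Y) = C0 n * ev Y w := by
      unfold FH_s
      rw [← int_abs_inner hw, ← integral_mul_const]
      refine integral_congr_ae (Eventually.of_forall fun u => ?_)
      have e1 := FH_ev_D (w := w) hY.hom
      simp only [ev_mul, FH_ev_L, ev_of_hom_zero hD u w, e1, ← FH_sign_mul]
      push_cast
      ring
    rw [e] at h
    simp only [cm]
    push_cast at h ⊢
    linarith
  | succ j ih =>
    have hY' : IsHm (2 * j + 2 + 1) Y := hY
    have hD : IsHm (2 * j + 1 + 1) (FH_D w Y) := hY'.dir w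
    have hDD : IsHm (2 * j + 1) (FH_D w (FH_D w Y)) := hD.dir w
    have h1 := FH_red hw hY'
    have h2 := FH_one hw0 hD
    have h3 := ih hDD
    rw [FH_ev_D hD.hom, FH_ev_D hY'.hom, h2] at h3
    have hpos : (0 : ℝ) < n + 2 * j + 1 := by positivity
    have hj2 : (0 : ℝ) < 2 * j + 2 := by positivity
    have hj3 : (0 : ℝ) < 2 * j + 3 := by positivity
    simp only [cm]
    push_cast at h1 h3 ⊢
    have h4 : ((n : ℝ) + 2 * j + 1) * FH_s w (FH_L w * FH_D w Y) =
        (1 - 2 * j) * cm n j * C0 n * ((2 * j + 3) * ev Y w) := by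
      apply mul_left_cancel₀ hj2.ne'
      linear_combination h3
    have h5 : ((n : ℝ) + 2 * j + 1) * FH_s w Y =
        (1 - 2 * (j + 1)) * (cm n j * (1 - 2 * j)) * C0 n * ev Y w := by
      apply mul_left_cancel₀ hj3.ne'
      linear_combination ((n : ℝ) + 2 * j + 1) * h1 + (-1 - 2 * (j : ℝ)) * h4
    field_simp
    linear_combination h5

end Crest.Agent.R230
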