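import Crest.Agent.R230.Petty

/-!
Row 230 (Petty).  S0354 from `petty`: `projBody_eq`, all volumes are finite (`Body`, `body_bodyOf`), `om`.
-/

set_option autoImplicit false
open MeasureTheory
open scoped ENNReal

namespace Crest.Agent.R230

theorem final54 (n : ℕ) (hn : 4 ≤ n)
    (K : Set (EuclideanSpace ℝ (Fin n))) (hK : IsCompact K) (hKc : Convex ℝ K) (hKi : (interior K).Nonempty) :
    volume (Metric.ball (0 : EuclideanSpace ℝ (Fin (n - 1))) 1) ^ n * volume K ^ (n - 1) ≤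
        volume (⋂ u ∈ Metric.sphere (0 : EuclideanSpace ℝ (Fin n)) 1,
          {x : EuclideanSpace ℝ (Fin n) | inner ℝ x u ≤
            ((μHE[n - 1] : Measure (EuclideanSpace ℝ (Fin n))) ((fun y => y - inner ℝ y u • u) '' K)).toReal}) *
          volume (Metric.ball (0 : EuclideanSpace ℝ (Fin n)) 1) ^ (n - 2) ∧
      (volume (Metric.ball (0 : EuclideanSpace ℝ (Fin (n - 1))) 1) ^ n * volume K ^ (n - 1) =
          volume (⋂ u ∈ Metric.sphere (0 : EuclideanSpace ℝ (Fin n)) 1,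
          {x : EuclideanSpace ℝ (Fin n) | inner ℝ x u ≤
            ((μHE[n - 1] : Measure (EuclideanSpace ℝ (Fin n))) ((fun y => y - inner ℝ y u • u) '' K)).toReal}) *
            volume (Metric.ball (0 : EuclideanSpace ℝ (Fin n)) 1) ^ (n - 2) ↔
        ∃ (a : EuclideanSpace ℝ (Fin n)) (T : EuclideanSpace ℝ (Fin n) ≃ₗ[ℝ] EuclideanSpace ℝ (Fin n)),
          K = (fun x => a + T x) '' Metric.closedBall 0 1) := by
  haveI : NeZero n := ⟨by omega⟩
  have hB : Body K := ⟨hK, hKc, hKi⟩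
  obtain ⟨h1, h2⟩ := petty hn hB
  rw [projBody_eq]
  have f1 : volume (Metric.ball (0 : EuclideanSpace ℝ (Fin (n - 1))) 1) ≠ ∞ :=
    measure_ball_lt_top.ne
  have f2 : volume (Metric.ball (0 : EuclideanSpace ℝ (Fin n)) 1) ≠ ∞ := measure_ball_lt_top.ne
  have f3 : volume K ≠ ∞ := hK.measure_lt_top.ne
  have f4 : volume (bodyOf (sh K)) ≠ ∞ := hB.isNm_sh.body_bodyOf.cpt.measure_lt_top.ne
  have g1 := ENNReal.mul_ne_top (ENNReal.pow_ne_top (n := n) f1) (ENNReal.pow_ne_top (n := n - 1) f3)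
  have g2 := ENNReal.mul_ne_top f4 (ENNReal.pow_ne_top (n := n - 2) f2)
  rw [← ENNReal.toReal_le_toReal g1 g2, ← ENNReal.toReal_eq_toReal_iff' g1 g2]
  simp only [ENNReal.toReal_mul, ENNReal.toReal_pow]
  exact ⟨h1, h2⟩

end Crest.Agent.R230
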