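import Crest.Agent.R230.Blk3

/-!
Row 230 (Petty).  S0355: `K = blk b`, `b i = decide (i < 10)` (two blocks of size ten); `ratio_blk`, `projBody_eq`.
-/

set_option autoImplicit false
open MeasureTheory
open scoped ENNReal

namespace Crest.Agent.R230

theorem final55 :
    ∃ K : Set (EuclideanSpace ℝ (Fin 20)), IsCompact K ∧ Convex ℝ K ∧ (interior K).Nonempty ∧
      (volume (⋂ u ∈ Metric.sphere (0 : EuclideanSpace ℝ (Fin 20)) 1,
            {x : EuclideanSpace ℝ (Fin 20) | inner ℝ x u ≤
              ((μHE[19] : Measure (EuclideanSpace ℝ (Fin 20))) ((fun y => y - inner ℝ y u • u) '' K)).toReal})).toReal /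
          (volume K).toReal ^ 19 =
        (21 * 20 ^ 20 / Nat.factorial 20 : ℝ) * (22355476 / 22020096) ∧
      (21 * 20 ^ 20 / Nat.factorial 20 : ℝ) * (volume K).toReal ^ 19 <
        (volume (⋂ u ∈ Metric.sphere (0 : EuclideanSpace ℝ (Fin 20)) 1,
            {x : EuclideanSpace ℝ (Fin 20) | inner ℝ x u ≤
              ((μHE[19] : Measure (EuclideanSpace ℝ (Fin 20))) ((fun y => y - inner ℝ y u • u) '' K)).toReal})).toReal := by
  let b : Fin 20 → Bool := fun i => decide (i.val < 10)
  have hB := body_blk b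
  have hr := ratio_blk (n := 20) (by norm_num) b
  have hd : ∀ j, dim b j = 10 := by
    intro j
    cases j <;> (unfold dim; decide)
  have hv : 0 < (volume : Measure (E 20)).real (blk b) := by
    rw [vol_blk]
    exact Finset.prod_pos fun j _ => by positivity
  have hp := projBody_eq (n := 20) (blk b)
  simp only [hd, Finset.prod_const, Finset.card_univ, Fintype.card_bool] at hr
  have hnum : (((10 : ℕ) : ℝ) + 1) * ((10 : ℕ) : ℝ) ^ 10 / (Nat.factorial 10 : ℝ) = 11 * 10 ^ 10 / 3628800 := by
    norm_num [Nat.factorial]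
  have hc : (Nat.factorial 20 : ℝ) = 2432902008176640000 := by
    norm_num [Nat.factorial]
  rw [hnum] at hr
  have key : (volume (bodyOf (sh (blk b)))).toReal / (volume (blk b)).toReal ^ 19 =
      (21 * 20 ^ 20 / Nat.factorial 20 : ℝ) * (22355476 / 22020096) := by
    have : (volume (bodyOf (sh (blk b)))).toReal / (volume (blk b)).toReal ^ 19 =
        (11 * 10 ^ 10 / 3628800 : ℝ) ^ 2 := hr
    rw [this, hc]
    norm_num
  refine ⟨blk b, hB.cpt, hB.cvx, hB.int, ?_, ?_⟩
  · exact (congrArg (fun s => (volume s).toReal / (volume (blk b)).toReal ^ 19) hp).trans key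
  · have hv' : 0 < (volume (blk b)).toReal ^ 19 := pow_pos hv 19
    have h2 : (21 * 20 ^ 20 / Nat.factorial 20 : ℝ) * (volume (blk b)).toReal ^ 19 <
        (volume (bodyOf (sh (blk b)))).toReal := by
      rw [div_eq_iff hv'.ne'] at key
      rw [key]
      refine mul_lt_mul_of_pos_right ?_ hv'
      rw [hc]
      norm_num
    exact h2.trans_eq (congrArg (fun s => (volume s).toReal) hp).symm

end Crest.Agent.R230
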