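import Crest.Agent.R230.Blk3

/-!
Row 230 (Petty).  S0356: `K = blk b`, `b i = i / 10 : Fin (n/10 + 1)` (blocks of size ten and one of size `n % 10`);
the simplex is `blk (fun _ => ())`.  `R d = (d+1) d^d / d! ≥ 1`, `R n ≤ (n+1) e^n`,
`R 10 = 11·10^10/10! > 30313 > (1.02 e)^10`; take `lam = 1.01` and `N` from
`(n+1) C (1.01/1.02)^n → 0`.
-/

set_option autoImplicit false
open MeasureTheory
open scoped ENNReal

namespace Crest.Agent.R230

theorem Final56_one_le (d : ℕ) : (1 : ℝ) ≤ ((d : ℝ) + 1) * (d : ℝ) ^ d / d.factorial := by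
  have h1 : (d.factorial : ℝ) ≤ (d : ℝ) ^ d := by exact_mod_cast Nat.factorial_le_pow d
  have h2 : (0 : ℝ) < d.factorial := by exact_mod_cast d.factorial_pos
  rw [one_le_div h2]
  exact h1.trans (le_mul_of_one_le_left (by positivity) (by linarith [Nat.cast_nonneg (α := ℝ) d]))

theorem Final56_ten : (102 / 100 * Real.exp 1) ^ 10 ≤
    (((10 : ℕ) : ℝ) + 1) * ((10 : ℕ) : ℝ) ^ 10 / (Nat.factorial 10 : ℕ) := by
  have h1 : 102 / 100 * Real.exp 1 ≤ 278 / 100 := by linarith [Real.exp_one_lt_d9]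
  refine (pow_le_pow_left₀ (by positivity) h1 10).trans ?_
  norm_num [Nat.factorial]

theorem Final56_dim (n : ℕ) (j : Fin (n / 10)) :
    dim (fun i : Fin n => (⟨i / 10, by omega⟩ : Fin (n / 10 + 1))) j.castSucc = 10 := by
  have h1 : (Finset.univ.filter (fun i : Fin n =>
      (⟨i / 10, by omega⟩ : Fin (n / 10 + 1)) = j.castSucc)).image Fin.val =
      Finset.Ico (10 * j.val) (10 * j.val + 10) := by
    ext x
    simp only [Finset.mem_image, Finset.mem_filter, Finset.mem_univ, true_and, Finset.mem_Ico,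
      Fin.ext_iff, Fin.val_castSucc]
    constructor
    · rintro ⟨i, hi, rfl⟩
      omega
    · intro hx
      have := j.isLt
      exact ⟨⟨x, by omega⟩, by simp only; omega, rfl⟩
  rw [dim, ← Finset.card_image_of_injective _ Fin.val_injective, h1, Nat.card_Ico]
  omega

theorem Final56_asym : ∃ N : ℕ, ∀ n : ℕ, N ≤ n →
    (101 / 100 : ℝ) ^ n * (((n : ℝ) + 1) * (n : ℝ) ^ n / n.factorial) ≤
      ((((10 : ℕ) : ℝ) + 1) * ((10 : ℕ) : ℝ) ^ 10 / (Nat.factorial 10 : ℕ)) ^ (n / 10) := by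
  have h1 := tendsto_self_mul_const_pow_of_lt_one (r := (101 / 102 : ℝ)) (by norm_num) (by norm_num)
  obtain ⟨N, hN⟩ := Filter.eventually_atTop.1
    (h1.eventually_le_const (by norm_num : (0 : ℝ) < 1 / (2 * 3 ^ 9)))
  refine ⟨max N 1, fun n hn => ?_⟩
  have hn1 : (1 : ℝ) ≤ n := by exact_mod_cast (le_max_right _ _).trans hn
  have h2 := hN n ((le_max_left _ _).trans hn)
  obtain ⟨A, hA⟩ : ∃ A : ℝ, A = 102 / 100 * Real.exp 1 := ⟨_, rfl⟩
  have hA1 : 1 ≤ A := by rw [hA]; linarith [Real.exp_one_gt_d9]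
  have hA3 : A ≤ 3 := by rw [hA]; linarith [Real.exp_one_lt_d9]
  have h3 : (n : ℝ) ^ n / n.factorial ≤ Real.exp 1 ^ n := by
    rw [Real.exp_one_pow]
    exact Real.pow_div_factorial_le_exp _ (Nat.cast_nonneg _) n
  have h4 : A ^ n ≤ (A ^ 10) ^ (n / 10) * 3 ^ 9 := by
    calc A ^ n ≤ A ^ (10 * (n / 10) + 9) := pow_le_pow_right₀ hA1 (by omega)
      _ = (A ^ 10) ^ (n / 10) * A ^ 9 := by rw [pow_add, pow_mul]
      _ ≤ _ := by gcongr
  have h5 : (101 / 100 : ℝ) ^ n * Real.exp 1 ^ n = (101 / 102) ^ n * A ^ n := by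
    rw [← mul_pow, ← mul_pow, hA]
    congr 1
    ring
  have h6 := pow_le_pow_left₀ (by positivity) Final56_ten (n / 10)
  rw [← hA] at h6
  refine le_trans ?_ h6
  have h7 : 0 ≤ (A ^ 10) ^ (n / 10) := by positivity
  calc (101 / 100 : ℝ) ^ n * (((n : ℝ) + 1) * (n : ℝ) ^ n / n.factorial)
      ≤ (101 / 100 : ℝ) ^ n * ((2 * n) * Real.exp 1 ^ n) := by
        rw [mul_div_assoc]
        exact mul_le_mul_of_nonneg_left (mul_le_mul (by linarith) h3 (by positivity) (by positivity))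
          (by positivity)
    _ = 2 * (n * (101 / 102) ^ n) * A ^ n := by
        rw [mul_left_comm, h5]
        ring
    _ ≤ 2 * (1 / (2 * 3 ^ 9)) * ((A ^ 10) ^ (n / 10) * 3 ^ 9) :=
        mul_le_mul (by linarith) h4 (by positivity) (by positivity)
    _ = _ := by ring

theorem final56 :
    ∃ lam : ℝ, 1 < lam ∧ ∃ N : ℕ, 20 ≤ N ∧ ∀ n : ℕ, N ≤ n →
      ∃ S : Finset (EuclideanSpace ℝ (Fin n)),
        (interior (convexHull ℝ (S : Set (EuclideanSpace ℝ (Fin n))))).Nonempty ∧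
        lam ^ n *
            ((volume (⋂ u ∈ Metric.sphere (0 : EuclideanSpace ℝ (Fin n)) 1,
          {x : EuclideanSpace ℝ (Fin n) | inner ℝ x u ≤
            ((μHE[n - 1] : Measure (EuclideanSpace ℝ (Fin n))) ((fun y => y - inner ℝ y u • u) '' {x : EuclideanSpace ℝ (Fin n) | (∀ i, 0 ≤ x i) ∧ ∑ i, x i ≤ 1})).toReal})).toReal /
              (volume {x : EuclideanSpace ℝ (Fin n) | (∀ i, 0 ≤ x i) ∧ ∑ i, x i ≤ 1}).toReal ^ (n - 1)) ≤
          (volume (⋂ u ∈ Metric.sphere (0 : EuclideanSpace ℝ (Fin n)) 1,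
          {x : EuclideanSpace ℝ (Fin n) | inner ℝ x u ≤
            ((μHE[n - 1] : Measure (EuclideanSpace ℝ (Fin n))) ((fun y => y - inner ℝ y u • u) '' (convexHull ℝ (S : Set (EuclideanSpace ℝ (Fin n)))))).toReal})).toReal /
            (volume (convexHull ℝ (S : Set (EuclideanSpace ℝ (Fin n))))).toReal ^ (n - 1) := by
  obtain ⟨N, hN⟩ := Final56_asym
  refine ⟨101 / 100, by norm_num, max N 20, le_max_right _ _, fun n hn => ?_⟩
  have hn1 : 1 ≤ n := le_trans (by norm_num) ((le_max_right _ _).trans hn)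
  obtain ⟨S, hS⟩ := blk_hull (fun i : Fin n => (⟨i / 10, by omega⟩ : Fin (n / 10 + 1)))
  have e : {x : EuclideanSpace ℝ (Fin n) | (∀ i, 0 ≤ x i) ∧ ∑ i, x i ≤ 1} =
      blk (fun _ : Fin n => ()) := by
    ext x
    simp [blk]
  refine ⟨S, hS ▸ (body_blk _).int, ?_⟩
  rw [hS, e, projBody_eq, projBody_eq]
  have h1 := ratio_blk hn1 (fun _ : Fin n => ())
  have h2 := ratio_blk hn1 (fun i : Fin n => (⟨i / 10, by omega⟩ : Fin (n / 10 + 1)))
  have e1 : dim (fun _ : Fin n => ()) () = n := by simp [dim]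
  rw [Fintype.prod_unique, show (default : Unit) = () from rfl, e1] at h1
  rw [Fin.prod_univ_castSucc] at h2
  simp only [Final56_dim, Finset.prod_const, Finset.card_univ, Fintype.card_fin] at h2
  simp only [Measure.real] at h1 h2
  rw [h1, h2]
  exact (hN n ((le_max_left _ _).trans hn)).trans
    (le_mul_of_one_le_right (by positivity) (Final56_one_le _))

end Crest.Agent.R230
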