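import Crest.Agent.R230.Orth
import Crest.Agent.R230.FH

/-!
Row 230 (Petty).  The bilinear form `Bf` is bounded on `L²` and diagonal on harmonics.
-/

set_option autoImplicit false

noncomputable section

namespace Crest.Agent.R230

open MeasureTheory Metric Set MvPolynomial Filter Topology
open scoped ENNReal InnerProductSpace Pointwise

variable {n : ℕ}

variable {β : ℝ} {Y Y' Z : E n → E n}

theorem form_norm_Lb (β : ℝ) (Y : E n → E n) {u : E n} (hu : ‖u‖ = 1) :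
    ‖Lb β Y u‖ ≤ (1 + |β - 1|) * ‖Y u‖ := by
  have h1 : |rad Y u| ≤ ‖Y u‖ := by
    simpa [rad, hu] using abs_real_inner_le_norm (Y u) u
  calc ‖Lb β Y u‖ ≤ ‖Y u‖ + ‖((β - 1) * rad Y u) • u‖ := norm_add_le _ _
    _ = ‖Y u‖ + |β - 1| * |rad Y u| := by rw [norm_smul, hu, mul_one, Real.norm_eq_abs, abs_mul]
    _ ≤ ‖Y u‖ + |β - 1| * ‖Y u‖ := by gcongr
    _ = _ := by ring

theorem form_abs_sign (x : ℝ) : |Real.sign x| ≤ 1 := by
  rcases Real.sign_apply_eq x with h | h | h <;> simp [h]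

theorem form_norm_le (β : ℝ) (Y Y' : E n → E n) (z : E n × E n) :
    ‖Real.sign ⟪z.2, z.1⟫_ℝ * ⟪Lb β Y z.2, Lb β Y' z.1⟫_ℝ‖ ≤ ‖Lb β Y' z.1‖ * ‖Lb β Y z.2‖ := by
  rw [Real.norm_eq_abs, abs_mul, mul_comm ‖Lb β Y' z.1‖]
  calc _ ≤ 1 * (‖Lb β Y z.2‖ * ‖Lb β Y' z.1‖) :=
        mul_le_mul (form_abs_sign _) (abs_real_inner_le_norm _ _) (abs_nonneg _) zero_le_one
    _ = _ := one_mul _

theorem memLp_Lb [NeZero n] (hY : MemLp Y 2 (sg n)) : MemLp (Lb β Y) 2 (sg n) := by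
  refine MemLp.of_le_mul (c := 1 + |β - 1|) hY ?_ ?_
  · exact hY.1.add (((memLp_rad hY).1.const_mul _).smul aestronglyMeasurable_id)
  · filter_upwards [ae_norm] with u hu using form_norm_Lb β Y hu

/-- the integrand of `Bf` is dominated by `‖Lb β Y u‖ * ‖Lb β Y' w‖` (`Integrable.mul_prod`) -/
theorem integrable_Bf [NeZero n] (hY : MemLp Y 2 (sg n)) (hY' : MemLp Y' 2 (sg n)) :
    Integrable (fun z : E n × E n => Real.sign ⟪z.2, z.1⟫_ℝ * ⟪Lb β Y z.2, Lb β Y' z.1⟫_ℝ)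
      ((sg n).prod (sg n)) := by
  have h1 : Integrable (Lb β Y) (sg n) := (memLp_Lb hY).integrable one_le_two
  have h2 : Integrable (Lb β Y') (sg n) := (memLp_Lb hY').integrable one_le_two
  refine (h2.norm.mul_prod h1.norm).mono' ?_ (Eventually.of_forall (form_norm_le β Y Y'))
  refine AEStronglyMeasurable.mul ?_ (h1.1.comp_snd.inner h2.1.comp_fst)
  exact (measurable_rsign.comp (measurable_snd.inner measurable_fst)).aestronglyMeasurable

theorem form_Bf_eq [NeZero n] (hY : MemLp Y 2 (sg n)) (hY' : MemLp Y' 2 (sg n)) :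
    Bf β Y Y' = ∫ z : E n × E n, Real.sign ⟪z.2, z.1⟫_ℝ * ⟪Lb β Y z.2, Lb β Y' z.1⟫_ℝ
      ∂((sg n).prod (sg n)) :=
  (integral_prod _ (integrable_Bf hY hY')).symm

theorem form_int_le_sqrt [NeZero n] (hY : MemLp Y 2 (sg n)) :
    ∫ u, ‖Y u‖ ∂sg n ≤ √(∫ u, ‖Y u‖ ^ 2 ∂sg n) := by
  refine Real.le_sqrt_of_sq_le ?_
  have h1 := ProbabilityTheory.variance_nonneg (fun u => ‖Y u‖) (sg n)
  rw [ProbabilityTheory.variance_eq_sub hY.norm] at h1
  exact sub_nonneg.1 h1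

theorem form_int_Lb [NeZero n] (hY : MemLp Y 2 (sg n)) :
    ∫ u, ‖Lb β Y u‖ ∂sg n ≤ (1 + |β - 1|) * √(∫ u, ‖Y u‖ ^ 2 ∂sg n) := by
  have h1 : Integrable (Lb β Y) (sg n) := (memLp_Lb hY).integrable one_le_two
  have h2 : Integrable Y (sg n) := hY.integrable one_le_two
  calc ∫ u, ‖Lb β Y u‖ ∂sg n ≤ ∫ u, (1 + |β - 1|) * ‖Y u‖ ∂sg n := by
        refine integral_mono_ae h1.norm (h2.norm.const_mul _) ?_
        filter_upwards [ae_norm] with u hu using form_norm_Lb β Y hu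
    _ = (1 + |β - 1|) * ∫ u, ‖Y u‖ ∂sg n := integral_const_mul _ _
    _ ≤ _ := mul_le_mul_of_nonneg_left (form_int_le_sqrt hY) (by positivity)

theorem form_Lb_add (β : ℝ) (Y Z : E n → E n) (u : E n) :
    Lb β (fun u => Y u + Z u) u = Lb β Y u + Lb β Z u := by
  simp only [Lb, rad, inner_add_left, mul_add, add_smul]
  abel

theorem Bf_bound [NeZero n] (hY : MemLp Y 2 (sg n)) (hY' : MemLp Y' 2 (sg n)) :
    |Bf β Y Y'| ≤ (1 + |β - 1|) ^ 2 * √(∫ u, ‖Y u‖ ^ 2 ∂sg n) * √(∫ u, ‖Y' u‖ ^ 2 ∂sg n) := by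
  have h1 : Integrable (Lb β Y) (sg n) := (memLp_Lb hY).integrable one_le_two
  have h2 : Integrable (Lb β Y') (sg n) := (memLp_Lb hY').integrable one_le_two
  rw [form_Bf_eq hY hY', ← Real.norm_eq_abs]
  refine (norm_integral_le_of_norm_le (h2.norm.mul_prod h1.norm)
    (Eventually.of_forall (form_norm_le β Y Y'))).trans ?_
  rw [integral_prod_mul (fun w => ‖Lb β Y' w‖) (fun u => ‖Lb β Y u‖)]
  calc _ ≤ ((1 + |β - 1|) * √(∫ u, ‖Y' u‖ ^ 2 ∂sg n)) * ((1 + |β - 1|) * √(∫ u, ‖Y u‖ ^ 2 ∂sg n)) :=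
        mul_le_mul (form_int_Lb hY') (form_int_Lb hY) (integral_nonneg fun _ => norm_nonneg _)
          (by positivity)
    _ = _ := by ring

theorem Bf_add_left [NeZero n] (hY : MemLp Y 2 (sg n)) (hZ : MemLp Z 2 (sg n))
    (hY' : MemLp Y' 2 (sg n)) : Bf β (fun u => Y u + Z u) Y' = Bf β Y Y' + Bf β Z Y' := by
  rw [form_Bf_eq (Y := fun u => Y u + Z u) (hY.add hZ) hY', form_Bf_eq hY hY', form_Bf_eq hZ hY',
    ← integral_add (integrable_Bf hY hY') (integrable_Bf hZ hY')]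
  refine integral_congr_ae (Eventually.of_forall fun z => ?_)
  have := form_Lb_add β Y Z z.2
  simp only [this, inner_add_left, mul_add]

theorem Bf_add_right [NeZero n] (hY : MemLp Y 2 (sg n)) (hY' : MemLp Y' 2 (sg n))
    (hZ : MemLp Z 2 (sg n)) : Bf β Y (fun u => Y' u + Z u) = Bf β Y Y' + Bf β Y Z := by
  rw [form_Bf_eq (Y' := fun u => Y' u + Z u) hY (hY'.add hZ), form_Bf_eq hY hY', form_Bf_eq hY hZ,
    ← integral_add (integrable_Bf hY hY') (integrable_Bf hY hZ)]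
  refine integral_congr_ae (Eventually.of_forall fun z => ?_)
  have := form_Lb_add β Y' Z z.1
  simp only [this, inner_add_right, mul_add]

theorem form_inner (u v : E n) : ⟪u, v⟫_ℝ = ∑ i, u i * v i := by
  simp [PiLp.inner_apply, mul_comm]

theorem form_Lb_Xh (β : ℝ) {k : ℕ} {h : Pl n} (hh : h.IsHomogeneous k) {u : E n} (hu : ‖u‖ = 1) :
    Lb β (Xh k h) u = ((β - k) * ev h u) • u + gP h u := by
  rw [Lb, rad_Xh hh hu, Xh, add_right_comm, ← add_smul]
  congr 2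
  ring

theorem form_ev_D (h : Pl n) (v u : E n) :
    ev (∑ i, C (v i) * MvPolynomial.pderiv i h) u = ⟪gP h u, v⟫_ℝ := by
  rw [ev_sum, inner_gP]
  exact Finset.sum_congr rfl fun i _ => by rw [ev_mul, ev_C, mul_comm]

theorem form_ev_P (h : Pl n) (c : ℝ) (v : E n) {u : E n} (hu : ‖u‖ = 1) :
    ev (∑ i, C (v i) * (X i * h - C c * ((∑ l, X l ^ 2) * MvPolynomial.pderiv i h))) u =
      ev h u * ⟪u, v⟫_ℝ - c * ⟪gP h u, v⟫_ℝ := by
  rw [ev_sum, inner_gP, form_inner, Finset.mul_sum, Finset.mul_sum, ← Finset.sum_sub_distrib]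
  refine Finset.sum_congr rfl fun i _ => ?_
  rw [ev_mul, ev_sub, ev_mul, ev_mul, ev_mul, ev_r2 hu, ev_C, ev_C, ev_X]
  ring

theorem form_isHm_sum {ι : Type*} {k : ℕ} (s : Finset ι) {p : ι → Pl n} (hp : ∀ i ∈ s, IsHm k (p i)) :
    IsHm k (∑ i ∈ s, p i) :=
  Finset.sum_induction p (IsHm k) (fun _ _ => IsHm.add) (isHm_zero k) hp

theorem form_integrable [NeZero n] (p : Pl n) (w : E n) :
    Integrable (fun u => Real.sign ⟪u, w⟫_ℝ * ev p u) (sg n) := by
  have h1 : Integrable (ev p) (sg n) := integrable_of_cont (continuous_ev p)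
  refine h1.norm.mono' (AEStronglyMeasurable.mul ?_ h1.1) (Eventually.of_forall fun u => ?_)
  · exact (measurable_rsign.comp (measurable_id.inner measurable_const)).aestronglyMeasurable
  · rw [norm_mul]
    exact mul_le_of_le_one_left (norm_nonneg _) (form_abs_sign _)

theorem form_funk_D (hn : 2 ≤ n) {j : ℕ} {h : Pl n} (hh : IsHm (2 * j) h) {w : E n} (hw : ‖w‖ = 1)
    (v : E n) : ∫ u, Real.sign ⟪u, w⟫_ℝ * ev (∑ i, C (v i) * MvPolynomial.pderiv i h) u ∂sg n =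
      ((n : ℝ) + 2 * j - 1) * cm n j * C0 n * ⟪gP h w, v⟫_ℝ := by
  cases j with
  | zero =>
    have h0 : ∀ i, MvPolynomial.pderiv i h = 0 := pderiv_of_hom_zero hh.hom
    rw [← form_ev_D]
    simp [h0]
  | succ j =>
    have h1 : IsHm (2 * j + 1) (∑ i, C (v i) * MvPolynomial.pderiv i h) := hh.dir v
    rw [funk hn j h1 hw, form_ev_D, cm]
    have : (n : ℝ) + 2 * j + 1 ≠ 0 := by positivity
    push_cast
    field_simp
    ring

/-- with `k = 2 j`: on the sphere `Lb β (Xh k h) u i = (β - k) h⁺_i + (1 + (β-k)/(n+2k-2)) ∂_i h`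
(`IsHm.plus`); apply `funk` to `h⁺_i` (degree `2j+1`) and, for `j ≥ 1`, to `∂_i h` (degree
`2(j-1)+1`, `(1 - 2(j-1)) cm (j-1) = (n + 2j - 1) cm j`) -/
theorem int_sign_Lb (hn : 3 ≤ n) {j : ℕ} {h : Pl n} (hh : IsHm (2 * j) h) {w : E n} (hw : ‖w‖ = 1)
    (v : E n) : ∫ u, Real.sign ⟪u, w⟫_ℝ * ⟪Lb β (Xh (2 * j) h) u, v⟫_ℝ ∂sg n =
      cm n j * C0 n * ((β - 2 * j) * (1 - 2 * j) * ev h w * ⟪w, v⟫_ℝ
        + (β + n - 1) * ⟪gP h w, v⟫_ℝ) := by
  have : NeZero n := ⟨by omega⟩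
  set c : ℝ := ((n : ℝ) + 2 * (2 * j : ℕ) - 2)⁻¹ with hc
  set P : Pl n := ∑ i, C (v i) *
    (X i * h - C c * ((∑ l, X l ^ 2) * MvPolynomial.pderiv i h)) with hP
  set D : Pl n := ∑ i, C (v i) * MvPolynomial.pderiv i h with hD
  have hPh : IsHm (2 * j + 1) P := form_isHm_sum _ fun i _ => (hh.plus hn i).cmul _
  have h1 := funk (by omega) j hPh hw
  have h2 := form_funk_D (by omega) hh hw v
  have h3 : ∫ u, Real.sign ⟪u, w⟫_ℝ * ⟪Lb β (Xh (2 * j) h) u, v⟫_ℝ ∂sg n =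
      ∫ u, ((β - 2 * j) * (Real.sign ⟪u, w⟫_ℝ * ev P u) +
        (1 + (β - 2 * j) * c) * (Real.sign ⟪u, w⟫_ℝ * ev D u)) ∂sg n := by
    refine integral_congr_ae ?_
    filter_upwards [ae_norm] with u hu
    rw [form_Lb_Xh β hh.hom hu, hP, form_ev_P h c v hu, hD, form_ev_D, inner_add_left,
      real_inner_smul_left]
    push_cast
    ring
  rw [h3, integral_add ((form_integrable P w).const_mul _) ((form_integrable D w).const_mul _),
    integral_const_mul, integral_const_mul, h1, h2, hP, form_ev_P h c v hw]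
  have hn' : (3 : ℝ) ≤ n := by exact_mod_cast hn
  have hj : (0 : ℝ) ≤ j := Nat.cast_nonneg j
  have h4 : c * ((n : ℝ) + 4 * j - 2) = 1 := by
    rw [hc]
    push_cast
    rw [show (n : ℝ) + 2 * (2 * j) - 2 = n + 4 * j - 2 by ring]
    exact inv_mul_cancel₀ (by linarith)
  linear_combination (cm n j * C0 n * (β - 2 * j) * ⟪gP h w, v⟫_ℝ) * h4

theorem form_euler {k : ℕ} {h : Pl n} (hh : h.IsHomogeneous k) (w : E n) :
    ⟪gP h w, w⟫_ℝ = k * ev h w := by
  rw [inner_gP, ← ev_euler hh]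
  exact Finset.sum_congr rfl fun i _ => mul_comm _ _

/-- `int_sign_Lb`, Euler, `int_gP_gP`, `orth`; for `j = l`, `k = 2j`:
`β (β-k)(1-k) + (β+n-1) k (β+k+n-2) = β² + k (k+n-2)(2β+n-1)` -/
theorem Bf_Xh (hn : 3 ≤ n) (hβ : β ≠ 0) {j l : ℕ} {h h' : Pl n} (hh : IsHm (2 * j) h)
    (hh' : IsHm (2 * l) h') : Bf β (Xh (2 * j) h) (Xh (2 * l) h') =
      β ^ 2 * C0 n * (bm n β j * ∫ u, ev h u * ev h' u ∂sg n) := by
  have : NeZero n := ⟨by omega⟩
  have i1 : Integrable (fun u => ev h u * ev h' u) (sg n) :=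
    integrable_of_cont ((continuous_ev h).mul (continuous_ev h'))
  have i2 : Integrable (fun u => ⟪gP h u, gP h' u⟫_ℝ) (sg n) :=
    integrable_of_cont ((continuous_gP h).inner (continuous_gP h'))
  have h1 : Bf β (Xh (2 * j) h) (Xh (2 * l) h') =
      ∫ w, (cm n j * C0 n * ((β - 2 * j) * (1 - 2 * j) * β + (β + n - 1) * (β - 2 * l) * (2 * j)) *
        (ev h w * ev h' w) + cm n j * C0 n * (β + n - 1) * ⟪gP h w, gP h' w⟫_ℝ) ∂sg n := by
    refine integral_congr_ae ?_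
    filter_upwards [ae_norm] with w hw
    rw [int_sign_Lb hn hh hw, form_Lb_Xh β hh'.hom hw, inner_add_right, inner_add_right,
      real_inner_smul_right, real_inner_smul_right, real_inner_self_eq_norm_sq, hw,
      real_inner_comm (gP h' w) w, form_euler hh.hom, form_euler hh'.hom]
    push_cast
    ring
  rw [h1, integral_add (i1.const_mul _) (i2.const_mul _), integral_const_mul, integral_const_mul,
    int_gP_gP hh hh']
  by_cases hjl : j = l
  · subst hjl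
    simp only [bm, lam]
    push_cast
    field_simp
    ring
  · rw [orth (by omega) hh hh' (by omega)]
    ring

theorem form_fld_succ (K : ℕ) (c : ℕ → Pl n) :
    fld (K + 1) c = fun u => fld K c u + Xh (2 * K) (c K) u := by
  funext u
  exact Finset.sum_range_succ _ _

theorem form_Bf_fld_left [NeZero n] (hY' : MemLp Y' 2 (sg n)) (K : ℕ) (c : ℕ → Pl n) :
    Bf β (fld K c) Y' = ∑ j ∈ Finset.range K, Bf β (Xh (2 * j) (c j)) Y' := by
  induction K with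
  | zero => simp [Bf, Lb, rad, fld]
  | succ K ih =>
    rw [form_fld_succ, Bf_add_left (memLp_fld K c) (memLp_of_cont (continuous_Xh _ _) 2) hY', ih,
      Finset.sum_range_succ]

theorem form_Bf_fld_right [NeZero n] (hY : MemLp Y 2 (sg n)) (K : ℕ) (c : ℕ → Pl n) :
    Bf β Y (fld K c) = ∑ j ∈ Finset.range K, Bf β Y (Xh (2 * j) (c j)) := by
  induction K with
  | zero => simp [Bf, Lb, rad, fld]
  | succ K ih =>
    rw [form_fld_succ, Bf_add_right hY (memLp_fld K c) (memLp_of_cont (continuous_Xh _ _) 2), ih,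
      Finset.sum_range_succ]

theorem Bf_fld (hn : 3 ≤ n) (hβ : β ≠ 0) {c c' : ℕ → Pl n} (hc : IsHS c) (hc' : IsHS c') (K : ℕ) :
    Bf β (fld K c) (fld K c') =
      β ^ 2 * C0 n * ∑ j ∈ Finset.range K, bm n β j * ∫ u, ev (c j) u * ev (c' j) u ∂sg n := by
  have : NeZero n := ⟨by omega⟩
  rw [form_Bf_fld_left (memLp_fld K c'), Finset.mul_sum]
  refine Finset.sum_congr rfl fun j hj => ?_
  rw [form_Bf_fld_right (memLp_of_cont (continuous_Xh _ _) 2), Finset.sum_eq_single j]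
  · exact Bf_Xh hn hβ (hc j) (hc' j)
  · intro l _ hl
    rw [Bf_Xh hn hβ (hc j) (hc' l), orth (by omega) (hc j) (hc' l) (by omega)]
    ring
  · exact fun h => absurd hj h

end Crest.Agent.R230
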