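import Crest.Agent.R230.Defs

/-!
Row 230 (Petty).  Polynomials on `E n`; harmonic homogeneous polynomials (pure algebra + calculus).
`Crest/Agent/R202/PBasic.lean` has similar lemmas to COPY from (do not import it).
-/

set_option autoImplicit false

noncomputable section

namespace Crest.Agent.R230

open MeasureTheory Metric Set MvPolynomial Filter Topology
open scoped ENNReal InnerProductSpace Pointwise

variable {n : ℕ}

variable {p q h : Pl n} {d k : ℕ}

@[simp] theorem ev_add (p q : Pl n) (x : E n) : ev (p + q) x = ev p x + ev q x := by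
  simp [ev]

@[simp] theorem ev_sub (p q : Pl n) (x : E n) : ev (p - q) x = ev p x - ev q x := by
  simp [ev]

@[simp] theorem ev_neg (p : Pl n) (x : E n) : ev (-p) x = -ev p x := by
  simp [ev]

@[simp] theorem ev_mul (p q : Pl n) (x : E n) : ev (p * q) x = ev p x * ev q x := by
  simp [ev]

@[simp] theorem ev_pow (p : Pl n) (k : ℕ) (x : E n) : ev (p ^ k) x = ev p x ^ k := by
  simp [ev]

@[simp] theorem ev_C (c : ℝ) (x : E n) : ev (C c) x = c := by
  simp [ev]

@[simp] theorem ev_X (i : Fin n) (x : E n) : ev (X i) x = x i := by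
  simp [ev]

@[simp] theorem ev_zero (x : E n) : ev 0 x = 0 := by
  simp [ev]

@[simp] theorem ev_one (x : E n) : ev 1 x = 1 := by
  simp [ev]

theorem ev_sum {ι : Type*} (s : Finset ι) (p : ι → Pl n) (x : E n) :
    ev (∑ i ∈ s, p i) x = ∑ i ∈ s, ev (p i) x := by
  simp [ev]

@[simp] theorem gP_apply (p : Pl n) (x : E n) (i : Fin n) : gP p x i = ev (pderiv i p) x := by
  rfl

theorem inner_gP (p : Pl n) (x v : E n) : ⟪gP p x, v⟫_ℝ = ∑ i, ev (pderiv i p) x * v i := by
  simp [PiLp.inner_apply, mul_comm]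

theorem Poly_contDiff (p : Pl n) : ContDiff ℝ 1 (ev p) := by
  induction p using MvPolynomial.induction_on with
  | C a =>
    rw [show ev (C a : Pl n) = fun _ => a by funext y; simp [ev]]
    exact contDiff_const
  | add p q hp hq =>
    rw [show ev (p + q) = fun y => ev p y + ev q y by funext y; simp [ev]]
    exact hp.add hq
  | mul_X p i hp =>
    rw [show ev (p * X i) = fun y => ev p y * y i by funext y; simp [ev]]
    exact hp.mul (EuclideanSpace.proj i : E n →L[ℝ] ℝ).contDiff

theorem continuous_ev (p : Pl n) : Continuous (ev p) := by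
  exact (Poly_contDiff p).continuous

theorem continuous_gP (p : Pl n) : Continuous (gP p) := by
  exact (PiLp.continuous_toLp 2 _).comp (continuous_pi fun i => continuous_ev _)

theorem continuous_Xh (k : ℕ) (h : Pl n) : Continuous (Xh k h) := by
  exact ((continuous_const.mul (continuous_ev h)).smul continuous_id).add (continuous_gP h)

theorem continuous_fld (K : ℕ) (c : ℕ → Pl n) : Continuous (fld K c) := by
  exact continuous_finsetSum _ fun j _ => continuous_Xh _ _

theorem contDiff_ev (p : Pl n) : ContDiff ℝ 1 (ev p) := by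
  exact Poly_contDiff p

theorem hasFDerivAt_ev (p : Pl n) (x : E n) : HasFDerivAt (ev p) (innerSL ℝ (gP p x)) x := by
  induction p using MvPolynomial.induction_on with
  | C a =>
    have h1 : ev (C a : Pl n) = fun _ => a := by funext y; simp [ev]
    have h2 : gP (C a : Pl n) x = 0 := by ext i; simp
    rw [h1, h2, map_zero]
    exact hasFDerivAt_const a x
  | add p q hp hq =>
    have h1 : ev (p + q) = fun y => ev p y + ev q y := by funext y; simp [ev]
    have h2 : gP (p + q) x = gP p x + gP q x := by ext i; simp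
    rw [h1, h2, map_add]
    exact hp.add hq
  | mul_X p i hp =>
    have h1 : ev (p * X i) = fun y => ev p y * y i := by funext y; simp [ev]
    rw [h1]
    refine (hp.mul (EuclideanSpace.proj i : E n →L[ℝ] ℝ).hasFDerivAt).congr_fderiv ?_
    ext v
    have h2 : ∀ j, ev (pderiv j (p * X i)) x * v j =
        x i * (ev (pderiv j p) x * v j) + if j = i then ev p x * v i else 0 := fun j => by
      rw [pderiv_mul]
      split_ifs with h
      · rw [h, pderiv_X_self]; simp; ring
      · rw [pderiv_X_of_ne (Ne.symm h)]; simp; ring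
    simp only [ContinuousLinearMap.add_apply, ContinuousLinearMap.smul_apply, innerSL_apply_apply, inner_gP, h2,
      Finset.sum_add_distrib, Finset.sum_ite_eq', Finset.mem_univ, if_true, ← Finset.mul_sum, smul_eq_mul]
    exact add_comm _ _

theorem ev_hom (hp : p.IsHomogeneous d) (t : ℝ) (x : E n) : ev p (t • x) = t ^ d * ev p x := by
  unfold ev
  rw [eval_eq', eval_eq', Finset.mul_sum]
  refine Finset.sum_congr rfl fun α hα => ?_
  have h1 : α.degree = d := by
    by_contra h1
    exact mem_support_iff.1 hα (hp.coeff_eq_zero h1)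
  rw [Finsupp.degree_eq_sum] at h1
  simp only [PiLp.smul_apply, smul_eq_mul, mul_pow, Finset.prod_mul_distrib, Finset.prod_pow_eq_pow_sum, h1]
  ring

theorem ev_neg_arg (hp : p.IsHomogeneous d) (x : E n) : ev p (-x) = (-1) ^ d * ev p x := by
  rw [← ev_hom hp, neg_one_smul]

/-- Euler (`IsHomogeneous.sum_X_mul_pderiv`) -/
theorem ev_euler (hp : p.IsHomogeneous d) (x : E n) :
    ∑ i, x i * ev (pderiv i p) x = d * ev p x := by
  have h2 := congrArg (fun p => ev p x) hp.sum_X_mul_pderiv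
  simp only [ev_sum, ev_mul, ev_X] at h2
  rw [h2]
  simp [ev]

theorem pderiv_comm (i j : Fin n) (p : Pl n) : pderiv i (pderiv j p) = pderiv j (pderiv i p) := by
  by_cases h : i = j
  · rw [h]
  · ext m
    simp only [coeff_pderiv, Finsupp.add_apply, Finsupp.single_eq_of_ne h, Finsupp.single_eq_of_ne (Ne.symm h),
      add_zero]
    rw [add_right_comm]
    ring

theorem pderiv_of_hom_zero (hp : p.IsHomogeneous 0) (i : Fin n) : pderiv i p = 0 := by
  rw [← totalDegree_zero_iff_isHomogeneous, totalDegree_eq_zero_iff_eq_C] at hp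
  rw [hp, pderiv_C]

theorem ev_of_hom_zero (hp : p.IsHomogeneous 0) (x y : E n) : ev p x = ev p y := by
  rw [← totalDegree_zero_iff_isHomogeneous, totalDegree_eq_zero_iff_eq_C] at hp
  rw [hp, ev_C, ev_C]

theorem Poly_lap_add (p q : Pl n) : lap (p + q) = lap p + lap q := by
  simp only [lap, map_add, Finset.sum_add_distrib]

theorem Poly_lap_sub (p q : Pl n) : lap (p - q) = lap p - lap q := by
  simp only [lap, map_sub, Finset.sum_sub_distrib]

theorem Poly_lap_C_mul (c : ℝ) (p : Pl n) : lap (C c * p) = C c * lap p := by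
  simp only [lap, pderiv_C_mul, Finset.mul_sum]

theorem Poly_lap_sum {ι : Type*} (s : Finset ι) (p : ι → Pl n) : lap (∑ i ∈ s, p i) = ∑ i ∈ s, lap (p i) := by
  simp only [lap, map_sum]
  exact Finset.sum_comm

theorem Poly_lap_pderiv (i : Fin n) (p : Pl n) : lap (pderiv i p) = pderiv i (lap p) := by
  unfold lap
  rw [map_sum]
  refine Finset.sum_congr rfl fun k _ => ?_
  rw [pderiv_comm k i, pderiv_comm k i]

theorem Poly_lap_X_mul (j : Fin n) (q : Pl n) : lap (X j * q) = (pderiv j q + pderiv j q) + X j * lap q := by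
  unfold lap
  rw [Finset.mul_sum]
  have h : ∀ k, pderiv k (pderiv k (X j * q)) =
      (if k = j then pderiv j q + pderiv j q else 0) + X j * pderiv k (pderiv k q) := by
    intro k
    split_ifs with hk
    · rw [hk, pderiv_mul, pderiv_X_self, one_mul, map_add, pderiv_mul, pderiv_X_self, one_mul, add_assoc]
    · rw [pderiv_mul, pderiv_X_of_ne (Ne.symm hk), zero_mul, zero_add, pderiv_mul, pderiv_X_of_ne (Ne.symm hk),
        zero_mul]
  simp only [h, Finset.sum_add_distrib, Finset.sum_ite_eq', Finset.mem_univ, if_true]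

theorem Poly_r2_hom : (∑ i, X i ^ 2 : Pl n).IsHomogeneous 2 :=
  IsHomogeneous.sum _ _ _ fun i _ => isHomogeneous_X_pow i 2

theorem Poly_lap_hom (hp : p.IsHomogeneous d) : (lap p).IsHomogeneous (d - 2) :=
  IsHomogeneous.sum _ _ _ fun _ _ => hp.pderiv.pderiv

theorem isHm_zero (k : ℕ) : IsHm k (0 : Pl n) := by
  exact ⟨isHomogeneous_zero _ _ _, by simp [lap]⟩

theorem isHm_one : IsHm 0 (1 : Pl n) := by
  exact ⟨isHomogeneous_one _ _, by simp [lap]⟩

theorem IsHm.add (hp : IsHm k p) (hq : IsHm k q) : IsHm k (p + q) := by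
  exact ⟨hp.hom.add hq.hom, by rw [Poly_lap_add, hp.har, hq.har, add_zero]⟩

theorem IsHm.sub (hp : IsHm k p) (hq : IsHm k q) : IsHm k (p - q) := by
  exact ⟨hp.hom.sub hq.hom, by rw [Poly_lap_sub, hp.har, hq.har, sub_zero]⟩

theorem IsHm.cmul (hp : IsHm k p) (c : ℝ) : IsHm k (C c * p) := by
  exact ⟨hp.hom.C_mul c, by rw [Poly_lap_C_mul, hp.har, mul_zero]⟩

theorem IsHm.pderiv (hh : IsHm k h) (i : Fin n) : IsHm (k - 1) (pderiv i h) := by
  exact ⟨hh.hom.pderiv, by rw [Poly_lap_pderiv, hh.har, map_zero]⟩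

/-- directional derivative -/
theorem IsHm.dir (hh : IsHm k h) (w : E n) :
    IsHm (k - 1) (∑ i, C (w i) * MvPolynomial.pderiv i h) := by
  refine ⟨IsHomogeneous.sum _ _ _ fun i _ => ((hh.pderiv i).cmul _).hom, ?_⟩
  rw [Poly_lap_sum]
  exact Finset.sum_eq_zero fun i _ => ((hh.pderiv i).cmul _).har

/-- `lap (r² g) = (2 n + 4 m) g + r² lap g` for `g` homogeneous of degree `m` -/
theorem lap_r2_mul (hp : p.IsHomogeneous d) :
    lap ((∑ i, X i ^ 2) * p) = C (2 * (n : ℝ) + 4 * d) * p + (∑ i, X i ^ 2) * lap p := by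
  have h1 : ∀ j, pderiv j (∑ i, X i ^ 2 : Pl n) = X j + X j := fun j => by
    rw [map_sum, Finset.sum_eq_single j]
    · rw [sq, pderiv_mul, pderiv_X_self, one_mul, mul_one]
    · intro i _ hi
      rw [sq, pderiv_mul, pderiv_X_of_ne hi, zero_mul, mul_zero, add_zero]
    · simp
  generalize (∑ i, X i ^ 2 : Pl n) = R at h1 ⊢
  have h2 : ∀ j, pderiv j (pderiv j (R * p)) =
      2 * p + 4 * (X j * pderiv j p) + R * pderiv j (pderiv j p) := fun j => by
    simp only [pderiv_mul, map_add, h1, pderiv_X_self]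
    ring
  simp only [lap, h2, Finset.sum_add_distrib, ← Finset.mul_sum, hp.sum_X_mul_pderiv, Finset.sum_const,
    Finset.card_univ, Fintype.card_fin, nsmul_eq_mul, map_add, map_mul, map_natCast, map_ofNat]
  ring

/-- the degree `k + 1` harmonic part of `x_i h` -/
theorem IsHm.plus (hn : 3 ≤ n) (hh : IsHm k h) (i : Fin n) :
    IsHm (k + 1) (X i * h - C ((n : ℝ) + 2 * k - 2)⁻¹ * ((∑ l, X l ^ 2) * MvPolynomial.pderiv i h)) := by
  rcases k with _ | k
  · rw [pderiv_of_hom_zero hh.hom, mul_zero, mul_zero, sub_zero]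
    refine ⟨by simpa using (isHomogeneous_X ℝ i).mul hh.hom, ?_⟩
    rw [Poly_lap_X_mul, hh.har, pderiv_of_hom_zero hh.hom, mul_zero, add_zero, add_zero]
  have h1 : IsHm k (MvPolynomial.pderiv i h) := hh.pderiv i
  refine ⟨IsHomogeneous.sub ?_ (IsHomogeneous.C_mul ?_ _), ?_⟩
  · rw [add_comm (k + 1)]
    exact (isHomogeneous_X ℝ i).mul hh.hom
  · rw [add_assoc, add_comm k]
    exact Poly_r2_hom.mul h1.hom
  · have h2 : (3 : ℝ) ≤ n := by exact_mod_cast hn
    have h3 : ((n : ℝ) + 2 * ((k + 1 : ℕ) : ℝ) - 2)⁻¹ * (2 * (n : ℝ) + 4 * k) = 2 := by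
      have h4 : (n : ℝ) + 2 * ((k + 1 : ℕ) : ℝ) - 2 = n + 2 * k := by push_cast; ring
      have h5 : (0 : ℝ) < n + 2 * k := by positivity
      rw [h4]
      field_simp
      ring
    rw [Poly_lap_sub, Poly_lap_C_mul, Poly_lap_X_mul, hh.har, lap_r2_mul h1.hom, h1.har, mul_zero, mul_zero, add_zero,
      add_zero, ← mul_assoc, ← map_mul, h3, map_ofNat]
    ring

theorem ev_r2 {u : E n} (hu : ‖u‖ = 1) : ev (∑ l, X l ^ 2 : Pl n) u = 1 := by
  have h := EuclideanSpace.real_norm_sq_eq u
  rw [hu, one_pow] at h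
  simp only [ev_sum, ev_pow, ev_X, ← h]

theorem Poly_lap_r2_pow (hh : IsHm k h) (j : ℕ) :
    lap ((∑ i, X i ^ 2) ^ (j + 1) * h) = C ((2 * j + 2) * (2 * j + n + 2 * k) : ℝ) * ((∑ i, X i ^ 2) ^ j * h) := by
  induction j with
  | zero =>
    rw [zero_add, pow_one, lap_r2_mul hh.hom, hh.har, mul_zero, add_zero, pow_zero, one_mul]
    congr 2
    push_cast
    ring
  | succ j ih =>
    have e : ((2 * ((j + 1 : ℕ) : ℝ) + 2) * (2 * ((j + 1 : ℕ) : ℝ) + n + 2 * k)) =
        (2 * (n : ℝ) + 4 * ((2 * (j + 1) + k : ℕ) : ℝ)) + (2 * j + 2) * (2 * j + n + 2 * k) := by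
      push_cast
      ring
    rw [pow_succ' _ (j + 1), mul_assoc, lap_r2_mul ((Poly_r2_hom.pow (j + 1)).mul hh.hom), ih, e,
      map_add C (2 * (n : ℝ) + _)]
    ring

theorem Poly_decomp (hn : 1 ≤ n) (d : ℕ) : ∀ p : Pl n, p.IsHomogeneous d →
    ∃ c : ℕ → Pl n, (∀ j, IsHm (d - 2 * j) (c j)) ∧
      p = ∑ j ∈ Finset.range (d / 2 + 1), (∑ i, X i ^ 2) ^ j * c j := by
  have small : ∀ d < 2, ∀ p : Pl n, p.IsHomogeneous d → ∃ c : ℕ → Pl n, (∀ j, IsHm (d - 2 * j) (c j)) ∧
      p = ∑ j ∈ Finset.range (d / 2 + 1), (∑ i, X i ^ 2) ^ j * c j := fun d hd p hp => by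
    refine ⟨fun j => if j = 0 then p else 0, fun j => ?_, by simp [Nat.div_eq_of_lt hd]⟩
    beta_reduce
    split_ifs with hj
    · rw [hj]
      refine ⟨hp, Finset.sum_eq_zero fun i _ => pderiv_of_hom_zero ?_ i⟩
      rw [show 0 = d - 1 by omega]
      exact hp.pderiv
    · exact isHm_zero _
  induction d using Nat.twoStepInduction with
  | zero => exact small 0 two_pos
  | one => exact small 1 one_lt_two
  | more d ih _ =>
    intro p hp
    obtain ⟨c, hc, e⟩ := ih (lap p) (Poly_lap_hom hp)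
    obtain ⟨c', hc'⟩ : ∃ c' : ℕ → Pl n, ∀ j, c' j =
        C ((2 * j + 2) * (2 * j + n + 2 * ((d - 2 * j : ℕ) : ℝ)))⁻¹ * c j := ⟨_, fun _ => rfl⟩
    have h1 : ∀ j, IsHm (d - 2 * j) (c' j) := fun j => hc' j ▸ (hc j).cmul _
    have hn' : (0 : ℝ) < n := by exact_mod_cast hn
    refine ⟨fun j => Nat.casesOn j (p - ∑ j ∈ Finset.range (d / 2 + 1), (∑ i, X i ^ 2) ^ (j + 1) * c' j) c',
      fun j => ?_, ?_⟩
    · rcases j with _ | j
      · refine ⟨hp.sub (IsHomogeneous.sum _ _ _ fun j hj => ?_), ?_⟩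
        · have h2 := (Poly_r2_hom.pow (j + 1)).mul (h1 j).hom
          have h3 := Finset.mem_range.1 hj
          rwa [show 2 * (j + 1) + (d - 2 * j) = d + 2 by omega] at h2
        · show lap (p - _) = 0
          rw [Poly_lap_sub, Poly_lap_sum, e, sub_eq_zero]
          refine Finset.sum_congr rfl fun j _ => ?_
          rw [Poly_lap_r2_pow (h1 j), hc', mul_left_comm _ (C _⁻¹), ← mul_assoc (C _), ← map_mul,
            mul_inv_cancel₀ (by positivity), map_one, one_mul]
      · rw [show d + 2 - 2 * (j + 1) = d - 2 * j by omega]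
        exact h1 j
    · rw [show (d + 2) / 2 + 1 = d / 2 + 1 + 1 by omega, Finset.sum_range_succ']
      simp

/-- strong induction on `d`: write `lap p = ∑ r^(2j) c_j` (as polynomials; prove that form first),
use `lap (r^(2j+2) c) = (2j+2)(2j + n + 2m) r^(2j) c` for `c` harmonic of degree `m`, and subtract -/
theorem harm_decomp (hn : 1 ≤ n) (hp : p.IsHomogeneous d) :
    ∃ c : ℕ → Pl n, (∀ j, IsHm (d - 2 * j) (c j)) ∧
      ∀ u : E n, ‖u‖ = 1 → ev p u = ∑ j ∈ Finset.range (d / 2 + 1), ev (c j) u := by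
  obtain ⟨c, hc, e⟩ := Poly_decomp hn d p hp
  refine ⟨c, hc, fun u hu => ?_⟩
  rw [e, ev_sum]
  exact Finset.sum_congr rfl fun j _ => by rw [ev_mul, ev_pow, ev_r2 hu, one_pow, one_mul]

/-- Euler twice; the second derivatives are constants -/
theorem IsHm.two (hh : IsHm 2 h) : ∃ Q : Fin n → Fin n → ℝ, ∑ i, Q i i = 0 ∧
    ∀ x : E n, ev h x = ∑ i, ∑ j, Q i j * (x i * x j) := by
  refine ⟨fun i j => ev (MvPolynomial.pderiv j (MvPolynomial.pderiv i h)) 0 / 2, ?_, fun x => ?_⟩
  · rw [← Finset.sum_div, ← ev_sum]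
    have h1 := hh.har
    unfold lap at h1
    rw [h1, ev_zero, zero_div]
  · have h1 := ev_euler hh.hom x
    have h2 : ∀ i, x i * ev (MvPolynomial.pderiv i h) x =
        2 * ∑ j, ev (MvPolynomial.pderiv j (MvPolynomial.pderiv i h)) 0 / 2 * (x i * x j) := fun i => by
      have h3 := ev_euler (hh.pderiv i).hom x
      rw [show ((2 - 1 : ℕ) : ℝ) = 1 by norm_num, one_mul] at h3
      rw [← h3, Finset.mul_sum, Finset.mul_sum]
      refine Finset.sum_congr rfl fun j _ => ?_
      rw [ev_of_hom_zero ((hh.pderiv i).pderiv j).hom x 0]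
      ring
    simp only [h2, ← Finset.mul_sum, Nat.cast_ofNat] at h1
    linarith

end Crest.Agent.R230
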