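import Crest.Agent.R230.Nm
import Crest.Agent.R230.Poly

/-!
Row 230 (Petty).  Integration by parts on the sphere for Lipschitz one-homogeneous functions.
Apply `LipschitzWith.integral_lineDeriv_mul_eq` to `F` and the `C¹` compactly supported
`g x = ev q x * (max (1 - ‖x‖²) 0)²` (Lipschitz by `ContDiff.lipschitzWith_of_hasCompactSupport`),
direction `EuclideanSpace.single i 1`; a.e. `lineDeriv F = gradient F x i`; then `integral_polar`
(`LH.gradient_smul`, `ev_hom`) and the radial identity `radial`.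
-/

set_option autoImplicit false

noncomputable section

namespace Crest.Agent.R230

open MeasureTheory Metric Set MvPolynomial Filter Topology
open scoped ENNReal InnerProductSpace Pointwise

variable {n : ℕ}

/-- the cut-off `(1 - r²)₊²` -/
def cut (r : ℝ) : ℝ := (max (1 - r ^ 2) 0) ^ 2

theorem IBP_sqpos (t : ℝ) : HasDerivAt (fun t : ℝ => (max t 0) ^ 2) (2 * max t 0) t := by
  rcases lt_trichotomy t 0 with h | rfl | h
  · rw [max_eq_right h.le, mul_zero]
    refine (hasDerivAt_const t (0 : ℝ)).congr_of_eventuallyEq ?_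
    filter_upwards [Iio_mem_nhds h] with s hs
    rw [max_eq_right (le_of_lt hs)]
    norm_num
  · rw [hasDerivAt_iff_isLittleO_nhds_zero]
    refine Asymptotics.IsBigO.trans_isLittleO (g := fun h : ℝ => h ^ 2) ?_
      (Asymptotics.isLittleO_pow_id (by norm_num))
    refine Asymptotics.IsBigO.of_bound 1 (Eventually.of_forall fun h => ?_)
    rcases le_total h 0 with h0 | h0
    · simp [max_eq_right h0]
      positivity
    · simp [max_eq_left h0]
  · rw [max_eq_left h.le]
    have h1 : HasDerivAt (fun s : ℝ => s ^ 2) (2 * t) t := by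
      simpa using hasDerivAt_pow 2 t
    refine h1.congr_of_eventuallyEq ?_
    filter_upwards [Ioi_mem_nhds h] with s hs
    rw [max_eq_left (le_of_lt hs)]

theorem IBP_hasFDerivAt_cut (x : E n) :
    HasFDerivAt (fun x : E n => cut ‖x‖) (innerSL ℝ ((-4 * max (1 - ‖x‖ ^ 2) 0) • x)) x := by
  have h1 := ((hasStrictFDerivAt_norm_sq x).hasFDerivAt).const_sub 1
  have h2 := (IBP_sqpos (1 - ‖x‖ ^ 2)).comp_hasFDerivAt x h1
  refine h2.congr_fderiv ?_
  ext v
  simp
  ring

theorem IBP_cont_cut : Continuous cut := by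
  unfold cut
  fun_prop

theorem IBP_max_zero {r : ℝ} (hr : 1 ≤ r) : max (1 - r ^ 2) 0 = 0 :=
  max_eq_right (by nlinarith)

theorem IBP_cut_zero {r : ℝ} (hr : 1 ≤ r) : cut r = 0 := by
  rw [cut, IBP_max_zero hr]
  norm_num

theorem IBP_red {η : ℝ → ℝ} (h0 : ∀ r, 1 ≤ r → η r = 0) :
    ∫ r in Ioi (0 : ℝ), η r = ∫ r in (0 : ℝ)..1, η r := by
  rw [intervalIntegral.integral_of_le zero_le_one]
  refine setIntegral_eq_of_subset_of_forall_sdiff_eq_zero measurableSet_Ioi Ioc_subset_Ioi_self ?_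
  intro r hr
  refine h0 r ?_
  by_contra h
  exact hr.2 ⟨hr.1, (not_le.1 h).le⟩

theorem contDiff_cut : ContDiff ℝ 1 fun x : E n => cut ‖x‖ := by
  refine contDiff_one_iff_hasFDerivAt.2 ⟨_, ?_, IBP_hasFDerivAt_cut⟩
  exact (innerSL ℝ).continuous.comp (by fun_prop)

theorem hasFDerivAt_cut (x : E n) :
    HasFDerivAt (fun x : E n => cut ‖x‖) (innerSL ℝ ((-4 * max (1 - ‖x‖ ^ 2) 0) • x)) x := by
  exact IBP_hasFDerivAt_cut x

theorem radial_pos (a : ℕ) : 0 < ∫ r in Ioi (0 : ℝ), r ^ a * cut r := by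
  rw [IBP_red fun r hr => by rw [IBP_cut_zero hr, mul_zero]]
  refine intervalIntegral.intervalIntegral_pos_of_pos_on
    (((continuous_pow a).mul IBP_cont_cut).intervalIntegrable _ _) (fun r hr => ?_) zero_lt_one
  have h1 : 0 < 1 - r ^ 2 := by nlinarith [hr.1, hr.2]
  have h2 := hr.1
  rw [cut, max_eq_left h1.le]
  positivity

/-- both sides are polynomial integrals over `(0,1)` -/
theorem radial (a : ℕ) : ∫ r in Ioi (0 : ℝ), r ^ (a + 2) * (4 * max (1 - r ^ 2) 0) =
    ((a : ℝ) + 1) * ∫ r in Ioi (0 : ℝ), r ^ a * cut r := by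
  rw [IBP_red fun r hr => by rw [IBP_max_zero hr, mul_zero, mul_zero],
    IBP_red fun r hr => by rw [IBP_cut_zero hr, mul_zero]]
  have h1 : ∫ r in (0 : ℝ)..1, r ^ (a + 2) * (4 * max (1 - r ^ 2) 0) =
      ∫ r in (0 : ℝ)..1, (4 * r ^ (a + 2) - 4 * r ^ (a + 4)) := by
    refine intervalIntegral.integral_congr fun r hr => ?_
    rw [uIcc_of_le zero_le_one] at hr
    have h1 : 0 ≤ 1 - r ^ 2 := by nlinarith [hr.1, hr.2]
    simp only [max_eq_left h1]
    ring
  have h2 : ∫ r in (0 : ℝ)..1, r ^ a * cut r =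
      ∫ r in (0 : ℝ)..1, (r ^ a - 2 * r ^ (a + 2) + r ^ (a + 4)) := by
    refine intervalIntegral.integral_congr fun r hr => ?_
    rw [uIcc_of_le zero_le_one] at hr
    have h1 : 0 ≤ 1 - r ^ 2 := by nlinarith [hr.1, hr.2]
    simp only [cut, max_eq_left h1]
    ring
  rw [h1, h2, intervalIntegral.integral_add, intervalIntegral.integral_sub,
    intervalIntegral.integral_sub]
  · simp only [intervalIntegral.integral_const_mul, integral_pow]
    have h3 : (0 : ℝ) ≤ a := Nat.cast_nonneg a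
    push_cast
    simp only [one_pow, ne_eq, Nat.add_eq_zero_iff, one_ne_zero, and_false, not_false_eq_true,
      zero_pow, sub_zero]
    field_simp
    ring
  all_goals exact Continuous.intervalIntegrable (by fun_prop) _ _

/-- a homogeneous function times a radial weight supported in `[0,1]` -/
theorem int_hom_rad [NeZero n] {φ : E n → ℝ} (hm : Measurable φ) {a : ℕ}
    (hom : ∀ (r : ℝ) (x : E n), 0 < r → φ (r • x) = r ^ a * φ x) (C : ℝ)
    (hb : ∀ u, ‖u‖ = 1 → |φ u| ≤ C) {η : ℝ → ℝ} (hη : Continuous η) (h0 : ∀ r, 1 ≤ r → η r = 0) :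
    Integrable (fun x => φ x * η ‖x‖) ∧
      ∫ x, φ x * η ‖x‖ = n * om n * (∫ r in Ioi (0 : ℝ), r ^ (a + n - 1) * η r) * ∫ u, φ u ∂sg n := by
  have hn : 0 < n := NeZero.pos n
  obtain ⟨M, hM⟩ := (isCompact_Icc (a := (0 : ℝ)) (b := 1)).exists_bound_of_continuousOn
    hη.continuousOn
  have hint : Integrable (fun x => φ x * η ‖x‖) := by
    have hg : Integrable ((closedBall (0 : E n) 1).indicator fun _ => |C| * M) :=
      (integrableOn_const measure_closedBall_lt_top.ne).integrable_indicator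
        measurableSet_closedBall
    refine hg.mono' (hm.mul (hη.comp continuous_norm).measurable).aestronglyMeasurable ?_
    have h00 : ∀ᵐ x : E n, x ≠ 0 := by
      rw [ae_iff]
      simp
    filter_upwards [h00] with x hx
    by_cases hx1 : ‖x‖ ≤ 1
    · rw [indicator_of_mem (mem_closedBall_zero_iff.2 hx1), norm_mul]
      have hp : 0 < ‖x‖ := norm_pos_iff.2 hx
      have h1 : φ x = ‖x‖ ^ a * φ (‖x‖⁻¹ • x) := by
        rw [← hom _ _ hp, smul_inv_smul₀ hp.ne']
      have h2 : ‖φ x‖ ≤ |C| := by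
        rw [h1, Real.norm_eq_abs, abs_mul, abs_of_nonneg (pow_nonneg hp.le a)]
        have h3 := (hb _ (norm_smul_inv_norm (𝕜 := ℝ) hx)).trans (le_abs_self C)
        have h4 : ‖x‖ ^ a ≤ 1 := pow_le_one₀ hp.le hx1
        calc ‖x‖ ^ a * |φ (‖x‖⁻¹ • x)| ≤ 1 * |C| :=
              mul_le_mul h4 h3 (abs_nonneg _) zero_le_one
          _ = |C| := one_mul _
      exact mul_le_mul h2 (hM _ ⟨hp.le, hx1⟩) (norm_nonneg _) (abs_nonneg _)
    · rw [indicator_of_notMem (fun h => hx1 (mem_closedBall_zero_iff.1 h)),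
        h0 _ (not_le.1 hx1).le, mul_zero, norm_zero]
  refine ⟨hint, ?_⟩
  rw [integral_polar hint, mul_assoc (n * om n), ← integral_mul_const]
  congr 1
  refine setIntegral_congr_fun measurableSet_Ioi fun r hr => ?_
  have hr' : 0 < r := hr
  have h1 : ∫ u, φ (r • u) * η ‖r • u‖ ∂sg n = ∫ u, (r ^ a * η r) * φ u ∂sg n := by
    refine integral_congr_ae ?_
    filter_upwards [ae_norm] with u hu
    rw [hom r u hr', norm_smul, hu, Real.norm_eq_abs, abs_of_pos hr', mul_one]
    ring
  have h2 : a + n - 1 = (n - 1) + a := by omega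
  simp only [h1, integral_const_mul, h2, pow_add]
  ring

theorem IBP_bdd {φ : E n → ℝ} (h : Continuous φ) : ∃ C, ∀ u, ‖u‖ = 1 → |φ u| ≤ C := by
  obtain ⟨C, hC⟩ := (isCompact_sphere (0 : E n) 1).exists_bound_of_continuousOn h.continuousOn
  exact ⟨C, fun u hu => hC u (mem_sphere_zero_iff_norm.2 hu)⟩

theorem IBP_line {q : Pl n} (i : Fin n) (x : E n) :
    lineDeriv ℝ (fun x : E n => ev q x * cut ‖x‖) x (-EuclideanSpace.single i 1) =
      -(ev (pderiv i q) x * cut ‖x‖) + x i * ev q x * (4 * max (1 - ‖x‖ ^ 2) 0) := by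
  have h := (hasFDerivAt_ev q x).fun_mul (hasFDerivAt_cut x)
  rw [(h.hasLineDerivAt (-EuclideanSpace.single i 1)).lineDeriv]
  simp [real_inner_smul_left, EuclideanSpace.inner_single_right]
  ring

theorem LH.wk [NeZero n] {F : E n → ℝ} (hF : LH F) : Wk (gradient F) := by
  intro d q hq i
  have hn : 0 < n := NeZero.pos n
  obtain ⟨K, hK⟩ := hF.lip
  have hFc := hF.continuous
  have hqc := continuous_ev q
  have hpc := continuous_ev (pderiv i q)
  have hFh : ∀ (r : ℝ) (x : E n), 0 < r → F (r • x) = r * F x := fun r x hr => by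
    rw [hF.hom, abs_of_pos hr]
  have hcs : HasCompactSupport fun x : E n => ev q x * cut ‖x‖ := by
    refine HasCompactSupport.intro (isCompact_closedBall (0 : E n) 1) fun x hx => ?_
    rw [IBP_cut_zero (not_le.1 fun h => hx (mem_closedBall_zero_iff.2 h)).le, mul_zero]
  obtain ⟨D, hD⟩ := ContDiff.lipschitzWith_of_hasCompactSupport hcs
    ((contDiff_ev q).mul contDiff_cut) one_ne_zero
  have key := hK.integral_lineDeriv_mul_eq (μ := volume) hD hcs (EuclideanSpace.single i 1)
  -- the three homogeneous functions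
  obtain ⟨G, hG⟩ := hF.norm_gradient_le
  obtain ⟨Cq, hCq⟩ := IBP_bdd hqc
  have hm1 : Measurable fun x : E n => gradient F x i * ev q x :=
    ((EuclideanSpace.proj i : E n →L[ℝ] ℝ).continuous.measurable.comp
      (measurable_gradient F)).mul hqc.measurable
  obtain ⟨-, e1⟩ := int_hom_rad (a := d) hm1
    (fun r x hr => by rw [hF.gradient_smul hr, ev_hom hq]; ring) (G * Cq)
    (fun u hu => by
      rw [abs_mul]
      exact mul_le_mul ((PiLp.norm_apply_le (gradient F u) i).trans (hG u)) (hCq u hu)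
        (abs_nonneg _) ((norm_nonneg _).trans (hG u)))
    IBP_cont_cut (fun r hr => IBP_cut_zero hr)
  have hc2 : Continuous fun x : E n => F x * ev (pderiv i q) x := hFc.mul hpc
  obtain ⟨C2, hC2⟩ := IBP_bdd hc2
  obtain ⟨i2, e2⟩ := int_hom_rad (a := d) hc2.measurable
    (fun r x hr => by
      rcases d with _ | d
      · simp [pderiv_of_hom_zero hq]
      · rw [hFh r x hr, ev_hom (hq.pderiv (i := i)), Nat.add_sub_cancel]
        ring) C2 hC2 IBP_cont_cut (fun r hr => IBP_cut_zero hr)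
  have hc3 : Continuous fun x : E n => F x * (x i * ev q x) :=
    hFc.mul ((EuclideanSpace.proj i : E n →L[ℝ] ℝ).continuous.mul hqc)
  obtain ⟨C3, hC3⟩ := IBP_bdd hc3
  obtain ⟨i3, e3⟩ := int_hom_rad (a := d + 2) hc3.measurable
    (fun r x hr => by
      rw [hFh r x hr, ev_hom hq, PiLp.smul_apply, smul_eq_mul]
      ring) C3 hC3 (η := fun r => 4 * max (1 - r ^ 2) 0) (by fun_prop)
    (fun r hr => by rw [IBP_max_zero hr, mul_zero])
  have l1 : ∫ x, lineDeriv ℝ F x (EuclideanSpace.single i 1) * (ev q x * cut ‖x‖) =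
      ∫ x, gradient F x i * ev q x * cut ‖x‖ := by
    refine integral_congr_ae ?_
    filter_upwards [hK.ae_differentiableAt (μ := volume)] with x hx
    rw [hx.lineDeriv_eq_fderiv, ← inner_gradient, EuclideanSpace.inner_single_right]
    simp [mul_assoc]
  have l2 : ∫ x, lineDeriv ℝ (fun x : E n => ev q x * cut ‖x‖) x (-EuclideanSpace.single i 1) *
      F x = -(∫ x, F x * ev (pderiv i q) x * cut ‖x‖) +
        ∫ x, F x * (x i * ev q x) * (4 * max (1 - ‖x‖ ^ 2) 0) := by
    rw [neg_add_eq_sub, ← integral_sub i3 i2]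
    refine integral_congr_ae (Eventually.of_forall fun x => ?_)
    simp only [IBP_line]
    ring
  have h3 : d + 2 + n - 1 = (d + n - 1) + 2 := by omega
  have h4 : ((d + n - 1 : ℕ) : ℝ) + 1 = d + n := by
    rw [← Nat.cast_succ, ← Nat.cast_add]
    congr 1
    omega
  rw [l1, l2, e1, e2, e3, h3, radial, h4] at key
  have hpos : 0 < n * om n * ∫ r in Ioi (0 : ℝ), r ^ (d + n - 1) * cut r :=
    mul_pos (mul_pos (Nat.cast_pos.2 hn) om_pos) (radial_pos _)
  have r2 : ∫ u, rad (gradient F) u * ev (pderiv i q) u ∂sg n =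
      ∫ u, F u * ev (pderiv i q) u ∂sg n := by
    refine integral_congr_ae ?_
    filter_upwards [hF.rad_ae] with u hu
    rw [hu]
  have r3 : ∫ u, rad (gradient F) u * (u i * ev q u) ∂sg n =
      ∫ u, F u * (u i * ev q u) ∂sg n := by
    refine integral_congr_ae ?_
    filter_upwards [hF.rad_ae] with u hu
    rw [hu]
  rw [r2, r3]
  refine mul_left_cancel₀ hpos.ne' ?_
  rw [key]
  ring

theorem LH.adm [NeZero n] {F : E n → ℝ} (hF : LH F) : Adm (gradient F) := by
  exact ⟨hF.memLp_gradient 2, hF.gradient_neg, hF.wk⟩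

/-- `LH.wk` for `F = ‖·‖` -/
theorem int_pderiv [NeZero n] {p : Pl n} {d : ℕ} (hp : p.IsHomogeneous d) (i : Fin n) :
    ∫ u, ev (pderiv i p) u ∂sg n = ((d : ℝ) + n - 1) * ∫ u, u i * ev p u ∂sg n := by
  have h := (isNm_norm (n := n)).lh.wk d p hp i
  have hr : ∀ᵐ u ∂sg n, rad (gradient fun x : E n => ‖x‖) u = 1 := by
    filter_upwards [(isNm_norm (n := n)).lh.rad_ae, ae_norm] with u h1 h2
    rw [h1, h2]
  have h1 : ∫ u, gradient (fun x : E n => ‖x‖) u i * ev p u ∂sg n = ∫ u, u i * ev p u ∂sg n := by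
    refine integral_congr_ae ?_
    filter_upwards [ae_norm] with u hu
    rw [gradient_norm hu]
  have h2 : ∫ u, rad (gradient fun x : E n => ‖x‖) u * ev (pderiv i p) u ∂sg n =
      ∫ u, ev (pderiv i p) u ∂sg n := by
    refine integral_congr_ae ?_
    filter_upwards [hr] with u hu
    rw [hu, one_mul]
  have h3 : ∫ u, rad (gradient fun x : E n => ‖x‖) u * (u i * ev p u) ∂sg n =
      ∫ u, u i * ev p u ∂sg n := by
    refine integral_congr_ae ?_
    filter_upwards [hr] with u hu
    rw [hu, one_mul]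
  rw [h1, h2, h3] at h
  linarith

end Crest.Agent.R230
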