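import Crest.Agent.R230.Dual

/-!
Row 230 (Petty).  Zonoids are contained in zonotopes of almost the same mass.
-/

set_option autoImplicit false

noncomputable section

namespace Crest.Agent.R230

open MeasureTheory Metric Set MvPolynomial Filter Topology
open scoped ENNReal InnerProductSpace Pointwise

variable {n : ℕ}

theorem Zono_image {m : ℕ} (w : Fin m → E n) :
    zon w = (fun t : Fin m → ℝ => ∑ j, t j • w j) '' Set.pi univ (fun _ => Icc (-1 : ℝ) 1) := by
  ext x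
  simp only [zon, mem_ofPred_eq, mem_image, Set.mem_pi, mem_univ, forall_const, mem_Icc, abs_le]
  exact ⟨fun ⟨t, h1, h2⟩ => ⟨t, h1, h2.symm⟩, fun ⟨t, h1, h2⟩ => ⟨t, h1, h2.symm⟩⟩

theorem zon_isCompact {m : ℕ} (w : Fin m → E n) : IsCompact (zon w) := by
  rw [Zono_image]
  exact (isCompact_univ_pi fun _ => isCompact_Icc).image (by fun_prop)

theorem zon_convex {m : ℕ} (w : Fin m → E n) : Convex ℝ (zon w) := by
  rintro x ⟨t, ht, rfl⟩ y ⟨s, hs, rfl⟩ a b ha hb hab
  refine ⟨fun j => a * t j + b * s j, fun j => ?_, ?_⟩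
  · have h1 := abs_le.1 (ht j)
    have h2 := abs_le.1 (hs j)
    rw [abs_le]
    constructor <;> nlinarith
  · simp only [Finset.smul_sum, add_smul, mul_smul, Finset.sum_add_distrib]

/-- `geometric_hahn_banach_closed_point`, `InnerProductSpace.toDual`, `t j = sign ⟪w j, v⟫` -/
theorem bodyOf_subset_zon {m : ℕ} (w : Fin m → E n) {H : E n → ℝ}
    (h : ∀ v, H v ≤ ∑ j, |⟪w j, v⟫_ℝ|) : bodyOf H ⊆ zon w := by
  intro x hx
  by_contra hc
  obtain ⟨f, u, h1, h2⟩ := geometric_hahn_banach_closed_point (zon_convex w)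
    (zon_isCompact w).isClosed hc
  set v := (InnerProductSpace.toDual ℝ (E n)).symm f with hv
  have hf : ∀ y, f y = ⟪y, v⟫_ℝ := fun y => by
    rw [real_inner_comm, hv, InnerProductSpace.toDual_symm_apply]
  have h3 := h1 (∑ j, (if 0 ≤ ⟪w j, v⟫_ℝ then (1 : ℝ) else -1) • w j)
    ⟨_, fun j => by split_ifs <;> simp, rfl⟩
  have h4 : f (∑ j, (if 0 ≤ ⟪w j, v⟫_ℝ then (1 : ℝ) else -1) • w j) = ∑ j, |⟪w j, v⟫_ℝ| := by
    rw [hf, sum_inner]
    refine Finset.sum_congr rfl fun j _ => ?_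
    rw [real_inner_smul_left]
    split_ifs with hj
    · rw [abs_of_nonneg hj, one_mul]
    · rw [abs_of_neg (not_le.1 hj), neg_one_mul]
  have h5 := hx v
  have h6 := h v
  rw [hf] at h2
  linarith

theorem Zono_norm_le (y : E n) : ‖y‖ ≤ ∑ i, |y i| := by
  rw [EuclideanSpace.norm_eq]
  refine Real.sqrt_le_iff.2 ⟨by positivity, ?_⟩
  simp only [Real.norm_eq_abs]
  exact Finset.sum_sq_le_sq_sum_of_nonneg fun i _ => abs_nonneg _

theorem Zono_simple {α : Type*} [MeasurableSpace α] {μ : Measure α} [IsFiniteMeasure μ]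
    (s : SimpleFunc α (E n)) {G : E n → ℝ} (hG : ∀ (c : ℝ) (x : E n), G (c • x) = |c| * G x) :
    Integrable (fun a => G (s a)) μ ∧
      ∫ a, G (s a) ∂μ = ∑ x ∈ s.range, G (μ.real (s ⁻¹' {x}) • x) := by
  have h0 : G 0 = 0 := by simpa using hG 0 0
  have h1 : Integrable (s.map G) μ := SimpleFunc.integrable_of_isFiniteMeasure _
  refine ⟨h1, ?_⟩
  have h2 := SimpleFunc.map_integral s G (SimpleFunc.integrable_of_isFiniteMeasure (μ := μ) _) h0
  rw [SimpleFunc.integral_eq_integral _ h1] at h2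
  refine h2.trans (Finset.sum_congr rfl fun x _ => ?_)
  rw [hG, abs_of_nonneg measureReal_nonneg, smul_eq_mul]

/-- approximate `v` in `L¹` by a simple function `s` (e.g. `MemLp.exists_simpleFunc_eLpNorm_sub_lt`
or `Integrable.induction`); generators: `μ (s = x) • x` for `x` in the range of `s`, and
`δ' e_i` for the standard basis (`δ' ‖y‖ ≤ ∑ |⟪δ' e_i, y⟫|`) -/
theorem zono_approx {α : Type*} [MeasurableSpace α] {μ : Measure α} [IsFiniteMeasure μ]
    {v : α → E n} (hv : Integrable v μ) {S : E n → ℝ} (hS : IsNm S) {δ : ℝ} (hδ : 0 < δ) :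
    ∃ (m : ℕ) (w : Fin m → E n), ∑ j, S (w j) ≤ ∫ a, S (v a) ∂μ + δ ∧
      bodyOf (fun y => ∫ a, |⟪v a, y⟫_ℝ| ∂μ) ⊆ zon w := by
  obtain ⟨C, hC, hSC⟩ := hS.upper
  set η := δ / (C * (n + 1)) with hη
  have hη0 : 0 < η := by positivity
  obtain ⟨s, hs, -⟩ := (memLp_one_iff_integrable.2 hv).exists_simpleFunc_eLpNorm_sub_lt
    ENNReal.one_ne_top (ε := ENNReal.ofReal η) (by simpa using hη0)
  have hsi : Integrable s μ := SimpleFunc.integrable_of_isFiniteMeasure _
  have hd : Integrable (fun a => ‖v a - s a‖) μ := (hv.sub hsi).norm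
  have hs' : ∫ a, ‖v a - s a‖ ∂μ ≤ η := by
    rw [eLpNorm_one_eq_lintegral_enorm, ← ofReal_integral_norm_eq_lintegral_enorm (hv.sub hsi),
      ENNReal.ofReal_lt_ofReal_iff hη0] at hs
    exact hs.le
  let W : s.range ⊕ Fin n → E n := Sum.elim (fun x => μ.real (s ⁻¹' {x.1}) • x.1)
    fun i => η • EuclideanSpace.single i (1 : ℝ)
  have hW : ∀ G : E n → ℝ, (∀ (c : ℝ) (x : E n), G (c • x) = |c| * G x) →
      ∑ j, G (W ((Fintype.equivFin _).symm j)) =
        ∫ a, G (s a) ∂μ + η * ∑ i, G (EuclideanSpace.single i (1 : ℝ)) := by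
    intro G hG
    rw [Equiv.sum_comp (Fintype.equivFin _).symm fun j => G (W j), Fintype.sum_sum_type,
      (Zono_simple s hG).2, ← Finset.sum_coe_sort s.range, Finset.mul_sum]
    congr 1
    refine Finset.sum_congr rfl fun i _ => ?_
    simp only [W, Sum.elim_inr]
    rw [hG, abs_of_pos hη0]
  refine ⟨_, fun j => W ((Fintype.equivFin _).symm j), ?_, bodyOf_subset_zon _ fun y => ?_⟩
  · rw [hW S hS.smul]
    have hSv : Integrable (fun a => S (v a)) μ :=
      (hv.norm.const_mul C).mono' (hS.continuous.comp_aestronglyMeasurable hv.1)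
        (ae_of_all _ fun a => by rw [Real.norm_of_nonneg (hS.nonneg _)]; exact hSC _)
    have h1 : ∫ a, S (s a) ∂μ ≤ ∫ a, (S (v a) + C * ‖v a - s a‖) ∂μ := by
      refine integral_mono (Zono_simple s hS.smul).1 (hSv.add (hd.const_mul C)) fun a => ?_
      have e1 := hS.add (v a) (s a - v a)
      have e2 := hSC (s a - v a)
      rw [add_sub_cancel] at e1
      rw [norm_sub_rev] at e2
      dsimp only
      linarith
    rw [integral_add hSv (hd.const_mul C), integral_const_mul] at h1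
    have h2 : ∑ i : Fin n, S (EuclideanSpace.single i (1 : ℝ)) ≤ n * C := by
      refine (Finset.sum_le_card_nsmul _ _ C fun i _ => ?_).trans (by simp)
      simpa using hSC (EuclideanSpace.single i (1 : ℝ))
    have h3 : C * η + η * (n * C) = δ := by
      rw [hη]
      field_simp
      ring
    have h4 : C * ∫ a, ‖v a - s a‖ ∂μ ≤ C * η := by gcongr
    have h5 : η * ∑ i : Fin n, S (EuclideanSpace.single i (1 : ℝ)) ≤ η * (n * C) := by gcongr
    linarith
  · have hG : ∀ (c : ℝ) (x : E n), |⟪c • x, y⟫_ℝ| = |c| * |⟪x, y⟫_ℝ| := fun c x => by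
      rw [real_inner_smul_left, abs_mul]
    rw [hW (fun x => |⟪x, y⟫_ℝ|) hG]
    have hi : Integrable (fun a => |⟪s a, y⟫_ℝ|) μ :=
      (Zono_simple (μ := μ) (G := fun x => |⟪x, y⟫_ℝ|) s hG).1
    have h1 : ∫ a, |⟪v a, y⟫_ℝ| ∂μ ≤ ∫ a, (|⟪s a, y⟫_ℝ| + ‖v a - s a‖ * ‖y‖) ∂μ := by
      refine integral_mono (hv.inner_const y).abs (hi.add (hd.mul_const _)) fun a => ?_
      have e1 : ⟪v a, y⟫_ℝ = ⟪s a, y⟫_ℝ + ⟪v a - s a, y⟫_ℝ := by
        rw [inner_sub_left]; ring
      dsimp only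
      rw [e1]
      exact (abs_add_le _ _).trans (add_le_add le_rfl (abs_real_inner_le_norm _ _))
    rw [integral_add hi (hd.mul_const _), integral_mul_const] at h1
    have h2 : ‖y‖ ≤ ∑ i : Fin n, |⟪EuclideanSpace.single i (1 : ℝ), y⟫_ℝ| := by
      simpa [EuclideanSpace.inner_single_left] using Zono_norm_le y
    have h3 : (∫ a, ‖v a - s a‖ ∂μ) * ‖y‖ ≤
        η * ∑ i : Fin n, |⟪EuclideanSpace.single i (1 : ℝ), y⟫_ℝ| := by gcongr
    linarith

end Crest.Agent.R230
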