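import Crest.Agent.R230.Sh
import Crest.Agent.R230.Zono
import Crest.Agent.R230.BMEq

/-!
Row 230 (Petty).  Minkowski's first inequality for a body contained in zonotopes of shadow mass `≤ 1`,
with its equality case.
-/

set_option autoImplicit false

noncomputable section

namespace Crest.Agent.R230

open MeasureTheory Metric Set MvPolynomial Filter Topology
open scoped ENNReal InnerProductSpace Pointwise

variable {n : ℕ}

variable {K Z : Set (E n)}

/-- induction on `m` (`Fin.cons`/`Fin.sum_univ_succ`): `zon w = zon (tail w) + [-w 0, w 0]`, and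
`[-v, v]` is a translate of `segment 0 (2 v)`; `seg` -/
theorem vol_add_zon (hK : IsCompact K) (hc : Convex ℝ K) {m : ℕ} (w : Fin m → E n) :
    (volume : Measure (E n)).real (K + zon w) ≤ volume.real K + 2 * ∑ j, sh (K + zon w) (w j) := by
  induction m with
  | zero =>
    have : zon w = 0 := by
      ext x
      simp [zon]
    simp [this]
  | succ m ih =>
    set w' : Fin m → E n := fun j => w j.succ with hw'
    have hK' : IsCompact (K + zon w') := hK.add (zon_isCompact w')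
    have hc' : Convex ℝ (K + zon w') := hc.add (zon_convex w')
    have hKw : IsCompact (K + zon w) := hK.add (zon_isCompact w)
    have hsub : K + zon w' ⊆ K + zon w := by
      refine add_subset_add_left ?_
      rintro x ⟨t, ht, rfl⟩
      refine ⟨Fin.cons 0 t, fun j => ?_, ?_⟩
      · refine Fin.cases ?_ (fun i => ?_) j
        · simp
        · simpa using ht i
      · simp [Fin.sum_univ_succ, hw']
    have hseg : IsCompact (segment ℝ (0 : E n) ((2 : ℝ) • w 0)) := by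
      rw [segment_eq_image]
      exact isCompact_Icc.image (by fun_prop)
    have hsub2 : K + zon w ⊆
        (fun x => x + w 0) ⁻¹' (K + zon w' + segment ℝ 0 ((2 : ℝ) • w 0)) := by
      rintro _ ⟨y, hy, _, ⟨t, ht, rfl⟩, rfl⟩
      have h0 := abs_le.1 (ht 0)
      refine ⟨y + ∑ j, t j.succ • w' j, ⟨y, hy, _, ⟨fun j => t j.succ, fun j => ht _, rfl⟩, rfl⟩,
        ((t 0 + 1) / 2) • (2 : ℝ) • w 0,
        ⟨1 - (t 0 + 1) / 2, (t 0 + 1) / 2, by linarith, by linarith, by ring, by simp⟩, ?_⟩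
      simp only [Fin.sum_univ_succ, hw', smul_smul]
      rw [div_mul_cancel₀ _ (two_ne_zero), add_smul, one_smul]
      abel
    have h1 : (volume : Measure (E n)).real (K + zon w) ≤
        volume.real (K + zon w' + segment ℝ 0 ((2 : ℝ) • w 0)) := by
      refine ENNReal.toReal_mono (hK'.add hseg).measure_lt_top.ne ?_
      exact (measure_mono hsub2).trans (measure_preimage_add_right _ _ _).le
    rw [seg hK' hc', sh_smul, abs_two] at h1
    have h2 := ih w'
    have h3 : ∑ j, sh (K + zon w') (w' j) ≤ ∑ j : Fin m, sh (K + zon w) (w j.succ) :=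
      Finset.sum_le_sum fun j _ => sh_mono hsub hKw _
    have h4 := sh_mono hsub hKw (w 0)
    rw [Fin.sum_univ_succ]
    linarith

/-- `ε • zon w = zon (ε • w) ⊆ closedBall 0 ρ` for small `ε`; `Body.sh_le` -/
theorem growth [NeZero n] (hK : Body K)
    (hZ : ∀ δ : ℝ, 0 < δ → ∃ (m : ℕ) (w : Fin m → E n), ∑ j, sh K (w j) ≤ 1 + δ ∧ Z ⊆ zon w)
    {δ : ℝ} (hδ : 0 < δ) : ∀ᶠ ε in 𝓝[>] (0 : ℝ),
      (volume : Measure (E n)).real (K + ε • Z) ≤ volume.real K + 2 * ε * (1 + δ) := by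
  obtain ⟨η, hη, hηδ⟩ : ∃ η : ℝ, 0 < η ∧ (1 + η) * (1 + η) ≤ 1 + δ := by
    refine ⟨min 1 (δ / 3), by positivity, ?_⟩
    have h1 := min_le_left 1 (δ / 3)
    have h2 := min_le_right 1 (δ / 3)
    have h3 : 0 < min 1 (δ / 3) := by positivity
    nlinarith
  obtain ⟨m, w, hw, hZw⟩ := hZ η hη
  obtain ⟨ρ, hρ, hsh⟩ := hK.sh_le hη
  obtain ⟨R, hR, hball⟩ := (zon_isCompact w).isBounded.subset_closedBall_lt 0 (0 : E n)
  filter_upwards [Ioc_mem_nhdsGT (div_pos hρ hR)] with ε hε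
  obtain ⟨hε0, hεR⟩ := hε
  rw [le_div_iff₀ hR] at hεR
  have e1 : zon (fun j => ε • w j) = ε • zon w := by
    ext x
    constructor
    · rintro ⟨t, ht, rfl⟩
      refine ⟨_, ⟨t, ht, rfl⟩, ?_⟩
      simp only [Finset.smul_sum, smul_comm ε]
    · rintro ⟨_, ⟨t, ht, rfl⟩, rfl⟩
      refine ⟨t, ht, ?_⟩
      simp only [Finset.smul_sum, smul_comm ε]
  have h1 : K + zon (fun j => ε • w j) ⊆ K + closedBall (0 : E n) ρ := by
    refine add_subset_add_left ?_
    rw [e1]
    rintro _ ⟨x, hx, rfl⟩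
    have := mem_closedBall_zero_iff.1 (hball hx)
    rw [mem_closedBall_zero_iff, norm_smul, Real.norm_of_nonneg hε0.le]
    exact le_trans (by gcongr) hεR
  have h2 : (volume : Measure (E n)).real (K + ε • Z) ≤
      volume.real (K + zon fun j => ε • w j) := by
    refine measureReal_mono (add_subset_add_left ?_)
      (hK.cpt.add (zon_isCompact _)).measure_lt_top.ne
    rw [e1]
    exact smul_set_mono hZw
  have h3 := vol_add_zon hK.cpt hK.cvx fun j => ε • w j
  have h4 : ∑ j, sh (K + zon fun j => ε • w j) (ε • w j) ≤ ε * ((1 + η) * ∑ j, sh K (w j)) := by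
    rw [Finset.mul_sum, Finset.mul_sum]
    refine Finset.sum_le_sum fun j _ => ?_
    rw [sh_smul, abs_of_pos hε0]
    exact mul_le_mul_of_nonneg_left (hsh _ h1 _) hε0.le
  have h5 : ε * ((1 + η) * ∑ j, sh K (w j)) ≤ ε * (1 + δ) := by
    gcongr
    exact le_trans (by gcongr) hηδ
  linarith

/-- with `A_t = (1 - t) A + t B`: `A_{t/2} = (1/2) • (A + A_t)` by convexity of `A`, so
`φ (t/2)² ≥ φ 0 φ t` (`bm_half`) -/
theorem dyadic {A B : Set (E n)} (hA : Body A) (hB : Body B)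
    (h1 : (volume : Measure (E n)).real A = 1) (k : ℕ) :
    (volume : Measure (E n)).real ((1 / 2 : ℝ) • (A + B)) ≤
      volume.real ((1 - (1 / 2 : ℝ) ^ (k + 1)) • A + (1 / 2 : ℝ) ^ (k + 1) • B) ^ (2 ^ k) := by
  induction k with
  | zero =>
    rw [smul_add]
    norm_num
  | succ k ih =>
    set t : ℝ := (1 / 2) ^ (k + 1) with ht
    have ht0 : 0 ≤ t := by positivity
    have ht1 : t ≤ 1 := pow_le_one₀ (by norm_num) (by norm_num)
    have e : (1 - (1 / 2 : ℝ) ^ (k + 1 + 1)) • A + (1 / 2 : ℝ) ^ (k + 1 + 1) • B =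
        (1 / 2 : ℝ) • (A + ((1 - t) • A + t • B)) := by
      rw [smul_add, smul_add, smul_smul, smul_smul, ← add_assoc,
        ← hA.cvx.add_smul (by norm_num) (by nlinarith), pow_succ, ← ht]
      congr 2 <;> ring
    have h2 := bm_half hA.cpt ((hA.cpt.smul (1 - t)).add (hB.cpt.smul t))
    rw [h1, one_mul] at h2
    rw [e, pow_succ' 2 k, pow_mul]
    exact ih.trans (pow_le_pow_left₀ measureReal_nonneg h2 _)

theorem Mink_vol_smul {c : ℝ} (hc : 0 ≤ c) (S : Set (E n)) :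
    (volume : Measure (E n)).real (c • S) = c ^ n * volume.real S := by
  rw [measureReal_def, Measure.addHaar_smul_of_nonneg _ hc, ENNReal.toReal_mul,
    ENNReal.toReal_ofReal (by positivity), finrank_euclideanSpace_fin, measureReal_def]

theorem Mink_body_smul (hK : Body K) {c : ℝ} (hc : 0 < c) : Body (c • K) :=
  ⟨hK.cpt.smul c, hK.cvx.smul c, by
    rw [interior_smul₀ hc.ne']
    exact hK.int.smul_set⟩

theorem Mink_vol_one {k : ℝ} (hk : 0 < k) (hkV : k ^ n = (volume : Measure (E n)).real K) :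
    (volume : Measure (E n)).real (k⁻¹ • K) = 1 := by
  rw [Mink_vol_smul (inv_pos.2 hk).le, ← hkV, ← mul_pow, inv_mul_cancel₀ hk.ne', one_pow]

theorem Mink_one_le (hK : Body K) (hZb : Body Z) {k z : ℝ} (hk : 0 < k) (hz : 0 < z)
    (hkV : k ^ n = (volume : Measure (E n)).real K)
    (hzV : z ^ n = (volume : Measure (E n)).real Z) :
    1 ≤ (volume : Measure (E n)).real ((1 / 2 : ℝ) • (k⁻¹ • K + z⁻¹ • Z)) := by
  have h := bm_half (hK.cpt.smul k⁻¹) (hZb.cpt.smul z⁻¹)
  rw [Mink_vol_one hk hkV, Mink_vol_one hz hzV, one_mul] at h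
  exact (one_le_sq_iff₀ measureReal_nonneg).1 h

/-- Let `k^n = vol K`, `z^n = vol Z`, `A = k⁻¹ • K`, `B = z⁻¹ • Z`, `φ = vol ((1/2) • (A + B)) ≥ 1`.
For `t = 2^-(j+1)`, `A_t = ((1-t)/k) • (K + ε • Z)`, `ε = t k/((1-t) z)`, so by `growth`
`vol A_t ≤ (1-t)^n (1 + 2 ε (1+δ)/k^n) ≤ exp (t (-n + 2 (1+δ)/((1-t) z k^(n-1))))`, and `dyadic`
gives `log φ ≤ (1/2)(-n + 2/(z k^(n-1)))` in the limit. -/
theorem log_mid_le [NeZero n] (hK : Body K) (hZb : Body Z)
    (hZ : ∀ δ : ℝ, 0 < δ → ∃ (m : ℕ) (w : Fin m → E n), ∑ j, sh K (w j) ≤ 1 + δ ∧ Z ⊆ zon w)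
    {k z : ℝ} (hk : 0 < k) (hz : 0 < z) (hkV : k ^ n = (volume : Measure (E n)).real K)
    (hzV : z ^ n = (volume : Measure (E n)).real Z) :
    Real.log ((volume : Measure (E n)).real ((1 / 2 : ℝ) • (k⁻¹ • K + z⁻¹ • Z))) ≤
      (1 / 2) * (-(n : ℝ) + 2 / (z * k ^ (n - 1))) := by
  have hA := Mink_body_smul hK (inv_pos.2 hk)
  have hB := Mink_body_smul hZb (inv_pos.2 hz)
  have hA1 := Mink_vol_one hk hkV
  have hφ : 0 < (volume : Measure (E n)).real ((1 / 2 : ℝ) • (k⁻¹ • K + z⁻¹ • Z)) :=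
    lt_of_lt_of_le one_pos (Mink_one_le hK hZb hk hz hkV hzV)
  have hn : k ^ n = k ^ (n - 1) * k := by
    rw [← pow_succ, Nat.sub_add_cancel (Nat.pos_of_ne_zero (NeZero.ne n))]
  have key : ∀ δ : ℝ, 0 < δ →
      Real.log ((volume : Measure (E n)).real ((1 / 2 : ℝ) • (k⁻¹ • K + z⁻¹ • Z))) ≤
        (1 / 2) * (-(n : ℝ) + 2 * (1 + δ) ^ 2 / (z * k ^ (n - 1))) := by
    intro δ hδ
    have T1 : Tendsto (fun t : ℝ => t * k / ((1 - t) * z)) (𝓝[>] 0) (𝓝[>] 0) := by
      refine tendsto_nhdsWithin_iff.2 ⟨?_, ?_⟩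
      · have : ContinuousAt (fun t : ℝ => t * k / ((1 - t) * z)) 0 :=
          ContinuousAt.div (by fun_prop) (by fun_prop) (by simpa using hz.ne')
        simpa using this.tendsto.mono_left nhdsWithin_le_nhds
      · filter_upwards [Ioo_mem_nhdsGT (zero_lt_one' ℝ)] with t ht
        have := sub_pos.2 ht.2
        have := ht.1
        rw [mem_Ioi]
        positivity
    have T2 : Tendsto (fun j : ℕ => (1 / 2 : ℝ) ^ (j + 1)) atTop (𝓝[>] 0) := by
      refine tendsto_nhdsWithin_iff.2 ⟨?_, Eventually.of_forall fun j => ?_⟩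
      · exact (tendsto_pow_atTop_nhds_zero_of_lt_one (by norm_num) (by norm_num)).comp
          (tendsto_add_atTop_nat 1)
      · rw [mem_Ioi]
        positivity
    have hd : 0 < δ / (1 + δ) := by positivity
    obtain ⟨j, hj, hj'⟩ := ((T2.eventually (T1.eventually (growth hK hZ hδ))).and
      (T2.eventually (Ioo_mem_nhdsGT hd))).exists
    have hdy := dyadic hA hB hA1 j
    have hjt : (2 : ℝ) ^ j * (1 / 2) ^ (j + 1) = 1 / 2 := by
      rw [pow_succ, ← mul_assoc, ← mul_pow]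
      norm_num
    set t : ℝ := (1 / 2) ^ (j + 1) with ht
    obtain ⟨ht0, htδ⟩ := hj'
    rw [lt_div_iff₀ (by positivity)] at htδ
    have ht1 : 0 < 1 - t := by nlinarith
    have e : (1 - t) • k⁻¹ • K + t • z⁻¹ • Z =
        ((1 - t) / k) • (K + (t * k / ((1 - t) * z)) • Z) := by
      rw [smul_add, smul_smul, smul_smul, smul_smul]
      congr 2
      field_simp
    have h1 : (volume : Measure (E n)).real ((1 - t) • k⁻¹ • K + t • z⁻¹ • Z) ≤
        Real.exp (t * (-(n : ℝ) + 2 * (1 + δ) ^ 2 / (z * k ^ (n - 1)))) := by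
      rw [e, Mink_vol_smul (by positivity)]
      have a1 : (1 - t) ^ n ≤ Real.exp (t * (-(n : ℝ))) := by
        rw [mul_neg, mul_comm, ← mul_neg, Real.exp_nat_mul]
        exact pow_le_pow_left₀ ht1.le (by linarith [Real.add_one_le_exp (-t)]) _
      have a2 : 1 / (1 - t) ≤ 1 + δ := by
        rw [div_le_iff₀ ht1]
        nlinarith
      have a3 : 1 + 2 * t * (1 + δ) / (z * k ^ (n - 1)) * (1 / (1 - t)) ≤
          Real.exp (t * (2 * (1 + δ) ^ 2 / (z * k ^ (n - 1)))) := by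
        refine le_trans ?_ (Real.add_one_le_exp _)
        rw [add_comm]
        refine add_le_add_left ?_ _
        calc 2 * t * (1 + δ) / (z * k ^ (n - 1)) * (1 / (1 - t))
            ≤ 2 * t * (1 + δ) / (z * k ^ (n - 1)) * (1 + δ) := by gcongr
          _ = _ := by ring
      calc ((1 - t) / k) ^ n * volume.real (K + (t * k / ((1 - t) * z)) • Z)
          ≤ ((1 - t) / k) ^ n * (k ^ n + 2 * (t * k / ((1 - t) * z)) * (1 + δ)) := by
            rw [hkV]; gcongr
        _ = (1 - t) ^ n * (1 + 2 * t * (1 + δ) / (z * k ^ (n - 1)) * (1 / (1 - t))) := by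
            rw [div_pow, hn]
            field_simp
        _ ≤ Real.exp (t * (-(n : ℝ))) *
              Real.exp (t * (2 * (1 + δ) ^ 2 / (z * k ^ (n - 1)))) := by gcongr
        _ = _ := by rw [← Real.exp_add, mul_add]
    rw [Real.log_le_iff_le_exp hφ]
    refine hdy.trans ((pow_le_pow_left₀ measureReal_nonneg h1 _).trans (le_of_eq ?_))
    rw [← Real.exp_nat_mul, ← mul_assoc]
    push_cast
    rw [hjt]
  have hc : ContinuousAt (fun δ : ℝ =>
      (1 / 2) * (-(n : ℝ) + 2 * (1 + δ) ^ 2 / (z * k ^ (n - 1)))) 0 := by fun_prop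
  have := ge_of_tendsto (hc.tendsto.mono_left (nhdsWithin_le_nhds (s := Ioi 0)))
    (eventually_mem_nhdsWithin.mono fun δ hδ => key δ hδ)
  simpa using this

theorem mink [NeZero n] (hK : Body K) (hZb : Body Z)
    (hZ : ∀ δ : ℝ, 0 < δ → ∃ (m : ℕ) (w : Fin m → E n), ∑ j, sh K (w j) ≤ 1 + δ ∧ Z ⊆ zon w) :
    (n : ℝ) ^ n * (volume : Measure (E n)).real K ^ (n - 1) * volume.real Z ≤ 2 ^ n ∧
      (2 ^ n ≤ (n : ℝ) ^ n * (volume : Measure (E n)).real K ^ (n - 1) * volume.real Z →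
        ∃ (a : E n) (r : ℝ), 0 < r ∧ K = (fun x => a + r • x) '' Z) := by
  have hn0 : n ≠ 0 := NeZero.ne n
  obtain ⟨k, hk, hkV⟩ : ∃ k : ℝ, 0 < k ∧ k ^ n = (volume : Measure (E n)).real K :=
    ⟨_, Real.rpow_pos_of_pos hK.vol_pos _, Real.rpow_inv_natCast_pow hK.vol_pos.le hn0⟩
  obtain ⟨z, hz, hzV⟩ : ∃ z : ℝ, 0 < z ∧ z ^ n = (volume : Measure (E n)).real Z :=
    ⟨_, Real.rpow_pos_of_pos hZb.vol_pos _, Real.rpow_inv_natCast_pow hZb.vol_pos.le hn0⟩
  have h1 := Mink_one_le hK hZb hk hz hkV hzV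
  have h2 := log_mid_le hK hZb hZ hk hz hkV hzV
  have hp : 0 < z * k ^ (n - 1) := by positivity
  have e : (n : ℝ) ^ n * (volume : Measure (E n)).real K ^ (n - 1) * volume.real Z =
      (n * (z * k ^ (n - 1))) ^ n := by
    rw [← hkV, ← hzV, mul_pow, mul_pow, ← pow_mul, ← pow_mul, mul_comm n (n - 1)]
    ring
  rw [e]
  constructor
  · refine pow_le_pow_left₀ (by positivity) ?_ _
    have h3 := Real.log_nonneg h1
    rw [← le_div_iff₀ hp]
    linarith
  · intro h
    have h3 : 2 ≤ n * (z * k ^ (n - 1)) := le_of_pow_le_pow_left₀ hn0 (by positivity) h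
    rw [← div_le_iff₀ hp] at h3
    have h4 : (volume : Measure (E n)).real ((1 / 2 : ℝ) • (k⁻¹ • K + z⁻¹ • Z)) ≤ 1 :=
      (Real.log_nonpos_iff (by linarith)).1 (by linarith)
    have hA1 := Mink_vol_one hk hkV
    have hB1 := Mink_vol_one hz hzV
    obtain ⟨c, hc⟩ := bm_eq (Mink_body_smul hZb (inv_pos.2 hz)) (Mink_body_smul hK (inv_pos.2 hk))
      (hB1.trans hA1.symm) (by rwa [add_comm, hB1])
    refine ⟨k • c, k * z⁻¹, by positivity, ?_⟩
    have h5 : K = k • k⁻¹ • K := (smul_inv_smul₀ hk.ne' K).symm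
    rw [h5, hc, ← image_smul, ← image_smul, image_image, image_image]
    simp only [smul_add, smul_smul]

end Crest.Agent.R230
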