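import Crest.Agent.R230.Sph

/-!
Row 230 (Petty).  Norms and Lipschitz one-homogeneous functions; their gradients.
-/

set_option autoImplicit false

noncomputable section

namespace Crest.Agent.R230

open MeasureTheory Metric Set MvPolynomial Filter Topology
open scoped ENNReal InnerProductSpace Pointwise

variable {n : ℕ}

variable {N F : E n → ℝ}

theorem IsNm.zero (hN : IsNm N) : N 0 = 0 := by
  simpa using hN.smul 0 0

theorem IsNm.neg (hN : IsNm N) (x : E n) : N (-x) = N x := by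
  simpa using hN.smul (-1) x

theorem IsNm.nonneg (hN : IsNm N) (x : E n) : 0 ≤ N x := by
  rcases eq_or_ne x 0 with rfl | h
  · exact hN.zero.ge
  · exact (hN.pos x h).le

theorem IsNm.pos_sph (hN : IsNm N) {u : E n} (hu : ‖u‖ = 1) : 0 < N u := by
  refine hN.pos u ?_
  rintro rfl
  simp at hu

theorem IsNm.sum_le (hN : IsNm N) {ι : Type*} (s : Finset ι) (x : ι → E n) :
    N (∑ i ∈ s, x i) ≤ ∑ i ∈ s, N (x i) := by
  classical
  induction s using Finset.induction_on with
  | empty => simp [hN.zero]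
  | insert a s ha ih =>
    rw [Finset.sum_insert ha, Finset.sum_insert ha]
    exact (hN.add _ _).trans (by linarith)

/-- expand in the standard basis -/
theorem IsNm.upper (hN : IsNm N) : ∃ C : ℝ, 0 < C ∧ ∀ x, N x ≤ C * ‖x‖ := by
  refine ⟨∑ i, N (EuclideanSpace.single i 1) + 1, ?_, fun x => ?_⟩
  · have : 0 ≤ ∑ i, N (EuclideanSpace.single i (1 : ℝ)) :=
      Finset.sum_nonneg fun i _ => hN.nonneg _
    linarith
  · have hx : x = ∑ i, x i • EuclideanSpace.single i (1 : ℝ) := by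
      simpa using ((EuclideanSpace.basisFun (Fin n) ℝ).sum_repr x).symm
    have h1 : N x ≤ ∑ i, N (EuclideanSpace.single i (1 : ℝ)) * ‖x‖ := by
      conv_lhs => rw [hx]
      refine (hN.sum_le _ _).trans (Finset.sum_le_sum fun i _ => ?_)
      rw [hN.smul, mul_comm]
      refine mul_le_mul_of_nonneg_left ?_ (hN.nonneg _)
      simpa using PiLp.norm_apply_le x i
    rw [← Finset.sum_mul] at h1
    nlinarith [norm_nonneg x]

theorem IsNm.lh (hN : IsNm N) : LH N := by
  obtain ⟨C, hC, h⟩ := hN.upper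
  refine ⟨⟨⟨C, hC.le⟩, LipschitzWith.of_le_add_mul _ fun x y => ?_⟩, hN.smul⟩
  have h1 := hN.add y (x - y)
  have h2 := h (x - y)
  rw [add_sub_cancel] at h1
  rw [dist_eq_norm]
  change N x ≤ N y + C * ‖x - y‖
  linarith

theorem IsNm.continuous (hN : IsNm N) : Continuous N := by
  obtain ⟨C, hC⟩ := hN.lh.lip
  exact hC.continuous

theorem IsNm.convexOn (hN : IsNm N) : ConvexOn ℝ univ N := by
  refine ⟨convex_univ, fun x _ y _ a b ha hb _ => ?_⟩
  have h := hN.add (a • x) (b • y)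
  rw [hN.smul, hN.smul, abs_of_nonneg ha, abs_of_nonneg hb] at h
  simpa using h

/-- compactness of the sphere -/
theorem IsNm.lower (hN : IsNm N) : ∃ c : ℝ, 0 < c ∧ ∀ x, c * ‖x‖ ≤ N x := by
  rcases (sphere (0 : E n) 1).eq_empty_or_nonempty with he | hne
  · refine ⟨1, one_pos, fun x => ?_⟩
    rcases eq_or_ne x 0 with rfl | hx
    · simp [hN.zero]
    · have : ‖x‖⁻¹ • x ∈ sphere (0 : E n) 1 := by
        simp [norm_smul, hx]
      rw [he] at this
      exact this.elim
  · obtain ⟨u, hu, hmin⟩ := (isCompact_sphere (0 : E n) 1).exists_isMinOn hne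
      hN.continuous.continuousOn
    refine ⟨N u, hN.pos_sph (by simpa using hu), fun x => ?_⟩
    rcases eq_or_ne x 0 with rfl | hx
    · simp [hN.zero]
    · have hx' : 0 < ‖x‖ := norm_pos_iff.2 hx
      have h1 : ‖x‖⁻¹ • x ∈ sphere (0 : E n) 1 := by
        simp [norm_smul, hx]
      have h2 : N u ≤ N (‖x‖⁻¹ • x) := hmin h1
      rw [hN.smul, abs_of_pos (inv_pos.2 hx'), ← div_eq_inv_mul, le_div_iff₀ hx'] at h2
      exact h2

theorem IsNm.cmul (hN : IsNm N) {c : ℝ} (hc : 0 < c) : IsNm fun x => c * N x := by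
  refine ⟨fun x y => ?_, fun a x => ?_, fun x hx => mul_pos hc (hN.pos x hx)⟩
  · rw [← mul_add]
    exact mul_le_mul_of_nonneg_left (hN.add x y) hc.le
  · rw [hN.smul]
    ring

theorem IsNm.comp (hN : IsNm N) (A : E n ≃L[ℝ] E n) : IsNm fun x => N (A x) := by
  refine ⟨fun x y => ?_, fun a x => ?_, fun x hx => hN.pos _ ?_⟩
  · rw [map_add]
    exact hN.add _ _
  · rw [map_smul, hN.smul]
  · simpa using hx

theorem isNm_norm : IsNm fun x : E n => ‖x‖ := by
  exact ⟨norm_add_le, fun c x => by rw [norm_smul, Real.norm_eq_abs], fun x hx => norm_pos_iff.2 hx⟩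

theorem lh_abs_inner (w : E n) : LH fun x : E n => |⟪x, w⟫_ℝ| := by
  refine ⟨⟨‖w‖₊, LipschitzWith.of_dist_le_mul fun x y => ?_⟩, fun c x => ?_⟩
  · rw [Real.dist_eq, dist_eq_norm]
    refine (abs_abs_sub_abs_le _ _).trans ?_
    rw [← inner_sub_left, mul_comm]
    exact abs_real_inner_le_norm _ _
  · rw [real_inner_smul_left, abs_mul]

theorem LH.continuous (hF : LH F) : Continuous F := by
  obtain ⟨C, hC⟩ := hF.lip
  exact hC.continuous

theorem measurable_gradient (F : E n → ℝ) : Measurable (gradient F) := by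
  exact (InnerProductSpace.toDual ℝ (E n)).symm.continuous.measurable.comp (measurable_fderiv ℝ F)

theorem inner_gradient (F : E n → ℝ) (x v : E n) : ⟪gradient F x, v⟫_ℝ = fderiv ℝ F x v := by
  exact inner_gradient_left

theorem gradient_cmul (c : ℝ) (F : E n → ℝ) (x : E n) :
    gradient (fun y => c * F y) x = c • gradient F x := by
  refine ext_inner_right ℝ fun v => ?_
  have h := congrFun (fderiv_const_smul_field (𝕜 := ℝ) (f := F) c) x
  rw [inner_gradient, real_inner_smul_left, inner_gradient]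
  change fderiv ℝ (c • F) x v = _
  rw [h]
  rfl

theorem LH.diff_smul (hF : LH F) {r : ℝ} (hr : r ≠ 0) (x : E n) :
    DifferentiableAt ℝ F (r • x) ↔ DifferentiableAt ℝ F x := by
  have key : ∀ (s : ℝ), s ≠ 0 → ∀ y : E n, DifferentiableAt ℝ F (s • y) →
      DifferentiableAt ℝ F y := by
    intro s hs y h
    have h1 : DifferentiableAt ℝ (fun z : E n => |s|⁻¹ * F (s • z)) y :=
      (h.comp y (by fun_prop)).const_mul _
    have h2 : (fun z : E n => |s|⁻¹ * F (s • z)) = F := by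
      funext z
      rw [hF.hom, ← mul_assoc, inv_mul_cancel₀ (abs_ne_zero.2 hs), one_mul]
    rwa [h2] at h1
  refine ⟨key r hr x, fun h => key r⁻¹ (inv_ne_zero hr) _ ?_⟩
  rwa [inv_smul_smul₀ hr]

theorem LH.nm_smul_gradient (hF : LH F) (c : ℝ) (x : E n) :
    c • gradient F (c • x) = |c| • gradient F x := by
  rw [← gradient_cmul |c|]
  have h : (fun y => |c| * F y) = fun y => F (c • y) := by
    funext y
    rw [hF.hom]
  refine ext_inner_right ℝ fun v => ?_
  rw [h, real_inner_smul_left, inner_gradient, inner_gradient, fderiv_comp_smul]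
  rfl

theorem LH.gradient_smul (hF : LH F) {r : ℝ} (hr : 0 < r) (x : E n) :
    gradient F (r • x) = gradient F x := by
  have h := hF.nm_smul_gradient r x
  rw [abs_of_pos hr] at h
  exact smul_right_injective _ hr.ne' h

theorem LH.gradient_neg (hF : LH F) (x : E n) : gradient F (-x) = -gradient F x := by
  have h := hF.nm_smul_gradient (-1) x
  simp only [neg_smul, one_smul, abs_neg, abs_one] at h
  rw [← h, neg_neg]

/-- `norm_fderiv_le_of_lipschitz` -/
theorem LH.norm_gradient_le (hF : LH F) : ∃ C : ℝ, ∀ x, ‖gradient F x‖ ≤ C := by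
  obtain ⟨C, hC⟩ := hF.lip
  refine ⟨C, fun x => ?_⟩
  rw [gradient, LinearIsometryEquiv.norm_map]
  exact norm_fderiv_le_of_lipschitz ℝ hC

theorem LH.memLp_gradient [NeZero n] (hF : LH F) (p : ℝ≥0∞) : MemLp (gradient F) p (sg n) := by
  obtain ⟨C, hC⟩ := hF.norm_gradient_le
  exact memLp_of_bdd (measurable_gradient F).aestronglyMeasurable C (fun u _ => hC u) p

/-- Rademacher (`LipschitzWith.ae_differentiableAt`) and `ae_sph_of_ae` -/
theorem LH.ae_diff [NeZero n] (hF : LH F) : ∀ᵐ u ∂sg n, DifferentiableAt ℝ F u := by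
  obtain ⟨C, hC⟩ := hF.lip
  exact ae_sph_of_ae hC.ae_differentiableAt fun r x hr h => (hF.diff_smul hr.ne' x).1 h

theorem LH.euler (hF : LH F) {x : E n} (hx : DifferentiableAt ℝ F x) :
    ⟪gradient F x, x⟫_ℝ = F x := by
  rw [inner_gradient]
  have h1 : HasDerivAt (fun t : ℝ => t • x) x 1 := by
    simpa using (hasDerivAt_id (1 : ℝ)).smul_const x
  have h2 : HasDerivAt (fun t : ℝ => F (t • x)) (fderiv ℝ F x x) 1 := by
    have hx' : HasFDerivAt F (fderiv ℝ F x) ((fun t : ℝ => t • x) 1) := by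
      simpa using hx.hasFDerivAt
    exact hx'.comp_hasDerivAt (1 : ℝ) h1
  have h3 : HasDerivAt (fun t : ℝ => F (t • x)) (F x) 1 := by
    have h4 : HasDerivAt (fun t : ℝ => t * F x) (F x) 1 := by
      simpa using (hasDerivAt_id (1 : ℝ)).mul_const (F x)
    refine h4.congr_of_eventuallyEq ?_
    filter_upwards [lt_mem_nhds (zero_lt_one' ℝ)] with t ht
    rw [hF.hom, abs_of_pos ht]
  exact h2.unique h3

theorem LH.rad_ae [NeZero n] (hF : LH F) : ∀ᵐ u ∂sg n, rad (gradient F) u = F u := by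
  filter_upwards [hF.ae_diff] with u hu
  exact hF.euler hu

theorem gradient_norm {u : E n} (hu : ‖u‖ = 1) : gradient (fun x : E n => ‖x‖) u = u := by
  have h1 := (hasStrictFDerivAt_norm_sq u).hasFDerivAt.sqrt (by rw [hu]; norm_num)
  have h2 : (fun x : E n => √(‖x‖ ^ 2)) = fun x => ‖x‖ := by
    funext x
    exact Real.sqrt_sq (norm_nonneg x)
  rw [h2] at h1
  refine ext_inner_right ℝ fun v => ?_
  rw [inner_gradient, h1.fderiv, hu]
  simp

theorem gradient_abs_inner {u w : E n} (h : ⟪u, w⟫_ℝ ≠ 0) :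
    gradient (fun x : E n => |⟪x, w⟫_ℝ|) u = Real.sign ⟪u, w⟫_ℝ • w := by
  have h1 : HasFDerivAt (fun x : E n => ⟪x, w⟫_ℝ) (innerSL ℝ w) u := by
    have : (fun x : E n => ⟪x, w⟫_ℝ) = innerSL ℝ w := by
      funext x
      simp [real_inner_comm]
    rw [this]
    exact (innerSL ℝ w).hasFDerivAt
  refine ext_inner_right ℝ fun v => ?_
  rw [inner_gradient, real_inner_smul_left]
  rcases lt_or_gt_of_ne h with h0 | h0
  · rw [(h1.abs_of_neg h0).fderiv, Real.sign_of_neg h0]
    simp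
  · rw [(h1.abs_of_pos h0).fderiv, Real.sign_of_pos h0]
    simp

/-- a hyperplane is null (`Measure.addHaar_submodule`, `ae_sph_of_ae`) -/
theorem ae_inner_ne_zero [NeZero n] {w : E n} (hw : w ≠ 0) : ∀ᵐ u ∂sg n, ⟪u, w⟫_ℝ ≠ 0 := by
  refine ae_sph_of_ae ?_ fun r x _ h h0 => h (by rw [real_inner_smul_left, h0, mul_zero])
  have hne : (ℝ ∙ w)ᗮ ≠ ⊤ := by
    intro h
    have : w ∈ (ℝ ∙ w)ᗮ := h ▸ Submodule.mem_top
    rw [Submodule.mem_orthogonal_singleton_iff_inner_left, inner_self_eq_zero] at this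
    exact hw this
  have h0 := Measure.addHaar_submodule (volume : Measure (E n)) _ hne
  rw [ae_iff]
  refine measure_mono_null (fun x hx => ?_) h0
  simp only [ne_eq, not_not, mem_ofPred_eq] at hx
  exact Submodule.mem_orthogonal_singleton_iff_inner_left.2 hx

theorem IsNm.integrable_pow [NeZero n] (hN : IsNm N) (k : ℕ) :
    Integrable (fun u => N u ^ k) (sg n) := by
  exact integrable_of_cont (hN.continuous.pow k)

theorem IsNm.integrable_inv [NeZero n] (hN : IsNm N) (k : ℕ) :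
    Integrable (fun u => (N u ^ k)⁻¹) (sg n) := by
  refine integrable_of_contOn ((hN.continuous.pow k).continuousOn.inv₀ fun u hu => ?_)
  exact (pow_pos (hN.pos_sph (by simpa using hu)) k).ne'

theorem nm_int_pos [NeZero n] {f : E n → ℝ} (hf : Integrable f (sg n))
    (h : ∀ u, ‖u‖ = 1 → 0 < f u) : 0 < ∫ u, f u ∂sg n := by
  have h1 : ∀ᵐ u ∂sg n, 0 < f u := by
    filter_upwards [ae_norm] with u hu using h u hu
  have h2 : 0 ≤ᵐ[sg n] f := h1.mono fun u hu => hu.le
  rw [integral_pos_iff_support_of_nonneg_ae h2 hf, pos_iff_ne_zero]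
  intro h0
  have h3 : ∀ᵐ u ∂sg n, f u = 0 := by
    rw [ae_iff]
    exact h0
  obtain ⟨u, hu1, hu2⟩ := (h1.and h3).exists
  exact hu1.ne' hu2

theorem nm_lint_pow (hn : 0 < n) {a : ℝ} (ha : 0 ≤ a) :
    ∫⁻ r in Ioc (0 : ℝ) a, ENNReal.ofReal (r ^ (n - 1)) = ENNReal.ofReal (a ^ n / n) := by
  rw [← ofReal_integral_eq_lintegral_ofReal]
  · rw [← intervalIntegral.integral_of_le ha, integral_pow, Nat.sub_add_cancel hn,
      zero_pow hn.ne', sub_zero, Nat.cast_pred hn, sub_add_cancel]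
  · exact (continuous_pow _).integrableOn_Ioc
  · filter_upwards [ae_restrict_mem measurableSet_Ioc] with r hr
    exact pow_nonneg hr.1.le _

theorem IsNm.int_pow_pos [NeZero n] (hN : IsNm N) (k : ℕ) : 0 < ∫ u, N u ^ k ∂sg n := by
  refine nm_int_pos (hN.integrable_pow k) fun u hu => pow_pos (hN.pos_sph hu) k

theorem IsNm.int_inv_pos [NeZero n] (hN : IsNm N) (k : ℕ) : 0 < ∫ u, (N u ^ k)⁻¹ ∂sg n := by
  refine nm_int_pos (hN.integrable_inv k) fun u hu => inv_pos.2 (pow_pos (hN.pos_sph hu) k)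

/-- `lintegral_polar` for the indicator, Tonelli, `∫_0^{1/N u} r^(n-1) dr = (N u ^ n)⁻¹ / n` -/
theorem IsNm.vol_ball [NeZero n] (hN : IsNm N) :
    (volume : Measure (E n)).real {x | N x ≤ 1} = om n * ∫ u, (N u ^ n)⁻¹ ∂sg n := by
  have hn : 0 < n := Nat.pos_of_ne_zero (NeZero.ne n)
  have hn' : (0 : ℝ) < n := by exact_mod_cast hn
  have hA : MeasurableSet {x : E n | N x ≤ 1} :=
    (isClosed_le hN.continuous continuous_const).measurableSet
  set I : E n → ℝ≥0∞ := {x : E n | N x ≤ 1}.indicator 1 with hI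
  have hIm : Measurable I := measurable_one.indicator hA
  have h1 : volume {x : E n | N x ≤ 1} = ∫⁻ x, I x := (lintegral_indicator_one hA).symm
  have hm : Measurable fun p : ℝ × E n => ENNReal.ofReal (p.1 ^ (n - 1)) * I (p.1 • p.2) :=
    (by fun_prop : Measurable fun p : ℝ × E n => ENNReal.ofReal (p.1 ^ (n - 1))).mul
      (hIm.comp (by fun_prop))
  have h2 : ∫⁻ r in Ioi (0 : ℝ), ENNReal.ofReal (r ^ (n - 1)) * ∫⁻ u, I (r • u) ∂sg n =
      ∫⁻ u, (∫⁻ r in Ioi (0 : ℝ), ENNReal.ofReal (r ^ (n - 1)) * I (r • u)) ∂sg n := by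
    rw [← lintegral_lintegral_swap hm.aemeasurable]
    refine lintegral_congr fun r => ?_
    exact (lintegral_const_mul' _ _ ENNReal.ofReal_ne_top).symm
  have h3 : ∀ᵐ u ∂sg n, ∫⁻ r in Ioi (0 : ℝ), ENNReal.ofReal (r ^ (n - 1)) * I (r • u) =
      ENNReal.ofReal ((N u ^ n)⁻¹ / n) := by
    filter_upwards [ae_norm] with u hu
    have hpos := hN.pos_sph hu
    have h4 : ∀ r ∈ Ioi (0 : ℝ), ENNReal.ofReal (r ^ (n - 1)) * I (r • u) =
        (Iic (N u)⁻¹).indicator (fun r => ENNReal.ofReal (r ^ (n - 1))) r := by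
      intro r hr
      have hr' : 0 < r := hr
      have h5 : r • u ∈ {x : E n | N x ≤ 1} ↔ r ∈ Iic (N u)⁻¹ := by
        rw [mem_ofPred_eq, hN.smul, abs_of_pos hr', mem_Iic, ← one_div, le_div_iff₀ hpos]
      by_cases h6 : r ∈ Iic (N u)⁻¹
      · rw [hI, indicator_of_mem (h5.2 h6), indicator_of_mem h6]
        simp
      · rw [hI, indicator_of_notMem (mt h5.1 h6), indicator_of_notMem h6, mul_zero]
    rw [setLIntegral_congr_fun measurableSet_Ioi h4, lintegral_indicator measurableSet_Iic,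
      Measure.restrict_restrict measurableSet_Iic, Iic_inter_Ioi, nm_lint_pow hn (inv_pos.2 hpos).le,
      inv_pow]
  have hint : Integrable (fun u => (N u ^ n)⁻¹ / n) (sg n) := (hN.integrable_inv n).div_const _
  have hnn : 0 ≤ᵐ[sg n] fun u => (N u ^ n)⁻¹ / n :=
    ae_of_all _ fun u => div_nonneg (inv_nonneg.2 (pow_nonneg (hN.nonneg u) n)) hn'.le
  rw [Measure.real, h1, lintegral_polar hIm, h2, lintegral_congr_ae h3,
    ← ofReal_integral_eq_lintegral_ofReal hint hnn, ENNReal.toReal_mul,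
    ENNReal.toReal_ofReal (mul_pos hn' om_pos).le,
    ENNReal.toReal_ofReal (integral_nonneg_of_ae hnn), integral_div]
  field_simp

end Crest.Agent.R230
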