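import Crest.Agent.R230.RevP
import Crest.Agent.R230.Cert

/-!
Row 230 (Petty).  The one-norm inequality.  `T = gradient (ext g N)`, `g t = ρ hh (max t 1)`,
`Φ t = ρ² ph (max t 1)` (`C1.max`), `Φ' = g'²`.  With `A = ∫ N^β`, `W = ∫ N^(β-1)`, `δ = A - 1 = ∫ hh (N)`,
`e = ∫ g (N) ∈ [0, ρ δ]`:
`vr (N^β - g N) = ∫ (N^β - 1 - g N)² - (δ - e)²`, `en T / (n-1) ≤ ∫ Φ(N) N` (`en_ext`, `revP`),
so by `low`/`high`, `UU ≤ (1-η) ∫ jj(N) - a (δ - e)² + B κ e² ≤ (1-η) ∫ jj(N) + gain δ²` (`quad`).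
Finally `∫ jj(N) = 2 (A - W)` and `A² - W² - 2 (A - W) = δ² - (W-1)² ≥ gain δ²`
(`β = 1`: `W = 1`; `β = 2`: `0 ≤ W - 1 ≤ δ/2` since `2 t ≤ t² + 1`).
-/

set_option autoImplicit false

noncomputable section

namespace Crest.Agent.R230

open MeasureTheory Metric Set MvPolynomial Filter Topology
open scoped ENNReal InnerProductSpace Pointwise

variable {n : ℕ}

variable {β s : ℕ} {a B κ ρ η : ℝ} {N : E n → ℝ}

theorem one_cont {ψ ψ' : ℝ → ℝ} (h : C1 ψ ψ') : ContinuousOn ψ (Ioi 0) :=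
  fun t ht => (h.der t ht).continuousAt.continuousWithinAt

theorem one_cont_inv (k : ℕ) : ContinuousOn (fun t : ℝ => (t ^ k)⁻¹) (Ioi 0) :=
  (continuousOn_pow k).inv₀ fun _ ht => (pow_pos ht k).ne'

theorem one_cont_jj (β s : ℕ) : ContinuousOn (jj β s) (Ioi 0) :=
  ((continuousOn_const.mul (continuousOn_pow β)).sub
    (continuousOn_const.mul (continuousOn_pow (β - 1)))).add
    (continuousOn_const.mul ((one_cont_inv s).sub continuousOn_const))

theorem one_int [NeZero n] (hN : IsNm N) {F : ℝ → ℝ} (hF : ContinuousOn F (Ioi 0)) :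
    Integrable (fun u => F (N u)) (sg n) :=
  integrable_of_contOn (hF.comp hN.continuous.continuousOn fun _ hu => hN.pos_sph (by simpa using hu))

theorem one_mono [NeZero n] (hN : IsNm N) {F G : ℝ → ℝ} (hF : ContinuousOn F (Ioi 0))
    (hG : ContinuousOn G (Ioi 0)) (h : ∀ t, 0 < t → F t ≤ G t) :
    ∫ u, F (N u) ∂sg n ≤ ∫ u, G (N u) ∂sg n :=
  integral_mono_ae (one_int hN hF) (one_int hN hG) (ae_norm.mono fun _ hu => h _ (hN.pos_sph hu))

theorem one_vr_congr {f g : E n → ℝ} (h : ∀ᵐ u ∂sg n, f u = g u) : vr f = vr g := by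
  unfold vr
  rw [integral_congr_ae h, integral_congr_ae (h.mono fun u hu => congrArg (· ^ 2) hu)]

theorem one_vr [NeZero n] (hN : IsNm N) {F : ℝ → ℝ} (hF : ContinuousOn F (Ioi 0)) :
    vr (fun u => F (N u)) = ∫ u, (F (N u) - 1) ^ 2 ∂sg n - (∫ u, F (N u) ∂sg n - 1) ^ 2 := by
  have h : ∀ u, (F (N u) - 1) ^ 2 = F (N u) ^ 2 - 2 * F (N u) + 1 := fun u => by ring
  have h2 := one_int hN (F := fun t => F t ^ 2) (hF.pow 2)
  have h1 := (one_int hN hF).const_mul 2
  simp only [h, vr]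
  rw [integral_add (h2.sub' h1) (integrable_const _), integral_sub h2 h1, integral_const_mul]
  simp only [integral_const, probReal_univ, smul_eq_mul]
  ring

theorem one_le_int_pow [NeZero n] (hN : IsNm N) (hs : 1 ≤ s)
    (h1 : ∫ u, (N u ^ s)⁻¹ ∂sg n = 1) (k : ℕ) : 1 ≤ ∫ u, N u ^ k ∂sg n := by
  have h2 : ∫ u, (1 - (k : ℝ) / s * ((N u ^ s)⁻¹ - 1)) ∂sg n = 1 := by
    rw [integral_sub (integrable_const _) (((hN.integrable_inv s).sub' (integrable_const _)).const_mul _),
      integral_const_mul, integral_sub (hN.integrable_inv s) (integrable_const _), h1]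
    simp
  rw [← h2]
  refine one_mono hN (F := fun t => 1 - (k : ℝ) / s * ((t ^ s)⁻¹ - 1)) (G := fun t => t ^ k)
    (continuousOn_const.sub (continuousOn_const.mul ((one_cont_inv s).sub continuousOn_const)))
    (by fun_prop) fun t ht => ?_
  have h3 := hh_nonneg (β := 1) le_rfl hs ht
  have h4 := one_add_mul_sub_le_pow (a := t) (by linarith) k
  simp only [hh, pow_one, Nat.cast_one] at h3
  have h5 := mul_nonneg (Nat.cast_nonneg (α := ℝ) k) h3
  have h6 : (k : ℝ) / s * ((t ^ s)⁻¹ - 1) = k * (1 / s * ((t ^ s)⁻¹ - 1)) := by ring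
  linarith

theorem one_le_int_inv [NeZero n] (hN : IsNm N) (hs : 1 ≤ s)
    (h1 : ∫ u, (N u ^ s)⁻¹ ∂sg n = 1) {m : ℕ} (hm : s ≤ m) : 1 ≤ ∫ u, (N u ^ m)⁻¹ ∂sg n := by
  have h2 : ∫ u, (1 + (m : ℝ) / s * ((N u ^ s)⁻¹ - 1)) ∂sg n = 1 := by
    rw [integral_add (integrable_const _) (((hN.integrable_inv s).sub' (integrable_const _)).const_mul _),
      integral_const_mul, integral_sub (hN.integrable_inv s) (integrable_const _), h1]
    simp
  rw [← h2]
  exact one_mono hN (F := fun t => 1 + (m : ℝ) / s * ((t ^ s)⁻¹ - 1)) (G := fun t => (t ^ m)⁻¹)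
    (continuousOn_const.add (continuousOn_const.mul ((one_cont_inv s).sub continuousOn_const)))
    (one_cont_inv m) fun t ht => inv_pow_tangent hs hm ht

theorem int_jj [NeZero n] (hN : IsNm N) (h1 : ∫ u, (N u ^ s)⁻¹ ∂sg n = 1) :
    ∫ u, jj β s (N u) ∂sg n = 2 * (∫ u, N u ^ β ∂sg n - ∫ u, N u ^ (β - 1) ∂sg n) := by
  unfold jj
  rw [integral_add (((hN.integrable_pow β).const_mul 2).sub' ((hN.integrable_pow (β - 1)).const_mul 2))
      (((hN.integrable_inv s).sub' (integrable_const _)).const_mul _),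
    integral_sub ((hN.integrable_pow β).const_mul 2) ((hN.integrable_pow (β - 1)).const_mul 2),
    integral_const_mul, integral_const_mul, integral_const_mul,
    integral_sub (hN.integrable_inv s) (integrable_const _), h1]
  simp only [integral_const, probReal_univ, smul_eq_mul]
  ring

theorem int_jj_nonneg [NeZero n] (hN : IsNm N) (hβ : 1 ≤ β) (hs : 1 ≤ s) :
    0 ≤ ∫ u, jj β s (N u) ∂sg n := by
  exact integral_nonneg_of_ae (ae_norm.mono fun u hu => jj_nonneg hβ hs (hN.pos_sph hu))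

/-- `integral_eq_zero_iff_of_nonneg_ae`, `jj_pos`, `eq_of_ae_sph`, homogeneity -/
theorem eq_norm_of_int_jj [NeZero n] (hN : IsNm N) (hβ : 1 ≤ β) (hs : 1 ≤ s)
    (h : ∫ u, jj β s (N u) ∂sg n ≤ 0) (x : E n) : N x = ‖x‖ := by
  have h0 := (integral_eq_zero_iff_of_nonneg_ae
    (ae_norm.mono fun u hu => jj_nonneg hβ hs (hN.pos_sph hu)) (one_int hN (one_cont_jj β s))).1
    (le_antisymm h (int_jj_nonneg hN hβ hs))
  have h1 := eq_of_ae_sph (g := fun _ => 1) hN.continuous continuous_const (by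
    filter_upwards [h0, ae_norm] with u hu hu'
    by_contra hne
    exact (jj_pos hβ hs (hN.pos_sph hu') hne).ne' hu)
  by_cases hx : x = 0
  · rw [hx, hN.zero, norm_zero]
  have h2 := hN.smul ‖x‖ (‖x‖⁻¹ • x)
  rw [h1 (‖x‖⁻¹ • x) (by rw [norm_smul, norm_inv, norm_norm, inv_mul_cancel₀ (norm_ne_zero_iff.2 hx)]),
    smul_inv_smul₀ (norm_ne_zero_iff.2 hx)] at h2
  simpa using h2

theorem one (hn : 2 ≤ n) (hc : Cert n β s a B κ ρ η) (hN : IsNm N)
    (h1 : ∫ u, (N u ^ s)⁻¹ ∂sg n = 1) :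
    ∃ T, Adm T ∧ UU a B κ (gradient (ext (fun t => t ^ β) N)) T ≤
      (∫ u, N u ^ β ∂sg n) ^ 2 - (∫ u, N u ^ (β - 1) ∂sg n) ^ 2 - η * ∫ u, jj β s (N u) ∂sg n := by
  have : NeZero n := ⟨by omega⟩
  have hβ : 1 ≤ β := by rcases hc.hβ with h | h <;> omega
  have hβs : β ≤ s := by have := hc.hs; rcases hc.hβ with h | h <;> omega
  have hs : 1 ≤ s := by omega
  have hρ := hc.hρ0
  have ha := hc.spec.ha
  have hB := hc.spec.hB
  have hκ := hc.spec.hκ
  have hg := ((C1_hh hβ hs).max hd_one).cmul ρ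
  have hΦ := ((C1_ph hβ hβs).max (by simp [hd_one])).cmul (ρ ^ 2)
  have cg := one_cont hg
  have cΦ := one_cont hΦ
  refine ⟨_, (hN.lh_ext hg).adm, ?_⟩
  have e1 : vr (fun u => rad (gradient (ext (fun t => t ^ β) N)) u -
      rad (gradient (ext (fun t => ρ * hh β s (max t 1)) N)) u) =
      ∫ u, (N u ^ β - ρ * hh β s (max (N u) 1) - 1) ^ 2 ∂sg n -
        (∫ u, N u ^ β ∂sg n - ∫ u, ρ * hh β s (max (N u) 1) ∂sg n - 1) ^ 2 := by
    rw [one_vr_congr (g := fun u => N u ^ β - ρ * hh β s (max (N u) 1)) (by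
      filter_upwards [hN.rad_ext (C1_pow β), hN.rad_ext hg] with u h h'
      rw [h, h']), one_vr hN (F := fun t => t ^ β - ρ * hh β s (max t 1))
        ((continuousOn_pow β).sub cg), integral_sub (hN.integrable_pow β) (one_int hN cg)]
  have e2 : vr (rad (gradient (ext (fun t => ρ * hh β s (max t 1)) N))) =
      ∫ u, (ρ * hh β s (max (N u) 1)) ^ 2 ∂sg n - (∫ u, ρ * hh β s (max (N u) 1) ∂sg n) ^ 2 :=
    one_vr_congr (hN.rad_ext hg)
  have e3 : en (gradient (ext (fun t => ρ * hh β s (max t 1)) N)) / ((n : ℝ) - 1) ≤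
      ∫ u, ρ ^ 2 * ph β s (max (N u) 1) * N u ∂sg n := by
    have hn' : (2 : ℝ) ≤ n := by exact_mod_cast hn
    rw [div_le_iff₀' (by linarith), hN.en_ext hg]
    simp only [mul_pow]
    exact hN.revP hΦ fun t _ => mul_nonneg (sq_nonneg _) (ph_nonneg hβ hβs (le_max_right _ _))
  have c1 : ContinuousOn (fun t : ℝ => (t ^ β - ρ * hh β s (max t 1) - 1) ^ 2) (Ioi 0) :=
    (((continuousOn_pow β).sub cg).sub continuousOn_const).pow 2
  have c2 : ContinuousOn (fun t : ℝ => ρ ^ 2 * ph β s (max t 1) * t) (Ioi 0) := cΦ.mul continuousOn_id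
  have c3 : ContinuousOn (fun t : ℝ => (ρ * hh β s (max t 1)) ^ 2) (Ioi 0) := cg.pow 2
  have e4 := one_mono hN
    (F := fun t => a * (t ^ β - ρ * hh β s (max t 1) - 1) ^ 2 +
      B * (ρ ^ 2 * ph β s (max t 1) * t - κ * (ρ * hh β s (max t 1)) ^ 2))
    (G := fun t => (1 - η) * jj β s t)
    ((continuousOn_const.mul c1).add (continuousOn_const.mul (c2.sub (continuousOn_const.mul c3))))
    (continuousOn_const.mul (one_cont_jj β s)) fun t ht => by
      rcases le_total t 1 with h | h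
      · have := hc.low t ht h
        rw [max_eq_right h, hh_one, ph_one]
        linarith
      · have := hc.high t h
        rw [max_eq_left h]
        linarith
  rw [integral_add ((one_int hN c1).const_mul a)
      (((one_int hN c2).sub' ((one_int hN c3).const_mul κ)).const_mul B),
    integral_const_mul, integral_const_mul, integral_const_mul,
    integral_sub (one_int hN c2) ((one_int hN c3).const_mul κ), integral_const_mul κ] at e4
  have e5 : 0 ≤ ∫ u, ρ * hh β s (max (N u) 1) ∂sg n :=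
    integral_nonneg fun u => mul_nonneg hρ (hh_nonneg hβ hs (lt_max_of_lt_right one_pos))
  have e6 : ∫ u, ρ * hh β s (max (N u) 1) ∂sg n ≤ ρ * (∫ u, N u ^ β ∂sg n - 1) := by
    have h2 : ∫ u, hh β s (N u) ∂sg n = ∫ u, N u ^ β ∂sg n - 1 := by
      unfold hh
      rw [integral_add ((hN.integrable_pow β).sub' (integrable_const _))
          (((hN.integrable_inv s).sub' (integrable_const _)).const_mul _),
        integral_sub (hN.integrable_pow β) (integrable_const _), integral_const_mul,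
        integral_sub (hN.integrable_inv s) (integrable_const _), h1]
      simp
    rw [← h2, ← integral_const_mul]
    refine one_mono hN (G := fun t => ρ * hh β s t) cg (one_cont ((C1_hh hβ hs).cmul ρ)) fun t ht => ?_
    rcases le_total t 1 with h | h
    · rw [max_eq_right h, hh_one, mul_zero]
      exact mul_nonneg hρ (hh_nonneg hβ hs ht)
    · rw [max_eq_left h]
  have e7 := one_le_int_pow hN hs h1 β
  have e8 : (∫ u, N u ^ (β - 1) ∂sg n - 1) ^ 2 ≤
      (((β : ℝ) - 1) / β) ^ 2 * (∫ u, N u ^ β ∂sg n - 1) ^ 2 := by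
    rcases hc.hβ with rfl | rfl
    · simp
    · have h2 := one_le_int_pow hN hs h1 (2 - 1)
      have h3 := one_mono hN (F := fun t => 2 * t ^ (2 - 1)) (G := fun t => t ^ 2 + 1) (by fun_prop)
        (by fun_prop) fun t _ => by
          rw [show 2 - 1 = 1 from rfl]
          nlinarith [sq_nonneg (t - 1)]
      rw [integral_const_mul, integral_add (hN.integrable_pow 2) (integrable_const _)] at h3
      simp only [integral_const, probReal_univ, smul_eq_mul, mul_one] at h3
      rw [← mul_pow]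
      refine pow_le_pow_left₀ (by linarith) ?_ 2
      push_cast
      linarith
  have e9 := int_jj (β := β) hN h1
  rw [UU, e1, e2]
  have e10 := mul_le_mul_of_nonneg_left e3 hB.le
  have q := hc.quad
  have hρ1 := hc.hρ1
  generalize ∫ u, ρ * hh β s (max (N u) 1) ∂sg n = e at *
  generalize ∫ u, N u ^ β ∂sg n = A at *
  have f1 : ((1 - ρ) * (A - 1)) ^ 2 ≤ (A - e - 1) ^ 2 :=
    pow_le_pow_left₀ (mul_nonneg (by linarith) (by linarith)) (by linarith) 2
  have f2 : e ^ 2 ≤ (ρ * (A - 1)) ^ 2 := pow_le_pow_left₀ e5 e6 2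
  have f3 := mul_le_mul_of_nonneg_left f1 ha.le
  have f4 := mul_le_mul_of_nonneg_left f2 (mul_nonneg hB.le hκ)
  have f5 := mul_le_mul_of_nonneg_right q (sq_nonneg (A - 1))
  rw [e9] at e4 ⊢
  linarith

end Crest.Agent.R230
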