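import Crest.Agent.R230.IBP

/-!
Row 230 (Petty).  Orthogonality relations for harmonic polynomials and the fields `Xh`.
-/

set_option autoImplicit false

noncomputable section

namespace Crest.Agent.R230

open MeasureTheory Metric Set MvPolynomial Filter Topology
open scoped ENNReal InnerProductSpace Pointwise

variable {n : ℕ}

variable {h h' : Pl n} {k l : ℕ}

theorem Orth_inner (x y : E n) : ⟪x, y⟫_ℝ = ∑ i, x i * y i := by
  rw [PiLp.inner_apply]
  exact Finset.sum_congr rfl fun i _ => by simp [mul_comm]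

theorem Orth_coord (i : Fin n) : Continuous fun u : E n => u i :=
  (EuclideanSpace.proj i : E n →L[ℝ] ℝ).continuous

theorem Orth_cev (i : Fin n) (p : Pl n) : Continuous fun u : E n => u i * ev p u :=
  (Orth_coord i).mul (continuous_ev p)

theorem Orth_evev (p q : Pl n) : Continuous fun u : E n => ev p u * ev q u :=
  (continuous_ev p).mul (continuous_ev q)

theorem Orth_memLp_coord [NeZero n] {Y : E n → E n} (hY : MemLp Y 2 (sg n)) (i : Fin n) :
    MemLp (fun u => Y u i) 2 (sg n) :=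
  (EuclideanSpace.proj i : E n →L[ℝ] ℝ).comp_memLp' hY

theorem Orth_int_mul [NeZero n] {f g : E n → ℝ} (hf : MemLp f 2 (sg n)) (hg : Continuous g) :
    Integrable (fun u => f u * g u) (sg n) :=
  hf.integrable_mul (memLp_of_cont hg 2)

theorem Orth_memLp_rad [NeZero n] {Y : E n → E n} (hY : MemLp Y 2 (sg n)) :
    MemLp (rad Y) 2 (sg n) := by
  refine hY.of_le (hY.1.inner aestronglyMeasurable_id) ?_
  filter_upwards [ae_norm] with u hu
  have := norm_inner_le_norm (𝕜 := ℝ) (Y u) u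
  rwa [hu, mul_one] at this

theorem Orth_Xh_apply (k : ℕ) (h : Pl n) (u : E n) (i : Fin n) :
    Xh k h u i = (1 - (k : ℝ)) * ev h u * u i + ev (pderiv i h) u := by
  simp [Xh]

theorem Orth_cast (k : ℕ) (a : ℝ) : (((k - 1 : ℕ) : ℝ) + a) * k = ((k : ℝ) - 1 + a) * k := by
  cases k with
  | zero => simp
  | succ m => simp

/-- `∑ ∂_i h ∂_i h' = ∑ ∂_i (h ∂_i h')`, `int_pderiv`, Euler (`l = 0`: both sides vanish) -/
theorem int_gP_gP [NeZero n] (hh : IsHm k h) (hh' : IsHm l h') :
    ∫ u, ⟪gP h u, gP h' u⟫_ℝ ∂sg n = ((k : ℝ) + l + n - 2) * l * ∫ u, ev h u * ev h' u ∂sg n := by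
  have e1 : ∀ u : E n, ⟪gP h u, gP h' u⟫_ℝ = ∑ i, ev (pderiv i (h * pderiv i h')) u := by
    intro u
    have h0 : ∑ i, ev (pderiv i (pderiv i h')) u = 0 := by
      rw [← ev_sum, show ∑ i, pderiv i (pderiv i h') = lap h' from rfl, hh'.har, ev_zero]
    simp only [Derivation.leibniz, smul_eq_mul, ev_add, ev_mul, Finset.sum_add_distrib,
      ← Finset.mul_sum, h0, mul_zero, zero_add, Orth_inner, gP_apply]
    exact Finset.sum_congr rfl fun i _ => mul_comm _ _
  simp only [e1]
  rw [integral_finsetSum _ fun i _ => integrable_of_cont (continuous_ev _)]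
  rw [Finset.sum_congr rfl fun i _ => int_pderiv (hh.hom.mul (hh'.pderiv i).hom) i,
    ← Finset.mul_sum, ← integral_finsetSum _ fun i _ =>
      integrable_of_cont (Orth_cev i _)]
  have e2 : ∀ u : E n, ∑ i, u i * ev (h * pderiv i h') u = l * (ev h u * ev h' u) := by
    intro u
    rw [mul_left_comm, ← ev_euler hh'.hom, Finset.mul_sum]
    exact Finset.sum_congr rfl fun i _ => by rw [ev_mul]; ring
  simp only [e2]
  rw [integral_const_mul, ← mul_assoc]
  congr 1
  have := Orth_cast l ((k : ℝ) + n - 1)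
  push_cast
  linarith

/-- symmetry of `int_gP_gP` -/
theorem orth (hn : 2 ≤ n) (hh : IsHm k h) (hh' : IsHm l h') (hkl : k ≠ l) :
    ∫ u, ev h u * ev h' u ∂sg n = 0 := by
  have : NeZero n := ⟨by omega⟩
  have h1 := int_gP_gP hh hh'
  have h2 := int_gP_gP hh' hh
  simp only [real_inner_comm (gP h _) (gP h' _), mul_comm (ev h' _) (ev h _)] at h1 h2
  have h3 : (0 : ℝ) < (k : ℝ) + l + n - 2 := by
    have : 2 < k + l + n := by omega
    have : (2 : ℝ) < k + l + n := by exact_mod_cast this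
    linarith
  have h4 : ((k : ℝ) + l + n - 2) * ((k : ℝ) - l) * ∫ u, ev h u * ev h' u ∂sg n = 0 := by
    linarith
  have h5 : (k : ℝ) - l ≠ 0 := sub_ne_zero.2 (by exact_mod_cast hkl)
  exact (mul_eq_zero.1 h4).resolve_left (mul_ne_zero h3.ne' h5)

theorem rad_Xh (hh : h.IsHomogeneous k) {u : E n} (hu : ‖u‖ = 1) : rad (Xh k h) u = ev h u := by
  rw [rad, Xh, inner_add_left, real_inner_smul_left, real_inner_self_eq_norm_sq, hu, inner_gP]
  have := ev_euler hh u
  simp only [mul_comm (u _)] at this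
  rw [this]
  ring

theorem Xh_neg (hh : h.IsHomogeneous k) (u : E n) : Xh k h (-u) = (-1 : ℝ) ^ (k + 1) • Xh k h u := by
  ext i
  rw [PiLp.smul_apply, Orth_Xh_apply, Orth_Xh_apply, ev_neg_arg hh, ev_neg_arg hh.pderiv,
    PiLp.neg_apply, smul_eq_mul]
  cases k with
  | zero => simp [pderiv_of_hom_zero hh]
  | succ m => simp only [Nat.add_sub_cancel]; ring

theorem Xh_zero (k : ℕ) (u : E n) : Xh k (0 : Pl n) u = 0 := by
  ext i
  simp [Orth_Xh_apply]

theorem Xh_add (k : ℕ) (h h' : Pl n) (u : E n) : Xh k (h + h') u = Xh k h u + Xh k h' u := by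
  ext i
  simp only [Orth_Xh_apply, PiLp.add_apply, map_add, ev_add]
  ring

theorem Xh_cmul (k : ℕ) (c : ℝ) (h : Pl n) (u : E n) : Xh k (C c * h) u = c • Xh k h u := by
  ext i
  simp only [Orth_Xh_apply, PiLp.smul_apply, pderiv_C_mul, ev_mul, ev_C, smul_eq_mul]
  ring

/-- `int_pderiv` for `h q` -/
theorem wk_Xh [NeZero n] (hh : h.IsHomogeneous k) : Wk (Xh k h) := by
  intro d q hq i
  have r1 : ∫ u, rad (Xh k h) u * ev (pderiv i q) u ∂sg n =
      ∫ u, ev h u * ev (pderiv i q) u ∂sg n :=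
    integral_congr_ae (by filter_upwards [ae_norm] with u hu; rw [rad_Xh hh hu])
  have r2 : ∫ u, rad (Xh k h) u * (u i * ev q u) ∂sg n = ∫ u, u i * ev (h * q) u ∂sg n :=
    integral_congr_ae (by filter_upwards [ae_norm] with u hu; rw [rad_Xh hh hu, ev_mul]; ring)
  have r3 := int_pderiv (hh.mul hq) i
  have e : ∀ u : E n, Xh k h u i * ev q u = (1 - (k : ℝ)) * (u i * ev (h * q) u) +
      (ev (pderiv i (h * q)) u - ev h u * ev (pderiv i q) u) := by
    intro u
    simp only [Orth_Xh_apply, Derivation.leibniz, smul_eq_mul, ev_add, ev_mul]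
    ring
  simp only [e]
  rw [integral_add ((integrable_of_cont (Orth_cev i _)).const_mul _)
      (integrable_of_cont ((continuous_ev _).fun_sub (Orth_evev _ _))),
    integral_sub (integrable_of_cont (continuous_ev _)) (integrable_of_cont (Orth_evev _ _)),
    integral_const_mul, r1, r2, r3]
  push_cast
  ring

/-- `Wk` with `q = ∂_i h`, summed over `i` -/
theorem Wk.inner_Xh [NeZero n] {Y : E n → E n} (hY : Wk Y) (hY2 : MemLp Y 2 (sg n))
    (hh : IsHm k h) : ∫ u, ⟪Y u, Xh k h u⟫_ℝ ∂sg n =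
      (1 + (k : ℝ) * (k + n - 2)) * ∫ u, rad Y u * ev h u ∂sg n := by
  have hr := Orth_memLp_rad hY2
  have e1 : ∀ u : E n, ⟪Y u, Xh k h u⟫_ℝ =
      (1 - (k : ℝ)) * (rad Y u * ev h u) + ∑ i, Y u i * ev (pderiv i h) u := by
    intro u
    rw [Xh, inner_add_right, real_inner_smul_right, Orth_inner (Y u) (gP h u), rad]
    simp only [gP_apply]
    ring
  simp only [e1]
  rw [integral_add ((Orth_int_mul hr (continuous_ev _)).const_mul _)
      (integrable_finsetSum _ fun i _ => Orth_int_mul (Orth_memLp_coord hY2 i) (continuous_ev _)),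
    integral_const_mul,
    integral_finsetSum _ fun i _ => Orth_int_mul (Orth_memLp_coord hY2 i) (continuous_ev _),
    Finset.sum_congr rfl fun i _ => hY _ _ (hh.pderiv i).hom i, Finset.sum_add_distrib,
    Finset.sum_neg_distrib, ← Finset.mul_sum,
    ← integral_finsetSum _ fun i _ => Orth_int_mul hr (continuous_ev _),
    ← integral_finsetSum _ fun i _ => Orth_int_mul hr (Orth_cev i _)]
  have e2 : ∀ u : E n, ∑ i, rad Y u * ev (pderiv i (pderiv i h)) u = 0 := by
    intro u
    rw [← Finset.mul_sum, ← ev_sum, show ∑ i, pderiv i (pderiv i h) = lap h from rfl, hh.har,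
      ev_zero, mul_zero]
  have e3 : ∀ u : E n, ∑ i, rad Y u * (u i * ev (pderiv i h) u) = k * (rad Y u * ev h u) := by
    intro u
    rw [← Finset.mul_sum, ev_euler hh.hom]
    ring
  simp only [e2, e3]
  rw [integral_const_mul, integral_zero, ← mul_assoc, Orth_cast]
  ring

theorem int_Xh_Xh [NeZero n] (hh : IsHm k h) (hh' : IsHm l h') :
    ∫ u, ⟪Xh k h u, Xh l h' u⟫_ℝ ∂sg n =
      (1 + (l : ℝ) * (l + n - 2)) * ∫ u, ev h u * ev h' u ∂sg n := by
  rw [(wk_Xh hh.hom).inner_Xh (memLp_of_cont (continuous_Xh k h) 2) hh']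
  congr 1
  exact integral_congr_ae (by filter_upwards [ae_norm] with u hu; rw [rad_Xh hh.hom hu])

theorem memLp_rad [NeZero n] {Y : E n → E n} (hY : MemLp Y 2 (sg n)) : MemLp (rad Y) 2 (sg n) := by
  exact Orth_memLp_rad hY

theorem Wk.sub [NeZero n] {Y Z : E n → E n} (hY : Wk Y) (hY2 : MemLp Y 2 (sg n)) (hZ : Wk Z)
    (hZ2 : MemLp Z 2 (sg n)) : Wk fun u => Y u - Z u := by
  intro d q hq i
  have e : ∀ u, rad (fun u => Y u - Z u) u = rad Y u - rad Z u := fun u => inner_sub_left _ _ _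
  simp only [e, PiLp.sub_apply, sub_mul]
  rw [integral_sub (Orth_int_mul (Orth_memLp_coord hY2 i) (continuous_ev _))
      (Orth_int_mul (Orth_memLp_coord hZ2 i) (continuous_ev _)),
    integral_sub (Orth_int_mul (memLp_rad hY2) (continuous_ev _))
      (Orth_int_mul (memLp_rad hZ2) (continuous_ev _)),
    integral_sub (Orth_int_mul (memLp_rad hY2) (Orth_cev i _))
      (Orth_int_mul (memLp_rad hZ2) (Orth_cev i _)),
    hY d q hq i, hZ d q hq i]
  ring

theorem rad_fld {c : ℕ → Pl n} (hc : IsHS c) (K : ℕ) {u : E n} (hu : ‖u‖ = 1) :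
    rad (fld K c) u = ∑ j ∈ Finset.range K, ev (c j) u := by
  rw [rad, fld, sum_inner]
  exact Finset.sum_congr rfl fun j _ => rad_Xh (hc j).hom hu

theorem memLp_fld [NeZero n] (K : ℕ) (c : ℕ → Pl n) : MemLp (fld K c) 2 (sg n) := by
  exact memLp_of_cont (continuous_fld K c) 2

end Crest.Agent.R230
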