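import Crest.Agent.R230.Pos
import Crest.Agent.R230.Dual
import Crest.Agent.R230.C0

/-!
Row 230 (Petty).  The zonoid generated by the gradient of a norm.
-/

set_option autoImplicit false

noncomputable section

namespace Crest.Agent.R230

open MeasureTheory Metric Set MvPolynomial Filter Topology
open scoped ENNReal InnerProductSpace Pointwise

variable {n : ℕ}

variable {β : ℕ} {N S : E n → ℝ}

theorem integrable_gen [NeZero n] (hN : IsNm N) : Integrable
    (fun w => (N w ^ (β - 1) / ∫ u, N u ^ (β - 1) ∂sg n) • gradient N w) (sg n) := by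
  exact ((hN.integrable_pow (β - 1)).div_const _).smul_of_top_left (hN.lh.memLp_gradient ∞)

theorem Zh_int_abs [NeZero n] (hN : IsNm N) (v : E n) : Integrable
    (fun w => |⟪(N w ^ (β - 1) / ∫ u, N u ^ (β - 1) ∂sg n) • gradient N w, v⟫_ℝ|) (sg n) :=
  ((integrable_gen hN).inner_const v).abs

theorem Zh_int_coord [NeZero n] (hN : IsNm N) (i j : Fin n) :
    Integrable (fun u => β * N u ^ (β - 1) * (gradient N u i * u j)) (sg n) := by
  obtain ⟨C, hC⟩ := hN.lh.norm_gradient_le
  have h1 : Integrable (fun u : E n => β * N u ^ (β - 1) * u j) (sg n) :=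
    integrable_of_cont ((continuous_const.mul (hN.continuous.pow _)).mul (by fun_prop))
  have h2 : Measurable fun u => gradient N u i :=
    (by fun_prop : Continuous fun x : E n => x i).measurable.comp (measurable_gradient N)
  have h3 := h1.mul_bdd (c := C) h2.aestronglyMeasurable
    (Eventually.of_forall fun u => (PiLp.norm_apply_le _ i).trans (hC u))
  refine h3.congr (Eventually.of_forall fun u => ?_)
  ring

theorem Zh_key [NeZero n] (hβ : 1 ≤ β) (hN : IsNm N) (hiso : Iso β N) (v : E n) :
    ∫ u, β * N u ^ (β - 1) * (⟪gradient N u, v⟫_ℝ * ⟪u, v⟫_ℝ) ∂sg n =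
      β / n * ‖v‖ ^ 2 * ∫ u, N u ^ β ∂sg n := by
  have hn : (n : ℝ) ≠ 0 := by exact_mod_cast NeZero.ne n
  have e : ∀ u : E n, β * N u ^ (β - 1) * (⟪gradient N u, v⟫_ℝ * ⟪u, v⟫_ℝ) =
      ∑ i, ∑ j, v i * v j * (β * N u ^ (β - 1) * (gradient N u i * u j)) := by
    intro u
    simp only [PiLp.inner_apply, RCLike.inner_apply, conj_trivial]
    rw [Finset.sum_mul_sum]
    simp only [Finset.mul_sum]
    refine Finset.sum_congr rfl fun i _ => Finset.sum_congr rfl fun j _ => ?_
    ring
  simp only [e]
  rw [integral_finsetSum _ fun i _ => integrable_finsetSum _ fun j _ => (Zh_int_coord hN i j).const_mul _]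
  have e2 : ∀ i, ∫ u, ∑ j, v i * v j * (β * N u ^ (β - 1) * (gradient N u i * u j)) ∂sg n =
      v i ^ 2 * (β / n * ∫ u, N u ^ β ∂sg n) := by
    intro i
    rw [integral_finsetSum _ fun j _ => (Zh_int_coord hN i j).const_mul _]
    simp only [integral_const_mul (v i * v _), int_grad_coord hβ hN, hiso i]
    rw [Finset.sum_eq_single i (fun j _ hj => by simp [hj.symm]) (by simp)]
    simp only [if_true]
    field_simp
    ring
  simp only [e2]
  rw [← Finset.sum_mul, EuclideanSpace.real_norm_sq_eq]
  ring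

/-- positivity: by `int_grad_coord` and `Iso`,
`∫ β N^(β-1) ⟪∇N u, v⟫ ⟪u, v⟫ = (β/n) ‖v‖² ∫ N^β > 0` -/
theorem isNm_zH [NeZero n] (hβ : 1 ≤ β) (hN : IsNm N) (hiso : Iso β N) : IsNm (zH β N) := by
  refine ⟨fun x y => ?_, fun c x => ?_, fun x hx => ?_⟩
  · unfold zH
    rw [← integral_add (Zh_int_abs hN x) (Zh_int_abs hN y)]
    refine integral_mono (Zh_int_abs hN _) ((Zh_int_abs hN x).add (Zh_int_abs hN y)) fun w => ?_
    simp only [inner_add_right]
    exact abs_add_le _ _
  · unfold zH
    simp only [inner_smul_right, abs_mul, integral_const_mul]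
  · refine lt_of_le_of_ne (integral_nonneg fun w => abs_nonneg _) fun h0 => ?_
    have h1 := (integral_eq_zero_iff_of_nonneg (fun w => abs_nonneg _) (Zh_int_abs (β := β) hN x)).1 h0.symm
    have h2 := Zh_key hβ hN hiso x
    have hW := hN.int_pow_pos (β - 1)
    rw [integral_eq_zero_of_ae] at h2
    · have hn : (0 : ℝ) < n := by exact_mod_cast NeZero.pos n
      have hβ' : (0 : ℝ) < β := by exact_mod_cast hβ
      have h3 := hN.int_pow_pos β
      have h4 := norm_pos_iff.2 hx
      exact absurd h2 (ne_of_lt (by positivity))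
    · filter_upwards [h1] with u hu
      simp only [Pi.zero_apply, abs_eq_zero, real_inner_smul_left, div_mul_eq_mul_div,
        div_eq_zero_iff, hW.ne', or_false] at hu ⊢
      rw [mul_assoc, ← mul_assoc (N u ^ _), hu, zero_mul, mul_zero]

/-- `gradient_dn_le` -/
theorem mass_le [NeZero n] (hS : IsNm S) :
    ∫ w, S ((dn S w ^ (β - 1) / ∫ u, dn S u ^ (β - 1) ∂sg n) • gradient (dn S) w) ∂sg n ≤ 1 := by
  have hN := hS.dn
  have hW := hN.int_pow_pos (β - 1)
  refine (integral_mono_of_nonneg (Eventually.of_forall fun w => hS.nonneg _)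
    ((hN.integrable_pow (β - 1)).div_const (∫ u, dn S u ^ (β - 1) ∂sg n)) ?_).trans_eq ?_
  · filter_upwards [hN.lh.ae_diff] with w hw
    have h1 : 0 ≤ dn S w ^ (β - 1) / ∫ u, dn S u ^ (β - 1) ∂sg n :=
      div_nonneg (pow_nonneg (hN.nonneg w) _) hW.le
    rw [hS.smul, abs_of_nonneg h1]
    exact mul_le_of_le_one_right h1 (hS.gradient_dn_le hw)
  · rw [integral_div, div_self hW.ne']

/-- Fubini, `gradient_dn_le` for `H = zH β N` -/
theorem DD_le [NeZero n] (hN : IsNm N) (hH : IsNm (zH β N)) :
    DD β (dn (zH β N)) N ≤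
      (∫ u, dn (zH β N) u ^ (β - 1) ∂sg n) * ∫ u, N u ^ (β - 1) ∂sg n := by
  have hM := hH.dn
  set M := dn (zH β N) with hMd
  have hW := hN.int_pow_pos (β - 1)
  have i1 : ∀ {N : E n → ℝ}, IsNm N → Integrable (fun u => N u ^ (β - 1) * ‖gradient N u‖) (sg n) :=
    fun hN => (hN.integrable_pow (β - 1)).mul_of_top_left (hN.lh.memLp_gradient ∞).norm
  have hi : Integrable (Function.uncurry fun w u =>
      M u ^ (β - 1) * N w ^ (β - 1) * |⟪gradient M u, gradient N w⟫_ℝ|) ((sg n).prod (sg n)) := by
    refine ((i1 hN).mul_prod (i1 hM)).mono' (Measurable.aestronglyMeasurable ?_)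
      (Eventually.of_forall fun p => ?_)
    · exact (((hM.continuous.measurable.comp measurable_snd).pow_const _).mul
        ((hN.continuous.measurable.comp measurable_fst).pow_const _)).mul
        (((measurable_gradient M).comp measurable_snd).inner
          ((measurable_gradient N).comp measurable_fst)).abs
    · have h1 := pow_nonneg (hM.nonneg p.2) (β - 1)
      have h2 := pow_nonneg (hN.nonneg p.1) (β - 1)
      have h3 := mul_le_mul_of_nonneg_left
        (abs_real_inner_le_norm (gradient M p.2) (gradient N p.1)) (mul_nonneg h1 h2)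
      rw [Function.uncurry, Real.norm_of_nonneg (by positivity)]
      linarith
  unfold DD
  rw [integral_integral_swap hi, ← integral_mul_const]
  refine integral_mono_of_nonneg (Eventually.of_forall fun u => integral_nonneg fun w => ?_)
    ((hM.integrable_pow (β - 1)).mul_const _) ?_
  · exact mul_nonneg (mul_nonneg (pow_nonneg (hM.nonneg _) _) (pow_nonneg (hN.nonneg _) _)) (abs_nonneg _)
  · filter_upwards [hM.lh.ae_diff] with u hu
    have h1 := hH.gradient_dn_le hu
    have e : ∫ w, M u ^ (β - 1) * N w ^ (β - 1) * |⟪gradient M u, gradient N w⟫_ℝ| ∂sg n =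
        M u ^ (β - 1) * (∫ u, N u ^ (β - 1) ∂sg n) * zH β N (gradient M u) := by
      rw [zH, ← integral_const_mul]
      refine integral_congr_ae (Eventually.of_forall fun w => ?_)
      simp only [real_inner_smul_left, abs_mul]
      rw [abs_of_nonneg (div_nonneg (pow_nonneg (hN.nonneg w) _) hW.le), real_inner_comm]
      field_simp
    rw [e]
    exact mul_le_of_le_one_right (mul_nonneg (pow_nonneg (hM.nonneg _) _) hW.le) h1

theorem zH_norm [NeZero n] {c : ℝ} (hc : 0 < c) (v : E n) :
    zH β (fun x : E n => c * ‖x‖) v = c * C0 n * ‖v‖ := by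
  have h1 : ∫ u : E n, (c * ‖u‖) ^ (β - 1) ∂sg n = c ^ (β - 1) := by
    rw [integral_congr_ae (g := fun _ => c ^ (β - 1))]
    · simp
    · filter_upwards [ae_norm] with u hu
      rw [hu, mul_one]
  unfold zH
  rw [h1, mul_assoc, ← int_abs_inner', ← integral_const_mul]
  refine integral_congr_ae ?_
  filter_upwards [ae_norm] with u hu
  rw [hu, mul_one, div_self (by positivity), one_smul, gradient_cmul, gradient_norm hu,
    real_inner_smul_left, abs_mul, abs_of_pos hc]

end Crest.Agent.R230
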