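import Crest.Agent.R230.Core
import Crest.Agent.R230.CertN
import Crest.Agent.R230.Zh
import Crest.Agent.R230.Mink

/-!
Row 230 (Petty).  Assembly of Petty's inequality.
-/

set_option autoImplicit false

noncomputable section

namespace Crest.Agent.R230

open MeasureTheory Metric Set MvPolynomial Filter Topology
open scoped ENNReal InnerProductSpace Pointwise

variable {n : ℕ}

variable {K : Set (E n)}

/-- `N' = dn (sh K)`, `H = zH β N'`, `Z = bodyOf H`, `N = dn H`.  `mink` (with `zono_approx`,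
`mass_le`): `n^n V(K)^(n-1) V(Z) ≤ 2^n`; `core` (with `DD_le`, `vol_bodyOf`):
`C0^n om² ≤ V(Z) V(bodyOf (sh K))`; `C0 = 2 om (n-1)/(n om n)`. -/
theorem petty_iso (hn : 4 ≤ n) {β s : ℕ} {a B κ ρ η : ℝ} (hc : Cert n β s a B κ ρ η) (hK : Body K)
    (hiso : Iso β (dn (sh K))) :
    om (n - 1) ^ n * (volume : Measure (E n)).real K ^ (n - 1) ≤
        volume.real (bodyOf (sh K)) * om n ^ (n - 2) ∧
      ((volume : Measure (E n)).real (bodyOf (sh K)) * om n ^ (n - 2) ≤
          om (n - 1) ^ n * (volume : Measure (E n)).real K ^ (n - 1) →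
        ∃ (p : E n) (r : ℝ), 0 < r ∧ K = closedBall p r) := by
  have : NeZero n := ⟨by omega⟩
  have hβ : 1 ≤ β := by rcases hc.hβ with h | h <;> omega
  have hS : IsNm (sh K) := hK.isNm_sh
  have hN' : IsNm (dn (sh K)) := hS.dn
  have hH : IsNm (zH β (dn (sh K))) := isNm_zH hβ hN' hiso
  have hZ : ∀ δ : ℝ, 0 < δ → ∃ (m : ℕ) (w : Fin m → E n), ∑ j, sh K (w j) ≤ 1 + δ ∧
      bodyOf (zH β (dn (sh K))) ⊆ zon w := by
    intro δ hδ
    obtain ⟨m, w, h1, h2⟩ := zono_approx (integrable_gen (β := β) hN') hS hδ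
    have h3 := mass_le (β := β) hS
    exact ⟨m, w, by linarith, h2⟩
  obtain ⟨hm1, hm2⟩ := mink hK hH.body_bodyOf hZ
  obtain ⟨hc1, hc2⟩ := core (by omega) hc hH.dn hN' hiso (DD_le hN' hH)
  rw [hH.vol_bodyOf] at hm1 hm2
  rw [hS.vol_bodyOf]
  set I := ∫ u, (dn (zH β (dn (sh K))) u ^ n)⁻¹ ∂sg n with hI
  set I' := ∫ u, (dn (sh K) u ^ n)⁻¹ ∂sg n with hI'
  have hIp : 0 < I := hH.dn.int_inv_pos n
  have hIp' : 0 < I' := hN'.int_inv_pos n
  have hω : 0 < om n := om_pos
  have hω' : 0 < om (n - 1) := om_pos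
  have hV : 0 < (volume : Measure (E n)).real K := hK.vol_pos
  set V := (volume : Measure (E n)).real K ^ (n - 1) with hVdef
  have hVp : 0 < V := by positivity
  have hnp : (0 : ℝ) < n := by exact_mod_cast (by omega : 0 < n)
  have hC : C0 n ^ n * ((n : ℝ) ^ n * om n ^ n) = 2 ^ n * om (n - 1) ^ n := by
    rw [C0, div_pow, mul_pow, mul_pow]
    field_simp
  have hpow : om n ^ n = om n * (om n * om n ^ (n - 2)) := by
    obtain ⟨k, rfl⟩ : ∃ k, n = k + 2 := ⟨n - 2, by omega⟩
    simp only [Nat.add_sub_cancel]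
    ring
  set P := om n ^ (n - 2) with hP
  have hPp : 0 < P := by positivity
  set a1 := om (n - 1) ^ n with ha1
  have ha1p : 0 < a1 := by positivity
  set nn := (n : ℝ) ^ n with hnn
  have hnnp : 0 < nn := by positivity
  set tw := (2 : ℝ) ^ n with htw
  have htwp : 0 < tw := by positivity
  set ω := om n with hωdef
  rw [hpow] at hC
  have h1 : tw * a1 ≤ (nn * (ω * I)) * (ω * I' * P) := by
    rw [← hC]
    have := mul_le_mul_of_nonneg_right hc1 (show 0 ≤ nn * (ω * (ω * P)) by positivity)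
    linarith
  constructor
  · have h2 := mul_le_mul_of_nonneg_right h1 hVp.le
    have h3 := mul_le_mul_of_nonneg_right hm1 (show 0 ≤ ω * I' * P by positivity)
    have h4 : tw * (a1 * V) ≤ tw * (ω * I' * P) := by linarith
    exact le_of_mul_le_mul_left h4 htwp
  · intro h
    have h2 := mul_le_mul_of_nonneg_left h (show 0 ≤ nn * (ω * I) by positivity)
    have h3 := mul_le_mul_of_nonneg_right hm1 ha1p.le
    have h4 : I * I' ≤ C0 n ^ n := by
      have h5 : (I * I') * (nn * (ω * (ω * P))) ≤ C0 n ^ n * (nn * (ω * (ω * P))) := by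
        rw [hC]; linarith
      exact le_of_mul_le_mul_right h5 (by positivity)
    have h6 : tw ≤ nn * V * (ω * I) := by
      have h5 : tw * a1 ≤ (nn * V * (ω * I)) * a1 := by linarith
      exact le_of_mul_le_mul_right h5 ha1p
    obtain ⟨c, hc0, hcN⟩ := hc2 h4
    obtain ⟨p, r, hr, hKZ⟩ := hm2 h6
    have hz : zH β (dn (sh K)) = fun v => (c * C0 n) * ‖v‖ := by
      funext v
      rw [show dn (sh K) = fun x : E n => c * ‖x‖ from funext hcN]
      exact zH_norm hc0 v
    have hC0 : 0 < C0 n := C0_pos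
    rw [hz, bodyOf_norm (by positivity)] at hKZ
    refine ⟨p, r * (c * C0 n), by positivity, ?_⟩
    rw [hKZ]
    ext x
    simp only [mem_image, mem_closedBall, dist_eq_norm, sub_zero]
    constructor
    · rintro ⟨y, hy, rfl⟩
      rw [add_sub_cancel_left, norm_smul, Real.norm_of_nonneg hr.le]
      exact mul_le_mul_of_nonneg_left hy hr.le
    · intro hx
      refine ⟨r⁻¹ • (x - p), ?_, ?_⟩
      · rw [norm_smul, Real.norm_of_nonneg (inv_nonneg.2 hr.le), inv_mul_le_iff₀ hr]
        exact hx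
      · rw [smul_smul, mul_inv_cancel₀ hr.ne', one_smul]; abel

theorem vol_proj_affine (hn : 1 ≤ n) (hK : Body K) (a : E n) (T : E n ≃L[ℝ] E n) :
    (volume : Measure (E n)).real (bodyOf (sh ((fun x => a + T x) '' K))) =
      dt T ^ (n - 1) * volume.real (bodyOf (sh K)) := by
  have h : sh ((fun x => a + T x) '' K) = fun v => dt T * sh K (T.symm v) :=
    funext fun v => sh_affine hK.cpt hK.cvx a T v
  have hT := dt_pos T
  rw [h, vol_bodyOf_affine _ hT]
  congr 1
  obtain ⟨k, rfl⟩ : ∃ k, n = k + 1 := ⟨n - 1, by omega⟩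
  simp only [Nat.add_sub_cancel]
  field_simp
  ring

theorem petty_ball (hn : 2 ≤ n) :
    om (n - 1) ^ n * (volume : Measure (E n)).real (closedBall (0 : E n) 1) ^ (n - 1) =
      volume.real (bodyOf (sh (closedBall (0 : E n) 1))) * om n ^ (n - 2) := by
  have : NeZero n := ⟨by omega⟩
  have h : sh (closedBall (0 : E n) 1) = fun v => om (n - 1) * ‖v‖ := by
    funext v
    rw [sh_closedBall 0 one_pos]
    simp
  have hω' : 0 < om (n - 1) := om_pos
  have hb : ∀ r : ℝ, 0 ≤ r →
      (volume : Measure (E n)).real (closedBall (0 : E n) r) = r ^ n * om n := by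
    intro r hr
    rw [om, Measure.real, Measure.real, Measure.addHaar_closedBall _ _ hr, ENNReal.toReal_mul,
      ENNReal.toReal_ofReal (by positivity)]
    simp
  rw [h, bodyOf_norm hω'.le, hb _ hω'.le, hb _ zero_le_one]
  obtain ⟨k, rfl⟩ : ∃ k, n = k + 2 := ⟨n - 2, by omega⟩
  simp only [Nat.add_sub_cancel, show k + 2 - 1 = k + 1 by omega]
  ring

/-- `exists_cert`, `exists_iso` for `dn (sh K)`, `exists_adj`, `sh_affine`, `dn_affine`, `Iso.cmul` -/
theorem petty (hn : 4 ≤ n) (hK : Body K) :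
    om (n - 1) ^ n * (volume : Measure (E n)).real K ^ (n - 1) ≤
        volume.real (bodyOf (sh K)) * om n ^ (n - 2) ∧
      (om (n - 1) ^ n * (volume : Measure (E n)).real K ^ (n - 1) =
          volume.real (bodyOf (sh K)) * om n ^ (n - 2) ↔
        ∃ (a : E n) (T : E n ≃ₗ[ℝ] E n), K = (fun x => a + T x) '' closedBall 0 1) := by
  have : NeZero n := ⟨by omega⟩
  obtain ⟨β, s, a, B, κ, ρ, η, hc⟩ := exists_cert hn
  have hβ : 1 ≤ β := by rcases hc.hβ with h | h <;> omega
  have hS : IsNm (sh K) := hK.isNm_sh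
  obtain ⟨A, hA⟩ := exists_iso hβ hS.dn
  obtain ⟨T, -, hT⟩ := exists_adj A
  have hT0 := dt_pos T
  have hK' : Body ((fun x => (0 : E n) + T x) '' K) := hK.image 0 T
  have hiso : Iso β (dn (sh ((fun x => (0 : E n) + T x) '' K))) := by
    have h : sh ((fun x => (0 : E n) + T x) '' K) = fun v => dt T * sh K (T.symm v) :=
      funext fun v => sh_affine hK.cpt hK.cvx 0 T v
    have h2 : dn (fun v => dt T * sh K (T.symm v)) = fun x => (dt T)⁻¹ * dn (sh K) (A x) :=
      funext fun x => hS.dn_affine hT0 hT x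
    rw [h, h2]
    exact hA.cmul _
  obtain ⟨h1, h2⟩ := petty_iso hn hc hK' hiso
  rw [vol_image, vol_proj_affine (by omega) hK, mul_pow] at h1 h2
  have hp : 0 < dt T ^ (n - 1) := by positivity
  refine ⟨?_, ?_, ?_⟩
  · refine le_of_mul_le_mul_left ?_ hp
    linarith
  · intro h
    obtain ⟨p, r, hr, hKb⟩ := h2 (by rw [mul_assoc, ← h]; linarith)
    refine ⟨T.symm p, (LinearEquiv.smulOfNeZero ℝ (E n) r hr.ne').trans T.symm.toLinearEquiv, ?_⟩
    ext x
    simp only [mem_image, mem_closedBall, dist_zero_right, LinearEquiv.trans_apply,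
      LinearEquiv.smulOfNeZero_apply, ContinuousLinearEquiv.coe_toLinearEquiv]
    constructor
    · intro hx
      have h3 : T x ∈ closedBall p r := by
        rw [← hKb]; exact ⟨x, hx, by simp⟩
      rw [mem_closedBall, dist_eq_norm] at h3
      refine ⟨r⁻¹ • (T x - p), ?_, ?_⟩
      · rw [norm_smul, Real.norm_of_nonneg (inv_nonneg.2 hr.le), inv_mul_le_iff₀ hr, mul_one]
        exact h3
      · rw [smul_smul, mul_inv_cancel₀ hr.ne', one_smul, map_sub]
        simp
    · rintro ⟨y, hy, rfl⟩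
      have h3 : p + r • y ∈ closedBall p r := by
        rw [mem_closedBall, dist_eq_norm, add_sub_cancel_left, norm_smul,
          Real.norm_of_nonneg hr.le]
        nlinarith
      rw [← hKb] at h3
      obtain ⟨z, hz, hz2⟩ := h3
      have : z = T.symm p + T.symm (r • y) := by
        rw [← map_add, ← hz2]; simp
      rwa [← this]
  · rintro ⟨p, L, rfl⟩
    have hb : Body (closedBall (0 : E n) 1) := body_closedBall 0 one_pos
    have e1 := vol_image p L.toContinuousLinearEquiv (closedBall (0 : E n) 1)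
    have e2 := vol_proj_affine (by omega) hb p L.toContinuousLinearEquiv
    simp only [LinearEquiv.coe_toContinuousLinearEquiv'] at e1 e2
    rw [e1, e2, mul_pow, mul_assoc, ← petty_ball (by omega)]
    ring

end Crest.Agent.R230
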