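import Crest.Agent.R230.Ext
import Crest.Agent.R230.IBP

/-!
Row 230 (Petty).  Isotropic position.  Minimise `A ↦ ∫ N (A u) ^ β` over `{A : E n →L[ℝ] E n | det A = 1}`
(closed; sublevel sets are bounded since `A ↦ ∫ ‖A u‖` is a norm on a finite-dimensional space and
`N ≥ c ‖·‖`).  Compose the minimiser with `1 + ε e_i ⊗ e_j` (`i ≠ j`) and with
`diag (e^ε, e^(-ε))` in the coordinates `i, j`; these have determinant one.
-/

set_option autoImplicit false

noncomputable section

namespace Crest.Agent.R230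

open MeasureTheory Metric Set MvPolynomial Filter Topology
open scoped ENNReal InnerProductSpace Pointwise

variable {n : ℕ}

variable {β : ℕ} {N : E n → ℝ}

theorem Pos_cont [NeZero n] (hN : IsNm N) :
    Continuous fun A : E n →L[ℝ] E n => ∫ u, N (A u) ^ β ∂sg n := by
  obtain ⟨C, hC, hup⟩ := hN.upper
  refine continuous_iff_continuousAt.2 fun A₀ => ?_
  refine continuousAt_of_dominated (bound := fun _ => (C * (‖A₀‖ + 1)) ^ β) ?_ ?_
    (integrable_const _) ?_
  · exact Eventually.of_forall fun A =>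
      ((hN.continuous.comp A.continuous).pow β).aestronglyMeasurable
  · have h1 : ∀ᶠ A in 𝓝 A₀, ‖A‖ ≤ ‖A₀‖ + 1 :=
      continuous_norm.continuousAt.eventually (ge_mem_nhds (lt_add_one _))
    filter_upwards [h1] with A hA
    filter_upwards [ae_norm] with u hu
    rw [Real.norm_of_nonneg (pow_nonneg (hN.nonneg _) _)]
    refine pow_le_pow_left₀ (hN.nonneg _) ((hup _).trans ?_) β
    refine mul_le_mul_of_nonneg_left ((A.le_opNorm u).trans ?_) hC.le
    rwa [hu, mul_one]
  · exact Eventually.of_forall fun u =>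
      ((hN.continuous.comp (ContinuousLinearMap.apply ℝ (E n) u).continuous).pow β).continuousAt

theorem Pos_pos [NeZero n] (hN : IsNm N) {A : E n →L[ℝ] E n} (hA : A ≠ 0) :
    0 < ∫ u, N (A u) ^ β ∂sg n := by
  have hc : Continuous fun u => N (A u) ^ β := (hN.continuous.comp A.continuous).pow β
  have h0 : 0 ≤ fun u => N (A u) ^ β := fun u => pow_nonneg (hN.nonneg _) _
  refine (integral_nonneg h0).lt_of_ne fun h => hA ?_
  have h1 := (integral_eq_zero_iff_of_nonneg h0 (integrable_of_cont hc)).1 h.symm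
  have h2 := eq_of_ae_sph hc continuous_const h1
  have h3 : ∀ u : E n, ‖u‖ = 1 → A u = 0 := fun u hu => by
    by_contra hne
    exact (pow_pos (hN.pos _ hne) β).ne' (h2 u hu)
  ext1 x
  by_cases hx : x = 0
  · simp [hx]
  have h4 := h3 (‖x‖⁻¹ • x) (norm_smul_inv_norm hx)
  rw [map_smul, smul_eq_zero] at h4
  exact h4.resolve_left (inv_ne_zero (norm_ne_zero_iff.2 hx))

theorem Pos_coer [NeZero n] (hN : IsNm N) : ∃ c : ℝ, 0 < c ∧ ∀ A : E n →L[ℝ] E n,
    c * ‖A‖ ^ β ≤ ∫ u, N (A u) ^ β ∂sg n := by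
  have hne : (sphere (0 : E n →L[ℝ] E n) 1).Nonempty :=
    ⟨ContinuousLinearMap.id ℝ (E n), by simp⟩
  obtain ⟨A₀, h0, hmin⟩ := (isCompact_sphere (0 : E n →L[ℝ] E n) 1).exists_isMinOn hne
    (Pos_cont (β := β) hN).continuousOn
  have h1 : A₀ ≠ 0 := fun h => by simp [h] at h0
  refine ⟨_, Pos_pos (β := β) hN h1, fun A => ?_⟩
  by_cases hA : A = 0
  · rcases Nat.eq_zero_or_pos β with rfl | hβ
    · simp
    · rw [hA, norm_zero, zero_pow hβ.ne', mul_zero]
      exact integral_nonneg fun u => pow_nonneg (hN.nonneg _) _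
  have hA' : 0 < ‖A‖ := norm_pos_iff.2 hA
  have h2 : ∫ u, N (A₀ u) ^ β ∂sg n ≤ ∫ u, N ((‖A‖⁻¹ • A) u) ^ β ∂sg n :=
    hmin (mem_sphere_zero_iff_norm.2 (norm_smul_inv_norm hA))
  have h3 : ∫ u, N ((‖A‖⁻¹ • A) u) ^ β ∂sg n = (‖A‖ ^ β)⁻¹ * ∫ u, N (A u) ^ β ∂sg n := by
    rw [← integral_const_mul]
    refine integral_congr_ae (Eventually.of_forall fun u => ?_)
    simp only [smul_apply, hN.smul, mul_pow, abs_inv, abs_norm, inv_pow]
  rw [h3, ← div_eq_inv_mul, le_div_iff₀ (pow_pos hA' β)] at h2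
  exact h2

theorem exists_min [NeZero n] (hβ : 1 ≤ β) (hN : IsNm N) :
    ∃ A : E n ≃L[ℝ] E n, ∀ S : E n →L[ℝ] E n, S.det = 1 →
      ∫ u, N (A u) ^ β ∂sg n ≤ ∫ u, N (A (S u)) ^ β ∂sg n := by
  obtain ⟨c, hc, hco⟩ := Pos_coer (β := β) hN
  have hcl : IsClosed {A : E n →L[ℝ] E n | A.det = 1} :=
    isClosed_eq ContinuousLinearMap.continuous_det continuous_const
  have hid : ContinuousLinearMap.id ℝ (E n) ∈ {A : E n →L[ℝ] E n | A.det = 1} := by
    simp [ContinuousLinearMap.det]
  obtain ⟨A, hA, hmin⟩ := (Pos_cont (β := β) hN).continuousOn.exists_isMinOn' hcl hid (by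
    refine Eventually.filter_mono inf_le_left ?_
    have h1 : Tendsto (fun A : E n →L[ℝ] E n => c * ‖A‖ ^ β) (cocompact _) atTop :=
      ((tendsto_pow_atTop (by omega)).comp tendsto_norm_cocompact_atTop).const_mul_atTop hc
    exact (h1.eventually_ge_atTop _).mono fun A hA => hA.trans (hco A))
  have hA' : A.det = 1 := hA
  refine ⟨A.toContinuousLinearEquivOfDetNeZero (by rw [hA']; exact one_ne_zero), fun S hS => ?_⟩
  have h2 : A.comp S ∈ {A : E n →L[ℝ] E n | A.det = 1} := by
    show LinearMap.det ((A : E n →ₗ[ℝ] E n).comp (S : E n →ₗ[ℝ] E n)) = 1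
    rw [LinearMap.det_comp]
    exact (congrArg₂ (· * ·) hA' hS).trans (one_mul 1)
  exact hmin h2

/-- `hasDerivAt_integral_of_dominated_loc_of_lip` (or difference quotients + dominated convergence) -/
theorem hasDerivAt_int [NeZero n] (hβ : 1 ≤ β) (hN : IsNm N) {S : ℝ → E n →L[ℝ] E n}
    {Q : E n →L[ℝ] E n} (hS : ContDiff ℝ 1 S) (h0 : S 0 = ContinuousLinearMap.id ℝ (E n))
    (hQ : HasDerivAt S Q 0) :
    HasDerivAt (fun ε => ∫ u, N (S ε u) ^ β ∂sg n)
      (∫ u, β * N u ^ (β - 1) * ⟪gradient N u, Q u⟫_ℝ ∂sg n) 0 := by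
  obtain ⟨K, t, ht, hK⟩ := (hS.contDiffAt (x := 0)).exists_lipschitzOnWith
  obtain ⟨L, hL⟩ := hN.lh.lip
  obtain ⟨C, hC, hup⟩ := hN.upper
  have h1 : {ε | ‖S ε‖ ≤ ‖S 0‖ + 1} ∈ 𝓝 (0 : ℝ) :=
    hS.continuous.norm.continuousAt.eventually (ge_mem_nhds (lt_add_one _))
  set M : ℝ := C * (‖S 0‖ + 1) with hM
  have hM0 : 0 ≤ M := by positivity
  refine (hasDerivAt_integral_of_dominated_loc_of_lip (F := fun ε u => N (S ε u) ^ β)
    (bound := fun _ => L * K * β * M ^ (β - 1)) (inter_mem ht h1) ?_ ?_ ?_ ?_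
    (integrable_const _) ?_).2
  · exact Eventually.of_forall fun ε =>
      ((hN.continuous.comp (S ε).continuous).pow β).aestronglyMeasurable
  · exact integrable_of_cont ((hN.continuous.comp (S 0).continuous).pow β)
  · exact (((hN.continuous.pow _).measurable.const_mul _).mul
      ((measurable_gradient N).inner Q.continuous.measurable)).aestronglyMeasurable
  · filter_upwards [ae_norm] with u hu
    refine LipschitzOnWith.of_dist_le_mul fun ε hε ε' hε' => ?_
    have b : ∀ δ ∈ t ∩ {ε | ‖S ε‖ ≤ ‖S 0‖ + 1}, |N (S δ u)| ≤ M := fun δ hδ => by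
      rw [abs_of_nonneg (hN.nonneg _)]
      refine (hup _).trans (mul_le_mul_of_nonneg_left (((S δ).le_opNorm u).trans ?_) hC.le)
      rw [hu, mul_one]
      exact hδ.2
    have d : |N (S ε u) - N (S ε' u)| ≤ L * K * dist ε ε' := by
      refine (hL.dist_le_mul _ _).trans ?_
      rw [mul_assoc, dist_eq_norm, ← sub_apply]
      refine mul_le_mul_of_nonneg_left (((S ε - S ε').le_opNorm u).trans ?_) L.coe_nonneg
      rw [hu, mul_one, ← dist_eq_norm]
      exact hK.dist_le_mul _ hε.1 _ hε'.1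
    rw [Real.coe_nnabs, abs_of_nonneg (by positivity), Real.dist_eq]
    refine (abs_pow_sub_pow_le _ _ _).trans ?_
    calc _ ≤ L * K * dist ε ε' * β * M ^ (β - 1) := by
          gcongr
          exact max_le (b ε hε) (b ε' hε')
      _ = _ := by ring
  · filter_upwards [hN.lh.ae_diff] with u hu
    have e : S 0 u = u := by rw [h0]; rfl
    have d1 : HasDerivAt (fun ε => S ε u) (Q u) 0 := by
      simpa using hQ.clm_apply (hasDerivAt_const (0 : ℝ) u)
    have d2 : HasFDerivAt N (fderiv ℝ N u) (S 0 u) := by rw [e]; exact hu.hasFDerivAt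
    have d3 := (d2.comp_hasDerivAt (0 : ℝ) d1).fun_pow β
    rw [inner_gradient]
    simpa [e] using d3

/-- `LH.wk` for `ext (·^β) N` with `q = X j`, and `Lb_ext_pow` -/
theorem int_grad_coord [NeZero n] (hβ : 1 ≤ β) (hN : IsNm N) (i j : Fin n) :
    ∫ u, β * N u ^ (β - 1) * (gradient N u i * u j) ∂sg n =
      -(if i = j then ∫ u, N u ^ β ∂sg n else 0)
        + ((n : ℝ) + β) * ∫ u, N u ^ β * (u i * u j) ∂sg n := by
  have hF := hN.lh_ext (C1_pow β)
  have hw := hF.wk 1 (X j) (isHomogeneous_X ℝ j) i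
  have hr := hN.rad_ext (C1_pow β)
  have c1 : Continuous fun u : E n => N u ^ β * (u i * u j) :=
    (hN.continuous.pow β).mul ((EuclideanSpace.proj (𝕜 := ℝ) i).continuous.mul
      (EuclideanSpace.proj (𝕜 := ℝ) j).continuous)
  have i1 : Integrable (fun u => gradient (ext (fun t => t ^ β) N) u i * u j) (sg n) := by
    have h1 : MemLp (fun u => gradient (ext (fun t => t ^ β) N) u i) ∞ (sg n) :=
      (EuclideanSpace.proj (𝕜 := ℝ) i).comp_memLp' (hF.memLp_gradient ∞)
    have h2 : Integrable (fun u : E n => u j) (sg n) :=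
      integrable_of_cont (EuclideanSpace.proj (𝕜 := ℝ) j).continuous
    exact h2.mul_of_top_right h1
  have e1 : ∫ u, β * N u ^ (β - 1) * (gradient N u i * u j) ∂sg n =
      ∫ u, gradient (ext (fun t => t ^ β) N) u i * u j ∂sg n +
        ((β : ℝ) - 1) * ∫ u, N u ^ β * (u i * u j) ∂sg n := by
    rw [← integral_const_mul, ← integral_add i1 ((integrable_of_cont c1).const_mul _)]
    refine integral_congr_ae ?_
    filter_upwards [hr, hN.Lb_ext_pow hβ] with u h1 h2
    have h3 := congrArg (fun y : E n => y i * u j) h2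
    simp only [Lb, h1, PiLp.add_apply, PiLp.smul_apply, smul_eq_mul] at h3
    linear_combination -h3
  have e2 : ∫ u, rad (gradient (ext (fun t => t ^ β) N)) u * ev (pderiv i (X j)) u ∂sg n =
      if i = j then ∫ u, N u ^ β ∂sg n else 0 := by
    split_ifs with hij
    · subst hij
      refine integral_congr_ae ?_
      filter_upwards [hr] with u h1
      rw [h1, pderiv_X_self, ev_one, mul_one]
    · rw [pderiv_X_of_ne (Ne.symm hij)]
      simp
  have e3 : ∫ u, rad (gradient (ext (fun t => t ^ β) N)) u * (u i * ev (X j) u) ∂sg n =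
      ∫ u, N u ^ β * (u i * u j) ∂sg n := by
    refine integral_congr_ae ?_
    filter_upwards [hr] with u h1
    rw [h1, ev_X]
  rw [e2, e3] at hw
  simp only [ev_X] at hw
  rw [e1, hw]
  push_cast
  ring

theorem Pos_rank [NeZero n] (hβ : 1 ≤ β) (hN : IsNm N)
    (h : ∀ S : E n →L[ℝ] E n, S.det = 1 → ∫ u, N u ^ β ∂sg n ≤ ∫ u, N (S u) ^ β ∂sg n)
    {a b : E n} (hab : ⟪b, a⟫_ℝ = 0) :
    ∫ u, β * N u ^ (β - 1) * (⟪gradient N u, a⟫_ℝ * ⟪b, u⟫_ℝ) ∂sg n = 0 := by
  set Q : E n →L[ℝ] E n := (innerSL ℝ b).smulRight a with hQ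
  have hd : HasDerivAt (fun ε : ℝ => ContinuousLinearMap.id ℝ (E n) + ε • Q) Q 0 := by
    simpa using ((hasDerivAt_id (0 : ℝ)).smul_const Q).const_add (ContinuousLinearMap.id ℝ (E n))
  have h1 := hasDerivAt_int hβ hN (S := fun ε : ℝ => ContinuousLinearMap.id ℝ (E n) + ε • Q)
    (contDiff_const.add (contDiff_id.smul contDiff_const)) (by ext1 x; simp) hd
  have hmin : IsLocalMin
      (fun ε : ℝ => ∫ u, N ((ContinuousLinearMap.id ℝ (E n) + ε • Q) u) ^ β ∂sg n) 0 := by
    refine Eventually.of_forall fun ε => ?_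
    have hdet : (ContinuousLinearMap.id ℝ (E n) + ε • Q).det = 1 := by
      have e : ((ContinuousLinearMap.id ℝ (E n) + ε • Q : E n →L[ℝ] E n) : E n →ₗ[ℝ] E n) =
          LinearMap.transvection (innerSL ℝ b : E n →ₗ[ℝ] ℝ) (ε • a) := by
        ext1 x
        simp [LinearMap.transvection.apply, hQ, smul_smul, mul_comm]
      rw [ContinuousLinearMap.det, e, LinearMap.transvection.det]
      simp [hab]
    simpa using h _ hdet
  rw [← hmin.hasDerivAt_eq_zero h1]
  refine integral_congr_ae (Eventually.of_forall fun u => ?_)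
  simp only [hQ, ContinuousLinearMap.smulRight_apply, innerSL_apply_apply, inner_smul_right]
  ring

theorem Pos_int [NeZero n] (hN : IsNm N) (i j : Fin n) :
    Integrable (fun u => β * N u ^ (β - 1) * (gradient N u i * u j)) (sg n) := by
  have h1 : MemLp (fun u => gradient N u i) ∞ (sg n) :=
    (EuclideanSpace.proj (𝕜 := ℝ) i).comp_memLp' (hN.lh.memLp_gradient ∞)
  have h2 : Integrable (fun u : E n => β * N u ^ (β - 1) * u j) (sg n) :=
    integrable_of_cont ((continuous_const.mul (hN.continuous.pow _)).mul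
      (EuclideanSpace.proj (𝕜 := ℝ) j).continuous)
  refine (h2.mul_of_top_left h1).congr (Eventually.of_forall fun u => ?_)
  simp only [Pi.mul_apply]
  ring

theorem iso_of_min [NeZero n] (hβ : 1 ≤ β) (hN : IsNm N)
    (h : ∀ S : E n →L[ℝ] E n, S.det = 1 → ∫ u, N u ^ β ∂sg n ≤ ∫ u, N (S u) ^ β ∂sg n) :
    Iso β N := by
  have hpos : (0 : ℝ) < (n : ℝ) + β := by
    have : (0 : ℝ) < β := by exact_mod_cast hβ
    positivity
  have off : ∀ i j, i ≠ j → ∫ u, β * N u ^ (β - 1) * (gradient N u i * u j) ∂sg n = 0 := by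
    intro i j hij
    have := Pos_rank hβ hN h (a := EuclideanSpace.single i 1) (b := EuclideanSpace.single j 1)
      (by simp [EuclideanSpace.inner_single_left, hij.symm])
    simpa only [EuclideanSpace.inner_single_left, EuclideanSpace.inner_single_right, conj_trivial,
      one_mul] using this
  have dia : ∀ i j, ∫ u, N u ^ β * (u i * u i) ∂sg n = ∫ u, N u ^ β * (u j * u j) ∂sg n := by
    intro i j
    by_cases hij : i = j
    · rw [hij]
    have h1 := Pos_rank hβ hN h (a := EuclideanSpace.single i 1 + EuclideanSpace.single j 1)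
      (b := EuclideanSpace.single i 1 - EuclideanSpace.single j 1)
      (by simp [inner_sub_left, inner_add_right, EuclideanSpace.inner_single_left, hij, Ne.symm hij])
    have h2 : ∫ u, β * N u ^ (β - 1) * (⟪gradient N u, EuclideanSpace.single i (1 : ℝ) +
          EuclideanSpace.single j 1⟫_ℝ * ⟪EuclideanSpace.single i (1 : ℝ) -
            EuclideanSpace.single j 1, u⟫_ℝ) ∂sg n =
        ∫ u, β * N u ^ (β - 1) * (gradient N u i * u i) ∂sg n -
          ∫ u, β * N u ^ (β - 1) * (gradient N u i * u j) ∂sg n +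
          (∫ u, β * N u ^ (β - 1) * (gradient N u j * u i) ∂sg n -
            ∫ u, β * N u ^ (β - 1) * (gradient N u j * u j) ∂sg n) := by
      rw [← integral_sub (Pos_int hN i i) (Pos_int hN i j),
        ← integral_sub (Pos_int hN j i) (Pos_int hN j j),
        ← integral_add ((Pos_int hN i i).sub' (Pos_int hN i j))
          ((Pos_int hN j i).sub' (Pos_int hN j j))]
      refine integral_congr_ae (Eventually.of_forall fun u => ?_)
      simp only [inner_sub_left, inner_add_right, EuclideanSpace.inner_single_left,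
        EuclideanSpace.inner_single_right, conj_trivial, one_mul]
      ring
    rw [h2, off i j hij, off j i (Ne.symm hij), int_grad_coord hβ hN, int_grad_coord hβ hN,
      if_pos rfl, if_pos rfl] at h1
    exact mul_left_cancel₀ hpos.ne' (by linarith)
  intro i j
  split_ifs with hij
  · subst hij
    have hn : (n : ℝ) ≠ 0 := Nat.cast_ne_zero.2 (NeZero.ne n)
    have h1 : ∑ j, ∫ u, N u ^ β * (u j * u j) ∂sg n = ∫ u, N u ^ β ∂sg n := by
      have c1 : ∀ j, Continuous fun u : E n => N u ^ β * (u j * u j) := fun j =>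
        (hN.continuous.pow β).mul ((EuclideanSpace.proj (𝕜 := ℝ) j).continuous.mul
          (EuclideanSpace.proj (𝕜 := ℝ) j).continuous)
      rw [← integral_finsetSum _ fun j _ => integrable_of_cont (c1 j)]
      refine integral_congr_ae ?_
      filter_upwards [ae_norm] with u hu
      have h2 := EuclideanSpace.real_norm_sq_eq u
      rw [hu, one_pow] at h2
      simp only [← Finset.mul_sum, ← sq, ← h2, mul_one]
    rw [Finset.sum_congr rfl fun j _ => dia j i] at h1
    rw [eq_div_iff hn, ← h1]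
    simp [mul_comm]
  · have h1 := off i j hij
    rw [int_grad_coord hβ hN, if_neg hij, neg_zero, zero_add] at h1
    exact (mul_eq_zero.1 h1).resolve_left hpos.ne'

theorem exists_iso [NeZero n] (hβ : 1 ≤ β) (hN : IsNm N) :
    ∃ A : E n ≃L[ℝ] E n, Iso β fun x => N (A x) := by
  obtain ⟨A, hA⟩ := exists_min hβ hN
  exact ⟨A, iso_of_min hβ (hN.comp A) hA⟩

end Crest.Agent.R230
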