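import Crest.Agent.R230.Ext
import Crest.Agent.R230.IBP

/-!
Row 230 (Petty).  Reverse Poincare inequality for norms (weak form of convexity).
-/

set_option autoImplicit false

noncomputable section

namespace Crest.Agent.R230

open MeasureTheory Metric Set MvPolynomial Filter Topology
open scoped ENNReal InnerProductSpace Pointwise

variable {n : ℕ}

theorem RevP_mono {N : E n → ℝ} (hN : ConvexOn ℝ univ N) (x e : E n) {h : ℝ} (hh : 0 < h) :
    Monotone fun t : ℝ => N (x + t • e + h • e) - N (x + t • e) := by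
  intro s t hst
  have hd : 0 < t + h - s := by linarith
  have ha : 0 ≤ (t - s) / (t + h - s) := div_nonneg (by linarith) hd.le
  have hb : 0 ≤ h / (t + h - s) := div_nonneg hh.le hd.le
  have hab : (t - s) / (t + h - s) + h / (t + h - s) = 1 := by field_simp; ring
  have h1 := hN.2 (mem_univ (x + s • e)) (mem_univ (x + t • e + h • e)) ha hb hab
  have h2 := hN.2 (mem_univ (x + s • e)) (mem_univ (x + t • e + h • e)) hb ha (by linarith)
  have e1 : ((t - s) / (t + h - s)) • (x + s • e) + (h / (t + h - s)) • (x + t • e + h • e) =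
      x + s • e + h • e := by
    have c : (t - s) / (t + h - s) * s + h / (t + h - s) * (t + h) = s + h := by field_simp; ring
    rw [add_assoc x (t • e), ← add_smul, smul_add, smul_add, smul_smul, smul_smul,
      add_add_add_comm, ← add_smul, ← add_smul, hab, one_smul, c, add_smul, add_assoc]
  have e2 : (h / (t + h - s)) • (x + s • e) + ((t - s) / (t + h - s)) • (x + t • e + h • e) =
      x + t • e := by
    have c : h / (t + h - s) * s + (t - s) / (t + h - s) * (t + h) = t := by field_simp; ring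
    rw [add_assoc x (t • e), ← add_smul, smul_add, smul_add, smul_smul, smul_smul,
      add_add_add_comm, ← add_smul, ← add_smul, add_comm (h / _), hab, one_smul, c]
  rw [e1] at h1
  rw [e2] at h2
  simp only [smul_eq_mul] at h1 h2 ⊢
  have e3 : ∀ a : ℝ, (t - s) / (t + h - s) * a + h / (t + h - s) * a = a := fun a => by
    rw [← add_mul, hab, one_mul]
  have := e3 (N (x + s • e))
  have := e3 (N (x + t • e + h • e))
  linarith

theorem RevP_int {ζ : E n → ℝ} {D : NNReal} (hζ : LipschitzWith D ζ) (hc : HasCompactSupport ζ)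
    (e : E n) : Integrable fun x => fderiv ℝ ζ x e := by
  rw [← memLp_one_iff_integrable]
  refine (hc.fderiv_apply ℝ e).memLp_of_bound
    (measurable_fderiv_apply_const ℝ ζ e).aestronglyMeasurable (D * ‖e‖) (ae_of_all _ fun x => ?_)
  exact ((fderiv ℝ ζ x).le_opNorm e).trans
    (mul_le_mul_of_nonneg_right (norm_fderiv_le_of_lipschitz ℝ hζ) (norm_nonneg _))

/-- difference quotients `D_h f x = (f (x + h e) - f x) / h`:
`∫ D_h N * D_h ζ = h⁻² ∫ (2 N x - N (x + h e) - N (x - h e)) ζ x ≤ 0` (translation invariance);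
`h = 1/(k+1) → 0` by dominated convergence (Rademacher for both functions) -/
theorem weak_convex {N ζ : E n → ℝ} (hN : ConvexOn ℝ univ N) {C D : NNReal} (hL : LipschitzWith C N)
    (hζ : LipschitzWith D ζ) (hc : HasCompactSupport ζ) (h0 : ∀ x, 0 ≤ ζ x) (e : E n) :
    ∫ x, fderiv ℝ N x e * fderiv ℝ ζ x e ≤ 0 := by
  have hI := RevP_int hζ hc e
  have lim := hL.integral_inv_smul_sub_mul_tendsto_integral_lineDeriv_mul (μ := volume) hI e
  have e1 : ∫ x, lineDeriv ℝ N x e * fderiv ℝ ζ x e = ∫ x, fderiv ℝ N x e * fderiv ℝ ζ x e := by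
    refine integral_congr_ae ?_
    filter_upwards [hL.ae_differentiableAt (μ := volume)] with x hx
    rw [hx.lineDeriv_eq_fderiv]
  rw [← e1]
  refine le_of_tendsto lim ?_
  filter_upwards [self_mem_nhdsWithin] with h hh
  have hh : 0 < h := hh
  have hL' : LipschitzWith (C * 1 + C) fun x => N (x + h • e) - N x :=
    (hL.comp (isometry_add_right (h • e)).lipschitz).sub hL
  have key := hL'.integral_lineDeriv_mul_eq (μ := volume) hζ hc e
  have hpos : 0 ≤ ∫ x, lineDeriv ℝ (fun x => N (x + h • e) - N x) x e * ζ x :=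
    integral_nonneg fun x => mul_nonneg (RevP_mono hN x e hh).deriv_nonneg (h0 x)
  rw [key] at hpos
  have e2 : ∫ x, h⁻¹ • (N (x + h • e) - N x) * fderiv ℝ ζ x e =
      -h⁻¹ * ∫ x, lineDeriv ℝ ζ x (-e) * (N (x + h • e) - N x) := by
    rw [← integral_const_mul]
    refine integral_congr_ae ?_
    filter_upwards [hζ.ae_differentiableAt (μ := volume)] with x hx
    rw [lineDeriv_neg, hx.lineDeriv_eq_fderiv, smul_eq_mul]
    ring
  rw [e2]
  have := mul_nonneg (inv_nonneg.2 hh.le) hpos
  linarith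

theorem RevP_cut_zero {r : ℝ} (hr : 1 ≤ r) : cut r = 0 := by
  unfold cut
  rw [max_eq_right (by nlinarith)]
  simp

theorem RevP_cut_supp : HasCompactSupport fun x : E n => cut ‖x‖ :=
  HasCompactSupport.intro (isCompact_closedBall 0 1) fun x hx =>
    RevP_cut_zero (by simpa using (le_of_lt (by simpa using hx) : 1 ≤ ‖x‖))

theorem RevP_cut_le (r : ℝ) : |cut r| ≤ 1 := by
  unfold cut
  have h1 : 0 ≤ max (1 - r ^ 2) 0 := le_max_right _ _
  have h2 : max (1 - r ^ 2) 0 ≤ 1 := max_le (by nlinarith) zero_le_one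
  rw [abs_of_nonneg (sq_nonneg _)]
  nlinarith

theorem RevP_lip {G : E n → ℝ} (hG : LH G) :
    ∃ D : NNReal, LipschitzWith D fun x => G x * cut ‖x‖ := by
  obtain ⟨C, hC⟩ := hG.lip
  obtain ⟨L, hL⟩ := (contDiff_cut (n := n)).lipschitzWith_of_hasCompactSupport RevP_cut_supp
    one_ne_zero
  have hG0 : G 0 = 0 := by simpa using hG.hom 0 0
  have key : ∀ x y : E n, ‖y‖ ≤ 1 →
      |G x * cut ‖x‖ - G y * cut ‖y‖| ≤ (C + C * L) * dist x y := by
    intro x y hy
    have h1 : |G x - G y| ≤ C * dist x y := by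
      simpa [Real.dist_eq] using hC.dist_le_mul x y
    have h2 : |cut ‖x‖ - cut ‖y‖| ≤ L * dist x y := by
      simpa [Real.dist_eq] using hL.dist_le_mul x y
    have h3 : |G y| ≤ C := by
      have := hC.dist_le_mul y 0
      rw [hG0, dist_zero_right, dist_zero_right, Real.norm_eq_abs] at this
      exact this.trans (mul_le_of_le_one_right C.2 hy)
    have e : G x * cut ‖x‖ - G y * cut ‖y‖ =
        (G x - G y) * cut ‖x‖ + G y * (cut ‖x‖ - cut ‖y‖) := by ring
    rw [e]
    refine (abs_add_le _ _).trans ?_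
    rw [abs_mul, abs_mul]
    have h4 := mul_le_mul h1 (RevP_cut_le ‖x‖) (abs_nonneg _) (by positivity)
    have h5 := mul_le_mul h3 h2 (abs_nonneg _) C.2
    linarith
  refine ⟨C + C * L, LipschitzWith.of_dist_le_mul fun x y => ?_⟩
  rw [Real.dist_eq]
  push_cast
  rcases le_total ‖y‖ 1 with hy | hy
  · exact key x y hy
  rcases le_total ‖x‖ 1 with hx | hx
  · rw [abs_sub_comm, dist_comm]
    exact key y x hx
  · rw [RevP_cut_zero hx, RevP_cut_zero hy]
    simp only [mul_zero, sub_zero, abs_zero]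
    positivity

theorem RevP_sum (a b : E n) :
    ∑ i, ⟪a, EuclideanSpace.single i (1 : ℝ)⟫_ℝ * ⟪b, EuclideanSpace.single i (1 : ℝ)⟫_ℝ =
      ⟪a, b⟫_ℝ := by
  simp only [EuclideanSpace.inner_single_right]
  simp [PiLp.inner_apply, mul_comm]

/-- `weak_convex` with `ζ x = G x * cut ‖x‖`, sum over the basis, `int_hom_rad`, `radial (n-1)` -/
theorem IsNm.inner_le [NeZero n] {N G : E n → ℝ} (hN : IsNm N) (hG : LH G) (h0 : ∀ x, 0 ≤ G x) :
    ∫ u, ⟪gradient N u, gradient G u⟫_ℝ ∂sg n ≤ n * ∫ u, G u * N u ∂sg n := by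
  obtain ⟨D, hD⟩ := RevP_lip hG
  obtain ⟨C, hC⟩ := hN.lh.lip
  obtain ⟨C', hC'⟩ := hG.lip
  obtain ⟨B, hB⟩ := hN.lh.norm_gradient_le
  obtain ⟨B', hB'⟩ := hG.norm_gradient_le
  have hn : 1 ≤ n := Nat.one_le_iff_ne_zero.2 (NeZero.ne n)
  have hc : HasCompactSupport fun x : E n => G x * cut ‖x‖ := RevP_cut_supp.mul_left
  have hw := fun i : Fin n => weak_convex hN.convexOn hC hD hc
    (fun x => mul_nonneg (h0 x) (sq_nonneg _)) (EuclideanSpace.single i (1 : ℝ))
  have hint : ∀ i : Fin n, Integrable fun x => fderiv ℝ N x (EuclideanSpace.single i (1 : ℝ)) *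
      fderiv ℝ (fun x : E n => G x * cut ‖x‖) x (EuclideanSpace.single i (1 : ℝ)) := by
    intro i
    refine (RevP_int hD hc _).bdd_mul (c := C * ‖EuclideanSpace.single i (1 : ℝ)‖)
      (measurable_fderiv_apply_const ℝ N _).aestronglyMeasurable (ae_of_all _ fun x => ?_)
    exact ((fderiv ℝ N x).le_opNorm _).trans
      (mul_le_mul_of_nonneg_right (norm_fderiv_le_of_lipschitz ℝ hC) (norm_nonneg _))
  have hs := Finset.sum_nonpos (s := Finset.univ) fun i _ => hw i
  rw [← integral_finsetSum _ fun i _ => hint i] at hs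
  obtain ⟨i1, e1⟩ := int_hom_rad (φ := fun x : E n => ⟪gradient N x, gradient G x⟫_ℝ) (a := 0)
    ((measurable_gradient N).inner (measurable_gradient G))
    (fun r x hr => by rw [hN.lh.gradient_smul hr, hG.gradient_smul hr]; simp) (B * B')
    (fun u _ => (abs_real_inner_le_norm _ _).trans
      (mul_le_mul (hB u) (hB' u) (norm_nonneg _) ((norm_nonneg _).trans (hB u))))
    (η := cut) (by unfold cut; fun_prop) (fun r hr => RevP_cut_zero hr)
  have hG0 : G 0 = 0 := by simpa using hG.hom 0 0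
  obtain ⟨i2, e2⟩ := int_hom_rad (φ := fun x : E n => G x * N x) (a := 2)
    (hG.continuous.mul hN.continuous).measurable
    (fun r x hr => by rw [hG.hom, hN.smul, abs_of_pos hr]; ring) (C' * C)
    (fun u hu => by
      have a1 := hC'.dist_le_mul u 0
      have a2 := hC.dist_le_mul u 0
      rw [hG0] at a1
      rw [hN.zero] at a2
      simp only [dist_zero_right, hu, mul_one, Real.norm_eq_abs] at a1 a2
      rw [abs_mul]
      exact mul_le_mul a1 a2 (abs_nonneg _) C'.2)
    (η := fun r => 4 * max (1 - r ^ 2) 0) (by fun_prop)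
    (fun r hr => by rw [max_eq_right (by nlinarith), mul_zero])
  have e3 : ∫ x, ∑ i : Fin n, fderiv ℝ N x (EuclideanSpace.single i (1 : ℝ)) *
      fderiv ℝ (fun x : E n => G x * cut ‖x‖) x (EuclideanSpace.single i (1 : ℝ)) =
      ∫ x, (⟪gradient N x, gradient G x⟫_ℝ * cut ‖x‖ -
        G x * N x * (4 * max (1 - ‖x‖ ^ 2) 0)) := by
    refine integral_congr_ae ?_
    filter_upwards [hC.ae_differentiableAt (μ := volume), hC'.ae_differentiableAt (μ := volume)]
      with x hx hx'
    have hd := (hx'.hasFDerivAt.mul (hasFDerivAt_cut x)).fderiv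
    have hd' : ∀ v, fderiv ℝ (fun x : E n => G x * cut ‖x‖) x v =
        ⟪cut ‖x‖ • gradient G x + (G x * (-4 * max (1 - ‖x‖ ^ 2) 0)) • x, v⟫_ℝ := by
      intro v
      have : fderiv ℝ (fun x : E n => G x * cut ‖x‖) x = _ := hd
      rw [this, inner_add_left, real_inner_smul_left, real_inner_smul_left, inner_gradient]
      simp only [add_apply, smul_apply, smul_eq_mul,
        innerSL_apply_apply, real_inner_smul_left]
      ring
    simp only [hd', ← inner_gradient]
    rw [RevP_sum, inner_add_right, real_inner_smul_right, real_inner_smul_right, hN.lh.euler hx]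
    ring
  rw [e3, integral_sub i1 i2, e1, e2] at hs
  have r1 := radial (n - 1)
  have r2 := radial_pos (n - 1)
  rw [show 0 + n - 1 = n - 1 by omega, show 2 + n - 1 = n - 1 + 2 by omega, r1] at hs
  have hcast : ((n - 1 : ℕ) : ℝ) + 1 = n := by
    rw [Nat.cast_sub hn]; simp
  rw [hcast] at hs
  have hpos : 0 < (n : ℝ) * om n * ∫ r in Ioi (0 : ℝ), r ^ (n - 1) * cut r :=
    mul_pos (mul_pos (by exact_mod_cast hn) om_pos) r2
  by_contra hlt
  have := mul_pos hpos (sub_pos.2 (not_le.1 hlt))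
  nlinarith

/-- `G = ext Φ N` -/
theorem IsNm.revP [NeZero n] {N : E n → ℝ} (hN : IsNm N) {Φ Φ' : ℝ → ℝ} (hΦ : C1 Φ Φ')
    (h0 : ∀ t, 0 < t → 0 ≤ Φ t) :
    ∫ u, Φ' (N u) * (‖gradient N u‖ ^ 2 - N u ^ 2) ∂sg n ≤
      ((n : ℝ) - 1) * ∫ u, Φ (N u) * N u ∂sg n := by
  have hG := hN.lh_ext hΦ
  have key := hN.inner_le hG (fun x => by
    unfold ext
    by_cases hx : x = 0
    · simp [hx]
    · exact mul_nonneg (norm_nonneg _)
        (h0 _ (div_pos (hN.pos x hx) (norm_pos_iff.2 hx))))
  obtain ⟨m1, m2⟩ := hΦ.integrable hN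
  have iN : Integrable N (sg n) := integrable_of_cont hN.continuous
  have i1 : Integrable (fun u => Φ (N u) * N u) (sg n) := iN.mul_of_top_right m1
  have i2 : Integrable (fun u => Φ' (N u) * (‖gradient N u‖ ^ 2 - N u ^ 2)) (sg n) := by
    have a1 : Integrable (fun u => ‖gradient N u‖ ^ 2) (sg n) :=
      (memLp_two_iff_integrable_sq_norm (measurable_gradient N).aestronglyMeasurable).1
        (hN.lh.memLp_gradient 2)
    exact (a1.sub (hN.integrable_pow 2)).mul_of_top_right m2
  rw [integral_congr_ae (hN.inner_gradient_ext hΦ), integral_add i1 i2] at key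
  have e : ∫ u, ext Φ N u * N u ∂sg n = ∫ u, Φ (N u) * N u ∂sg n := by
    refine integral_congr_ae ?_
    filter_upwards [ae_norm (n := n)] with u hu
    rw [ext_sph hu]
  rw [e] at key
  linarith

end Crest.Agent.R230
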