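import Crest.Agent.R230.Spl

/-!
Row 230 (Petty).  Hyperplane sections of convex bodies.
-/

set_option autoImplicit false

noncomputable section

namespace Crest.Agent.R230

open MeasureTheory Metric Set MvPolynomial Filter Topology
open scoped ENNReal InnerProductSpace Pointwise

variable {n : ℕ}

variable {u : E n} {A B C : Set (E n)}

theorem sec_cont (u : E n) (t : ℝ) : Continuous fun y : (ℝ ∙ u)ᗮ => t • u + (y : E n) :=
  continuous_const.add continuous_subtype_val

theorem sec_meas (u : E n) (hA : MeasurableSet A) (t : ℝ) :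
    MeasurableSet {y : (ℝ ∙ u)ᗮ | t • u + (y : E n) ∈ A} :=
  hA.preimage (sec_cont u t).measurable

theorem sec_inner (hu : ‖u‖ = 1) (t : ℝ) (y : (ℝ ∙ u)ᗮ) : ⟪t • u + (y : E n), u⟫_ℝ = t :=
  inner_spl hu (t, y)

theorem sec_cont_inner (v : E n) : Continuous fun x : E n => ⟪x, v⟫_ℝ :=
  continuous_id.inner continuous_const

theorem measurable_sec (hu : ‖u‖ = 1) (hA : MeasurableSet A) : Measurable (sec u A) := by
  exact measurable_measure_prodMk_left (ν := (volume : Measure (ℝ ∙ u)ᗮ))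
    (hA.preimage (continuous_spl u).measurable)

/-- Tonelli with `mp_spl` -/
theorem lintegral_sec (hu : ‖u‖ = 1) (hA : MeasurableSet A) {φ : ℝ → ℝ≥0∞} (hφ : Measurable φ) :
    ∫⁻ x in A, φ ⟪x, u⟫_ℝ = ∫⁻ t, φ t * sec u A t := by
  have hm : Measurable (A.indicator fun x : E n => φ ⟪x, u⟫_ℝ) :=
    (hφ.comp (sec_cont_inner u).measurable).indicator hA
  rw [← lintegral_indicator hA, ← (mp_spl hu).lintegral_comp hm,
    lintegral_prod (fun a => A.indicator (fun x : E n => φ ⟪x, u⟫_ℝ) (spl u a))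
      (hm.comp (continuous_spl u).measurable).aemeasurable]
  refine lintegral_congr fun t => ?_
  have h : (fun y : (ℝ ∙ u)ᗮ => A.indicator (fun x : E n => φ ⟪x, u⟫_ℝ) (spl u (t, y))) =
      {y : (ℝ ∙ u)ᗮ | t • u + (y : E n) ∈ A}.indicator fun _ => φ t := by
    funext y
    by_cases hy : t • u + (y : E n) ∈ A
    · rw [indicator_of_mem (show spl u (t, y) ∈ A from hy),
        indicator_of_mem (show y ∈ {y : (ℝ ∙ u)ᗮ | t • u + (y : E n) ∈ A} from hy), inner_spl hu]
    · rw [indicator_of_notMem (show spl u (t, y) ∉ A from hy),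
        indicator_of_notMem (show y ∉ {y : (ℝ ∙ u)ᗮ | t • u + (y : E n) ∈ A} from hy)]
  rw [h, lintegral_indicator_const (sec_meas u hA t)]
  rfl

theorem sec_lt_top (hu : ‖u‖ = 1) (hA : IsCompact A) (t : ℝ) : sec u A t < ∞ := by
  have hi : Isometry fun y : (ℝ ∙ u)ᗮ => t • u + (y : E n) := by
    refine Isometry.of_dist_eq fun x y => ?_
    rw [dist_add_left]
    rfl
  exact (hi.isClosedEmbedding.isCompact_preimage hA).measure_lt_top

/-- `hasPL_perp` for indicators -/
theorem sec_mid (hu : ‖u‖ = 1) (hA : MeasurableSet A) (hB : MeasurableSet B) (hC : MeasurableSet C)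
    (h : ∀ x ∈ A, ∀ y ∈ B, (1 / 2 : ℝ) • (x + y) ∈ C) (s t : ℝ) :
    sec u A s * sec u B t ≤ sec u C ((s + t) / 2) ^ 2 := by
  have key := hasPL_perp hu
    ({y : (ℝ ∙ u)ᗮ | s • u + (y : E n) ∈ A}.indicator 1)
    ({y : (ℝ ∙ u)ᗮ | t • u + (y : E n) ∈ B}.indicator 1)
    ({y : (ℝ ∙ u)ᗮ | ((s + t) / 2) • u + (y : E n) ∈ C}.indicator 1)
    (measurable_one.indicator (sec_meas u hA s)) (measurable_one.indicator (sec_meas u hB t))
    (measurable_one.indicator (sec_meas u hC _)) ?_
  · rwa [lintegral_indicator_one (sec_meas u hA s), lintegral_indicator_one (sec_meas u hB t),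
      lintegral_indicator_one (sec_meas u hC _)] at key
  · intro x y
    by_cases hx : x ∈ {y : (ℝ ∙ u)ᗮ | s • u + (y : E n) ∈ A}
    · by_cases hy : y ∈ {y : (ℝ ∙ u)ᗮ | t • u + (y : E n) ∈ B}
      · have hz : (1 / 2 : ℝ) • (x + y) ∈
            {y : (ℝ ∙ u)ᗮ | ((s + t) / 2) • u + (y : E n) ∈ C} := by
          have h1 := h _ hx _ hy
          have h2 : (1 / 2 : ℝ) • (s • u + (x : E n) + (t • u + (y : E n))) =
              ((s + t) / 2) • u + (((1 / 2 : ℝ) • (x + y) : (ℝ ∙ u)ᗮ) : E n) := by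
            rw [Submodule.coe_smul, Submodule.coe_add]
            module
          rw [h2] at h1
          exact h1
        rw [indicator_of_mem hx, indicator_of_mem hy, indicator_of_mem hz]
        simp
      · rw [indicator_of_notMem hy, mul_zero]
        exact zero_le
    · rw [indicator_of_notMem hx, zero_mul]
      exact zero_le

theorem le_hs (hA : IsCompact A) {x : E n} (hx : x ∈ A) (v : E n) : ⟪x, v⟫_ℝ ≤ hs A v := by
  exact le_csSup (hA.image (sec_cont_inner v)).bddAbove (mem_image_of_mem _ hx)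

theorem exists_hs (hA : IsCompact A) (hne : A.Nonempty) (v : E n) :
    ∃ x ∈ A, ⟪x, v⟫_ℝ = hs A v := by
  exact (hA.image (sec_cont_inner v)).sSup_mem (hne.image _)

theorem sec_neg_hs_le (hA : IsCompact A) {x : E n} (hx : x ∈ A) (v : E n) :
    -hs A (-v) ≤ ⟪x, v⟫_ℝ := by
  have h := le_hs hA hx (-v)
  rw [inner_neg_right] at h
  linarith

theorem sec_exists_neg_hs (hA : IsCompact A) (hne : A.Nonempty) (v : E n) :
    ∃ x ∈ A, ⟪x, v⟫_ℝ = -hs A (-v) := by
  obtain ⟨x, hx, h⟩ := exists_hs hA hne (-v)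
  rw [inner_neg_right] at h
  exact ⟨x, hx, by linarith⟩

theorem Body.hs_lt (hA : Body A) (hu : ‖u‖ = 1) : -hs A (-u) < hs A u := by
  obtain ⟨x, hx⟩ := hA.int
  obtain ⟨ε, hε, hb⟩ := Metric.isOpen_iff.1 isOpen_interior x hx
  have h1 : x + (ε / 2) • u ∈ A := by
    refine interior_subset (hb ?_)
    rw [mem_ball, dist_eq_norm, add_sub_cancel_left, norm_smul, hu, mul_one, Real.norm_eq_abs,
      abs_of_pos (by linarith)]
    linarith
  have h2 := le_hs hA.cpt h1 u
  have h3 := sec_neg_hs_le hA.cpt (interior_subset hx) u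
  rw [inner_add_left, real_inner_smul_left, real_inner_self_eq_norm_sq, hu] at h2
  linarith

theorem sec_eq_zero (hu : ‖u‖ = 1) (hA : IsCompact A) {t : ℝ} (ht : t ∉ Icc (-hs A (-u)) (hs A u)) :
    sec u A t = 0 := by
  have h : {y : (ℝ ∙ u)ᗮ | t • u + (y : E n) ∈ A} = ∅ := by
    refine eq_empty_of_forall_notMem fun y hy => ht ?_
    have h1 := le_hs hA hy u
    have h2 := sec_neg_hs_le hA hy u
    rw [sec_inner hu] at h1 h2
    exact ⟨h2, h1⟩
  rw [sec, h, measure_empty]

theorem sec_exists_interior (hA : Body A) {t : ℝ} (ht : t ∈ Ioo (-hs A (-u)) (hs A u)) :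
    ∃ z ∈ interior A, ⟪z, u⟫_ℝ = t := by
  obtain ⟨x, hx⟩ := hA.int
  have hne : A.Nonempty := ⟨x, interior_subset hx⟩
  have aux : ∀ p ∈ A, ∀ θ : ℝ, 0 ≤ θ → θ < 1 → (1 - θ) * ⟪x, u⟫_ℝ + θ * ⟪p, u⟫_ℝ = t →
      ∃ z ∈ interior A, ⟪z, u⟫_ℝ = t := by
    intro p hp θ h0 h1 h
    refine ⟨(1 - θ) • x + θ • p,
      hA.cvx.combo_interior_self_mem_interior hx hp (by linarith) h0 (by ring), ?_⟩
    rw [inner_add_left, real_inner_smul_left, real_inner_smul_left, h]
  rcases le_total ⟪x, u⟫_ℝ t with hxt | hxt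
  · obtain ⟨p, hp, hpb⟩ := exists_hs hA.cpt hne u
    have hd : 0 < hs A u - ⟪x, u⟫_ℝ := by linarith [ht.2]
    refine aux p hp ((t - ⟪x, u⟫_ℝ) / (hs A u - ⟪x, u⟫_ℝ)) (div_nonneg (by linarith) hd.le)
      ((div_lt_one hd).2 (by linarith [ht.2])) ?_
    rw [hpb]
    field_simp
    ring
  · obtain ⟨p, hp, hpb⟩ := sec_exists_neg_hs hA.cpt hne u
    have hd : 0 < ⟪x, u⟫_ℝ - -hs A (-u) := by linarith [ht.1]
    refine aux p hp ((⟪x, u⟫_ℝ - t) / (⟪x, u⟫_ℝ - -hs A (-u))) (div_nonneg (by linarith) hd.le)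
      ((div_lt_one hd).2 (by linarith [ht.1])) ?_
    rw [hpb]
    field_simp
    ring

/-- some interior point of `A` has height `t` (`Convex.openSegment_interior_self_subset_interior`) -/
theorem Body.sec_pos (hA : Body A) (hu : ‖u‖ = 1) {t : ℝ} (ht : t ∈ Ioo (-hs A (-u)) (hs A u)) :
    0 < (sec u A t).toReal := by
  obtain ⟨z, hz, hzt⟩ := sec_exists_interior hA ht
  obtain ⟨y, -, hy⟩ := spl_surj hu z
  have ho : IsOpen {y : (ℝ ∙ u)ᗮ | t • u + (y : E n) ∈ interior A} :=
    isOpen_interior.preimage (sec_cont u t)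
  have hne : {y : (ℝ ∙ u)ᗮ | t • u + (y : E n) ∈ interior A}.Nonempty := by
    refine ⟨y, ?_⟩
    rw [hzt] at hy
    show spl u (t, y) ∈ interior A
    rw [hy]
    exact hz
  refine ENNReal.toReal_pos ?_ (sec_lt_top hu hA.cpt t).ne
  refine ((ho.measure_pos volume hne).trans_le (measure_mono ?_)).ne'
  exact fun y hy => (interior_subset (s := A) hy : t • u + (y : E n) ∈ A)

/-- cone inclusion: for `p ∈ A` of height `τ` and `0 ≤ θ < 1`, the section at height
`(1-θ) t + θ τ` contains a translate of `(1-θ) •` (section at height `t`) -/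
theorem sec_cone (hu : ‖u‖ = 1) (hA : IsCompact A) (hc : Convex ℝ A) {p : E n} (hp : p ∈ A)
    (t : ℝ) {θ : ℝ} (h0 : 0 ≤ θ) (h1 : θ < 1) :
    (1 - θ) ^ (n - 1) * (sec u A t).toReal ≤ (sec u A ((1 - θ) * t + θ * ⟪p, u⟫_ℝ)).toReal := by
  obtain ⟨q, -, hq⟩ := spl_surj hu p
  set τ := ⟪p, u⟫_ℝ with hτ
  have hsub : (fun y : (ℝ ∙ u)ᗮ => -(θ • q) + y) ⁻¹'
      ((1 - θ) • {y : (ℝ ∙ u)ᗮ | t • u + (y : E n) ∈ A}) ⊆
      {y : (ℝ ∙ u)ᗮ | ((1 - θ) * t + θ * τ) • u + (y : E n) ∈ A} := by
    rintro y ⟨w, hw, hwy⟩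
    have hy : y = θ • q + (1 - θ) • w := by
      have hwy' : (1 - θ) • w = -(θ • q) + y := hwy
      rw [hwy']
      abel
    have h2 : ((1 - θ) * t + θ * τ) • u + (y : E n) =
        (1 - θ) • (t • u + (w : E n)) + θ • p := by
      have hp' : p = τ • u + (q : E n) := hq.symm
      rw [hy, Submodule.coe_add, Submodule.coe_smul, Submodule.coe_smul]
      conv_rhs => rw [hp']
      module
    show ((1 - θ) * t + θ * τ) • u + (y : E n) ∈ A
    rw [h2]
    exact hc hw hp (by linarith) h0 (by ring)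
  have hle := measure_mono (μ := (volume : Measure (ℝ ∙ u)ᗮ)) hsub
  rw [measure_preimage_add, Measure.addHaar_smul, finrank_perp hu] at hle
  have hpos : 0 ≤ (1 - θ) ^ (n - 1) := pow_nonneg (by linarith) _
  have h3 := ENNReal.toReal_mono (sec_lt_top hu hA ((1 - θ) * t + θ * τ)).ne hle
  rw [ENNReal.toReal_mul, abs_of_nonneg hpos, ENNReal.toReal_ofReal hpos] at h3
  exact h3

theorem sec_ratio (hA : Body A) (hu : ‖u‖ = 1) {s t : ℝ} (hs' : s ∈ Ioo (-hs A (-u)) (hs A u))
    (ht : t ∈ Ioo (-hs A (-u)) (hs A u)) :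
    min ((hs A u - t) / (hs A u - s)) ((t - -hs A (-u)) / (s - -hs A (-u))) ^ (n - 1) *
      (sec u A s).toReal ≤ (sec u A t).toReal := by
  have hne : A.Nonempty := hA.int.mono interior_subset
  have d1 : 0 < hs A u - s := sub_pos.2 hs'.2
  have d2 : 0 < s - -hs A (-u) := sub_pos.2 hs'.1
  have d3 : 0 < hs A u - t := sub_pos.2 ht.2
  have d4 : 0 < t - -hs A (-u) := sub_pos.2 ht.1
  have hm : 0 ≤ min ((hs A u - t) / (hs A u - s)) ((t - -hs A (-u)) / (s - -hs A (-u))) :=
    le_min (div_pos d3 d1).le (div_pos d4 d2).le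
  rcases le_total s t with hst | hst
  · obtain ⟨p, hp, hpb⟩ := exists_hs hA.cpt hne u
    have h := sec_cone hu hA.cpt hA.cvx hp s (θ := (t - s) / (hs A u - s))
      (div_nonneg (by linarith) d1.le) ((div_lt_one d1).2 (by linarith))
    have e1 : 1 - (t - s) / (hs A u - s) = (hs A u - t) / (hs A u - s) := by
      field_simp
      ring
    have e2 : (hs A u - t) / (hs A u - s) * s + (t - s) / (hs A u - s) * ⟪p, u⟫_ℝ = t := by
      rw [hpb]
      field_simp
      ring
    rw [e1, e2] at h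
    refine le_trans (mul_le_mul_of_nonneg_right ?_ ENNReal.toReal_nonneg) h
    exact pow_le_pow_left₀ hm (min_le_left _ _) _
  · obtain ⟨p, hp, hpb⟩ := sec_exists_neg_hs hA.cpt hne u
    have h := sec_cone hu hA.cpt hA.cvx hp s (θ := (s - t) / (s - -hs A (-u)))
      (div_nonneg (by linarith) d2.le) ((div_lt_one d2).2 (by linarith))
    have e1 : 1 - (s - t) / (s - -hs A (-u)) = (t - -hs A (-u)) / (s - -hs A (-u)) := by
      field_simp
      ring
    have e2 : (t - -hs A (-u)) / (s - -hs A (-u)) * s + (s - t) / (s - -hs A (-u)) * ⟪p, u⟫_ℝ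
        = t := by
      rw [hpb]
      field_simp
      ring
    rw [e1, e2] at h
    refine le_trans (mul_le_mul_of_nonneg_right ?_ ENNReal.toReal_nonneg) h
    exact pow_le_pow_left₀ hm (min_le_right _ _) _

/-- two-sided use of `sec_cone` with the extreme points of heights `-hs A (-u)` and `hs A u` -/
theorem Body.continuousOn_sec (hA : Body A) (hu : ‖u‖ = 1) :
    ContinuousOn (fun t => (sec u A t).toReal) (Ioo (-hs A (-u)) (hs A u)) := by
  intro t ht
  set a := -hs A (-u) with ha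
  set b := hs A u with hb
  have hba : b - t ≠ 0 := by linarith [ht.2]
  have hta : t - a ≠ 0 := by linarith [ht.1]
  have c1 : ContinuousAt (fun s : ℝ => min ((b - s) / (b - t)) ((s - a) / (t - a)) ^ (n - 1) *
      (sec u A t).toReal) t := by
    fun_prop
  have c2 : ContinuousAt (fun s : ℝ => (sec u A t).toReal /
      min ((b - t) / (b - s)) ((t - a) / (s - a)) ^ (n - 1)) t := by
    refine continuousAt_const.div (ContinuousAt.pow (ContinuousAt.inf ?_ ?_) _) ?_
    · exact continuousAt_const.div (by fun_prop) hba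
    · exact continuousAt_const.div (by fun_prop) hta
    · simp [div_self hba, div_self hta]
  have t1 := c1.tendsto
  have t2 := c2.tendsto
  simp only [div_self hba, div_self hta, min_self, one_pow, one_mul, div_one] at t1 t2
  refine tendsto_of_tendsto_of_tendsto_of_le_of_le' (t1.mono_left nhdsWithin_le_nhds)
    (t2.mono_left nhdsWithin_le_nhds) ?_ ?_
  · filter_upwards [self_mem_nhdsWithin] with s hs'
    exact sec_ratio hA hu ht hs'
  · filter_upwards [self_mem_nhdsWithin] with s hs'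
    have hpos : 0 < min ((b - t) / (b - s)) ((t - a) / (s - a)) ^ (n - 1) :=
      pow_pos (lt_min (div_pos (sub_pos.2 ht.2) (sub_pos.2 hs'.2))
        (div_pos (sub_pos.2 ht.1) (sub_pos.2 hs'.1))) _
    rw [le_div_iff₀ hpos, mul_comm]
    exact sec_ratio hA hu hs' ht

theorem sec_lintegral (hu : ‖u‖ = 1) (hA : MeasurableSet A) : ∫⁻ t, sec u A t = volume A := by
  have h := lintegral_sec hu hA (φ := fun _ => 1) measurable_const
  simp only [one_mul, lintegral_const, MeasurableSet.univ, Measure.restrict_apply,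
    univ_inter] at h
  exact h.symm

theorem integrable_sec (hu : ‖u‖ = 1) (hA : IsCompact A) :
    Integrable (fun t => (sec u A t).toReal) := by
  refine integrable_toReal_of_lintegral_ne_top (measurable_sec hu hA.measurableSet).aemeasurable ?_
  rw [sec_lintegral hu hA.measurableSet]
  exact hA.measure_lt_top.ne

theorem int_sec (hu : ‖u‖ = 1) (hA : IsCompact A) :
    ∫ t in Ioo (-hs A (-u)) (hs A u), (sec u A t).toReal = (volume : Measure (E n)).real A := by
  rw [← integral_Icc_eq_integral_Ioo, setIntegral_eq_integral_of_forall_compl_eq_zero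
    (fun t ht => by rw [sec_eq_zero hu hA ht, ENNReal.toReal_zero]),
    integral_toReal (measurable_sec hu hA.measurableSet).aemeasurable
      (Eventually.of_forall fun t => sec_lt_top hu hA t), sec_lintegral hu hA.measurableSet]
  rfl

theorem int_mul_sec (hu : ‖u‖ = 1) (hA : IsCompact A) :
    ∫ t in Ioo (-hs A (-u)) (hs A u), t * (sec u A t).toReal = ∫ x in A, ⟪x, u⟫_ℝ := by
  have hi : Integrable (A.indicator fun x : E n => ⟪x, u⟫_ℝ) volume :=
    (integrable_indicator_iff hA.measurableSet).2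
      ((sec_cont_inner u).continuousOn.integrableOn_compact hA)
  have hi2 := (mp_spl hu).integrable_comp_of_integrable hi
  rw [← integral_Icc_eq_integral_Ioo, setIntegral_eq_integral_of_forall_compl_eq_zero
    (fun t ht => by rw [sec_eq_zero hu hA ht, ENNReal.toReal_zero, mul_zero]),
    ← integral_indicator hA.measurableSet, ← (mp_spl hu).map_eq,
    integral_map (continuous_spl u).measurable.aemeasurable
      (by rw [(mp_spl hu).map_eq]; exact hi.aestronglyMeasurable)]
  refine Eq.trans ?_ (integral_prod _ hi2).symm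
  refine integral_congr_ae (Eventually.of_forall fun t => ?_)
  have h : (fun y : (ℝ ∙ u)ᗮ => (A.indicator (fun x : E n => ⟪x, u⟫_ℝ) ∘ spl u) (t, y)) =
      {y : (ℝ ∙ u)ᗮ | t • u + (y : E n) ∈ A}.indicator fun _ => t := by
    funext y
    rw [Function.comp_apply]
    by_cases hy : t • u + (y : E n) ∈ A
    · rw [indicator_of_mem (show spl u (t, y) ∈ A from hy),
        indicator_of_mem (show y ∈ {y : (ℝ ∙ u)ᗮ | t • u + (y : E n) ∈ A} from hy), inner_spl hu]
    · rw [indicator_of_notMem (show spl u (t, y) ∉ A from hy),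
        indicator_of_notMem (show y ∉ {y : (ℝ ∙ u)ᗮ | t • u + (y : E n) ∈ A} from hy)]
  beta_reduce
  rw [h, integral_indicator_const _ (sec_meas u hA.measurableSet t), smul_eq_mul, mul_comm]
  rfl

end Crest.Agent.R230
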