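import Crest.Agent.R230.Form

/-!
Row 230 (Petty).  The spectral inequality for finite harmonic sums.
-/

set_option autoImplicit false

noncomputable section

namespace Crest.Agent.R230

open MeasureTheory Metric Set MvPolynomial Filter Topology
open scoped ENNReal InnerProductSpace Pointwise

variable {n : ℕ}

variable {c d c' d' : ℕ → Pl n} {K : ℕ} {β a B κ : ℝ}

theorem SpecA_int [NeZero n] (p q : Pl n) : Integrable (fun u => ev p u * ev q u) (sg n) :=
  integrable_of_cont ((continuous_ev p).mul (continuous_ev q))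

theorem SpecA_int_sq [NeZero n] (p : Pl n) : Integrable (fun u => ev p u ^ 2) (sg n) :=
  integrable_of_cont ((continuous_ev p).pow 2)

theorem SpecA_cont_rad (K : ℕ) (c : ℕ → Pl n) : Continuous (rad (fld K c)) :=
  (continuous_fld K c).inner continuous_id

theorem SpecA_zero [NeZero n] {p q : Pl n} (hp : IsHm (2 * 0) p) :
    ∫ u, ev p u * ev q u ∂sg n = (∫ u, ev p u ∂sg n) * ∫ u, ev q u ∂sg n := by
  have e : ∀ u, ev p u = ev p 0 := fun u => ev_of_hom_zero hp.hom u 0
  simp only [e]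
  rw [integral_const_mul, integral_const, probReal_univ, one_smul]

theorem SpecA_cs [NeZero n] (p q : Pl n) :
    |∫ u, ev p u * ev q u ∂sg n| ≤ √(∫ u, ev p u ^ 2 ∂sg n) * √(∫ u, ev q u ^ 2 ∂sg n) := by
  rw [← Real.sqrt_mul (integral_nonneg fun u => sq_nonneg _)]
  refine Real.abs_le_sqrt ?_
  have h := discrim_le_zero (a := ∫ u, ev p u ^ 2 ∂sg n) (b := 2 * ∫ u, ev p u * ev q u ∂sg n)
    (c := ∫ u, ev q u ^ 2 ∂sg n) fun t => by
      have h1 : 0 ≤ ∫ u, (t * ev p u + ev q u) ^ 2 ∂sg n := integral_nonneg fun u => sq_nonneg _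
      have e : ∀ u, (t * ev p u + ev q u) ^ 2 =
          (t * t * ev p u ^ 2 + 2 * t * (ev p u * ev q u)) + ev q u ^ 2 := fun u => by ring
      simp only [e] at h1
      have i1 : Integrable (fun u => t * t * ev p u ^ 2 + 2 * t * (ev p u * ev q u)) (sg n) :=
        ((SpecA_int_sq p).const_mul _).add ((SpecA_int p q).const_mul _)
      rw [integral_add i1 (SpecA_int_sq q),
        integral_add ((SpecA_int_sq p).const_mul _) ((SpecA_int p q).const_mul _), integral_const_mul,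
        integral_const_mul] at h1
      linarith
  rw [discrim] at h
  nlinarith

theorem int_rad_fld_mul (hn : 2 ≤ n) (hc : IsHS c) {j : ℕ} (hj : j < K) {h : Pl n}
    (hh : IsHm (2 * j) h) :
    ∫ u, rad (fld K c) u * ev h u ∂sg n = ∫ u, ev (c j) u * ev h u ∂sg n := by
  have : NeZero n := ⟨by omega⟩
  rw [integral_congr_ae (g := fun u => ∑ i ∈ Finset.range K, ev (c i) u * ev h u)
    (ae_norm.mono fun u hu => by simp only [rad_fld hc K hu, Finset.sum_mul]),
    integral_finsetSum _ fun i _ => SpecA_int _ _]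
  exact Finset.sum_eq_single_of_mem j (Finset.mem_range.2 hj) fun i _ hi => orth hn (hc i) hh (by omega)

theorem int_rad_fld (hn : 2 ≤ n) (hc : IsHS c) (hK : 1 ≤ K) :
    ∫ u, rad (fld K c) u ∂sg n = ∫ u, ev (c 0) u ∂sg n := by
  simpa using int_rad_fld_mul hn hc (j := 0) hK isHm_one

theorem int_rad_fld_sq (hn : 2 ≤ n) (hc : IsHS c) :
    ∫ u, rad (fld K c) u ^ 2 ∂sg n = ∑ j ∈ Finset.range K, ∫ u, ev (c j) u ^ 2 ∂sg n := by
  have : NeZero n := ⟨by omega⟩
  rw [integral_congr_ae (g := fun u => ∑ i ∈ Finset.range K, rad (fld K c) u * ev (c i) u)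
    (ae_norm.mono fun u hu => by simp only [← Finset.mul_sum, ← rad_fld hc K hu, sq]),
    integral_finsetSum (f := fun i u => rad (fld K c) u * ev (c i) u) _ fun i _ =>
      integrable_of_cont ((SpecA_cont_rad K c).mul (continuous_ev _))]
  refine Finset.sum_congr rfl fun j hj => ?_
  rw [int_rad_fld_mul hn hc (Finset.mem_range.1 hj) (hc j)]
  simp only [sq]

theorem vr_rad_fld (hn : 2 ≤ n) (hc : IsHS c) (hK : 1 ≤ K) :
    vr (rad (fld K c)) = ∑ j ∈ Finset.Ico 1 K, ∫ u, ev (c j) u ^ 2 ∂sg n := by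
  have : NeZero n := ⟨by omega⟩
  rw [vr, int_rad_fld_sq hn hc, int_rad_fld hn hc hK, Finset.range_eq_Ico, Finset.sum_eq_sum_Ico_succ_bot hK]
  have := SpecA_zero (q := c 0) (hc 0)
  simp only [← sq] at this
  rw [this]
  ring

theorem vr_rad_sub (hn : 2 ≤ n) (hc : IsHS c) (hd : IsHS d) (hK : 1 ≤ K) :
    vr (fun u => rad (fld K c) u - rad (fld K d) u) =
      ∑ j ∈ Finset.Ico 1 K, ∫ u, (ev (c j) u - ev (d j) u) ^ 2 ∂sg n := by
  have hcd : IsHS fun j => c j - d j := fun j => (hc j).sub (hd j)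
  have h := vr_rad_fld hn hcd hK
  simp only [ev_sub] at h
  rw [← h]
  have e : ∀ᵐ u ∂sg n, rad (fld K c) u - rad (fld K d) u = rad (fld K fun j => c j - d j) u :=
    ae_norm.mono fun u hu => by
      simp only [rad_fld hc K hu, rad_fld hd K hu, rad_fld hcd K hu, ev_sub, Finset.sum_sub_distrib]
  rw [vr, vr, integral_congr_ae e, integral_congr_ae (e.mono fun u hu => congrArg (· ^ 2) hu)]

theorem en_fld (hn : 2 ≤ n) (hd : IsHS d) :
    en (fld K d) = ∑ j ∈ Finset.range K, lam n j * ∫ u, ev (d j) u ^ 2 ∂sg n := by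
  have : NeZero n := ⟨by omega⟩
  have hi : ∀ i j, Integrable (fun u => ⟪Xh (2 * i) (d i) u, Xh (2 * j) (d j) u⟫_ℝ) (sg n) := fun i j =>
    integrable_of_cont ((continuous_Xh _ _).inner (continuous_Xh _ _))
  have e : ∀ u, ‖fld K d u‖ ^ 2 = ∑ i ∈ Finset.range K, ∑ j ∈ Finset.range K,
      ⟪Xh (2 * i) (d i) u, Xh (2 * j) (d j) u⟫_ℝ := fun u => by
    rw [← real_inner_self_eq_norm_sq, fld, sum_inner]
    exact Finset.sum_congr rfl fun i _ => inner_sum _ _ _
  rw [en, int_rad_fld_sq hn hd]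
  simp only [e]
  rw [integral_finsetSum _ fun i _ => integrable_finsetSum _ fun j _ => hi i j, ← Finset.sum_sub_distrib]
  refine Finset.sum_congr rfl fun i hi' => ?_
  rw [integral_finsetSum _ fun j _ => hi i j, Finset.sum_eq_single_of_mem i hi' fun j _ hj => by
    rw [int_Xh_Xh (hd i) (hd j), orth hn (hd i) (hd j) (by omega), mul_zero], int_Xh_Xh (hd i) (hd i), lam]
  simp only [← sq]
  push_cast
  ring

theorem SpecA_lam_nonneg (hn : 2 ≤ n) (j : ℕ) : 0 ≤ lam n j := by
  have h1 : (2 : ℝ) ≤ n := by exact_mod_cast hn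
  have h2 : (0 : ℝ) ≤ j := Nat.cast_nonneg j
  exact mul_nonneg (by positivity) (by linarith)

/-- with `k = 2j`, `|cm (j+1)| = |cm j| (k-1)/(n+k+1)` and
`(k-1)(k+2)(k+n) ≤ (n+k+1) k (k+n-2)` -/
theorem bm_le (hn : 2 ≤ n) (hβ : 1 ≤ β) {j : ℕ} (hj : 2 ≤ j) : |bm n β j| ≤ |bm n β 2| := by
  induction j, hj using Nat.le_induction with
  | base => exact le_rfl
  | succ j hj ih =>
    refine le_trans ?_ ih
    have h1 : (2 : ℝ) ≤ n := by exact_mod_cast hn
    have h2 : (2 : ℝ) ≤ j := by exact_mod_cast hj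
    set t : ℝ := (2 * β + n - 1) / β ^ 2 with ht
    have ht0 : 0 ≤ t := div_nonneg (by linarith) (by positivity)
    have l1 := SpecA_lam_nonneg hn j
    have l2 := SpecA_lam_nonneg hn (j + 1)
    have hd : (0 : ℝ) < n + 2 * j + 1 := by positivity
    simp only [bm, cm, mul_div_assoc, ← ht]
    rw [abs_mul, abs_mul, abs_mul, abs_of_nonneg (a := 1 + lam n j * t) (by positivity),
      abs_of_nonneg (a := 1 + lam n (j + 1) * t) (by positivity), abs_div, abs_of_pos hd,
      abs_of_nonpos (a := 1 - 2 * (j : ℝ)) (by linarith), mul_assoc]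
    refine mul_le_mul_of_nonneg_left ?_ (abs_nonneg _)
    rw [div_mul_eq_mul_div, div_le_iff₀ hd]
    have h3 : -(1 - 2 * (j : ℝ)) * lam n (j + 1) ≤ lam n j * (n + 2 * j + 1) := by
      simp only [lam]
      push_cast
      have : (0 : ℝ) ≤ 2 * j * (2 * j + n) * (n - 2) :=
        mul_nonneg (by positivity) (by linarith)
      nlinarith
    have h4 := mul_le_mul_of_nonneg_right h3 ht0
    nlinarith

/-- pointwise `P (x + y)² ≤ a x² + b y²` when `P (1/a + 1/b) ≤ 1`; here
`b = B (lam n j - κ (n-1)) / (n-1)`; the `j = 1` terms of `UU` are nonnegative -/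
theorem high_le (hn : 2 ≤ n) (hβ : 1 ≤ β) (hs : SpecOK n β a B κ) (hc : IsHS c) (hd : IsHS d)
    (hK : 2 ≤ K) : ∑ j ∈ Finset.Ico 2 K, |bm n β j| * ∫ u, ev (c j) u ^ 2 ∂sg n ≤
      UU a B κ (fld K c) (fld K d) := by
  have : NeZero n := ⟨by omega⟩
  have hK1 : 1 ≤ K := by omega
  have h1 : (2 : ℝ) ≤ n := by exact_mod_cast hn
  have hn1 : (0 : ℝ) < n - 1 := by linarith
  have e : UU a B κ (fld K c) (fld K d) = ∑ j ∈ Finset.Ico 1 K,
      (a * ∫ u, (ev (c j) u - ev (d j) u) ^ 2 ∂sg n +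
        B * (lam n j - κ * (n - 1)) / (n - 1) * ∫ u, ev (d j) u ^ 2 ∂sg n) := by
    rw [UU, vr_rad_sub hn hc hd hK1, vr_rad_fld hn hd hK1, en_fld hn hd, Finset.range_eq_Ico,
      Finset.sum_eq_sum_Ico_succ_bot hK1, show lam n 0 = 0 by simp [lam], zero_mul, zero_add, zero_add,
      Finset.sum_div, Finset.mul_sum, Finset.mul_sum, ← Finset.sum_sub_distrib, Finset.mul_sum,
      ← Finset.sum_add_distrib]
    refine Finset.sum_congr rfl fun j _ => ?_
    field_simp
  rw [e, Finset.sum_eq_sum_Ico_succ_bot (show 1 < K from hK)]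
  refine le_add_of_nonneg_of_le (add_nonneg (mul_nonneg hs.ha.le (integral_nonneg fun u => sq_nonneg _))
    (mul_nonneg (div_nonneg (mul_nonneg hs.hB.le ?_) hn1.le) (integral_nonneg fun u => sq_nonneg _)))
    (Finset.sum_le_sum fun j hj => ?_)
  · have := hs.hκn
    simp only [lam]
    push_cast
    linarith
  · have hj2 : 2 ≤ j := (Finset.mem_Ico.1 hj).1
    have hj2' : (2 : ℝ) ≤ j := by exact_mod_cast hj2
    have l2 : 0 < lam n 2 - κ * (n - 1) := by
      have := hs.hκn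
      simp only [lam]
      push_cast
      linarith
    have l3 : lam n 2 ≤ lam n j := by
      simp only [lam]
      push_cast
      nlinarith
    set b : ℝ := B * (lam n j - κ * (n - 1)) / (n - 1) with hb
    have hb0 : 0 < b := div_pos (mul_pos hs.hB (by linarith)) hn1
    have ha := hs.ha
    have hP : |bm n β j| * (1 / a + 1 / b) ≤ 1 := by
      refine le_trans (mul_le_mul (bm_le hn hβ hj2) (add_le_add le_rfl ?_) (by positivity) (abs_nonneg _)) hs.main
      rw [hb, one_div_div]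
      exact div_le_div_of_nonneg_left hn1.le (mul_pos hs.hB l2)
        (mul_le_mul_of_nonneg_left (by linarith) hs.hB.le)
    have i1 : Integrable (fun u => (ev (c j) u - ev (d j) u) ^ 2) (sg n) :=
      integrable_of_cont (((continuous_ev _).sub (continuous_ev _)).pow 2)
    rw [← integral_const_mul, ← integral_const_mul, ← integral_const_mul,
      ← integral_add (i1.const_mul _) ((SpecA_int_sq _).const_mul _)]
    refine integral_mono ((SpecA_int_sq _).const_mul _) ((i1.const_mul _).add ((SpecA_int_sq _).const_mul _))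
      fun u => ?_
    set x := ev (c j) u - ev (d j) u with hx
    set y := ev (d j) u with hy
    have hxy : ev (c j) u = x + y := by rw [hx]; ring
    show |bm n β j| * ev (c j) u ^ 2 ≤ a * x ^ 2 + b * y ^ 2
    have h2 : (x + y) ^ 2 ≤ (1 / a + 1 / b) * (a * x ^ 2 + b * y ^ 2) := by
      have e2 : (1 / a + 1 / b) * (a * x ^ 2 + b * y ^ 2) - (x + y) ^ 2 = (a * x - b * y) ^ 2 / (a * b) := by
        field_simp
        ring
      have : 0 ≤ (a * x - b * y) ^ 2 / (a * b) := by positivity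
      linarith
    rw [hxy]
    calc _ ≤ |bm n β j| * ((1 / a + 1 / b) * (a * x ^ 2 + b * y ^ 2)) :=
          mul_le_mul_of_nonneg_left h2 (abs_nonneg _)
      _ = |bm n β j| * (1 / a + 1 / b) * (a * x ^ 2 + b * y ^ 2) := by ring
      _ ≤ _ := mul_le_of_le_one_left (by positivity) hP

/-- `Bf_fld`, `bm n β 0 = 1`, Cauchy-Schwarz for integrals and for the finite sum -/
theorem spec_fin (hn : 3 ≤ n) (hβ : 1 ≤ β) (hs : SpecOK n β a B κ) (hc : IsHS c) (hd : IsHS d)
    (hc' : IsHS c') (hd' : IsHS d') (hK : 2 ≤ K) :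
    β ^ 2 * C0 n * ((∫ u, rad (fld K c) u ∂sg n) * (∫ u, rad (fld K c') u ∂sg n)
      - |bm n β 1| * (√(∫ u, ev (c 1) u ^ 2 ∂sg n) * √(∫ u, ev (c' 1) u ^ 2 ∂sg n))
      - √(UU a B κ (fld K c) (fld K d)) * √(UU a B κ (fld K c') (fld K d'))) ≤
      Bf β (fld K c) (fld K c') := by
  have : NeZero n := ⟨by omega⟩
  have hn2 : 2 ≤ n := by omega
  have hK1 : 1 ≤ K := by omega
  rw [Bf_fld hn (by linarith) hc hc', int_rad_fld hn2 hc hK1, int_rad_fld hn2 hc' hK1, Finset.range_eq_Ico,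
    Finset.sum_eq_sum_Ico_succ_bot hK1, Finset.sum_eq_sum_Ico_succ_bot (show 0 + 1 < K from hK),
    show bm n β 0 = 1 by simp [bm, cm, lam], one_mul, SpecA_zero (hc 0)]
  refine mul_le_mul_of_nonneg_left ?_ (mul_nonneg (sq_nonneg _) C0_pos.le)
  have key : ∀ j, -(|bm n β j| * (√(∫ u, ev (c j) u ^ 2 ∂sg n) * √(∫ u, ev (c' j) u ^ 2 ∂sg n))) ≤
      bm n β j * ∫ u, ev (c j) u * ev (c' j) u ∂sg n := fun j => by
    refine le_trans (neg_le_neg ?_) (neg_abs_le _)
    rw [abs_mul]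
    exact mul_le_mul_of_nonneg_left (SpecA_cs _ _) (abs_nonneg _)
  have h1 := key 1
  have h2 := Finset.sum_le_sum (s := Finset.Ico 2 K) fun j _ => key j
  rw [Finset.sum_neg_distrib] at h2
  have h3 : ∑ j ∈ Finset.Ico 2 K, |bm n β j| * (√(∫ u, ev (c j) u ^ 2 ∂sg n) * √(∫ u, ev (c' j) u ^ 2 ∂sg n)) ≤
      √(UU a B κ (fld K c) (fld K d)) * √(UU a B κ (fld K c') (fld K d')) := by
    refine le_trans ?_ (mul_le_mul (Real.sqrt_le_sqrt (high_le hn2 hβ hs hc hd hK))
      (Real.sqrt_le_sqrt (high_le hn2 hβ hs hc' hd' hK)) (Real.sqrt_nonneg _) (Real.sqrt_nonneg _))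
    refine le_trans (le_of_eq (Finset.sum_congr rfl fun j _ => ?_)) (Real.sum_sqrt_mul_sqrt_le _
      (fun j => mul_nonneg (abs_nonneg _) (integral_nonneg fun u => sq_nonneg _))
      fun j => mul_nonneg (abs_nonneg _) (integral_nonneg fun u => sq_nonneg _))
    rw [Real.sqrt_mul (abs_nonneg _), Real.sqrt_mul (abs_nonneg _), mul_mul_mul_comm,
      Real.mul_self_sqrt (abs_nonneg _)]
  simp only [zero_add, Nat.reduceAdd]
  linarith

end Crest.Agent.R230
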